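import Mathlib
import Crest.Prelude.Def_SwitchChain

/-!
# Abstract part of S0453: a Poincaré inequality for a lazy symmetric chain gives mixing
-/

namespace Crest.Agent.S0453Aux

open Finset Crest.SwitchChain

variable {α : Type*} [Fintype α] [DecidableEq α]

/-- hypotheses on a lazy symmetric stochastic kernel for which `Ω` is closed -/
structure LazyChain (K : Matrix α α ℝ) (Ω : Finset α) : Prop where
  symm : ∀ x y, K x y = K y x
  nonneg : ∀ x y, 0 ≤ K x y
  rowsum : ∀ x, ∑ y, K x y = 1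
  closed : ∀ x ∈ Ω, ∀ y, y ∉ Ω → K x y = 0
  lazy : ∀ x, 1 / 2 ≤ K x x

section
variable {K : Matrix α α ℝ} {Ω : Finset α}

/-- Jensen for a stochastic row -/
theorem sq_sum_le_of_stoch (w g : α → ℝ) (hw : ∀ y, 0 ≤ w y) (hs : ∑ y, w y = 1) :
    (∑ y, w y * g y) ^ 2 ≤ ∑ y, w y * g y ^ 2 := by
  have key : (∑ y, w y * g y) ^ 2 ≤ (∑ y, w y) * ∑ y, w y * g y ^ 2 := by
    have := Finset.sum_mul_sq_le_sq_mul_sq (univ : Finset α) (fun y => Real.sqrt (w y))
      (fun y => Real.sqrt (w y) * g y)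
    have e1 : ∀ y, Real.sqrt (w y) * (Real.sqrt (w y) * g y) = w y * g y := by
      intro y; rw [← mul_assoc, Real.mul_self_sqrt (hw y)]
    have e2 : ∀ y, Real.sqrt (w y) ^ 2 = w y := fun y => Real.sq_sqrt (hw y)
    have e3 : ∀ y, (Real.sqrt (w y) * g y) ^ 2 = w y * g y ^ 2 := by
      intro y; rw [mul_pow, Real.sq_sqrt (hw y)]
    simp only [e1, e2, e3] at this
    exact this
  rwa [hs, one_mul] at key

/-- `‖K g‖² ≤ ⟨g, K g⟩` for a lazy symmetric stochastic kernel. -/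
theorem LazyChain.normSq_mulVec_le (h : LazyChain K Ω) (g : α → ℝ) :
    ∑ x, (K.mulVec g x) ^ 2 ≤ ∑ x, g x * K.mulVec g x := by
  classical
  -- K' = 2K - 1
  set K' : Matrix α α ℝ := fun x y => 2 * K x y - (if x = y then 1 else 0) with hK'
  have hK'nn : ∀ x y, 0 ≤ K' x y := by
    intro x y
    simp only [hK']
    by_cases hxy : x = y
    · subst hxy; simp; linarith [h.lazy x]
    · simp [hxy]; exact h.nonneg x y
  have hK'row : ∀ x, ∑ y, K' x y = 1 := by
    intro x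
    simp only [hK', Finset.sum_sub_distrib, ← Finset.mul_sum, h.rowsum x]
    simp; norm_num
  have hK'symm : ∀ x y, K' x y = K' y x := by
    intro x y
    simp only [hK', h.symm x y, eq_comm]
  have hK'g : ∀ x, ∑ y, K' x y * g y = 2 * K.mulVec g x - g x := by
    intro x
    simp only [hK', sub_mul, Finset.sum_sub_distrib, Matrix.mulVec, dotProduct, Finset.mul_sum,
      mul_assoc]
    simp
  have hcontr : ∑ x, (∑ y, K' x y * g y) ^ 2 ≤ ∑ y, g y ^ 2 := by
    calc ∑ x, (∑ y, K' x y * g y) ^ 2 ≤ ∑ x, ∑ y, K' x y * g y ^ 2 :=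
          Finset.sum_le_sum fun x _ => sq_sum_le_of_stoch _ g (hK'nn x) (hK'row x)
      _ = ∑ y, ∑ x, K' x y * g y ^ 2 := Finset.sum_comm
      _ = ∑ y, g y ^ 2 := by
          apply Finset.sum_congr rfl
          intro y _
          rw [← Finset.sum_mul]
          have : ∑ x, K' x y = 1 := by
            rw [← hK'row y]; exact Finset.sum_congr rfl fun x _ => hK'symm x y
          rw [this, one_mul]
  simp only [hK'g] at hcontr
  have : ∑ x, (2 * K.mulVec g x - g x) ^ 2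
      = 4 * ∑ x, (K.mulVec g x) ^ 2 - 4 * ∑ x, g x * K.mulVec g x + ∑ x, g x ^ 2 := by
    rw [Finset.mul_sum, Finset.mul_sum, ← Finset.sum_sub_distrib, ← Finset.sum_add_distrib]
    apply Finset.sum_congr rfl
    intro x _; ring
  rw [this] at hcontr
  linarith

/-- functions supported in `Ω` with zero sum -/
def Centered (Ω : Finset α) (g : α → ℝ) : Prop := (∀ x, x ∉ Ω → g x = 0) ∧ ∑ x, g x = 0

theorem LazyChain.centered_mulVec (h : LazyChain K Ω) {g : α → ℝ} (hg : Centered Ω g) :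
    Centered Ω (K.mulVec g) := by
  constructor
  · intro x hx
    simp only [Matrix.mulVec, dotProduct]
    apply Finset.sum_eq_zero
    intro y _
    by_cases hy : y ∈ Ω
    · rw [h.symm x y, h.closed y hy x hx, zero_mul]
    · rw [hg.1 y hy, mul_zero]
  · simp only [Matrix.mulVec, dotProduct]
    rw [Finset.sum_comm]
    have : ∀ y, ∑ x, K x y * g y = g y := by
      intro y
      rw [← Finset.sum_mul]
      have : ∑ x, K x y = 1 := by
        rw [← h.rowsum y]; exact Finset.sum_congr rfl fun x _ => h.symm x y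
      rw [this, one_mul]
    simp only [this]
    exact hg.2

/-- The Poincaré inequality in the shape of the frozen statement. -/
def Poincare (K : Matrix α α ℝ) (Ω : Finset α) (A : ℝ) : Prop :=
  ∀ f : α → ℝ, (Ω.card : ℝ) * (∑ x ∈ Ω, f x ^ 2) - (∑ x ∈ Ω, f x) ^ 2 ≤
    A * Ω.card * ∑ x ∈ Ω, f x * (f x - ∑ y ∈ Ω, K x y * f y)

theorem sum_eq_sum_of_support {Ω : Finset α} {g : α → ℝ} (hg : ∀ x, x ∉ Ω → g x = 0) :
    ∑ x, g x = ∑ x ∈ Ω, g x := by
  symm
  apply Finset.sum_subset (Finset.subset_univ _)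
  intro x _ hx
  exact hg x hx

theorem LazyChain.contract (h : LazyChain K Ω) (hΩ : Ω.Nonempty) {A : ℝ} (hA : 0 < A)
    (hP : Poincare K Ω A) {g : α → ℝ} (hg : Centered Ω g) :
    ∑ x, (K.mulVec g x) ^ 2 ≤ (1 - 1 / A) * ∑ x, g x ^ 2 := by
  have h1 := h.normSq_mulVec_le g
  have h2 := hP g
  have hc : (0 : ℝ) < Ω.card := by exact_mod_cast hΩ.card_pos
  have e0 : ∑ x ∈ Ω, g x = 0 := by rw [← sum_eq_sum_of_support hg.1]; exact hg.2
  have e1 : ∑ x ∈ Ω, g x ^ 2 = ∑ x, g x ^ 2 := by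
    rw [sum_eq_sum_of_support (g := fun x => g x ^ 2)]
    intro x hx; simp [hg.1 x hx]
  have e2 : ∑ x ∈ Ω, g x * (g x - ∑ y ∈ Ω, K x y * g y)
      = ∑ x, g x ^ 2 - ∑ x, g x * K.mulVec g x := by
    rw [← Finset.sum_sub_distrib]
    rw [sum_eq_sum_of_support (Ω := Ω) (g := fun x => g x ^ 2 - g x * K.mulVec g x)]
    · apply Finset.sum_congr rfl
      intro x _
      have : ∑ y ∈ Ω, K x y * g y = K.mulVec g x := by
        simp only [Matrix.mulVec, dotProduct]
        rw [sum_eq_sum_of_support (Ω := Ω) (g := fun y => K x y * g y)]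
        intro y hy; simp [hg.1 y hy]
      rw [this]; ring
    · intro x hx; simp [hg.1 x hx]
  rw [e0, e1, e2] at h2
  have h3 : ∑ x, g x ^ 2 ≤ A * (∑ x, g x ^ 2 - ∑ x, g x * K.mulVec g x) := by
    have : (Ω.card : ℝ) * ∑ x, g x ^ 2
        ≤ Ω.card * (A * (∑ x, g x ^ 2 - ∑ x, g x * K.mulVec g x)) := by nlinarith
    exact le_of_mul_le_mul_left this hc
  have h4 : ∑ x, g x * K.mulVec g x ≤ (1 - 1 / A) * ∑ x, g x ^ 2 := by
    have : (1 - 1 / A) * ∑ x, g x ^ 2 = ∑ x, g x ^ 2 - (∑ x, g x ^ 2) / A := by ring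
    rw [this]
    have : (∑ x, g x ^ 2) / A ≤ ∑ x, g x ^ 2 - ∑ x, g x * K.mulVec g x := by
      rw [div_le_iff₀ hA]; linarith
    linarith
  linarith

/-- the deviation from uniform after `t` steps -/
noncomputable def dev (K : Matrix α α ℝ) (Ω : Finset α) (x : α) (t : ℕ) : α → ℝ :=
  fun y => (K ^ t) x y - unifOn Ω y

theorem LazyChain.mulVec_unifOn (h : LazyChain K Ω) : K.mulVec (unifOn Ω) = unifOn Ω := by
  funext y
  simp only [Matrix.mulVec, dotProduct, unifOn]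
  by_cases hy : y ∈ Ω
  · simp only [hy, if_true]
    have : ∑ z, K y z * (if z ∈ Ω then 1 / (Ω.card : ℝ) else 0) = ∑ z, K y z * (1 / (Ω.card : ℝ)) := by
      apply Finset.sum_congr rfl
      intro z _
      by_cases hz : z ∈ Ω
      · simp [hz]
      · simp [hz, h.closed y hy z hz]
    rw [this, ← Finset.sum_mul, h.rowsum y, one_mul]
  · simp only [hy, if_false]
    apply Finset.sum_eq_zero
    intro z _
    by_cases hz : z ∈ Ω
    · rw [h.symm y z, h.closed z hz y hy, zero_mul]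
    · simp [hz]

theorem LazyChain.dev_succ (h : LazyChain K Ω) (x : α) (t : ℕ) :
    dev K Ω x (t + 1) = K.mulVec (dev K Ω x t) := by
  funext y
  have h1 : (K ^ (t + 1)) x y = ∑ z, K y z * (K ^ t) x z := by
    rw [pow_succ, Matrix.mul_apply]
    apply Finset.sum_congr rfl
    intro z _
    rw [h.symm z y, mul_comm]
  have h2 : unifOn Ω y = ∑ z, K y z * unifOn Ω z := by
    conv_lhs => rw [← h.mulVec_unifOn]
    rfl
  simp only [dev, Matrix.mulVec, dotProduct]
  rw [h1, h2, ← Finset.sum_sub_distrib]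
  apply Finset.sum_congr rfl
  intro z _; ring

theorem sum_unifOn (hΩ : Ω.Nonempty) : ∑ y, unifOn Ω y = 1 := by
  have hc : (Ω.card : ℝ) ≠ 0 := by exact_mod_cast hΩ.card_pos.ne'
  simp only [unifOn]
  rw [Finset.sum_ite_mem, Finset.univ_inter, Finset.sum_const, nsmul_eq_mul]
  field_simp

theorem centered_dev_zero (hΩ : Ω.Nonempty) {x : α} (hx : x ∈ Ω) : Centered Ω (dev K Ω x 0) := by
  constructor
  · intro y hy
    have : x ≠ y := fun h => hy (h ▸ hx)
    simp [dev, unifOn, hy, Matrix.one_apply, this]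
  · simp only [dev, pow_zero, Finset.sum_sub_distrib, sum_unifOn hΩ, Matrix.one_apply]
    simp

theorem normSq_dev_zero_le (hΩ : Ω.Nonempty) {x : α} (hx : x ∈ Ω) :
    ∑ y, (dev K Ω x 0 y) ^ 2 ≤ 1 := by
  have hc : (0 : ℝ) < Ω.card := by exact_mod_cast hΩ.card_pos
  have e : ∀ y, (dev K Ω x 0 y) ^ 2
      = (if x = y then 1 else 0) - 2 * (if x = y then unifOn Ω y else 0) + unifOn Ω y ^ 2 := by
    intro y
    simp only [dev, pow_zero, Matrix.one_apply]
    by_cases hxy : x = y <;> simp [hxy] <;> ring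
  simp only [e, Finset.sum_add_distrib, Finset.sum_sub_distrib, ← Finset.mul_sum]
  have e1 : ∑ y, (if x = y then (1 : ℝ) else 0) = 1 := by simp
  have e2 : ∑ y, (if x = y then unifOn Ω y else 0) = 1 / Ω.card := by simp [unifOn, hx]
  have e3 : ∑ y, unifOn Ω y ^ 2 = 1 / Ω.card := by
    have : ∀ y, unifOn Ω y ^ 2 = (1 / (Ω.card : ℝ)) * unifOn Ω y := by
      intro y
      simp only [unifOn]
      by_cases hy : y ∈ Ω <;> simp [hy]; ring
    simp only [this, ← Finset.mul_sum, sum_unifOn hΩ, mul_one]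
  rw [e1, e2, e3]
  have : 0 < 1 / (Ω.card : ℝ) := by positivity
  linarith

theorem LazyChain.dev_bound (h : LazyChain K Ω) (hΩ : Ω.Nonempty) {A : ℝ} (hA : 1 ≤ A)
    (hP : Poincare K Ω A) {x : α} (hx : x ∈ Ω) (t : ℕ) :
    Centered Ω (dev K Ω x t) ∧ ∑ y, (dev K Ω x t y) ^ 2 ≤ (1 - 1 / A) ^ t := by
  induction t with
  | zero => exact ⟨centered_dev_zero hΩ hx, by simpa using normSq_dev_zero_le hΩ hx⟩
  | succ t ih =>
    refine ⟨by rw [h.dev_succ]; exact h.centered_mulVec ih.1, ?_⟩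
    rw [h.dev_succ]
    have h0 : 0 ≤ 1 - 1 / A := by
      have : 1 / A ≤ 1 := by rw [div_le_one (by linarith)]; exact hA
      linarith
    calc ∑ y, (K.mulVec (dev K Ω x t) y) ^ 2 ≤ (1 - 1 / A) * ∑ y, (dev K Ω x t y) ^ 2 :=
          h.contract hΩ (by linarith) hP ih.1
      _ ≤ (1 - 1 / A) * (1 - 1 / A) ^ t := mul_le_mul_of_nonneg_left ih.2 h0
      _ = (1 - 1 / A) ^ (t + 1) := by ring

/-- **Mixing from Poincaré.** -/
theorem LazyChain.tv_sq_le (h : LazyChain K Ω) (hΩ : Ω.Nonempty) {A : ℝ} (hA : 1 ≤ A)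
    (hP : Poincare K Ω A) {x : α} (hx : x ∈ Ω) (t : ℕ) :
    (2 * tvDist (fun y => (K ^ t) x y) (unifOn Ω)) ^ 2 ≤ Ω.card * (1 - 1 / A) ^ t := by
  obtain ⟨hc, hb⟩ := h.dev_bound hΩ hA hP hx t
  have e : 2 * tvDist (fun y => (K ^ t) x y) (unifOn Ω) = ∑ y ∈ Ω, |dev K Ω x t y| := by
    simp only [tvDist]
    rw [mul_div_cancel₀ _ (two_ne_zero)]
    rw [sum_eq_sum_of_support (Ω := Ω) (g := fun y => |(K ^ t) x y - unifOn Ω y|)]
    · rfl
    · intro y hy
      have := hc.1 y hy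
      simp only [dev] at this
      simp [this]
  rw [e]
  have h1 := Finset.sum_mul_sq_le_sq_mul_sq Ω (fun _ => (1 : ℝ)) (fun y => |dev K Ω x t y|)
  simp only [one_mul, one_pow, Finset.sum_const, nsmul_eq_mul, mul_one, sq_abs] at h1
  have h2 : ∑ y ∈ Ω, (dev K Ω x t y) ^ 2 ≤ ∑ y, (dev K Ω x t y) ^ 2 :=
    Finset.sum_le_sum_of_subset_of_nonneg (Finset.subset_univ _) fun _ _ _ => sq_nonneg _
  calc (∑ y ∈ Ω, |dev K Ω x t y|) ^ 2 ≤ Ω.card * ∑ y ∈ Ω, (dev K Ω x t y) ^ 2 := h1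
    _ ≤ Ω.card * (1 - 1 / A) ^ t := by
        apply mul_le_mul_of_nonneg_left (le_trans h2 hb) (by positivity)

end

end Crest.Agent.S0453Aux
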