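import Mathlib
import Crest.Prelude.Def_SwitchChain

/-!
# S0453: the perfect matchings `pmSet S` of a four-set, by transfer to `Fin 4`
-/

namespace Crest.Agent.S0453Aux

open Finset Crest.SwitchChain

variable {m n : ℕ}

/-- the map on edges induced by an embedding of vertex sets -/
def edgeMap (e : Fin m ↪ Fin n) : Edge m ↪ Edge n where
  toFun x := ⟨Sym2.map e x.1, by rw [Sym2.isDiag_map e.injective]; exact x.2⟩
  inj' := by
    intro x y h
    apply Subtype.ext
    apply Sym2.map.injective e.injective
    exact congrArg Subtype.val h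

theorem mem_edgeMap (e : Fin m ↪ Fin n) (x : Edge m) (u : Fin m) :
    e u ∈ (edgeMap e x).1 ↔ u ∈ x.1 := by
  simp only [edgeMap, Function.Embedding.coeFn_mk, Sym2.mem_map]
  constructor
  · rintro ⟨a, ha, hau⟩
    rwa [← e.injective hau]
  · intro h; exact ⟨u, h, rfl⟩

theorem mem_edgeMap' (e : Fin m ↪ Fin n) (x : Edge m) (v : Fin n) :
    v ∈ (edgeMap e x).1 ↔ ∃ u ∈ x.1, e u = v := by
  simp only [edgeMap, Function.Embedding.coeFn_mk, Sym2.mem_map]

theorem filter_map_edgeMap (e : Fin m ↪ Fin n) (F : Finset (Edge m)) (u : Fin m) :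
    (F.map (edgeMap e)).filter (fun x => e u ∈ x.1) = (F.filter fun x => u ∈ x.1).map (edgeMap e) := by
  rw [Finset.filter_map]
  congr 1
  apply Finset.filter_congr
  intro x _
  exact mem_edgeMap e x u

/-- an edge with both endpoints in the range of `e` is in the range of `edgeMap e` -/
theorem exists_edgeMap_eq (e : Fin m ↪ Fin n) (y : Edge n)
    (h : ∀ v ∈ y.1, ∃ u, e u = v) : ∃ x, edgeMap e x = y := by
  obtain ⟨y, hy⟩ := y
  induction y using Sym2.ind with
  | _ p q =>
    obtain ⟨u, hu⟩ := h p (by simp)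
    obtain ⟨w, hw⟩ := h q (by simp)
    have huw : u ≠ w := by
      intro huw
      apply hy
      rw [Sym2.mk_isDiag_iff, ← hu, ← hw, huw]
    refine ⟨⟨s(u, w), by simpa using huw⟩, ?_⟩
    apply Subtype.ext
    simp [edgeMap, hu, hw]

theorem map_mem_pmSet (e : Fin m ↪ Fin n) {F : Finset (Edge m)} (hF : F ∈ pmSet (univ : Finset (Fin m))) :
    F.map (edgeMap e) ∈ pmSet (univ.map e) := by
  simp only [pmSet, mem_filter, mem_powersetCard, subset_univ, true_and, mem_univ, forall_true_left,
    true_implies] at hF ⊢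
  obtain ⟨hc, -, h1⟩ := hF
  refine ⟨by rw [card_map]; exact hc, ?_, ?_⟩
  · intro y hy v hv
    rw [mem_map] at hy
    obtain ⟨x, -, rfl⟩ := hy
    rw [mem_edgeMap'] at hv
    obtain ⟨u, -, rfl⟩ := hv
    exact mem_map_of_mem _ (mem_univ _)
  · intro v hv
    rw [mem_map] at hv
    obtain ⟨u, -, rfl⟩ := hv
    rw [filter_map_edgeMap, card_map]
    exact h1 u

theorem pmSet_map (e : Fin m ↪ Fin n) :
    pmSet (univ.map e) = (pmSet (univ : Finset (Fin m))).map (Finset.mapEmbedding (edgeMap e)).toEmbedding := by
  ext F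
  constructor
  · intro hF
    rw [mem_map]
    simp only [pmSet, mem_filter, mem_powersetCard, subset_univ, true_and] at hF
    obtain ⟨hc, h0, h1⟩ := hF
    set F4 : Finset (Edge m) := univ.filter fun x => edgeMap e x ∈ F with hF4
    have hmap : F4.map (edgeMap e) = F := by
      ext y
      rw [mem_map]
      constructor
      · rintro ⟨x, hx, rfl⟩
        exact (mem_filter.mp hx).2
      · intro hy
        obtain ⟨x, hx⟩ := exists_edgeMap_eq e y (by
          intro v hv
          have := h0 y hy v hv
          rw [mem_map] at this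
          obtain ⟨u, -, hu⟩ := this
          exact ⟨u, hu⟩)
        exact ⟨x, mem_filter.mpr ⟨mem_univ _, by rw [hx]; exact hy⟩, hx⟩
    refine ⟨F4, ?_, hmap⟩
    simp only [pmSet, mem_filter, mem_powersetCard, subset_univ, true_and, mem_univ,
      forall_true_left, true_implies, implies_true]
    refine ⟨by rw [← hc, ← hmap, card_map], ?_⟩
    intro u
    have := h1 (e u) (mem_map_of_mem _ (mem_univ _))
    rw [← hmap, filter_map_edgeMap, card_map] at this
    exact this
  · intro hF
    rw [mem_map] at hF
    obtain ⟨F4, hF4, rfl⟩ := hF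
    exact map_mem_pmSet e hF4

set_option maxRecDepth 100000 in
theorem card_pmSet_univ4 : (pmSet (univ : Finset (Fin 4))).card = 3 := by decide

theorem card_pmSet {S : Finset (Fin n)} (hS : S.card = 4) : (pmSet S).card = 3 := by
  have : S = univ.map (S.orderEmbOfFin hS).toEmbedding := by
    rw [Finset.map_eq_image]
    have := Finset.image_orderEmbOfFin_univ S hS
    exact this.symm
  rw [this, pmSet_map, card_map, card_pmSet_univ4]

end Crest.Agent.S0453Aux
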