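import Mathlib
import Crest.Prelude.Def_SwitchChain
import Crest.Agent.S0453Aux.Mixing
import Crest.Agent.S0453Aux.PmSet

/-!
# S0453: basic facts on the frozen kernel of the switch chain
-/

namespace Crest.Agent.S0453Aux

open Finset Crest.SwitchChain

variable {n : ℕ}

/-! ### degrees -/

theorem deg_pm {S : Finset (Fin n)} {F : Finset (Edge n)} (hF : F ∈ pmSet S) (v : Fin n) :
    deg F v = if v ∈ S then 1 else 0 := by
  simp only [pmSet, mem_filter, mem_powersetCard, subset_univ, true_and] at hF
  obtain ⟨-, h0, h1⟩ := hF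
  by_cases hv : v ∈ S
  · simp only [hv, if_true]; exact h1 v hv
  · simp only [hv, if_false, deg, card_eq_zero, filter_eq_empty_iff]
    intro e he hve
    exact hv (h0 e he v hve)

theorem deg_switch {E F F' : Finset (Edge n)} (h1 : F ⊆ E) (h2 : Disjoint F' E)
    (v : Fin n) (h3 : deg F v = deg F' v) : deg (E \ F ∪ F') v = deg E v := by
  simp only [deg] at *
  have hsd : (E \ F).filter (fun e => v ∈ e.1)
      = (E.filter fun e => v ∈ e.1) \ (F.filter fun e => v ∈ e.1) := by
    ext e
    simp only [mem_filter, mem_sdiff]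
    tauto
  rw [filter_union, card_union_of_disjoint, hsd, card_sdiff_of_subset
    (filter_subset_filter _ h1), h3]
  · have : (F.filter fun e => v ∈ e.1).card ≤ (E.filter fun e => v ∈ e.1).card :=
      card_le_card (filter_subset_filter _ h1)
    omega
  · apply disjoint_filter_filter
    exact (h2.mono_right sdiff_subset).symm

theorem switchResult_mem {d : Fin n → ℕ} {E : Finset (Edge n)} (hE : E ∈ realizations d)
    {S : Finset (Fin n)} {F F' : Finset (Edge n)} (hF : F ∈ pmSet S) (hF' : F' ∈ pmSet S) :
    switchResult E F F' ∈ realizations d := by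
  unfold switchResult
  split_ifs with h
  · simp only [realizations, mem_filter, mem_univ, true_and] at hE ⊢
    intro v
    rw [deg_switch h.1 h.2 v (by rw [deg_pm hF, deg_pm hF']), hE v]
  · exact hE

/-! ### the proposal sum -/

/-- sum of a function over all proposals -/
def propSum {β : Type*} [AddCommMonoid β] (n : ℕ)
    (g : Finset (Edge n) → Finset (Edge n) → β) : β :=
  ∑ S ∈ (univ : Finset (Fin n)).powersetCard 4,
    ∑ F ∈ pmSet S, ∑ F' ∈ (pmSet S).erase F, g F F'

theorem proposalCount_eq (E E' : Finset (Edge n)) :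
    proposalCount E E' = propSum n fun F F' => if switchResult E F F' = E' then 1 else 0 := rfl

theorem propSum_const_one : propSum n (fun _ _ => (1 : ℝ)) = 6 * (n.choose 4 : ℝ) := by
  unfold propSum
  have : ∀ S ∈ (univ : Finset (Fin n)).powersetCard 4,
      ∑ F ∈ pmSet S, ∑ _F' ∈ (pmSet S).erase F, (1 : ℝ) = 6 := by
    intro S hS
    have hc := card_pmSet (mem_powersetCard.mp hS).2
    have : ∀ F ∈ pmSet S, ∑ _F' ∈ (pmSet S).erase F, (1 : ℝ) = 2 := by
      intro F hF
      rw [sum_const, card_erase_of_mem hF, hc]; norm_num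
    rw [sum_congr rfl this, sum_const, hc]; norm_num
  rw [sum_congr rfl this, sum_const, card_powersetCard, card_univ, Fintype.card_fin]
  simp; ring

theorem sum_proposalCount_mul (E : Finset (Edge n)) (g : Finset (Edge n) → ℝ) :
    ∑ E', (proposalCount E E' : ℝ) * g E' = propSum n fun F F' => g (switchResult E F F') := by
  simp only [proposalCount_eq, propSum, Nat.cast_sum, sum_mul]
  rw [sum_comm]
  apply sum_congr rfl; intro S _
  rw [sum_comm]
  apply sum_congr rfl; intro F _
  rw [sum_comm]
  apply sum_congr rfl; intro F' _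
  simp

theorem switchResult_symm {E E' F F' : Finset (Edge n)} (hne : E ≠ E')
    (h : switchResult E F F' = E') : switchResult E' F' F = E := by
  unfold switchResult at h ⊢
  split_ifs at h with hc
  · obtain ⟨h1, h2⟩ := hc
    subst h
    have hFF' : Disjoint F F' := (h2.mono_right h1).symm
    have c1 : F' ⊆ E \ F ∪ F' := subset_union_right
    have c2 : Disjoint F (E \ F ∪ F') := by
      rw [disjoint_union_right]
      exact ⟨disjoint_sdiff, hFF'⟩
    rw [if_pos ⟨c1, c2⟩]
    ext e
    simp only [mem_union, mem_sdiff]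
    constructor
    · rintro (⟨(⟨h3, _⟩ | h3), h4⟩ | h3)
      · exact h3
      · exact absurd h3 h4
      · exact h1 h3
    · intro he
      by_cases heF : e ∈ F
      · exact Or.inr heF
      · refine Or.inl ⟨Or.inl ⟨he, heF⟩, ?_⟩
        intro heF'
        exact (disjoint_left.mp h2 heF') he
  · exact absurd h hne

theorem proposalCount_symm (E E' : Finset (Edge n)) : proposalCount E E' = proposalCount E' E := by
  by_cases hne : E = E'
  · rw [hne]
  simp only [proposalCount]
  apply sum_congr rfl; intro S _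
  rw [sum_comm' (t' := pmSet S) (s' := fun F' => (pmSet S).erase F')]
  · apply sum_congr rfl; intro F _
    apply sum_congr rfl; intro F' _
    have : switchResult E F' F = E' ↔ switchResult E' F F' = E :=
      ⟨fun h => switchResult_symm hne h, fun h => switchResult_symm (Ne.symm hne) h⟩
    simp only [this]
  · intro F F'
    simp only [mem_erase]
    constructor
    · rintro ⟨h1, h2, h3⟩; exact ⟨⟨h2.symm, h1⟩, h3⟩
    · rintro ⟨⟨h1, h2⟩, h3⟩; exact ⟨h2, h1.symm, h3⟩

theorem proposalCount_eq_zero {d : Fin n → ℕ} {E E' : Finset (Edge n)} (hE : E ∈ realizations d)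
    (hE' : E' ∉ realizations d) : proposalCount E E' = 0 := by
  simp only [proposalCount]
  apply sum_eq_zero; intro S _
  apply sum_eq_zero; intro F hF
  apply sum_eq_zero; intro F' hF'
  rw [if_neg]
  intro h
  exact hE' (h ▸ switchResult_mem hE hF (mem_of_mem_erase hF'))

/-! ### the kernel is a lazy chain -/

theorem choose_pos_real (hn : 4 ≤ n) : (0 : ℝ) < (n.choose 4 : ℝ) := by
  exact_mod_cast Nat.choose_pos hn

theorem kernel_lazyChain (hn : 4 ≤ n) (d : Fin n → ℕ) : LazyChain (kernel n) (realizations d) where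
  symm := by
    intro x y
    simp only [kernel, proposalCount_symm x y, eq_comm]
  nonneg := by
    intro x y
    simp only [kernel]
    have := choose_pos_real hn
    positivity
  rowsum := by
    intro x
    have hC := choose_pos_real hn
    simp only [kernel, sum_add_distrib, ← sum_div]
    have h1 : ∑ y, (proposalCount x y : ℝ) = 6 * (n.choose 4 : ℝ) := by
      have := sum_proposalCount_mul x (fun _ => 1)
      simp only [mul_one] at this
      rw [this, propSum_const_one]
    rw [h1]
    simp
    field_simp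
    norm_num
  closed := by
    intro x hx y hy
    have hne : x ≠ y := fun h => hy (h ▸ hx)
    simp [kernel, hne, proposalCount_eq_zero hx hy]
  lazy := by
    intro x
    simp only [kernel, if_true]
    have := choose_pos_real hn
    have : 0 ≤ (proposalCount x x : ℝ) / (12 * (n.choose 4 : ℝ)) := by positivity
    linarith

/-! ### the Dirichlet form -/

/-- twice the sum over unordered switch edges of `(Δ f)²` -/
noncomputable def dir (d : Fin n → ℕ) (f : Finset (Edge n) → ℝ) : ℝ :=
  ∑ G ∈ realizations d, propSum n fun F F' => (f G - f (switchResult G F F')) ^ 2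

theorem LazyChain.dirichlet_eq {α : Type*} [Fintype α] [DecidableEq α] {K : Matrix α α ℝ}
    {Ω : Finset α} (h : LazyChain K Ω) (f : α → ℝ) :
    ∑ x ∈ Ω, f x * (f x - ∑ y ∈ Ω, K x y * f y)
      = (1 / 2) * ∑ x ∈ Ω, ∑ y, K x y * (f x - f y) ^ 2 := by
  have hrow : ∀ x ∈ Ω, ∑ y ∈ Ω, K x y = 1 := by
    intro x hx
    rw [← h.rowsum x]
    apply sum_subset (subset_univ _)
    intro y _ hy
    exact h.closed x hx y hy
  have hres : ∀ x ∈ Ω, ∑ y, K x y * (f x - f y) ^ 2 = ∑ y ∈ Ω, K x y * (f x - f y) ^ 2 := by
    intro x hx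
    symm
    apply sum_subset (subset_univ _)
    intro y _ hy
    rw [h.closed x hx y hy, zero_mul]
  rw [sum_congr rfl hres]
  have e1 : ∀ x ∈ Ω, ∑ y ∈ Ω, K x y * (f x - f y) ^ 2
      = f x ^ 2 - 2 * (f x * ∑ y ∈ Ω, K x y * f y) + ∑ y ∈ Ω, K x y * f y ^ 2 := by
    intro x hx
    have : ∀ y, K x y * (f x - f y) ^ 2
        = f x ^ 2 * K x y - 2 * (f x * (K x y * f y)) + K x y * f y ^ 2 := by intro y; ring
    simp only [this, sum_add_distrib, sum_sub_distrib, ← mul_sum, hrow x hx, mul_one]
  rw [sum_congr rfl e1]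
  have e2 : ∑ x ∈ Ω, ∑ y ∈ Ω, K x y * f y ^ 2 = ∑ y ∈ Ω, f y ^ 2 := by
    rw [sum_comm]
    apply sum_congr rfl
    intro y hy
    rw [← sum_mul]
    have : ∑ x ∈ Ω, K x y = 1 := by
      rw [← hrow y hy]; exact sum_congr rfl fun x _ => h.symm x y
    rw [this, one_mul]
  rw [sum_add_distrib, sum_sub_distrib, e2, ← mul_sum]
  simp only [mul_sub, sum_sub_distrib]
  have : ∑ x ∈ Ω, f x * f x = ∑ x ∈ Ω, f x ^ 2 := sum_congr rfl fun x _ => by ring
  rw [this]
  ring

theorem dirichlet_kernel (hn : 4 ≤ n) (d : Fin n → ℕ) (f : Finset (Edge n) → ℝ) :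
    ∑ G ∈ realizations d, f G * (f G - ∑ G' ∈ realizations d, kernel n G G' * f G')
      = dir d f / (24 * (n.choose 4 : ℝ)) := by
  rw [(kernel_lazyChain hn d).dirichlet_eq f]
  have hC := choose_pos_real hn
  have : ∀ G, ∑ G', kernel n G G' * (f G - f G') ^ 2
      = (propSum n fun F F' => (f G - f (switchResult G F F')) ^ 2) / (12 * (n.choose 4 : ℝ)) := by
    intro G
    rw [← sum_proposalCount_mul G (fun G' => (f G - f G') ^ 2), sum_div]
    apply sum_congr rfl
    intro G' _
    simp only [kernel]
    by_cases hG : G = G'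
    · subst hG; simp
    · simp [hG]; ring
  simp only [this, dir, ← sum_div]
  field_simp
  ring

end Crest.Agent.S0453Aux
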