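import Mathlib
import Crest.Prelude.Def_SwitchChain
import Crest.Agent.S0453Aux.Kernel

/-!
# S0453: the frozen statement follows from the spectral gap estimate `(GAP)`
-/

namespace Crest.Agent.S0453Aux

open Finset Crest.SwitchChain

variable {n : ℕ}

theorem card_realizations_le (d : Fin n → ℕ) : ((realizations d).card : ℝ) ≤ 2 ^ (n ^ 2) := by
  have h1 : (realizations d).card ≤ 2 ^ (n.choose 2) := by
    calc (realizations d).card ≤ (univ : Finset (Finset (Edge n))).card := card_le_univ _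
      _ = 2 ^ Fintype.card (Edge n) := by rw [card_univ, Fintype.card_finset]
      _ = 2 ^ (n.choose 2) := by
          rw [show Fintype.card (Edge n) = (Fintype.card (Fin n)).choose 2 from
            Sym2.card_subtype_not_diag, Fintype.card_fin]
  have h2 : n.choose 2 ≤ n ^ 2 := Nat.choose_le_pow n 2
  calc ((realizations d).card : ℝ) ≤ ((2 ^ (n.choose 2) : ℕ) : ℝ) := by exact_mod_cast h1
    _ = (2 : ℝ) ^ (n.choose 2) := by push_cast; rfl
    _ ≤ 2 ^ (n ^ 2) := pow_le_pow_right₀ (by norm_num) h2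

theorem gapConst_le (n : ℕ) : 24 * (n : ℝ) ^ 2 * (n.choose 4 : ℝ) ≤ (n : ℝ) ^ 6 := by
  have h := Nat.choose_le_pow_div (α := ℝ) 4 n
  have h4 : ((4 : ℕ).factorial : ℝ) = 24 := by norm_num [Nat.factorial]
  rw [h4] at h
  have hn : (0 : ℝ) ≤ (n : ℝ) ^ 2 := by positivity
  calc 24 * (n : ℝ) ^ 2 * (n.choose 4 : ℝ) ≤ 24 * (n : ℝ) ^ 2 * ((n : ℝ) ^ 4 / 24) := by
        apply mul_le_mul_of_nonneg_left h (by positivity)
    _ = (n : ℝ) ^ 6 := by ring

theorem numeric (hn : 4 ≤ n) {c : ℝ} (hc : c ≤ 2 ^ (n ^ 2)) (hc0 : 0 ≤ c) :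
    c * (1 - 1 / (24 * (n : ℝ) ^ 2 * (n.choose 4 : ℝ))) ^ (2 * n ^ 8) ≤ 1 / 4 := by
  set A : ℝ := 24 * (n : ℝ) ^ 2 * (n.choose 4 : ℝ) with hA
  have hn0 : (0 : ℝ) < n := by exact_mod_cast (by omega : 0 < n)
  have hC := choose_pos_real hn
  have hApos : 0 < A := by positivity
  have hA1 : 1 ≤ A := by
    have h1 : (1 : ℝ) ≤ (n.choose 4 : ℝ) := by exact_mod_cast Nat.choose_pos hn
    have h2 : (1 : ℝ) ≤ (n : ℝ) ^ 2 := by
      have : (1 : ℝ) ≤ n := by exact_mod_cast (by omega : 1 ≤ n)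
      nlinarith
    nlinarith
  have hA6 : A ≤ (n : ℝ) ^ 6 := gapConst_le n
  have h0 : 0 ≤ 1 - 1 / A := by
    have : 1 / A ≤ 1 := by rw [div_le_one hApos]; exact hA1
    linarith
  have h1 : 1 - 1 / A ≤ Real.exp (-(1 / (n : ℝ) ^ 6)) := by
    have h2 : 1 / (n : ℝ) ^ 6 ≤ 1 / A := one_div_le_one_div_of_le hApos hA6
    have h3 := Real.add_one_le_exp (-(1 / (n : ℝ) ^ 6))
    linarith
  have h2 : (1 - 1 / A) ^ (2 * n ^ 8) ≤ Real.exp (-(2 * (n : ℝ) ^ 2)) := by
    calc (1 - 1 / A) ^ (2 * n ^ 8) ≤ (Real.exp (-(1 / (n : ℝ) ^ 6))) ^ (2 * n ^ 8) :=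
          pow_le_pow_left₀ h0 h1 _
      _ = Real.exp (-(2 * (n : ℝ) ^ 2)) := by
          rw [← Real.exp_nat_mul]
          congr 1
          push_cast
          field_simp
  have h3 : Real.exp (-(2 * (n : ℝ) ^ 2)) ≤ (1 / 4 : ℝ) ^ (n ^ 2) := by
    have e1 : Real.exp (-(2 * (n : ℝ) ^ 2)) = (Real.exp (-2)) ^ (n ^ 2) := by
      rw [← Real.exp_nat_mul]; congr 1; push_cast; ring
    rw [e1]
    apply pow_le_pow_left₀ (Real.exp_pos _).le
    rw [Real.exp_neg, one_div]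
    apply inv_anti₀ (by norm_num)
    have h5 : (2 : ℝ) ≤ Real.exp 1 := by
      have := Real.add_one_le_exp (1 : ℝ); linarith
    have h6 : Real.exp 2 = Real.exp 1 * Real.exp 1 := by rw [← Real.exp_add]; norm_num
    rw [h6]; nlinarith
  calc c * (1 - 1 / A) ^ (2 * n ^ 8) ≤ 2 ^ (n ^ 2) * (1 / 4 : ℝ) ^ (n ^ 2) := by
        apply mul_le_mul hc (le_trans h2 h3) (pow_nonneg h0 _) (by positivity)
    _ = (1 / 2 : ℝ) ^ (n ^ 2) := by rw [← mul_pow]; norm_num
    _ ≤ (1 / 2 : ℝ) ^ 2 := by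
        apply pow_le_pow_of_le_one (by norm_num) (by norm_num)
        nlinarith
    _ = 1 / 4 := by norm_num

/-- The spectral gap estimate which remains to be proved. -/
def Gap (n : ℕ) (d : Fin n → ℕ) : Prop :=
  ∀ f : Finset (Edge n) → ℝ,
    ((realizations d).card : ℝ) * (∑ G ∈ realizations d, f G ^ 2) -
      (∑ G ∈ realizations d, f G) ^ 2 ≤ (n : ℝ) ^ 2 * (realizations d).card * dir d f

theorem poincare_of_gap (hn : 4 ≤ n) (d : Fin n → ℕ) (hgap : Gap n d) :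
    Poincare (kernel n) (realizations d) (24 * (n : ℝ) ^ 2 * (n.choose 4 : ℝ)) := by
  intro f
  rw [dirichlet_kernel hn d f]
  have hC := choose_pos_real hn
  have : 24 * (n : ℝ) ^ 2 * (n.choose 4 : ℝ) * (realizations d).card *
      (dir d f / (24 * (n.choose 4 : ℝ))) = (n : ℝ) ^ 2 * (realizations d).card * dir d f := by
    field_simp
  rw [this]
  exact hgap f

theorem result_of_gap (n : ℕ) (hn : 4 ≤ n) (d : Fin n → ℕ) (hd : (realizations d).Nonempty)
    (hgap : Gap n d) :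
    (∃ t : ℕ, t ≤ 2 * n ^ 8 ∧ ∀ G ∈ realizations d,
        tvDist (fun G' => (kernel n ^ t) G G') (unifOn (realizations d)) ≤ 1 / 4) ∧
      ∀ f : Finset (Edge n) → ℝ,
        ((realizations d).card : ℝ) * (∑ G ∈ realizations d, f G ^ 2) -
            (∑ G ∈ realizations d, f G) ^ 2 ≤
          24 * (n : ℝ) ^ 2 * (n.choose 4 : ℝ) * (realizations d).card *
            ∑ G ∈ realizations d,
              f G * (f G - ∑ G' ∈ realizations d, kernel n G G' * f G') := by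
  have hP := poincare_of_gap hn d hgap
  refine ⟨⟨2 * n ^ 8, le_rfl, ?_⟩, hP⟩
  intro G hG
  have hC := choose_pos_real hn
  have hA1 : 1 ≤ 24 * (n : ℝ) ^ 2 * (n.choose 4 : ℝ) := by
    have h1 : (1 : ℝ) ≤ (n.choose 4 : ℝ) := by exact_mod_cast Nat.choose_pos hn
    have h2 : (1 : ℝ) ≤ (n : ℝ) ^ 2 := by
      have : (1 : ℝ) ≤ n := by exact_mod_cast (by omega : 1 ≤ n)
      nlinarith
    nlinarith
  have h1 := (kernel_lazyChain hn d).tv_sq_le hd hA1 hP hG (2 * n ^ 8)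
  have h2 := numeric hn (card_realizations_le d) (by positivity)
  have h3 := le_trans h1 h2
  nlinarith [sq_nonneg (2 * tvDist (fun G' => (kernel n ^ (2 * n ^ 8)) G G')
    (unifOn (realizations d)) - 1 / 2)]

end Crest.Agent.S0453Aux
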