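import Mathlib

/-!
# Bookkeeping over ordered pairs / triples / quadruples of vertices (S0453 auxiliary)
-/

set_option autoImplicit false
open Finset

namespace Crest.Agent.S0453Aux

namespace SQ

variable {V : Type*} [Fintype V] [DecidableEq V]

theorem sum_split2 {a b : V} (hab : a ≠ b) (g : V → ℝ) :
    ∑ c, g c = g a + g b + ∑ c, if c ≠ a ∧ c ≠ b then g c else 0 := by
  have h : ∀ c, g c = (if c = a then g c else 0) + (if c = b then g c else 0) +
      (if c ≠ a ∧ c ≠ b then g c else 0) := by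
    intro c
    by_cases h1 : c = a
    · subst h1; simp [hab]
    · by_cases h2 : c = b
      · subst h2; simp [h1]
      · simp [h1, h2]
  calc ∑ c, g c = ∑ c, ((if c = a then g c else 0) + (if c = b then g c else 0) +
      (if c ≠ a ∧ c ≠ b then g c else 0)) := sum_congr rfl fun c _ => h c
    _ = _ := by
      rw [sum_add_distrib, sum_add_distrib, sum_ite_eq' univ a g, sum_ite_eq' univ b g]
      simp

/-- for a fixed ordered pair `a ≠ b` and a symmetric `h` -/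
theorem sum_pairs_split {a b : V} (hab : a ≠ b) (h : V → V → ℝ) (hs : ∀ c e, h c e = h e c) :
    (∑ c, ∑ e, if c ≠ e then h c e else 0) =
      2 * h a b + 2 * (∑ e, if e ≠ a ∧ e ≠ b then h a e else 0) +
        2 * (∑ e, if e ≠ a ∧ e ≠ b then h b e else 0) +
        ∑ c, ∑ e, if (a ≠ c ∧ a ≠ e ∧ b ≠ c ∧ b ≠ e ∧ c ≠ e) then h c e else 0 := by
  rw [sum_split2 hab (fun c => ∑ e, if c ≠ e then h c e else 0)]
  have e1 : (∑ e, if a ≠ e then h a e else 0) =
      h a b + ∑ e, if e ≠ a ∧ e ≠ b then h a e else 0 := by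
    rw [sum_split2 hab (fun e => if a ≠ e then h a e else 0)]
    simp only [ne_eq, not_true_eq_false, if_false, zero_add, hab, not_false_eq_true, if_true]
    congr 1
    refine sum_congr rfl fun e _ => ?_
    by_cases h1 : e = a
    · simp [h1]
    · simp [h1, Ne.symm h1]
  have e2 : (∑ e, if b ≠ e then h b e else 0) =
      h a b + ∑ e, if e ≠ a ∧ e ≠ b then h b e else 0 := by
    rw [sum_split2 hab (fun e => if b ≠ e then h b e else 0)]
    simp only [ne_eq, not_true_eq_false, if_false, add_zero, hab.symm, not_false_eq_true, if_true]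
    rw [hs b a]
    congr 1
    refine sum_congr rfl fun e _ => ?_
    by_cases h1 : e = b
    · simp [h1]
    · simp [h1, Ne.symm h1]
  have e3 : (∑ c, if c ≠ a ∧ c ≠ b then ∑ e, (if c ≠ e then h c e else 0) else 0) =
      (∑ e, if e ≠ a ∧ e ≠ b then h a e else 0) + (∑ e, if e ≠ a ∧ e ≠ b then h b e else 0) +
        ∑ c, ∑ e, if (a ≠ c ∧ a ≠ e ∧ b ≠ c ∧ b ≠ e ∧ c ≠ e) then h c e else 0 := by
    rw [← sum_add_distrib, ← sum_add_distrib]
    refine sum_congr rfl fun c _ => ?_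
    by_cases hc : c ≠ a ∧ c ≠ b
    · rw [if_pos hc, if_pos hc, if_pos hc, sum_split2 hab (fun e => if c ≠ e then h c e else 0)]
      simp only [if_pos hc.1, if_pos hc.2, hs c a, hs c b]
      congr 1
      refine sum_congr rfl fun e _ => ?_
      by_cases h1 : e ≠ a ∧ e ≠ b
      · by_cases h2 : c ≠ e
        · rw [if_pos h1, if_pos h2, if_pos ⟨hc.1.symm, h1.1.symm, hc.2.symm, h1.2.symm, h2⟩]
        · rw [if_pos h1, if_neg h2, if_neg (fun h => h2 h.2.2.2.2)]
      · rw [if_neg h1, if_neg]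
        intro h; exact h1 ⟨h.2.1.symm, h.2.2.2.1.symm⟩
    · rw [if_neg hc, if_neg hc, if_neg hc]
      simp only [zero_add]
      symm
      apply sum_eq_zero
      intro e _
      rw [if_neg]
      intro h; exact hc ⟨h.1.symm, h.2.2.1.symm⟩
  rw [e1, e2, e3]; ring

variable (T : V → V → V → V → ℝ)

/-- the sum over ordered triples of distinct vertices `(x,y,z)` of `T x y x z` -/
def Y3 : ℝ := ∑ a, ∑ b, ∑ c, if (a ≠ b ∧ a ≠ c ∧ b ≠ c) then T a b a c else 0

theorem sum_sq_split (s1 : ∀ a b c e, T a b c e = T b a c e) (s2 : ∀ a b c e, T a b c e = T a b e c) :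
    (∑ a, ∑ b, ∑ c, ∑ e, if (a ≠ b ∧ c ≠ e) then T a b c e else 0) =
      2 * (∑ a, ∑ b, if a ≠ b then T a b a b else 0) + 4 * Y3 T +
        ∑ a, ∑ b, ∑ c, ∑ e,
          if (a ≠ b ∧ a ≠ c ∧ a ≠ e ∧ b ≠ c ∧ b ≠ e ∧ c ≠ e) then T a b c e else 0 := by
  have h1 : ∀ a b : V, (∑ c, ∑ e, if (a ≠ b ∧ c ≠ e) then T a b c e else 0) =
      2 * (if a ≠ b then T a b a b else 0) +
        2 * (∑ e, if (a ≠ b ∧ a ≠ e ∧ b ≠ e) then T a b a e else 0) +
        2 * (∑ e, if (b ≠ a ∧ b ≠ e ∧ a ≠ e) then T b a b e else 0) +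
        ∑ c, ∑ e, if (a ≠ b ∧ a ≠ c ∧ a ≠ e ∧ b ≠ c ∧ b ≠ e ∧ c ≠ e) then T a b c e else 0 := by
    intro a b
    by_cases hab : a ≠ b
    · have := sum_pairs_split hab (fun c e => T a b c e) (fun c e => s2 a b c e)
      simp only [hab, hab.symm, true_and, if_true, ne_eq, not_false_eq_true] at this ⊢
      rw [this]
      congr 1
      congr 1
      · congr 2
        refine sum_congr rfl fun e _ => ?_
        by_cases h1 : e = a
        · simp [h1]
        · by_cases h2 : e = b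
          · simp [h2]
          · simp [h1, h2, Ne.symm h1, Ne.symm h2]
      · congr 1
        refine sum_congr rfl fun e _ => ?_
        rw [s1 a b b e]
        by_cases h1 : e = a
        · simp [h1]
        · by_cases h2 : e = b
          · simp [h2]
          · simp [h1, h2, Ne.symm h1, Ne.symm h2]
    · have hab' : ¬ b ≠ a := fun h => hab h.symm
      simp [hab, hab']
  simp only [h1, sum_add_distrib, ← mul_sum]
  have h2 : (∑ a, ∑ b, ∑ e, if (b ≠ a ∧ b ≠ e ∧ a ≠ e) then T b a b e else 0) = Y3 T := by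
    rw [sum_comm]; rfl
  rw [h2]
  have h3 : (∑ a, ∑ b, ∑ e, if (a ≠ b ∧ a ≠ e ∧ b ≠ e) then T a b a e else 0) = Y3 T := rfl
  rw [h3]; ring

theorem three_Y3 (s1 : ∀ a b c e, T a b c e = T b a c e) (s2 : ∀ a b c e, T a b c e = T a b e c) :
    3 * Y3 T = ∑ a, ∑ b, ∑ c,
      if (a ≠ b ∧ a ≠ c ∧ b ≠ c) then (T a b a c + T a b b c + T a c b c) else 0 := by
  have h0 : ∀ a b c : V, (if (a ≠ b ∧ a ≠ c ∧ b ≠ c) then (T a b a c + T a b b c + T a c b c) else 0) =
      (if (a ≠ b ∧ a ≠ c ∧ b ≠ c) then T a b a c else 0) +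
      (if (b ≠ a ∧ b ≠ c ∧ a ≠ c) then T b a b c else 0) +
      (if (c ≠ a ∧ c ≠ b ∧ a ≠ b) then T c a c b else 0) := by
    intro a b c
    by_cases h : a ≠ b ∧ a ≠ c ∧ b ≠ c
    · rw [if_pos h, if_pos h, if_pos ⟨h.1.symm, h.2.2, h.2.1⟩, if_pos ⟨h.2.1.symm, h.2.2.symm, h.1⟩,
        s1 a b b c, s1 a c b c, s2 c a b c]
    · rw [if_neg h, if_neg h, if_neg (fun h' => h ⟨h'.1.symm, h'.2.2, h'.2.1⟩),
        if_neg (fun h' => h ⟨h'.2.2, h'.1.symm, h'.2.1.symm⟩)]
      simp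
  simp only [h0, sum_add_distrib]
  have h2 : (∑ a, ∑ b, ∑ c, if (b ≠ a ∧ b ≠ c ∧ a ≠ c) then T b a b c else 0) = Y3 T := by
    rw [sum_comm]; rfl
  have h3 : (∑ a, ∑ b, ∑ c, if (c ≠ a ∧ c ≠ b ∧ a ≠ b) then T c a c b else 0) = Y3 T := by
    have : ∀ a : V, (∑ b, ∑ c, if (c ≠ a ∧ c ≠ b ∧ a ≠ b) then T c a c b else 0) =
        ∑ c, ∑ b, if (c ≠ a ∧ c ≠ b ∧ a ≠ b) then T c a c b else 0 := fun a => sum_comm
    simp only [this]
    rw [sum_comm]; rfl
  rw [h2, h3]
  have h1 : (∑ a, ∑ b, ∑ c, if (a ≠ b ∧ a ≠ c ∧ b ≠ c) then T a b a c else 0) = Y3 T := rfl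
  rw [h1]; ring

end SQ

end Crest.Agent.S0453Aux
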