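import Crest.Prelude.Def_SwitchChain

/-!
# Irreducibility of the switch chain (S0453 auxiliary)

`SwitchStep G G'`: `G'` is obtained from `G` by one switch `ac, bd ↦ ad, bc`.
Main result `switch_connected`: any two realizations of the same degree vector are joined by
switch steps (through realizations).
-/

set_option autoImplicit false
open Finset
open Crest Crest.SwitchChain

namespace Crest.Agent.S0453Aux

variable {n : ℕ}

/-- The edge `ab`. -/
def mkE (a b : Fin n) (h : a ≠ b) : Edge n := ⟨s(a, b), by simpa using h⟩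

theorem mkE_comm (a b : Fin n) (h : a ≠ b) : mkE a b h = mkE b a h.symm := by
  apply Subtype.ext; simp [mkE, Sym2.eq_swap]

theorem mkE_eq_iff {a b c d : Fin n} (h : a ≠ b) (h' : c ≠ d) :
    mkE a b h = mkE c d h' ↔ (a = c ∧ b = d) ∨ (a = d ∧ b = c) := by
  simp [mkE, Subtype.ext_iff]

/-- Adjacency in the graph with edge set `G`. -/
def Adj (G : Finset (Edge n)) (a b : Fin n) : Prop := ∃ h : a ≠ b, mkE a b h ∈ G

theorem Adj.ne {G : Finset (Edge n)} {a b : Fin n} (h : Adj G a b) : a ≠ b := h.1

theorem Adj.symm {G : Finset (Edge n)} {a b : Fin n} (h : Adj G a b) : Adj G b a := by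
  obtain ⟨h1, h2⟩ := h
  exact ⟨h1.symm, by rwa [← mkE_comm]⟩

theorem adj_comm {G : Finset (Edge n)} {a b : Fin n} : Adj G a b ↔ Adj G b a :=
  ⟨Adj.symm, Adj.symm⟩

theorem adj_iff_mem {G : Finset (Edge n)} {a b : Fin n} (h : a ≠ b) :
    Adj G a b ↔ mkE a b h ∈ G := ⟨fun h' => h'.2, fun h' => ⟨h, h'⟩⟩

theorem edge_exists (e : Edge n) : ∃ (a b : Fin n) (h : a ≠ b), e = mkE a b h := by
  obtain ⟨e, he⟩ := e
  induction e using Sym2.ind with
  | _ a b => exact ⟨a, b, by simpa using he, rfl⟩

theorem graph_ext {G G' : Finset (Edge n)} (h : ∀ a b, Adj G a b ↔ Adj G' a b) : G = G' := by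
  ext e
  obtain ⟨a, b, hab, rfl⟩ := edge_exists e
  rw [← adj_iff_mem, ← adj_iff_mem]; exact h a b

open Classical in
/-- Neighbourhood of a vertex. -/
noncomputable def nb (G : Finset (Edge n)) (v : Fin n) : Finset (Fin n) :=
  univ.filter fun w => Adj G v w

@[simp] theorem mem_nb {G : Finset (Edge n)} {v w : Fin n} : w ∈ nb G v ↔ Adj G v w := by
  simp [nb]

theorem deg_eq_card_nb (G : Finset (Edge n)) (v : Fin n) : deg G v = (nb G v).card := by
  symm
  unfold deg
  refine Finset.card_bij (fun w hw => mkE v w (mem_nb.1 hw).ne) ?_ ?_ ?_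
  · intro w hw
    simp only [mem_filter]
    exact ⟨(mem_nb.1 hw).2, by simp [mkE]⟩
  · intro w hw w' hw' h
    rw [mkE_eq_iff] at h
    rcases h with h | h
    · exact h.2
    · exact absurd h.1 (mem_nb.1 hw').ne
  · intro e he
    simp only [mem_filter] at he
    obtain ⟨a, b, hab, rfl⟩ := edge_exists e
    have h2 : v = a ∨ v = b := by simpa [mkE] using he.2
    rcases h2 with rfl | rfl
    · exact ⟨b, mem_nb.2 ⟨hab, he.1⟩, rfl⟩
    · exact ⟨a, mem_nb.2 ⟨hab.symm, by rw [← mkE_comm]; exact he.1⟩, by rw [← mkE_comm]⟩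

theorem mem_realizations {d : Fin n → ℕ} {G : Finset (Edge n)} :
    G ∈ realizations d ↔ ∀ v, (nb G v).card = d v := by
  simp [realizations, deg_eq_card_nb]


/-- The graph obtained from `G` by the switch `ac, bd ↦ ad, bc`. -/
def sw (G : Finset (Edge n)) (a b c d : Fin n) (hac : a ≠ c) (hbd : b ≠ d) (had : a ≠ d)
    (hbc : b ≠ c) : Finset (Edge n) :=
  (G \ {mkE a c hac, mkE b d hbd}) ∪ {mkE a d had, mkE b c hbc}

/-- One switch step. -/
def SwitchStep (G G' : Finset (Edge n)) : Prop :=
  ∃ (a b c d : Fin n) (hac : a ≠ c) (hbd : b ≠ d) (had : a ≠ d) (hbc : b ≠ c),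
    a ≠ b ∧ c ≠ d ∧ mkE a c hac ∈ G ∧ mkE b d hbd ∈ G ∧ mkE a d had ∉ G ∧ mkE b c hbc ∉ G ∧
      G' = sw G a b c d hac hbd had hbc

theorem adj_sw {G : Finset (Edge n)} {a b c d : Fin n} (hac : a ≠ c) (hbd : b ≠ d) (had : a ≠ d)
    (hbc : b ≠ c) (u w : Fin n) :
    Adj (sw G a b c d hac hbd had hbc) u w ↔
      (Adj G u w ∧ ¬ ((u = a ∧ w = c) ∨ (u = c ∧ w = a)) ∧ ¬ ((u = b ∧ w = d) ∨ (u = d ∧ w = b))) ∨
        ((u = a ∧ w = d) ∨ (u = d ∧ w = a)) ∨ ((u = b ∧ w = c) ∨ (u = c ∧ w = b)) := by
  by_cases huw : u = w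
  · subst huw
    constructor
    · intro h; exact absurd rfl h.ne
    · rintro (h | h | h)
      · exact absurd rfl h.1.ne
      · rcases h with h | h
        · exact absurd (h.1.symm.trans h.2) had
        · exact absurd (h.2.symm.trans h.1) had
      · rcases h with h | h
        · exact absurd (h.1.symm.trans h.2) hbc
        · exact absurd (h.2.symm.trans h.1) hbc
  · rw [adj_iff_mem huw, adj_iff_mem huw]
    simp only [sw, mem_union, mem_sdiff, mem_insert, mem_singleton, mkE_eq_iff, not_or]

theorem nb_sw_a {G : Finset (Edge n)} {a b c d : Fin n} (hac : a ≠ c) (hbd : b ≠ d) (had : a ≠ d)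
    (hbc : b ≠ c) (hab : a ≠ b) :
    nb (sw G a b c d hac hbd had hbc) a = insert d ((nb G a).erase c) := by
  ext w
  simp only [mem_nb, adj_sw, mem_insert, mem_erase]
  grind

theorem nb_sw_other {G : Finset (Edge n)} {a b c d : Fin n} (hac : a ≠ c) (hbd : b ≠ d)
    (had : a ≠ d) (hbc : b ≠ c) (t : Fin n) (hta : t ≠ a) (htb : t ≠ b) (htc : t ≠ c)
    (htd : t ≠ d) :
    nb (sw G a b c d hac hbd had hbc) t = nb G t := by
  ext w
  simp only [mem_nb, adj_sw]
  grind

theorem sw_symm1 {G : Finset (Edge n)} {a b c d : Fin n} (hac : a ≠ c) (hbd : b ≠ d) (had : a ≠ d)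
    (hbc : b ≠ c) : sw G a b c d hac hbd had hbc = sw G b a d c hbd hac hbc had := by
  apply graph_ext; intro u w; simp only [adj_sw]; grind

theorem sw_symm2 {G : Finset (Edge n)} {a b c d : Fin n} (hac : a ≠ c) (hbd : b ≠ d) (had : a ≠ d)
    (hbc : b ≠ c) : sw G a b c d hac hbd had hbc = sw G c d a b hac.symm hbd.symm hbc.symm had.symm := by
  apply graph_ext; intro u w; simp only [adj_sw]; grind

theorem card_nb_sw_a {G : Finset (Edge n)} {a b c d : Fin n} (hac : a ≠ c) (hbd : b ≠ d)
    (had : a ≠ d) (hbc : b ≠ c) (hab : a ≠ b)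
    (h1 : mkE a c hac ∈ G) (h3 : mkE a d had ∉ G) :
    (nb (sw G a b c d hac hbd had hbc) a).card = (nb G a).card := by
  rw [nb_sw_a hac hbd had hbc hab]
  have hc : c ∈ nb G a := mem_nb.2 ⟨hac, h1⟩
  have hd : d ∉ (nb G a).erase c := by
    intro h
    exact h3 (mem_nb.1 (mem_of_mem_erase h)).2
  rw [card_insert_of_notMem hd, card_erase_of_mem hc]
  have : 0 < (nb G a).card := card_pos.2 ⟨c, hc⟩
  omega

theorem card_nb_sw {G : Finset (Edge n)} {a b c d : Fin n} (hac : a ≠ c) (hbd : b ≠ d)
    (had : a ≠ d) (hbc : b ≠ c) (hab : a ≠ b) (hcd : c ≠ d)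
    (h1 : mkE a c hac ∈ G) (h2 : mkE b d hbd ∈ G) (h3 : mkE a d had ∉ G) (h4 : mkE b c hbc ∉ G)
    (t : Fin n) :
    (nb (sw G a b c d hac hbd had hbc) t).card = (nb G t).card := by
  by_cases hta : t = a
  · subst hta; exact card_nb_sw_a hac hbd had hbc hab h1 h3
  by_cases htb : t = b
  · subst htb
    rw [sw_symm1]
    exact card_nb_sw_a hbd hac hbc had hab.symm h2 h4
  by_cases htc : t = c
  · subst htc
    rw [sw_symm2]
    exact card_nb_sw_a hac.symm hbd.symm hbc.symm had.symm hcd
      (by rw [← mkE_comm]; exact h1) (by rw [← mkE_comm]; exact h4)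
  by_cases htd : t = d
  · subst htd
    rw [sw_symm2, sw_symm1]
    exact card_nb_sw_a hbd.symm hac.symm had.symm hbc.symm hcd.symm
      (by rw [← mkE_comm]; exact h2) (by rw [← mkE_comm]; exact h3)
  rw [nb_sw_other hac hbd had hbc t hta htb htc htd]

theorem SwitchStep.mem_realizations {d : Fin n → ℕ} {G G' : Finset (Edge n)}
    (h : SwitchStep G G') (hG : G ∈ realizations d) : G' ∈ realizations d := by
  obtain ⟨a, b, c, e, hac, hbd, had, hbc, hab, hcd, h1, h2, h3, h4, rfl⟩ := h
  rw [Crest.Agent.S0453Aux.mem_realizations] at hG ⊢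
  intro v
  rw [card_nb_sw hac hbd had hbc hab hcd h1 h2 h3 h4, hG]

theorem SwitchStep.symm {G G' : Finset (Edge n)} (h : SwitchStep G G') : SwitchStep G' G := by
  obtain ⟨a, b, c, d, hac, hbd, had, hbc, hab, hcd, h1, h2, h3, h4, rfl⟩ := h
  refine ⟨a, b, d, c, had, hbc, hac, hbd, hab, hcd.symm, ?_, ?_, ?_, ?_, ?_⟩
  · rw [← adj_iff_mem, adj_sw]; grind
  · rw [← adj_iff_mem, adj_sw]; grind
  · rw [← adj_iff_mem, adj_sw]; grind
  · rw [← adj_iff_mem, adj_sw]; grind
  · apply graph_ext; intro u w
    rw [← adj_iff_mem] at h1 h2 h3 h4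
    simp only [adj_sw]
    have := @adj_comm n G
    grind


/-- `G` and `G'` agree on all pairs touching `W`. -/
def AgreeOn (W : Finset (Fin n)) (G G' : Finset (Edge n)) : Prop :=
  ∀ w ∈ W, ∀ u, Adj G w u ↔ Adj G' w u

theorem AgreeOn.symm {W : Finset (Fin n)} {G G' : Finset (Edge n)} (h : AgreeOn W G G') :
    AgreeOn W G' G := fun w hw u => (h w hw u).symm

theorem AgreeOn.card_sdiff {d : Fin n → ℕ} {W : Finset (Fin n)} {G G' : Finset (Edge n)}
    (h : AgreeOn W G G') (hG : G ∈ realizations d) (hG' : G' ∈ realizations d) (u : Fin n) :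
    (nb G u \ W).card = (nb G' u \ W).card := by
  rw [mem_realizations] at hG hG'
  have h1 : nb G u ∩ W = nb G' u ∩ W := by
    ext w
    simp only [mem_inter, mem_nb]
    constructor
    · rintro ⟨h1, h2⟩; exact ⟨((h w h2 u).1 h1.symm).symm, h2⟩
    · rintro ⟨h1, h2⟩; exact ⟨((h w h2 u).2 h1.symm).symm, h2⟩
  have h2 := card_sdiff_add_card_inter (nb G u) W
  have h3 := card_sdiff_add_card_inter (nb G' u) W
  rw [hG u] at h2
  rw [hG' u, ← h1] at h3
  omega

theorem exchange {W : Finset (Fin n)} {G G' : Finset (Edge n)}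
    (hW : AgreeOn W G G') {v x y : Fin n} (hv : v ∉ W)
    (hx : Adj G v x) (hx' : ¬ Adj G' v x) (hy : ¬ Adj G v y) (hy' : Adj G' v y)
    (hr : (nb G x \ W).card ≤ (nb G y \ W).card) :
    ∃ G₁, SwitchStep G G₁ ∧ AgreeOn W G₁ G' ∧ nb G₁ v = insert y ((nb G v).erase x) := by
  have hxW : x ∉ W := fun h => hx' ((hW x h v).1 hx.symm).symm
  have hyW : y ∉ W := fun h => hy ((hW y h v).2 hy'.symm).symm
  have hxy : x ≠ y := by rintro rfl; exact hy hx
  have hvx : v ≠ x := hx.ne
  have hvy : v ≠ y := hy'.ne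
  obtain ⟨z, hzB, hzA⟩ : ∃ z ∈ (nb G y \ W).erase x, z ∉ (nb G x \ W).erase y := by
    by_contra hcon
    push Not at hcon
    have hvA : v ∈ (nb G x \ W).erase y := by
      simp only [mem_erase, mem_sdiff, mem_nb]
      exact ⟨hvy, hx.symm, hv⟩
    have hvB : v ∉ (nb G y \ W).erase x := by
      simp only [mem_erase, mem_sdiff, mem_nb]
      intro h; exact hy h.2.1.symm
    have hsub : (nb G y \ W).erase x ⊆ ((nb G x \ W).erase y).erase v := by
      intro z hz
      exact mem_erase.2 ⟨fun h => hvB (h ▸ hz), hcon z hz⟩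
    have hc := card_le_card hsub
    rw [card_erase_of_mem hvA] at hc
    have hpos : 0 < ((nb G x \ W).erase y).card := card_pos.2 ⟨v, hvA⟩
    by_cases hadj : Adj G x y
    · have e1 : y ∈ nb G x \ W := by simp [hadj, hyW]
      have e2 : x ∈ nb G y \ W := by simp [hadj.symm, hxW]
      rw [card_erase_of_mem e1] at hc hpos
      rw [card_erase_of_mem e2] at hc
      omega
    · have e1 : y ∉ nb G x \ W := by simp [hadj]
      have e2 : x ∉ nb G y \ W := by
        simp only [mem_sdiff, mem_nb, not_and]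
        intro h; exact absurd h.symm hadj
      rw [erase_eq_of_notMem e1] at hc hpos
      rw [erase_eq_of_notMem e2] at hc
      omega
  simp only [mem_erase, mem_sdiff, mem_nb] at hzB hzA
  obtain ⟨hzx, hyz, hzW⟩ := hzB
  have hzy : z ≠ y := hyz.ne.symm
  have hxz : ¬ Adj G x z := fun h => hzA ⟨hzy, h, hzW⟩
  have hvz : v ≠ z := by rintro rfl; exact hy hyz.symm
  refine ⟨sw G v z x y hvx hzy hvy hzx, ⟨v, z, x, y, hvx, hzy, hvy, hzx, hvz, hxy, ?_, ?_, ?_, ?_, rfl⟩,
    ?_, nb_sw_a hvx hzy hvy hzx hvz⟩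
  · exact hx.2
  · exact hyz.symm.2
  · exact fun h => hy ⟨hvy, h⟩
  · exact fun h => hxz (Adj.symm ⟨hzx, h⟩)
  · intro w hw u
    rw [← hW w hw u, ← mem_nb, ← mem_nb, nb_sw_other]
    · rintro rfl; exact hv hw
    · rintro rfl; exact hzW hw
    · rintro rfl; exact hxW hw
    · rintro rfl; exact hyW hw

/-- Being joined by switch steps. -/
abbrev SwitchConn (G G' : Finset (Edge n)) : Prop := Relation.EqvGen SwitchStep G G'

theorem connected_aux (d : Fin n → ℕ) :
    ∀ (k : ℕ) (W : Finset (Fin n)), (univ \ W).card = k →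
      ∀ G ∈ realizations d, ∀ G' ∈ realizations d, AgreeOn W G G' → SwitchConn G G' := by
  intro k
  induction k with
  | zero =>
    intro W hW G _ G' _ hag
    have hWu : ∀ w, w ∈ W := by
      intro w
      by_contra h
      have : w ∈ univ \ W := by simp [h]
      rw [card_eq_zero.1 hW] at this
      simp at this
    have : G = G' := graph_ext fun a b => hag a (hWu a) b
    rw [this]
    exact Relation.EqvGen.refl _
  | succ k ih =>
    intro W hW
    obtain ⟨v, hv⟩ : (univ \ W).Nonempty := card_pos.1 (by omega)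
    have hvW : v ∉ W := by simpa using hv
    have hW' : (univ \ insert v W).card = k := by
      have : univ \ insert v W = (univ \ W).erase v := by
        ext w; simp only [mem_sdiff, mem_univ, true_and, mem_insert, mem_erase, not_or]
      rw [this, card_erase_of_mem hv, hW]; rfl
    -- inner induction on the number of neighbours of `v` in `G` but not in `G'`
    have inner : ∀ (m : ℕ), ∀ G ∈ realizations d, ∀ G' ∈ realizations d, AgreeOn W G G' →
        (nb G v \ nb G' v).card = m → SwitchConn G G' := by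
      intro m
      induction m with
      | zero =>
        intro G hG G' hG' hag hm
        have hsub : nb G v ⊆ nb G' v := sdiff_eq_empty_iff_subset.1 (card_eq_zero.1 hm)
        have heq : nb G v = nb G' v := by
          apply eq_of_subset_of_card_le hsub
          rw [(mem_realizations.1 hG) v, (mem_realizations.1 hG') v]
        apply ih (insert v W) hW' G hG G' hG'
        intro w hw u
        rcases mem_insert.1 hw with rfl | hw
        · rw [← mem_nb, ← mem_nb, heq]
        · exact hag w hw u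
      | succ m ihm =>
        intro G hG G' hG' hag hm
        obtain ⟨x, hx⟩ : (nb G v \ nb G' v).Nonempty := card_pos.1 (by omega)
        have hcard : (nb G' v \ nb G v).card = (nb G v \ nb G' v).card := by
          have h1 := card_sdiff_add_card_inter (nb G v) (nb G' v)
          have h2 := card_sdiff_add_card_inter (nb G' v) (nb G v)
          rw [(mem_realizations.1 hG) v] at h1
          rw [(mem_realizations.1 hG') v, inter_comm] at h2
          omega
        obtain ⟨y, hy⟩ : (nb G' v \ nb G v).Nonempty := card_pos.1 (by omega)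
        simp only [mem_sdiff, mem_nb] at hx hy
        rcases le_total (nb G x \ W).card (nb G y \ W).card with hr | hr
        · obtain ⟨G₁, hst, hag₁, hnb⟩ := exchange hag hvW hx.1 hx.2 hy.2 hy.1 hr
          have hG₁ := hst.mem_realizations hG
          refine Relation.EqvGen.trans _ _ _ (Relation.EqvGen.rel _ _ hst) (ihm G₁ hG₁ G' hG' hag₁ ?_)
          have : nb G₁ v \ nb G' v = (nb G v \ nb G' v).erase x := by
            rw [hnb]; ext w
            simp only [mem_sdiff, mem_insert, mem_erase, mem_nb]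
            constructor
            · rintro ⟨rfl | h, h2⟩
              · exact absurd hy.1 h2
              · exact ⟨h.1, h.2, h2⟩
            · rintro ⟨h1, h2, h3⟩; exact ⟨Or.inr ⟨h1, h2⟩, h3⟩
          rw [this, card_erase_of_mem (by simp [hx.1, hx.2]), hm]; rfl
        · rw [hag.card_sdiff hG hG' x, hag.card_sdiff hG hG' y] at hr
          obtain ⟨G₁, hst, hag₁, hnb⟩ := exchange hag.symm hvW hy.1 hy.2 hx.2 hx.1 hr
          have hG₁ := hst.mem_realizations hG'
          refine Relation.EqvGen.trans _ _ _ (ihm G hG G₁ hG₁ hag₁.symm ?_)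
            (Relation.EqvGen.symm _ _ (Relation.EqvGen.rel _ _ hst))
          have : nb G v \ nb G₁ v = (nb G v \ nb G' v).erase x := by
            rw [hnb]; ext w
            simp only [mem_sdiff, mem_insert, mem_erase, mem_nb, not_or, not_and]
            constructor
            · rintro ⟨h1, h2, h3⟩
              refine ⟨h2, h1, fun h => ?_⟩
              by_cases hwy : w = y
              · subst hwy; exact hy.2 h1
              · exact h3 hwy h
            · rintro ⟨h1, h2, h3⟩; exact ⟨h2, h1, fun _ => h3⟩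
          rw [this, card_erase_of_mem (by simp [hx.1, hx.2]), hm]; rfl
    intro G hG G' hG' hag
    exact inner _ G hG G' hG' hag rfl

/-- **Irreducibility of the switch chain**: two realizations of the same degree vector are joined
by switch steps. -/
theorem switch_connected {d : Fin n → ℕ} {G G' : Finset (Edge n)} (hG : G ∈ realizations d)
    (hG' : G' ∈ realizations d) : SwitchConn G G' :=
  connected_aux d _ ∅ rfl G hG G' hG' (fun w hw => by simp at hw)

/-- A function that is invariant under the switch steps starting at realizations of `d` is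
constant on the realizations of `d`. -/
theorem const_of_switch_invariant {α : Type*} {d : Fin n → ℕ} (f : Finset (Edge n) → α)
    (hf : ∀ G ∈ realizations d, ∀ G', SwitchStep G G' → f G = f G')
    {G G' : Finset (Edge n)} (hG : G ∈ realizations d) (hG' : G' ∈ realizations d) :
    f G = f G' := by
  have key : ∀ G G', SwitchConn G G' → (G ∈ realizations d ↔ G' ∈ realizations d) ∧
      (G ∈ realizations d → f G = f G') := by
    intro G G' h
    induction h with
    | rel G G' h =>
      exact ⟨⟨h.mem_realizations, h.symm.mem_realizations⟩, fun hG => hf G hG G' h⟩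
    | refl G => exact ⟨Iff.rfl, fun _ => rfl⟩
    | symm G G' _ ih => exact ⟨ih.1.symm, fun hG => (ih.2 (ih.1.2 hG)).symm⟩
    | trans G G' G'' _ _ ih1 ih2 =>
      exact ⟨ih1.1.trans ih2.1, fun hG => (ih1.2 hG).trans (ih2.2 (ih1.1.1 hG))⟩
  exact (key G G' (switch_connected hG hG')).2 hG


/-- Bridge to the frozen `switchResult`. -/
theorem sw_eq_switchResult {G : Finset (Edge n)} {a b c d : Fin n} (hac : a ≠ c) (hbd : b ≠ d)
    (had : a ≠ d) (hbc : b ≠ c)
    (h1 : mkE a c hac ∈ G) (h2 : mkE b d hbd ∈ G) (h3 : mkE a d had ∉ G) (h4 : mkE b c hbc ∉ G) :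
    sw G a b c d hac hbd had hbc =
      switchResult G {mkE a c hac, mkE b d hbd} {mkE a d had, mkE b c hbc} := by
  unfold switchResult sw
  rw [if_pos]
  constructor
  · intro e he
    rcases mem_insert.1 he with rfl | he
    · exact h1
    · rw [mem_singleton.1 he]; exact h2
  · rw [disjoint_left]
    intro e he
    rcases mem_insert.1 he with rfl | he
    · exact h3
    · rw [mem_singleton.1 he]; exact h4

end Crest.Agent.S0453Aux
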