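import Crest.Agent.S0453Aux.GapFinset
import Crest.Agent.S0453Aux.Bookkeeping
import Crest.Agent.S0453Aux.Connected
import Crest.Agent.S0453Aux.Assembly

/-!
# `CL² = CL + X3 + X4` and the reduction of `Gap n d` to the three analytic inputs (task SQ)

* `HT3 n d` : output of task T3 (three-row lemma transferred to graphs);
* `HB3 n d` : output of task B3 (`X4 ≥ 0`);
* `HLC n d C` : output of task LC (`∑_{a≠b} |Q_ab f|² ≤ C · dir d f`).

`gap_of_inputs : HT3 n d → HB3 n d → HLC n d C → C ≤ 2 n² → Gap n d`.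
-/

set_option autoImplicit false
open Finset
open Crest Crest.SwitchChain

namespace Crest.Agent.S0453Aux

variable {n : ℕ}

/-- Output of task T3. -/
def HT3 (n : ℕ) (d : Fin n → ℕ) : Prop :=
  ∀ a b c : Fin n, a ≠ b → a ≠ c → b ≠ c → ∀ f : Finset (Edge n) → ℝ,
    ∑ G ∈ realizations d, f G * (3 * f G - Ep d a b f G - Ep d a c f G - Ep d b c f G) ≤
      ∑ G ∈ realizations d, (3 * f G - Ep d a b f G - Ep d a c f G - Ep d b c f G) ^ 2

/-- Output of task B3 (weak form `X4 ≥ 0`). -/
def HB3 (n : ℕ) (d : Fin n → ℕ) : Prop :=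
  ∀ f : Finset (Edge n) → ℝ,
    0 ≤ ∑ a : Fin n, ∑ b : Fin n, ∑ c : Fin n, ∑ e : Fin n,
      if (a ≠ b ∧ a ≠ c ∧ a ≠ e ∧ b ≠ c ∧ b ≠ e ∧ c ≠ e) then
        ip (realizations d) (Qp d a b f) (Qp d c e f) else 0

/-- Output of task LC. -/
def HLC (n : ℕ) (d : Fin n → ℕ) (C : ℝ) : Prop :=
  ∀ f : Finset (Edge n) → ℝ,
    (∑ a : Fin n, ∑ b : Fin n,
      if a ≠ b then ip (realizations d) (Qp d a b f) (Qp d a b f) else 0) ≤ C * dir d f

namespace SQ

theorem ip_comm {α : Type*} (Om : Finset α) (f g : α → ℝ) : ip Om f g = ip Om g f := by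
  unfold ip; exact sum_congr rfl fun x _ => mul_comm _ _

theorem ip_self_nonneg {α : Type*} (Om : Finset α) (f : α → ℝ) : 0 ≤ ip Om f f :=
  sum_nonneg fun _ _ => mul_self_nonneg _

theorem eq_zero_of_ip_self {α : Type*} {Om : Finset α} {f : α → ℝ} (h : ip Om f f = 0) :
    ∀ x ∈ Om, f x = 0 := by
  intro x hx
  have := (sum_eq_zero_iff_of_nonneg (fun i _ => mul_self_nonneg (f i))).1 h x hx
  simpa using this

variable (d : Fin n → ℕ)

theorem Ep_comm (a b : Fin n) : Ep d a b = Ep d b a := by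
  unfold Ep; rw [Finset.pair_comm]

theorem Qp_comm (a b : Fin n) : Qp d a b = Qp d b a := by
  unfold Qp; rw [Ep_comm]

theorem Qp_add (a b : Fin n) (f g : Finset (Edge n) → ℝ) (G : Finset (Edge n)) :
    Qp d a b (f + g) G = Qp d a b f G + Qp d a b g G := by
  unfold Qp Ep; rw [cE_add]; simp only [Pi.add_apply]; ring

theorem Qp_smul (a b : Fin n) (t : ℝ) (f : Finset (Edge n) → ℝ) (G : Finset (Edge n)) :
    Qp d a b (t • f) G = t * Qp d a b f G := by
  unfold Qp Ep; rw [cE_smul]; simp only [Pi.smul_apply, smul_eq_mul]; ring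

theorem Qp_congr (a b : Fin n) {f g : Finset (Edge n) → ℝ}
    (h : ∀ G ∈ realizations d, f G = g G) : ∀ G ∈ realizations d, Qp d a b f G = Qp d a b g G := by
  intro G hG
  unfold Qp Ep; rw [cE_congr _ _ h, h G hG]

theorem Qp_symm (a b : Fin n) (f g : Finset (Edge n) → ℝ) :
    ip (realizations d) (Qp d a b f) g = ip (realizations d) f (Qp d a b g) := by
  have := cE_symm (realizations d) (away {a, b}) f g
  unfold ip at this ⊢
  unfold Qp Ep
  simp only [sub_mul, mul_sub, sum_sub_distrib]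
  rw [this]

theorem Ep_Qp (a b : Fin n) (f : Finset (Edge n) → ℝ) (G : Finset (Edge n)) :
    Ep d a b (Qp d a b f) G = 0 := by
  have h : Qp d a b f = f + (-1 : ℝ) • Ep d a b f := by
    funext G; simp [Qp]; ring
  rw [h]
  unfold Ep
  rw [cE_add, cE_smul, cE_idem]; ring

theorem Qp_idem (a b : Fin n) (f : Finset (Edge n) → ℝ) (G : Finset (Edge n)) :
    Qp d a b (Qp d a b f) G = Qp d a b f G := by
  have h : Qp d a b (Qp d a b f) G = Qp d a b f G - Ep d a b (Qp d a b f) G := rfl
  rw [h, Ep_Qp, sub_zero]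

theorem ip_Qp_self (a b : Fin n) (f : Finset (Edge n) → ℝ) :
    ip (realizations d) f (Qp d a b f) = ip (realizations d) (Qp d a b f) (Qp d a b f) := by
  rw [Qp_symm]
  unfold ip
  exact sum_congr rfl fun G _ => by rw [Qp_idem]

/-- `A = ∑_{a ≠ b} Q_ab = 2 CL`. -/
noncomputable def Aop (f : Finset (Edge n) → ℝ) : Finset (Edge n) → ℝ :=
  fun G => ∑ a : Fin n, ∑ b : Fin n, if a ≠ b then Qp d a b f G else 0

theorem ip_Aop_right (f g : Finset (Edge n) → ℝ) :
    ip (realizations d) f (Aop d g) =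
      ∑ a : Fin n, ∑ b : Fin n, if a ≠ b then ip (realizations d) f (Qp d a b g) else 0 := by
  unfold ip Aop
  simp only [mul_sum]
  rw [sum_comm]
  refine sum_congr rfl fun a _ => ?_
  rw [sum_comm]
  refine sum_congr rfl fun b _ => ?_
  by_cases h : a ≠ b
  · simp only [if_pos h]
  · simp only [if_neg h, mul_zero, sum_const_zero]

theorem ip_Aop_left (f g : Finset (Edge n) → ℝ) :
    ip (realizations d) (Aop d f) g =
      ∑ a : Fin n, ∑ b : Fin n, if a ≠ b then ip (realizations d) (Qp d a b f) g else 0 := by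
  rw [ip_comm, ip_Aop_right]
  refine sum_congr rfl fun a _ => sum_congr rfl fun b _ => ?_
  rw [ip_comm]

theorem ip_Aop_self (f : Finset (Edge n) → ℝ) :
    ip (realizations d) f (Aop d f) = ∑ a : Fin n, ∑ b : Fin n,
      if a ≠ b then ip (realizations d) (Qp d a b f) (Qp d a b f) else 0 := by
  rw [ip_Aop_right]
  refine sum_congr rfl fun a _ => sum_congr rfl fun b _ => ?_
  rw [ip_Qp_self]

theorem ip_Aop_Aop (f : Finset (Edge n) → ℝ) :
    ip (realizations d) (Aop d f) (Aop d f) =
      ∑ a : Fin n, ∑ b : Fin n, ∑ c : Fin n, ∑ e : Fin n,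
        if (a ≠ b ∧ c ≠ e) then ip (realizations d) (Qp d a b f) (Qp d c e f) else 0 := by
  rw [ip_Aop_left]
  refine sum_congr rfl fun a _ => sum_congr rfl fun b _ => ?_
  by_cases h : a ≠ b
  · rw [if_pos h, ip_Aop_right]
    simp only [h, true_and, ne_eq, not_false_eq_true]
  · simp [h]

theorem cross_nonneg (hT3 : HT3 n d) {a b c : Fin n} (hab : a ≠ b) (hac : a ≠ c) (hbc : b ≠ c)
    (f : Finset (Edge n) → ℝ) :
    0 ≤ ip (realizations d) (Qp d a b f) (Qp d a c f) + ip (realizations d) (Qp d a b f) (Qp d b c f)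
      + ip (realizations d) (Qp d a c f) (Qp d b c f) := by
  have h := hT3 a b c hab hac hbc f
  have e1 : ∑ G ∈ realizations d, f G * (3 * f G - Ep d a b f G - Ep d a c f G - Ep d b c f G) =
      ip (realizations d) (Qp d a b f) (Qp d a b f) + ip (realizations d) (Qp d a c f) (Qp d a c f)
        + ip (realizations d) (Qp d b c f) (Qp d b c f) := by
    rw [← ip_Qp_self, ← ip_Qp_self, ← ip_Qp_self]
    unfold ip Qp
    rw [← sum_add_distrib, ← sum_add_distrib]
    exact sum_congr rfl fun G _ => by ring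
  have e2 : ∑ G ∈ realizations d, (3 * f G - Ep d a b f G - Ep d a c f G - Ep d b c f G) ^ 2 =
      ip (realizations d) (Qp d a b f) (Qp d a b f) + ip (realizations d) (Qp d a c f) (Qp d a c f)
        + ip (realizations d) (Qp d b c f) (Qp d b c f) +
        2 * (ip (realizations d) (Qp d a b f) (Qp d a c f) +
          ip (realizations d) (Qp d a b f) (Qp d b c f)
          + ip (realizations d) (Qp d a c f) (Qp d b c f)) := by
    unfold ip Qp
    simp only [← sum_add_distrib, mul_sum]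
    exact sum_congr rfl fun G _ => by ring
  rw [e1, e2] at h
  linarith

theorem sq_ge (hT3 : HT3 n d) (hB3 : HB3 n d) (f : Finset (Edge n) → ℝ) :
    2 * ip (realizations d) f (Aop d f) ≤ ip (realizations d) (Aop d f) (Aop d f) := by
  set T : Fin n → Fin n → Fin n → Fin n → ℝ :=
    fun a b c e => ip (realizations d) (Qp d a b f) (Qp d c e f) with hT
  have s1 : ∀ a b c e, T a b c e = T b a c e := by
    intro a b c e; simp only [hT]; rw [Qp_comm d a b]
  have s2 : ∀ a b c e, T a b c e = T a b e c := by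
    intro a b c e; simp only [hT]; rw [Qp_comm d c e]
  rw [ip_Aop_Aop, ip_Aop_self]
  have h1 := sum_sq_split T s1 s2
  have h2 := three_Y3 T s1 s2
  have h3 : 0 ≤ ∑ a, ∑ b, ∑ c,
      if (a ≠ b ∧ a ≠ c ∧ b ≠ c) then (T a b a c + T a b b c + T a c b c) else 0 := by
    refine sum_nonneg fun a _ => sum_nonneg fun b _ => sum_nonneg fun c _ => ?_
    by_cases h : a ≠ b ∧ a ≠ c ∧ b ≠ c
    · rw [if_pos h]; exact cross_nonneg d hT3 h.1 h.2.1 h.2.2 f
    · rw [if_neg h]
  have h4 := hB3 f
  simp only [hT] at h1 h2 h3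
  rw [h1]
  linarith

theorem away_sw {G : Finset (Edge n)} {a b c e : Fin n} (hac : a ≠ c) (hbe : b ≠ e) (hae : a ≠ e)
    (hbc : b ≠ c) : away {a, b} (sw G a b c e hac hbe hae hbc) = away {a, b} G := by
  ext x
  simp only [away, sw, mem_filter, mem_union, mem_sdiff, mem_insert, mem_singleton, not_or,
    forall_eq_or_imp, forall_eq]
  constructor
  · rintro ⟨h | h, ha, hb⟩
    · exact ⟨h.1, ha, hb⟩
    · rcases h with rfl | rfl
      · exact absurd (by simp [mkE]) ha
      · exact absurd (by simp [mkE]) hb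
  · rintro ⟨h, ha, hb⟩
    refine ⟨Or.inl ⟨h, ?_, ?_⟩, ha, hb⟩
    · rintro rfl; exact ha (by simp [mkE])
    · rintro rfl; exact hb (by simp [mkE])

theorem ker_const (f : Finset (Edge n) → ℝ) (h : ∀ G ∈ realizations d, Aop d f G = 0) :
    ∀ G ∈ realizations d, ∀ G' ∈ realizations d, f G = f G' := by
  have h0 : ip (realizations d) f (Aop d f) = 0 := by
    unfold ip
    exact sum_eq_zero fun G hG => by rw [h G hG, mul_zero]
  rw [ip_Aop_self] at h0
  have hnn : ∀ a b : Fin n,
      0 ≤ (if a ≠ b then ip (realizations d) (Qp d a b f) (Qp d a b f) else 0) := by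
    intro a b; split_ifs
    · exact ip_self_nonneg _ _
    · exact le_rfl
  have h1 : ∀ a b : Fin n, a ≠ b → ip (realizations d) (Qp d a b f) (Qp d a b f) = 0 := by
    intro a b hab
    have h2 := (sum_eq_zero_iff_of_nonneg (fun a _ => sum_nonneg fun b _ => hnn a b)).1 h0 a
      (mem_univ a)
    have h3 := (sum_eq_zero_iff_of_nonneg (fun b _ => hnn a b)).1 h2 b (mem_univ b)
    rwa [if_pos hab] at h3
  intro G hG G' hG'
  refine const_of_switch_invariant f ?_ hG hG'
  intro G hG G' hst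
  have hG' := hst.mem_realizations hG
  obtain ⟨a, b, c, e, hac, hbe, hae, hbc, hab, -, -, -, -, -, rfl⟩ := hst
  have hq := eq_zero_of_ip_self (h1 a b hab)
  refine eq_of_cE_eq (realizations d) (away {a, b}) (f := f) ?_ hG hG' (away_sw hac hbe hae hbc).symm
  intro x hx
  have := hq x hx
  unfold Qp Ep at this
  linarith

theorem dir_nonneg (f : Finset (Edge n) → ℝ) : 0 ≤ dir d f := by
  unfold dir propSum
  exact sum_nonneg fun _ _ => sum_nonneg fun _ _ => sum_nonneg fun _ _ => sum_nonneg fun _ _ =>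
    sq_nonneg _

end SQ

open SQ in
/-- **Task SQ**: the spectral gap estimate follows from the outputs of T3, B3 and LC. -/
theorem gap_of_inputs {d : Fin n → ℕ} {C : ℝ} (hT3 : HT3 n d) (hB3 : HB3 n d) (hLC : HLC n d C)
    (hC : C ≤ 2 * (n : ℝ) ^ 2) : Gap n d := by
  intro f
  have key := gap_finset (realizations d) (Aop d) 2 ?_ ?_ ?_ ?_ ?_ (sq_ge d hT3 hB3) (ker_const d) f
  · rw [ip_Aop_self] at key
    have h1 := hLC f
    have h2 := dir_nonneg d f
    have h3 : C * dir d f ≤ 2 * (n : ℝ) ^ 2 * dir d f := mul_le_mul_of_nonneg_right hC h2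
    have h4 : (0 : ℝ) ≤ ((realizations d).card : ℝ) := Nat.cast_nonneg _
    have h5 := mul_le_mul_of_nonneg_left (le_trans h1 h3) h4
    nlinarith
  · intro f g G
    unfold Aop
    simp only [Qp_add]
    rw [← sum_add_distrib]
    refine sum_congr rfl fun a _ => ?_
    rw [← sum_add_distrib]
    refine sum_congr rfl fun b _ => ?_
    split_ifs <;> simp
  · intro t f G
    unfold Aop
    simp only [Qp_smul, mul_sum]
    refine sum_congr rfl fun a _ => sum_congr rfl fun b _ => ?_
    split_ifs <;> simp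
  · intro f g h G hG
    unfold Aop
    refine sum_congr rfl fun a _ => sum_congr rfl fun b _ => ?_
    rw [Qp_congr d a b h G hG]
  · intro f g
    rw [ip_Aop_right, ip_Aop_left]
    refine sum_congr rfl fun a _ => sum_congr rfl fun b _ => ?_
    rw [Qp_symm]
  · intro f
    rw [ip_Aop_self]
    refine sum_nonneg fun a _ => sum_nonneg fun b _ => ?_
    split_ifs
    · exact ip_self_nonneg _ _
    · exact le_rfl

end Crest.Agent.S0453Aux
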