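import Mathlib

/-! # Lemma M for S0453 : the one-dimensional log-concave lemma
(invariant sector of the three-row lemma). -/

set_option autoImplicit false

namespace Crest.Agent.S0453Aux
open Finset

namespace LM

/-- Abstract "bounded orbit" lemma: a map `K` that is symmetric for a form `B` satisfying
Cauchy-Schwarz, with a bounded orbit `B (K^k φ) (K^k φ) ≤ C`, satisfies `B φ (K φ) ≤ B φ φ`. -/
theorem form_le_of_bounded_orbit {V : Type*} (B : V → V → ℝ)
    (hnn : ∀ x, 0 ≤ B x x) (hCS : ∀ x y, B x y ^ 2 ≤ B x x * B y y)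
    (K : V → V) (hK : ∀ x y, B (K x) y = B x (K y)) (φ : V) (C : ℝ)
    (hC : ∀ k : ℕ, B (K^[k] φ) (K^[k] φ) ≤ C) : B φ (K φ) ≤ B φ φ := by
  set a : ℕ → ℝ := fun k => B (K^[k] φ) (K^[k] φ) with ha
  have ha0 : ∀ k, 0 ≤ a k := fun k => hnn _
  have hlc : ∀ k, a (k + 1) ^ 2 ≤ a k * a (k + 2) := by
    intro k
    have h1 : a (k + 1) = B (K^[k] φ) (K^[k + 2] φ) := by
      simp only [ha]
      rw [Function.iterate_succ_apply' K k φ, hK, ← Function.iterate_succ_apply' K,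
        ← Function.iterate_succ_apply' K]
    rw [h1]
    exact hCS _ _
  have key : a 1 ≤ a 0 := by
    by_contra hlt
    rw [not_le] at hlt
    have h0pos : 0 < a 0 := by
      rcases (ha0 0).lt_or_eq with h | h
      · exact h
      · exfalso
        have := hlc 0
        rw [← h] at this
        simp only [zero_add, zero_mul] at this
        have h1 : a 1 = 0 := by
          have := sq_nonneg (a 1)
          nlinarith [sq_nonneg (a 1)]
        rw [h1, ← h] at hlt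
        exact lt_irrefl _ hlt
    set ρ : ℝ := a 1 / a 0 with hρ
    have hρ1 : 1 < ρ := by rw [hρ, one_lt_div h0pos]; exact hlt
    have hind : ∀ k, 0 < a k ∧ ρ * a k ≤ a (k + 1) := by
      intro k
      induction k with
      | zero =>
        refine ⟨h0pos, ?_⟩
        rw [hρ, div_mul_cancel₀ _ h0pos.ne']
      | succ k ih =>
        obtain ⟨hk, hk1⟩ := ih
        have hk1pos : 0 < a (k + 1) := lt_of_lt_of_le (by positivity) hk1
        refine ⟨hk1pos, ?_⟩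
        have h2 := hlc k
        -- a (k+1)^2 ≤ a k * a (k+2),  ρ a k ≤ a (k+1)
        have h3 : ρ * a k * a (k + 1) ≤ a k * a (k + 2) := by
          calc ρ * a k * a (k + 1) ≤ a (k + 1) * a (k + 1) :=
                mul_le_mul_of_nonneg_right hk1 hk1pos.le
            _ = a (k + 1) ^ 2 := by ring
            _ ≤ _ := h2
        have h4 : a k * (ρ * a (k + 1)) ≤ a k * a (k + 2) := by linarith
        exact le_of_mul_le_mul_left h4 hk
    have hgrow : ∀ k, ρ ^ k * a 0 ≤ a k := by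
      intro k
      induction k with
      | zero => simp
      | succ k ih =>
        calc ρ ^ (k + 1) * a 0 = ρ * (ρ ^ k * a 0) := by ring
          _ ≤ ρ * a k := mul_le_mul_of_nonneg_left ih (by linarith)
          _ ≤ a (k + 1) := (hind k).2
    obtain ⟨k, hk⟩ := pow_unbounded_of_one_lt (C / a 0) hρ1
    have h5 : C < ρ ^ k * a 0 := by rwa [div_lt_iff₀ h0pos] at hk
    exact absurd (hC k) (not_le.mpr (lt_of_lt_of_le h5 (hgrow k)))
  have h1 : B φ (K φ) ^ 2 ≤ a 0 * a 1 := by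
    have := hCS φ (K φ)
    simpa [ha] using this
  have h2 : B φ (K φ) ^ 2 ≤ a 0 ^ 2 := by
    calc B φ (K φ) ^ 2 ≤ a 0 * a 1 := h1
      _ ≤ a 0 * a 0 := mul_le_mul_of_nonneg_left key (ha0 0)
      _ = a 0 ^ 2 := by ring
  have h3 := abs_le_of_sq_le_sq' h2 (ha0 0)
  simpa [ha] using h3.2

/-- monotone likelihood ratio implies stochastic domination (cross-multiplied form). -/
theorem mlr_dom (a b : ℕ → ℝ) (N t : ℕ) (ht : t ≤ N)
    (h : ∀ y y', y < y' → y' < N → a y' * b y ≤ a y * b y') :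
    (∑ y ∈ range N, a y) * (∑ y ∈ range t, b y) ≤ (∑ y ∈ range t, a y) * (∑ y ∈ range N, b y) := by
  rw [← Finset.sum_range_add_sum_Ico a ht, ← Finset.sum_range_add_sum_Ico b ht]
  have key : (∑ y ∈ Ico t N, a y) * (∑ y ∈ range t, b y) ≤
      (∑ y ∈ range t, a y) * (∑ y ∈ Ico t N, b y) := by
    rw [Finset.sum_mul_sum, Finset.sum_mul_sum, Finset.sum_comm]
    refine Finset.sum_le_sum fun y hy => Finset.sum_le_sum fun y' hy' => ?_
    rw [Finset.mem_range] at hy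
    rw [Finset.mem_Ico] at hy'
    exact h y y' (lt_of_lt_of_le hy hy'.1) hy'.2
  nlinarith [key]

/-- one-dimensional nearest-neighbour transport. -/
theorem transport_le (μ ν h1 h0 : ℕ → ℝ) (q : ℕ)
    (hI : ∀ t, t ≤ q + 1 → ∑ y ∈ range t, μ y ≤ ∑ y ∈ range t, ν y)
    (hII : ∀ t, t ≤ q → ∑ y ∈ range t, ν y ≤ ∑ y ∈ range (t + 1), μ y)
    (htot : ∑ y ∈ range (q + 2), μ y = ∑ y ∈ range (q + 1), ν y)
    (ha : ∀ y, y ≤ q → h1 y ≤ h0 y) (hb : ∀ y, y ≤ q → h1 (y + 1) ≤ h0 y) :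
    ∑ y ∈ range (q + 2), μ y * h1 y ≤ ∑ y ∈ range (q + 1), ν y * h0 y := by
  have P : ∀ t, t ≤ q + 1 →
      ∑ y ∈ range t, μ y * h1 y + (∑ y ∈ range t, ν y - ∑ y ∈ range t, μ y) * h1 t ≤
        ∑ y ∈ range t, ν y * h0 y := by
    intro t
    induction t with
    | zero => intro _; simp
    | succ t ih =>
      intro ht
      have ht' : t ≤ q := by omega
      have ih' := ih (by omega)
      have hR1 := hI (t + 1) ht
      have hs := hII t ht'
      rw [Finset.sum_range_succ] at hs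
      rw [Finset.sum_range_succ, Finset.sum_range_succ (fun y => ν y * h0 y),
        Finset.sum_range_succ ν, Finset.sum_range_succ μ] at *
      set A := ∑ y ∈ range t, μ y
      set Bn := ∑ y ∈ range t, ν y
      have e1 : 0 ≤ Bn + ν t - (A + μ t) := by linarith
      have e2 : 0 ≤ μ t - (Bn - A) := by linarith
      have f1 := mul_le_mul_of_nonneg_left (hb t ht') e1
      have f2 := mul_le_mul_of_nonneg_left (ha t ht') e2
      nlinarith [f1, f2, ih']
  have h := P (q + 1) le_rfl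
  rw [Finset.sum_range_succ (fun y => μ y * h1 y) (q + 1)]
  have e : ∑ y ∈ range (q + 1), ν y - ∑ y ∈ range (q + 1), μ y = μ (q + 1) := by
    rw [← htot, Finset.sum_range_succ μ (q + 1)]; ring
  rw [e] at h
  exact h

/-- general form of log-concavity. -/
theorem logconc_gen (β : ℕ → ℝ) (hpos : ∀ k, 0 < β k) (hlc : ∀ k, β k * β (k + 2) ≤ β (k + 1) ^ 2)
    (c' c : ℕ) (h : c' ≤ c) : β c' * β (c + 1) ≤ β (c' + 1) * β c := by
  induction c, h using Nat.le_induction with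
  | base => exact le_of_eq (mul_comm _ _)
  | succ c hc ih =>
    have h1 := hlc c
    have h2 : β c * (β c' * β (c + 1 + 1)) ≤ β c * (β (c' + 1) * β (c + 1)) := by
      calc β c * (β c' * β (c + 1 + 1)) = β c' * (β c * β (c + 2)) := by ring
        _ ≤ β c' * β (c + 1) ^ 2 := mul_le_mul_of_nonneg_left h1 (hpos _).le
        _ = (β c' * β (c + 1)) * β (c + 1) := by ring
        _ ≤ (β (c' + 1) * β c) * β (c + 1) := mul_le_mul_of_nonneg_right ih (hpos _).le
        _ = _ := by ring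
    exact le_of_mul_le_mul_left h2 (hpos c)

/-- convolution normalisation -/
noncomputable def Sq (α β : ℕ → ℝ) (q : ℕ) : ℝ := ∑ y ∈ range (q + 1), α y * β (q - y)
/-- convolution numerator -/
noncomputable def Nq (α β f g : ℕ → ℝ) (q : ℕ) : ℝ :=
  ∑ y ∈ range (q + 1), α y * β (q - y) * (f y + g (q - y))

theorem Sq_pos (α β : ℕ → ℝ) (hα : ∀ k, 0 < α k) (hβ : ∀ k, 0 < β k) (q : ℕ) : 0 < Sq α β q := by
  unfold Sq
  exact Finset.sum_pos (fun y _ => mul_pos (hα _) (hβ _)) ⟨0, by simp⟩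

theorem key_upper (α β : ℕ → ℝ) (hα : ∀ k, 0 < α k) (hβ : ∀ k, 0 < β k)
    (hαlc : ∀ k, α k * α (k + 2) ≤ α (k + 1) ^ 2) (hβlc : ∀ k, β k * β (k + 2) ≤ β (k + 1) ^ 2)
    (f g : ℕ → ℝ) (G : ℝ) (q : ℕ)
    (hf : ∀ y, y ≤ q → f (y + 1) - f y ≤ G) (hg : ∀ y, y ≤ q → g (y + 1) - g y ≤ G) :
    Nq α β f g (q + 1) / Sq α β (q + 1) ≤ Nq α β f g q / Sq α β q + G := by
  have hS0 := Sq_pos α β hα hβ q
  have hS1 := Sq_pos α β hα hβ (q + 1)
  set a : ℕ → ℝ := fun y => α y * β (q + 1 - y) with ha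
  set b : ℕ → ℝ := fun y => α y * β (q - y) with hb
  have ha0 : ∀ y, 0 < a y := fun y => mul_pos (hα _) (hβ _)
  have hb0 : ∀ y, 0 < b y := fun y => mul_pos (hα _) (hβ _)
  have hSa : Sq α β (q + 1) = ∑ y ∈ range (q + 2), a y := rfl
  have hSb : Sq α β q = ∑ y ∈ range (q + 1), b y := rfl
  have main := transport_le (fun y => Sq α β q * a y) (fun y => Sq α β (q + 1) * b y)
    (fun y => f y + g (q + 1 - y)) (fun y => f y + g (q - y) + G) q ?_ ?_ ?_ ?_ ?_
  · -- conclude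
    have e1 : ∑ y ∈ range (q + 2), Sq α β q * a y * (f y + g (q + 1 - y)) =
        Sq α β q * Nq α β f g (q + 1) := by
      unfold Nq; rw [Finset.mul_sum]; exact Finset.sum_congr rfl fun y _ => by ring
    have e2 : ∑ y ∈ range (q + 1), Sq α β (q + 1) * b y * (f y + g (q - y) + G) =
        Sq α β (q + 1) * (Nq α β f g q + G * Sq α β q) := by
      have e3 : Nq α β f g q + G * Sq α β q = ∑ y ∈ range (q + 1), b y * (f y + g (q - y) + G) := by
        unfold Nq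
        rw [hSb, Finset.mul_sum, ← Finset.sum_add_distrib]
        exact Finset.sum_congr rfl fun y _ => by simp only [hb]; ring
      rw [e3, Finset.mul_sum]
      exact Finset.sum_congr rfl fun y _ => by ring
    rw [e1, e2] at main
    rw [div_add' _ _ _ hS0.ne', div_le_div_iff₀ hS1 hS0]
    nlinarith [main]
  · -- (I)
    intro t ht
    rw [← Finset.mul_sum, ← Finset.mul_sum]
    have h1 := mlr_dom b a (q + 1) t ht ?_
    · rw [← hSb] at h1
      have h2 : ∑ y ∈ range (q + 1), a y ≤ Sq α β (q + 1) := by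
        rw [hSa, Finset.sum_range_succ a (q + 1)]; linarith [ha0 (q + 1)]
      have h3 : 0 ≤ ∑ y ∈ range t, b y := Finset.sum_nonneg fun y _ => (hb0 y).le
      nlinarith [mul_le_mul_of_nonneg_left h2 h3]
    · intro y y' hy hy'
      simp only [ha, hb]
      have hl := logconc_gen β hβ hβlc (q - y') (q - y) (by omega)
      have e1 : q + 1 - y = q - y + 1 := by omega
      have e2 : q + 1 - y' = q - y' + 1 := by omega
      rw [e1, e2]
      have := mul_le_mul_of_nonneg_left hl (mul_pos (hα y) (hα y')).le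
      nlinarith [this]
  · -- (II)
    intro t ht
    rw [← Finset.mul_sum, ← Finset.mul_sum]
    have h1 := mlr_dom (fun y => a (y + 1)) b (q + 1) t (by omega) ?_
    · rw [← hSb] at h1
      rw [Finset.sum_range_succ' a t, hSa, Finset.sum_range_succ' a (q + 1)]
      have h3 : ∑ y ∈ range t, b y ≤ Sq α β q := by
        rw [hSb]
        exact Finset.sum_le_sum_of_subset_of_nonneg
          (Finset.range_subset_range.2 (by omega)) fun y _ _ => (hb0 y).le
      nlinarith [mul_le_mul_of_nonneg_left h3 (ha0 0).le]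
    · intro y y' hy hy'
      simp only [ha, hb]
      have hl := logconc_gen α hα hαlc y y' hy.le
      have e1 : q + 1 - (y + 1) = q - y := by omega
      have e2 : q + 1 - (y' + 1) = q - y' := by omega
      rw [e1, e2]
      have := mul_le_mul_of_nonneg_left hl (mul_pos (hβ (q - y)) (hβ (q - y'))).le
      nlinarith [this]
  · rw [← Finset.mul_sum, ← Finset.mul_sum, ← hSa, ← hSb]; ring
  · intro y hy
    have e1 : q + 1 - y = q - y + 1 := by omega
    have := hg (q - y) (by omega)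
    simp only [e1]; linarith
  · intro y hy
    have e1 : q + 1 - (y + 1) = q - y := by omega
    have := hf y hy
    simp only [e1]; linarith

theorem Nq_neg (α β f g : ℕ → ℝ) (q : ℕ) :
    Nq α β (fun y => - f y) (fun y => - g y) q = - Nq α β f g q := by
  unfold Nq
  rw [← Finset.sum_neg_distrib]
  exact Finset.sum_congr rfl fun y _ => by ring

theorem key_abs (α β : ℕ → ℝ) (hα : ∀ k, 0 < α k) (hβ : ∀ k, 0 < β k)
    (hαlc : ∀ k, α k * α (k + 2) ≤ α (k + 1) ^ 2) (hβlc : ∀ k, β k * β (k + 2) ≤ β (k + 1) ^ 2)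
    (f g : ℕ → ℝ) (G : ℝ) (q : ℕ)
    (hf : ∀ y, y ≤ q → |f (y + 1) - f y| ≤ G) (hg : ∀ y, y ≤ q → |g (y + 1) - g y| ≤ G) :
    |Nq α β f g (q + 1) / Sq α β (q + 1) - Nq α β f g q / Sq α β q| ≤ G := by
  have h1 := key_upper α β hα hβ hαlc hβlc f g G q
    (fun y hy => (abs_le.1 (hf y hy)).2) (fun y hy => (abs_le.1 (hg y hy)).2)
  have h2 := key_upper α β hα hβ hαlc hβlc (fun y => - f y) (fun y => - g y) G q
    (fun y hy => by have := (abs_le.1 (hf y hy)).1; linarith)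
    (fun y hy => by have := (abs_le.1 (hg y hy)).1; linarith)
  rw [Nq_neg, Nq_neg, neg_div, neg_div] at h2
  rw [abs_le]
  constructor <;> linarith

/-! ### Fin 3 bookkeeping -/

theorem fin3_sum (i : Fin 3) (m : Fin 3 → ℕ) : ∑ k, m k = m i + m (i + 1) + m (i + 2) := by
  fin_cases i <;> simp [Fin.sum_univ_three] <;> ring

theorem fin3_prod (i : Fin 3) (h : Fin 3 → ℝ) : ∏ k, h k = h i * h (i + 1) * h (i + 2) := by
  fin_cases i <;> simp [Fin.prod_univ_three] <;> ring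

theorem fin3_cases (i k : Fin 3) : k = i ∨ k = i + 1 ∨ k = i + 2 := by
  revert i k; decide

theorem fin3_ne1 (i : Fin 3) : i + 1 ≠ i := by revert i; decide
theorem fin3_ne2 (i : Fin 3) : i + 2 ≠ i := by revert i; decide
theorem fin3_ne12 (i : Fin 3) : i + 2 ≠ i + 1 := by revert i; decide

/-- the triple with value `x` at `i`, `y` at `i+1`, `z` at `i+2`. -/
def tup (i : Fin 3) (x y z : ℕ) : Fin 3 → ℕ :=
  fun k => if k = i then x else if k = i + 1 then y else z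

@[simp] theorem tup_0 (i : Fin 3) (x y z : ℕ) : tup i x y z i = x := by simp [tup]
@[simp] theorem tup_1 (i : Fin 3) (x y z : ℕ) : tup i x y z (i + 1) = y := by
  simp [tup]
@[simp] theorem tup_2 (i : Fin 3) (x y z : ℕ) : tup i x y z (i + 2) = z := by
  simp [tup]

theorem tup_eta (i : Fin 3) (m : Fin 3 → ℕ) : tup i (m i) (m (i + 1)) (m (i + 2)) = m := by
  funext k
  rcases fin3_cases i k with h | h | h <;> subst h <;> simp

/-- the simplex `{m : m 0 + m 1 + m 2 = p}`. -/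
abbrev TT (p : ℕ) : Finset (Fin 3 → ℕ) := Finset.Nat.antidiagonalTuple 3 p

theorem fibre_sum (p : ℕ) (i : Fin 3) (x : ℕ) (hx : x ≤ p) (F : (Fin 3 → ℕ) → ℝ) :
    ∑ m ∈ (TT p).filter (fun m => m i = x), F m =
      ∑ y ∈ range (p - x + 1), F (tup i x y (p - x - y)) := by
  refine Finset.sum_nbij' (fun m => m (i + 1)) (fun y => tup i x y (p - x - y)) ?_ ?_ ?_ ?_ ?_
  · intro m hm
    rw [Finset.mem_filter, Finset.Nat.mem_antidiagonalTuple, fin3_sum i] at hm
    rw [Finset.mem_range]; omega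
  · intro y hy
    rw [Finset.mem_range] at hy
    rw [Finset.mem_filter, Finset.Nat.mem_antidiagonalTuple, fin3_sum i]
    refine ⟨?_, tup_0 _ _ _ _⟩
    rw [tup_0, tup_1, tup_2]
    omega
  · intro m hm
    rw [Finset.mem_filter, Finset.Nat.mem_antidiagonalTuple, fin3_sum i] at hm
    have h2 : p - x - m (i + 1) = m (i + 2) := by omega
    rw [h2, ← hm.2]; exact tup_eta i m
  · intro y _; simp
  · intro m hm
    rw [Finset.mem_filter, Finset.Nat.mem_antidiagonalTuple, fin3_sum i] at hm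
    have h2 : p - x - m (i + 1) = m (i + 2) := by omega
    rw [h2, ← hm.2, tup_eta i m]

theorem slice_sum (p : ℕ) (i : Fin 3) (F : (Fin 3 → ℕ) → ℝ) :
    ∑ m ∈ TT p, F m =
      ∑ x ∈ range (p + 1), ∑ y ∈ range (p - x + 1), F (tup i x y (p - x - y)) := by
  rw [← Finset.sum_fiberwise_of_maps_to (s := TT p) (t := range (p + 1)) (g := fun m => m i)]
  · refine Finset.sum_congr rfl fun x hx => ?_
    rw [Finset.mem_range] at hx
    exact fibre_sum p i x (by omega) F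
  · intro m hm
    rw [Finset.Nat.mem_antidiagonalTuple, fin3_sum i] at hm
    rw [Finset.mem_range]; omega

/-- product weight -/
noncomputable def Wt (w : Fin 3 → ℕ → ℝ) (m : Fin 3 → ℕ) : ℝ := ∏ i, w i (m i)

theorem Wt_tup (w : Fin 3 → ℕ → ℝ) (i : Fin 3) (x y z : ℕ) :
    Wt w (tup i x y z) = w i x * w (i + 1) y * w (i + 2) z := by
  unfold Wt
  rw [fin3_prod i]; simp

theorem Wt_pos (w : Fin 3 → ℕ → ℝ) (hpos : ∀ i k, 0 < w i k) (m : Fin 3 → ℕ) : 0 < Wt w m :=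
  Finset.prod_pos fun i _ => hpos i _

/-- unnormalised expectation -/
noncomputable def Es (w : Fin 3 → ℕ → ℝ) (p : ℕ) (F : (Fin 3 → ℕ) → ℝ) : ℝ :=
  ∑ m ∈ TT p, Wt w m * F m

theorem Es_add (w : Fin 3 → ℕ → ℝ) (p : ℕ) (F G : (Fin 3 → ℕ) → ℝ) :
    Es w p (fun m => F m + G m) = Es w p F + Es w p G := by
  unfold Es; rw [← Finset.sum_add_distrib]; exact Finset.sum_congr rfl fun m _ => by ring

theorem Es_smul (w : Fin 3 → ℕ → ℝ) (p : ℕ) (c : ℝ) (F : (Fin 3 → ℕ) → ℝ) :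
    Es w p (fun m => c * F m) = c * Es w p F := by
  unfold Es; rw [Finset.mul_sum]; exact Finset.sum_congr rfl fun m _ => by ring

theorem Es_mono (w : Fin 3 → ℕ → ℝ) (hpos : ∀ i k, 0 < w i k) (p : ℕ) (F G : (Fin 3 → ℕ) → ℝ)
    (h : ∀ m ∈ TT p, F m ≤ G m) : Es w p F ≤ Es w p G := by
  unfold Es
  exact Finset.sum_le_sum fun m hm => mul_le_mul_of_nonneg_left (h m hm) (Wt_pos w hpos m).le

/-- unnormalised covariance -/
noncomputable def cov (w : Fin 3 → ℕ → ℝ) (p : ℕ) (F G : (Fin 3 → ℕ) → ℝ) : ℝ :=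
  Es w p (fun _ => 1) * Es w p (fun m => F m * G m) - Es w p F * Es w p G

theorem cov_comm (w : Fin 3 → ℕ → ℝ) (p : ℕ) (F G : (Fin 3 → ℕ) → ℝ) :
    cov w p F G = cov w p G F := by
  unfold cov
  have : (fun m => F m * G m) = fun m => G m * F m := by funext m; ring
  rw [this]; ring

theorem cov_add_right (w : Fin 3 → ℕ → ℝ) (p : ℕ) (F G H : (Fin 3 → ℕ) → ℝ) :
    cov w p F (fun m => G m + H m) = cov w p F G + cov w p F H := by
  unfold cov
  have : (fun m => F m * (G m + H m)) = fun m => F m * G m + F m * H m := by funext m; ring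
  rw [this, Es_add, Es_add]; ring

theorem cov_self_nonneg (w : Fin 3 → ℕ → ℝ) (hpos : ∀ i k, 0 < w i k) (p : ℕ)
    (F : (Fin 3 → ℕ) → ℝ) : 0 ≤ cov w p F F := by
  unfold cov Es
  have := Finset.sum_sq_le_sum_mul_sum_of_sq_le_mul (TT p) (r := fun m => Wt w m * F m)
    (f := fun m => Wt w m * 1) (g := fun m => Wt w m * (F m * F m))
    (fun m _ => by have := (Wt_pos w hpos m).le; positivity)
    (fun m _ => mul_nonneg (Wt_pos w hpos m).le (mul_self_nonneg _))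
    (fun m _ => le_of_eq (by ring))
  nlinarith [this]

theorem cov_quad (w : Fin 3 → ℕ → ℝ) (p : ℕ) (F G : (Fin 3 → ℕ) → ℝ) (t : ℝ) :
    cov w p (fun m => F m + t * G m) (fun m => F m + t * G m) =
      cov w p F F + 2 * t * cov w p F G + t ^ 2 * cov w p G G := by
  unfold cov
  have e1 : (fun m => (F m + t * G m) * (F m + t * G m)) =
      fun m => (F m * F m + (2 * t) * (F m * G m)) + t ^ 2 * (G m * G m) := by funext m; ring
  rw [e1, Es_add, Es_add, Es_add, Es_smul, Es_smul, Es_smul]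
  ring

theorem cov_self_le (w : Fin 3 → ℕ → ℝ) (p : ℕ) (F : (Fin 3 → ℕ) → ℝ) (c : ℝ) :
    cov w p F F ≤ Es w p (fun _ => 1) * Es w p (fun m => (F m - c) ^ 2) := by
  unfold cov
  have e1 : (fun m => (F m - c) ^ 2) = fun m => (F m * F m + (-2 * c) * F m) + c ^ 2 * 1 := by
    funext m; ring
  rw [e1, Es_add, Es_add, Es_smul, Es_smul]
  nlinarith [sq_nonneg (Es w p F - c * Es w p (fun _ => 1))]


/-- the off-diagonal conditional expectation operator -/
noncomputable def Kop (w : Fin 3 → ℕ → ℝ) (p : ℕ) (φ : Fin 3 → ℕ → ℝ) : Fin 3 → ℕ → ℝ :=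
  fun i x => Nq (w (i + 1)) (w (i + 2)) (φ (i + 1)) (φ (i + 2)) (p - x) /
    Sq (w (i + 1)) (w (i + 2)) (p - x)

/-- tower property -/
theorem Es_Kop (w : Fin 3 → ℕ → ℝ) (hpos : ∀ i k, 0 < w i k) (p : ℕ) (φ : Fin 3 → ℕ → ℝ)
    (i : Fin 3) (ψ : ℕ → ℝ) :
    Es w p (fun m => ψ (m i) * Kop w p φ i (m i)) =
      Es w p (fun m => ψ (m i) * (φ (i + 1) (m (i + 1)) + φ (i + 2) (m (i + 2)))) := by
  unfold Es
  rw [slice_sum p i, slice_sum p i]
  refine Finset.sum_congr rfl fun x _ => ?_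
  simp only [Wt_tup, tup_0, tup_1, tup_2]
  have hS := Sq_pos (w (i + 1)) (w (i + 2)) (hpos _) (hpos _) (p - x)
  have e1 : ∑ y ∈ range (p - x + 1), w i x * w (i + 1) y * w (i + 2) (p - x - y) *
      (ψ x * Kop w p φ i x) = w i x * ψ x * Kop w p φ i x * Sq (w (i + 1)) (w (i + 2)) (p - x) := by
    unfold Sq; rw [Finset.mul_sum]; exact Finset.sum_congr rfl fun y _ => by ring
  have e2 : ∑ y ∈ range (p - x + 1), w i x * w (i + 1) y * w (i + 2) (p - x - y) *
      (ψ x * (φ (i + 1) y + φ (i + 2) (p - x - y))) =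
      w i x * ψ x * Nq (w (i + 1)) (w (i + 2)) (φ (i + 1)) (φ (i + 2)) (p - x) := by
    unfold Nq; rw [Finset.mul_sum]; exact Finset.sum_congr rfl fun y _ => by ring
  rw [e1, e2]
  unfold Kop
  field_simp

theorem cov_Kop (w : Fin 3 → ℕ → ℝ) (hpos : ∀ i k, 0 < w i k) (p : ℕ) (φ : Fin 3 → ℕ → ℝ)
    (i : Fin 3) (ψ : ℕ → ℝ) :
    cov w p (fun m => ψ (m i)) (fun m => Kop w p φ i (m i)) =
      cov w p (fun m => ψ (m i)) (fun m => φ (i + 1) (m (i + 1))) +
      cov w p (fun m => ψ (m i)) (fun m => φ (i + 2) (m (i + 2))) := by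
  rw [← cov_add_right]
  unfold cov
  rw [Es_Kop w hpos p φ i ψ]
  have h1 := Es_Kop w hpos p φ i (fun _ => 1)
  simp only [one_mul] at h1
  rw [h1]

/-- the form -/
noncomputable def Bf (w : Fin 3 → ℕ → ℝ) (p : ℕ) (φ ψ : Fin 3 → ℕ → ℝ) : ℝ :=
  ∑ i, cov w p (fun m => φ i (m i)) (fun m => ψ i (m i))

theorem Bf_nonneg (w : Fin 3 → ℕ → ℝ) (hpos : ∀ i k, 0 < w i k) (p : ℕ) (φ : Fin 3 → ℕ → ℝ) :
    0 ≤ Bf w p φ φ := Finset.sum_nonneg fun _ _ => cov_self_nonneg w hpos p _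

theorem Bf_CS (w : Fin 3 → ℕ → ℝ) (hpos : ∀ i k, 0 < w i k) (p : ℕ) (φ ψ : Fin 3 → ℕ → ℝ) :
    Bf w p φ ψ ^ 2 ≤ Bf w p φ φ * Bf w p ψ ψ := by
  have h : ∀ t : ℝ, 0 ≤ Bf w p ψ ψ * (t * t) + (2 * Bf w p φ ψ) * t + Bf w p φ φ := by
    intro t
    have h1 := Bf_nonneg w hpos p (fun i x => φ i x + t * ψ i x)
    unfold Bf at h1 ⊢
    simp only [cov_quad] at h1
    rw [Finset.sum_add_distrib, Finset.sum_add_distrib, ← Finset.mul_sum, ← Finset.mul_sum] at h1
    nlinarith [h1]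
  have := discrim_le_zero h
  unfold discrim at this
  nlinarith [this]

theorem Bf_Kop (w : Fin 3 → ℕ → ℝ) (hpos : ∀ i k, 0 < w i k) (p : ℕ) (φ ψ : Fin 3 → ℕ → ℝ) :
    Bf w p ψ (Kop w p φ) =
      ∑ i, (cov w p (fun m => ψ i (m i)) (fun m => φ (i + 1) (m (i + 1))) +
      cov w p (fun m => ψ i (m i)) (fun m => φ (i + 2) (m (i + 2)))) := by
  unfold Bf
  exact Finset.sum_congr rfl fun i _ => cov_Kop w hpos p φ i (ψ i)

theorem Bf_comm (w : Fin 3 → ℕ → ℝ) (p : ℕ) (φ ψ : Fin 3 → ℕ → ℝ) :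
    Bf w p φ ψ = Bf w p ψ φ := by
  unfold Bf; exact Finset.sum_congr rfl fun i _ => cov_comm w p _ _

theorem Bf_symm (w : Fin 3 → ℕ → ℝ) (hpos : ∀ i k, 0 < w i k) (p : ℕ) (φ ψ : Fin 3 → ℕ → ℝ) :
    Bf w p (Kop w p φ) ψ = Bf w p φ (Kop w p ψ) := by
  rw [Bf_comm, Bf_Kop w hpos, Bf_Kop w hpos]
  simp only [Fin.sum_univ_three, Fin.isValue, zero_add, Fin.reduceAdd]
  rw [cov_comm w p (fun m => φ 0 (m 0)), cov_comm w p (fun m => φ 0 (m 0)),
    cov_comm w p (fun m => φ 1 (m 1)), cov_comm w p (fun m => φ 1 (m 1)),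
    cov_comm w p (fun m => φ 2 (m 2)), cov_comm w p (fun m => φ 2 (m 2))]
  ring

/-- gradient bound -/
def GB (p : ℕ) (G : ℝ) (φ : Fin 3 → ℕ → ℝ) : Prop :=
  ∀ i x, x < p → |φ i (x + 1) - φ i x| ≤ G

theorem GB_Kop (w : Fin 3 → ℕ → ℝ) (hpos : ∀ i k, 0 < w i k)
    (hlc : ∀ i k, w i k * w i (k + 2) ≤ w i (k + 1) ^ 2) (p : ℕ) (G : ℝ) (φ : Fin 3 → ℕ → ℝ)
    (h : GB p G φ) : GB p G (Kop w p φ) := by
  intro i x hx
  unfold Kop
  obtain ⟨q, hq⟩ : ∃ q, p - x = q + 1 := ⟨p - x - 1, by omega⟩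
  have hq' : p - (x + 1) = q := by omega
  rw [hq, hq', abs_sub_comm]
  exact key_abs _ _ (hpos _) (hpos _) (hlc _) (hlc _) _ _ G q
    (fun y hy => h _ y (by omega)) (fun y hy => h _ y (by omega))

theorem GB_iter (w : Fin 3 → ℕ → ℝ) (hpos : ∀ i k, 0 < w i k)
    (hlc : ∀ i k, w i k * w i (k + 2) ≤ w i (k + 1) ^ 2) (p : ℕ) (G : ℝ) (φ : Fin 3 → ℕ → ℝ)
    (h : GB p G φ) (k : ℕ) : GB p G ((Kop w p)^[k] φ) := by
  induction k with
  | zero => exact h
  | succ k ih =>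
    rw [Function.iterate_succ_apply']
    exact GB_Kop w hpos hlc p G _ ih

theorem GB_osc (p : ℕ) (G : ℝ) (φ : Fin 3 → ℕ → ℝ) (h : GB p G φ) (i : Fin 3) (x : ℕ)
    (hx : x ≤ p) : |φ i x - φ i 0| ≤ x * G := by
  induction x with
  | zero => simp
  | succ x ih =>
    have h1 := ih (by omega)
    have h2 := h i x (by omega)
    have h3 : φ i (x + 1) - φ i 0 = (φ i (x + 1) - φ i x) + (φ i x - φ i 0) := by ring
    rw [h3]
    push_cast
    calc _ ≤ |φ i (x + 1) - φ i x| + |φ i x - φ i 0| := abs_add_le _ _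
      _ ≤ G + x * G := add_le_add h2 h1
      _ = _ := by ring

theorem Bf_bound (w : Fin 3 → ℕ → ℝ) (hpos : ∀ i k, 0 < w i k) (p : ℕ) (G : ℝ)
    (hG : 0 ≤ G) (φ : Fin 3 → ℕ → ℝ) (h : GB p G φ) :
    Bf w p φ φ ≤ ∑ _i : Fin 3, Es w p (fun _ => 1) * (Es w p (fun _ => 1) * (p * G) ^ 2) := by
  unfold Bf
  refine Finset.sum_le_sum fun i _ => ?_
  refine (cov_self_le w p _ (φ i 0)).trans ?_
  have hZ : 0 ≤ Es w p (fun _ => 1) := by
    unfold Es; exact Finset.sum_nonneg fun m _ => by have := (Wt_pos w hpos m).le; positivity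
  refine mul_le_mul_of_nonneg_left ?_ hZ
  have h1 : Es w p (fun _ => 1) * (p * G) ^ 2 = Es w p (fun _ => (p * G) ^ 2 * 1) := by
    rw [Es_smul]; ring
  rw [h1]
  refine Es_mono w hpos p _ _ fun m hm => ?_
  rw [Finset.Nat.mem_antidiagonalTuple, fin3_sum i] at hm
  have hmi : m i ≤ p := by omega
  have h2 := GB_osc p G φ h i (m i) hmi
  have h3 : (m i : ℝ) * G ≤ p * G := mul_le_mul_of_nonneg_right (by exact_mod_cast hmi) hG
  rw [mul_one, ← sq_abs (φ i (m i) - φ i 0)]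
  exact pow_le_pow_left₀ (abs_nonneg _) (h2.trans h3) 2


theorem Bf_Kop_le (w : Fin 3 → ℕ → ℝ) (hpos : ∀ i k, 0 < w i k)
    (hlc : ∀ i k, w i k * w i (k + 2) ≤ w i (k + 1) ^ 2) (p : ℕ) (φ : Fin 3 → ℕ → ℝ) :
    Bf w p φ (Kop w p φ) ≤ Bf w p φ φ := by
  set G : ℝ := ∑ i : Fin 3, ∑ x ∈ range p, |φ i (x + 1) - φ i x| with hGdef
  have hG : 0 ≤ G := Finset.sum_nonneg fun i _ => Finset.sum_nonneg fun x _ => abs_nonneg _
  have hGB : GB p G φ := by
    intro i x hx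
    have h1 : |φ i (x + 1) - φ i x| ≤ ∑ x ∈ range p, |φ i (x + 1) - φ i x| :=
      Finset.single_le_sum (f := fun x => |φ i (x + 1) - φ i x|) (fun _ _ => abs_nonneg _)
        (Finset.mem_range.2 hx)
    have h2 : ∑ x ∈ range p, |φ i (x + 1) - φ i x| ≤ G :=
      Finset.single_le_sum (f := fun i => ∑ x ∈ range p, |φ i (x + 1) - φ i x|)
        (fun _ _ => Finset.sum_nonneg fun x _ => abs_nonneg _) (Finset.mem_univ i)
    exact h1.trans h2
  exact form_le_of_bounded_orbit (Bf w p) (Bf_nonneg w hpos p) (Bf_CS w hpos p) (Kop w p)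
    (Bf_symm w hpos p) φ _ (fun k => Bf_bound w hpos p G hG _ (GB_iter w hpos hlc p G φ hGB k))

theorem cov_sum3 (w : Fin 3 → ℕ → ℝ) (p : ℕ) (F : Fin 3 → (Fin 3 → ℕ) → ℝ) :
    cov w p (fun m => ∑ i, F i m) (fun m => ∑ i, F i m) =
      ∑ i, cov w p (F i) (F i) + ∑ i, (cov w p (F i) (F (i + 1)) + cov w p (F i) (F (i + 2))) := by
  simp only [Fin.sum_univ_three, Fin.isValue, zero_add, Fin.reduceAdd]
  rw [cov_add_right, cov_add_right]
  rw [cov_comm w p _ (F 0), cov_comm w p _ (F 1), cov_comm w p _ (F 2)]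
  rw [cov_add_right, cov_add_right, cov_add_right, cov_add_right, cov_add_right, cov_add_right]
  ring

/-- **Lemma M** (form with `cov`). -/
theorem lemmaM_cov (w : Fin 3 → ℕ → ℝ) (hpos : ∀ i k, 0 < w i k)
    (hlc : ∀ i k, w i k * w i (k + 2) ≤ w i (k + 1) ^ 2) (p : ℕ) (φ : Fin 3 → ℕ → ℝ) :
    cov w p (fun m => ∑ i, φ i (m i)) (fun m => ∑ i, φ i (m i)) ≤
      2 * ∑ i, cov w p (fun m => φ i (m i)) (fun m => φ i (m i)) := by
  rw [cov_sum3 w p (fun i m => φ i (m i))]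
  have h := Bf_Kop_le w hpos hlc p φ
  rw [Bf_Kop w hpos] at h
  unfold Bf at h
  linarith

end LM

/-- **Lemma M**: three integer variables with law proportional to a product of strictly positive
log-concave weights, conditioned on their sum: `Var (∑ φ_i(m_i)) ≤ 2 ∑ Var (φ_i(m_i))`
(unnormalised form). -/
theorem lemmaM (w : Fin 3 → ℕ → ℝ) (hpos : ∀ i k, 0 < w i k)
    (hlc : ∀ i k, w i k * w i (k + 2) ≤ w i (k + 1) ^ 2) (p : ℕ) (φ : Fin 3 → ℕ → ℝ) :
    (∑ m ∈ Finset.Nat.antidiagonalTuple 3 p, ∏ i, w i (m i)) *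
        (∑ m ∈ Finset.Nat.antidiagonalTuple 3 p, (∏ i, w i (m i)) * (∑ i, φ i (m i)) ^ 2) -
      (∑ m ∈ Finset.Nat.antidiagonalTuple 3 p, (∏ i, w i (m i)) * ∑ i, φ i (m i)) ^ 2 ≤
    2 * ∑ i, ((∑ m ∈ Finset.Nat.antidiagonalTuple 3 p, ∏ i, w i (m i)) *
        (∑ m ∈ Finset.Nat.antidiagonalTuple 3 p, (∏ i, w i (m i)) * (φ i (m i)) ^ 2) -
      (∑ m ∈ Finset.Nat.antidiagonalTuple 3 p, (∏ i, w i (m i)) * φ i (m i)) ^ 2) := by
  have h := LM.lemmaM_cov w hpos hlc p φ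
  unfold LM.cov LM.Es LM.Wt at h
  simp only [mul_one, ← pow_two] at h
  exact h

/-- **Lemma M**, with `Finset.piAntidiag univ p` as index set. -/
theorem lemmaM_piAntidiag (w : Fin 3 → ℕ → ℝ) (hpos : ∀ i k, 0 < w i k)
    (hlc : ∀ i k, w i k * w i (k + 2) ≤ w i (k + 1) ^ 2) (p : ℕ) (φ : Fin 3 → ℕ → ℝ) :
    (∑ m ∈ Finset.piAntidiag (Finset.univ : Finset (Fin 3)) p, ∏ i, w i (m i)) *
        (∑ m ∈ Finset.piAntidiag (Finset.univ : Finset (Fin 3)) p,
          (∏ i, w i (m i)) * (∑ i, φ i (m i)) ^ 2) -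
      (∑ m ∈ Finset.piAntidiag (Finset.univ : Finset (Fin 3)) p,
          (∏ i, w i (m i)) * ∑ i, φ i (m i)) ^ 2 ≤
    2 * ∑ i, ((∑ m ∈ Finset.piAntidiag (Finset.univ : Finset (Fin 3)) p, ∏ i, w i (m i)) *
        (∑ m ∈ Finset.piAntidiag (Finset.univ : Finset (Fin 3)) p,
          (∏ i, w i (m i)) * (φ i (m i)) ^ 2) -
      (∑ m ∈ Finset.piAntidiag (Finset.univ : Finset (Fin 3)) p,
          (∏ i, w i (m i)) * φ i (m i)) ^ 2) := by
  rw [Finset.piAntidiag_univ_fin_eq_antidiagonalTuple]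
  exact lemmaM w hpos hlc p φ

end Crest.Agent.S0453Aux
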