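import Crest.Agent.S0453Aux.LemmaP
import Crest.Agent.S0453Aux.LemmaM

/-!
# S0453, task R3: assembly of the 3-row lemma

States are pairs `(σ : A → Fin 3, τ : B → Fin 3)` with `|σ⁻¹ i| - |τ⁻¹ i| = t i`.
`Var (∑ φ_i (R_i)) ≤ 2 ∑ Var φ_i (R_i)` for the uniform law, `R_i = (σ⁻¹ i, τ⁻¹ i)`.
-/

set_option autoImplicit false
set_option linter.unusedSectionVars false
open Finset

namespace Crest.Agent.S0453Aux

section defs3
variable {A B : Type*} [Fintype A] [DecidableEq A] [Fintype B] [DecidableEq B]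

/-- the state space of the 3-row system: `σ j` = the row holding the `1` of the column `j : A` of sum 1,
`τ j` = the row holding the `0` of the column `j : B` of sum 2; `|σ⁻¹ i| - |τ⁻¹ i| = t i`. -/
def Om3 (t : Fin 3 → ℤ) : Finset ((A → Fin 3) × (B → Fin 3)) :=
  Finset.univ.filter (fun ω => ∀ i, ((pblk ω.1 i).card : ℤ) - ((pblk ω.2 i).card : ℤ) = t i)

/-- what row `i` sees. -/
def view (i : Fin 3) (ω : (A → Fin 3) × (B → Fin 3)) : Finset A × Finset B :=
  (pblk ω.1 i, pblk ω.2 i)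

end defs3

end Crest.Agent.S0453Aux

namespace Crest.Agent.S0453Aux.ThreeRow

noncomputable section

lemma uvar_nonneg {α : Type*} (S : Finset α) (f : α → ℝ) : 0 ≤ uvar S f := by
  unfold uvar
  have := sq_sum_le_card_mul_sum_sq (s := S) (f := f)
  linarith

lemma uvar_empty {α : Type*} (f : α → ℝ) : uvar (∅ : Finset α) f = 0 := by
  simp [uvar]

lemma uvar_congr {α : Type*} {S : Finset α} {f g : α → ℝ} (h : ∀ x ∈ S, f x = g x) :
    uvar S f = uvar S g := by
  unfold uvar
  rw [Finset.sum_congr rfl (fun x hx => by rw [h x hx]),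
    Finset.sum_congr rfl (fun x hx => h x hx)]

section cond

variable {α κ : Type*} [DecidableEq κ]

/-- conditional mean of `g` given `π` on the finite set `S`. -/
def cmean (S : Finset α) (π : α → κ) (g : α → ℝ) (x : α) : ℝ :=
  (∑ y ∈ S.filter (fun y => π y = π x), g y) / ((S.filter (fun y => π y = π x)).card : ℝ)

lemma cmean_sum {ι : Type*} (s : Finset ι) (S : Finset α) (π : α → κ) (g : ι → α → ℝ) (x : α) :
    cmean S π (fun y => ∑ i ∈ s, g i y) x = ∑ i ∈ s, cmean S π (g i) x := by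
  unfold cmean
  rw [Finset.sum_comm, Finset.sum_div]

/-- sums over a fibre -/
lemma fibre_sq (T : Finset α) (g : α → ℝ) (hT : T.Nonempty) :
    ∑ x ∈ T, g x ^ 2 = uvar T g / (T.card : ℝ) + (T.card : ℝ) * ((∑ y ∈ T, g y) / (T.card : ℝ)) ^ 2 := by
  have hc : (T.card : ℝ) ≠ 0 := by
    have := Finset.card_pos.mpr hT
    positivity
  unfold uvar
  field_simp
  ring

lemma sum_cmean (S : Finset α) (π : α → κ) (g : α → ℝ) :
    ∑ x ∈ S, cmean S π g x = ∑ x ∈ S, g x := by
  classical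
  rw [← Finset.sum_fiberwise_of_maps_to (s := S) (t := S.image π) (g := π)
      (fun x hx => Finset.mem_image_of_mem π hx) (f := fun x => cmean S π g x),
    ← Finset.sum_fiberwise_of_maps_to (s := S) (t := S.image π) (g := π)
      (fun x hx => Finset.mem_image_of_mem π hx) (f := g)]
  refine Finset.sum_congr rfl (fun k hk => ?_)
  obtain ⟨x0, hx0, rfl⟩ := Finset.mem_image.mp hk
  have hne : (S.filter (fun y => π y = π x0)).Nonempty := ⟨x0, by simp [hx0]⟩
  have hc : ((S.filter (fun y => π y = π x0)).card : ℝ) ≠ 0 := by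
    have := Finset.card_pos.mpr hne
    positivity
  have : ∀ x ∈ S.filter (fun y => π y = π x0), cmean S π g x
      = (∑ y ∈ S.filter (fun y => π y = π x0), g y) / ((S.filter (fun y => π y = π x0)).card : ℝ) := by
    intro x hx
    have hx' : π x = π x0 := (Finset.mem_filter.mp hx).2
    unfold cmean
    rw [hx']
  rw [Finset.sum_congr rfl this, Finset.sum_const, nsmul_eq_mul]
  field_simp

lemma sum_sq_decomp (S : Finset α) (π : α → κ) (g : α → ℝ) :
    ∑ x ∈ S, g x ^ 2 = ∑ k ∈ S.image π, uvar (S.filter (fun y => π y = k)) g /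
        ((S.filter (fun y => π y = k)).card : ℝ) + ∑ x ∈ S, cmean S π g x ^ 2 := by
  classical
  rw [← Finset.sum_fiberwise_of_maps_to (s := S) (t := S.image π) (g := π)
      (fun x hx => Finset.mem_image_of_mem π hx) (f := fun x => g x ^ 2),
    ← Finset.sum_fiberwise_of_maps_to (s := S) (t := S.image π) (g := π)
      (fun x hx => Finset.mem_image_of_mem π hx) (f := fun x => cmean S π g x ^ 2),
    ← Finset.sum_add_distrib]
  refine Finset.sum_congr rfl (fun k hk => ?_)
  obtain ⟨x0, hx0, rfl⟩ := Finset.mem_image.mp hk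
  have hne : (S.filter (fun y => π y = π x0)).Nonempty := ⟨x0, by simp [hx0]⟩
  have : ∀ x ∈ S.filter (fun y => π y = π x0), cmean S π g x ^ 2
      = ((∑ y ∈ S.filter (fun y => π y = π x0), g y) /
          ((S.filter (fun y => π y = π x0)).card : ℝ)) ^ 2 := by
    intro x hx
    have hx' : π x = π x0 := (Finset.mem_filter.mp hx).2
    unfold cmean
    rw [hx']
  rw [Finset.sum_congr rfl this, Finset.sum_const, nsmul_eq_mul]
  exact fibre_sq _ g hne

/-- law of total variance, unnormalised. -/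
lemma uvar_total (S : Finset α) (π : α → κ) (g : α → ℝ) :
    uvar S g = (S.card : ℝ) * ∑ k ∈ S.image π, uvar (S.filter (fun y => π y = k)) g /
        ((S.filter (fun y => π y = k)).card : ℝ) + uvar S (cmean S π g) := by
  unfold uvar
  rw [sum_cmean, sum_sq_decomp S π g]
  unfold uvar
  ring

/-- The conditioning step. -/
lemma cond_step {ι : Type*} (s : Finset ι) (S : Finset α) (π : α → κ) (g : ι → α → ℝ)
    (hfib : ∀ k ∈ S.image π, uvar (S.filter (fun y => π y = k)) (fun x => ∑ i ∈ s, g i x)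
      ≤ 2 * ∑ i ∈ s, uvar (S.filter (fun y => π y = k)) (g i))
    (hmean : uvar S (fun x => ∑ i ∈ s, cmean S π (g i) x) ≤ 2 * ∑ i ∈ s, uvar S (cmean S π (g i))) :
    uvar S (fun x => ∑ i ∈ s, g i x) ≤ 2 * ∑ i ∈ s, uvar S (g i) := by
  rw [uvar_total S π (fun x => ∑ i ∈ s, g i x)]
  have h1 : cmean S π (fun x => ∑ i ∈ s, g i x) = fun x => ∑ i ∈ s, cmean S π (g i) x := by
    funext x; exact cmean_sum s S π g x
  rw [h1]
  have h2 : ∑ i ∈ s, uvar S (g i) = (S.card : ℝ) * ∑ k ∈ S.image π, (∑ i ∈ s,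
      uvar (S.filter (fun y => π y = k)) (g i)) / ((S.filter (fun y => π y = k)).card : ℝ)
      + ∑ i ∈ s, uvar S (cmean S π (g i)) := by
    rw [Finset.sum_congr rfl (fun i _ => uvar_total S π (g i)), Finset.sum_add_distrib,
      ← Finset.mul_sum, Finset.sum_comm]
    congr 2
    refine Finset.sum_congr rfl (fun k _ => ?_)
    rw [Finset.sum_div]
  rw [h2]
  have h3 : ∑ k ∈ S.image π, uvar (S.filter (fun y => π y = k)) (fun x => ∑ i ∈ s, g i x) /
        ((S.filter (fun y => π y = k)).card : ℝ)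
      ≤ 2 * ∑ k ∈ S.image π, (∑ i ∈ s,
      uvar (S.filter (fun y => π y = k)) (g i)) / ((S.filter (fun y => π y = k)).card : ℝ) := by
    rw [Finset.mul_sum]
    refine Finset.sum_le_sum (fun k hk => ?_)
    rw [← mul_div_assoc]
    exact div_le_div_of_nonneg_right (hfib k hk) (by positivity)
  have h4 : (0 : ℝ) ≤ (S.card : ℝ) := by positivity
  nlinarith [mul_le_mul_of_nonneg_left h3 h4]

end cond


section prod

variable {α β : Type*} [DecidableEq α]

lemma filter_fst_eq (S₁ : Finset α) (S₂ : Finset β) {a : α} (ha : a ∈ S₁) :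
    (S₁ ×ˢ S₂).filter (fun y => y.1 = a) = ({a} : Finset α) ×ˢ S₂ := by
  ext ⟨x, y⟩
  simp only [Finset.mem_filter, Finset.mem_product, Finset.mem_singleton]
  constructor
  · rintro ⟨⟨_, h2⟩, h3⟩; exact ⟨h3, h2⟩
  · rintro ⟨h1, h2⟩; exact ⟨⟨h1 ▸ ha, h2⟩, h1⟩

lemma uvar_singleton_prod (a : α) (S₂ : Finset β) (h : α × β → ℝ) :
    uvar (({a} : Finset α) ×ˢ S₂) h = uvar S₂ (fun b => h (a, b)) := by
  unfold uvar
  rw [Finset.card_product, Finset.sum_product, Finset.sum_product]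
  simp

lemma uvar_prod_fst (S₁ : Finset α) (S₂ : Finset β) (h : α → ℝ) :
    uvar (S₁ ×ˢ S₂) (fun x => h x.1) = (S₂.card : ℝ) ^ 2 * uvar S₁ h := by
  unfold uvar
  rw [Finset.card_product, Finset.sum_product, Finset.sum_product]
  simp only [Finset.sum_const, nsmul_eq_mul, ← Finset.mul_sum]
  push_cast
  ring

lemma cmean_prod_fst (S₁ : Finset α) (S₂ : Finset β) (h : α × β → ℝ) {x : α × β} (hx : x.1 ∈ S₁) :
    cmean (S₁ ×ˢ S₂) Prod.fst h x = (∑ b ∈ S₂, h (x.1, b)) / (S₂.card : ℝ) := by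
  unfold cmean
  rw [filter_fst_eq S₁ S₂ hx, Finset.card_product, Finset.sum_product]
  simp

/-- conditioning on the first coordinate of a product set. -/
lemma prod_step {ι : Type*} (s : Finset ι) (S₁ : Finset α) (S₂ : Finset β) (g : ι → α × β → ℝ)
    (h2 : ∀ a ∈ S₁, uvar S₂ (fun b => ∑ i ∈ s, g i (a, b)) ≤ 2 * ∑ i ∈ s, uvar S₂ (fun b => g i (a, b)))
    (h1 : uvar S₁ (fun a => ∑ i ∈ s, (∑ b ∈ S₂, g i (a, b)) / (S₂.card : ℝ))
      ≤ 2 * ∑ i ∈ s, uvar S₁ (fun a => (∑ b ∈ S₂, g i (a, b)) / (S₂.card : ℝ))) :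
    uvar (S₁ ×ˢ S₂) (fun x => ∑ i ∈ s, g i x) ≤ 2 * ∑ i ∈ s, uvar (S₁ ×ˢ S₂) (g i) := by
  refine cond_step s (S₁ ×ˢ S₂) Prod.fst g ?_ ?_
  · intro k hk
    obtain ⟨x, hx, rfl⟩ := Finset.mem_image.mp hk
    have hx1 : x.1 ∈ S₁ := (Finset.mem_product.mp hx).1
    rw [filter_fst_eq S₁ S₂ hx1, uvar_singleton_prod]
    simp only [uvar_singleton_prod]
    exact h2 _ hx1
  · have e1 : uvar (S₁ ×ˢ S₂) (fun x => ∑ i ∈ s, cmean (S₁ ×ˢ S₂) Prod.fst (g i) x)
        = (S₂.card : ℝ) ^ 2 *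
          uvar S₁ (fun a => ∑ i ∈ s, (∑ b ∈ S₂, g i (a, b)) / (S₂.card : ℝ)) := by
      refine Eq.trans (uvar_congr (fun x hx => ?_))
        (uvar_prod_fst S₁ S₂ (fun a => ∑ i ∈ s, (∑ b ∈ S₂, g i (a, b)) / (S₂.card : ℝ)))
      refine Finset.sum_congr rfl (fun i _ => ?_)
      exact cmean_prod_fst S₁ S₂ (g i) (Finset.mem_product.mp hx).1
    have e2 : ∀ i, uvar (S₁ ×ˢ S₂) (cmean (S₁ ×ˢ S₂) Prod.fst (g i))
        = (S₂.card : ℝ) ^ 2 * uvar S₁ (fun a => (∑ b ∈ S₂, g i (a, b)) / (S₂.card : ℝ)) := by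
      intro i
      refine Eq.trans (uvar_congr (fun x hx => ?_))
        (uvar_prod_fst S₁ S₂ (fun a => (∑ b ∈ S₂, g i (a, b)) / (S₂.card : ℝ)))
      exact cmean_prod_fst S₁ S₂ (g i) (Finset.mem_product.mp hx).1
    rw [e1]
    simp only [e2]
    rw [← Finset.mul_sum]
    have : (0 : ℝ) ≤ (S₂.card : ℝ) ^ 2 := by positivity
    nlinarith [mul_le_mul_of_nonneg_left h1 this]

end prod

section parts

variable {A : Type*} [Fintype A] [DecidableEq A]

/-- The statement of Lemma P (three blocks) for the type `A`. -/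
def LemmaP (A : Type*) [Fintype A] [DecidableEq A] : Prop :=
  ∀ (m : Fin 3 → ℕ) (φ : Fin 3 → Finset A → ℝ),
    uvar (parts m) (fun σ : A → Fin 3 => ∑ i, φ i (pblk σ i))
      ≤ 2 * ∑ i, uvar (parts m) (fun σ : A → Fin 3 => φ i (pblk σ i))

end parts

section level2

variable {A B : Type*} [Fintype A] [DecidableEq A] [Fintype B] [DecidableEq B]

/-- Level 2: fixed block sizes. -/
lemma level2 (hA : LemmaP A) (hB : LemmaP B) (m m' : Fin 3 → ℕ)
    (φ : Fin 3 → Finset A × Finset B → ℝ) :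
    uvar ((parts m : Finset (A → Fin 3)) ×ˢ (parts m' : Finset (B → Fin 3)))
        (fun ω => ∑ i, φ i (pblk ω.1 i, pblk ω.2 i))
      ≤ 2 * ∑ i, uvar ((parts m : Finset (A → Fin 3)) ×ˢ (parts m' : Finset (B → Fin 3)))
        (fun ω => φ i (pblk ω.1 i, pblk ω.2 i)) := by
  refine prod_step Finset.univ (parts m) (parts m')
    (fun i (ω : (A → Fin 3) × (B → Fin 3)) => φ i (pblk ω.1 i, pblk ω.2 i)) ?_ ?_
  · intro σ _
    exact hB m' (fun i Y => φ i (pblk σ i, Y))
  · exact hA m (fun i X => (∑ τ ∈ (parts m' : Finset (B → Fin 3)), φ i (X, pblk τ i)) /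
      ((parts m' : Finset (B → Fin 3)).card : ℝ))

end level2


section count

variable {A : Type*} [Fintype A] [DecidableEq A]

lemma fin3_cases (i j : Fin 3) : j = i ∨ j = i + 1 ∨ j = i + 2 := by
  revert i j; decide

lemma fin3_ne1 (i : Fin 3) : i + 1 ≠ i := by revert i; decide
lemma fin3_ne2 (i : Fin 3) : i + 2 ≠ i := by revert i; decide
lemma fin3_ne12 (i : Fin 3) : i + 2 ≠ i + 1 := by revert i; decide

lemma fin3_sum (i : Fin 3) (m : Fin 3 → ℕ) : ∑ j, m j = m i + m (i + 1) + m (i + 2) := by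
  rw [Fin.sum_univ_three]
  fin_cases i
  · rfl
  · show m 0 + m 1 + m 2 = m 1 + m 2 + m 0
    ring
  · show m 0 + m 1 + m 2 = m 2 + m 0 + m 1
    ring

lemma mem_blk {k : ℕ} (σ : A → Fin k) (i : Fin k) (a : A) : a ∈ pblk σ i ↔ σ a = i := by
  simp [pblk]

lemma sum_card_blk {k : ℕ} (σ : A → Fin k) : ∑ i, (pblk σ i).card = Fintype.card A := by
  have := Finset.card_eq_sum_card_fiberwise (s := (Finset.univ : Finset A))
    (t := (Finset.univ : Finset (Fin k))) (f := σ) (fun _ _ => Finset.mem_coe.mpr (Finset.mem_univ _))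
  rw [Finset.card_univ] at this
  rw [this]
  rfl

lemma mem_parts {k : ℕ} {m : Fin k → ℕ} {σ : A → Fin k} :
    σ ∈ parts m ↔ ∀ i, (pblk σ i).card = m i := by
  unfold parts
  simp

lemma sum_of_mem_parts {k : ℕ} {m : Fin k → ℕ} {σ : A → Fin k} (h : σ ∈ parts m) :
    ∑ i, m i = Fintype.card A := by
  rw [← sum_card_blk σ]
  refine Finset.sum_congr rfl (fun i _ => ?_)
  exact ((mem_parts.mp h) i).symm

/-- the number of ordered partitions with a prescribed `i`-th block. -/
lemma fibre_card (m : Fin 3 → ℕ) (hm : ∑ j, m j = Fintype.card A) (i : Fin 3) (X : Finset A)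
    (hX : X.card = m i) :
    ((parts m : Finset (A → Fin 3)).filter (fun σ => pblk σ i = X)).card
      = (Fintype.card A - m i).choose (m (i + 1)) := by
  have hcard : ((Finset.univ \ X).powersetCard (m (i + 1))).card
      = (Fintype.card A - m i).choose (m (i + 1)) := by
    rw [Finset.card_powersetCard, Finset.card_sdiff_of_subset (Finset.subset_univ X), Finset.card_univ, hX]
  rw [← hcard]
  refine Finset.card_bij (fun σ _ => pblk σ (i + 1)) ?_ ?_ ?_
  · intro σ hσ
    obtain ⟨h1, h2⟩ := Finset.mem_filter.mp hσ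
    rw [Finset.mem_powersetCard]
    refine ⟨?_, (mem_parts.mp h1) (i + 1)⟩
    intro a ha
    rw [Finset.mem_sdiff]
    refine ⟨Finset.mem_univ _, ?_⟩
    rw [← h2, mem_blk]
    rw [mem_blk] at ha
    rw [ha]
    exact fin3_ne1 i
  · intro σ hσ σ' hσ' h
    obtain ⟨_, h2⟩ := Finset.mem_filter.mp hσ
    obtain ⟨_, h2'⟩ := Finset.mem_filter.mp hσ'
    funext a
    have e0 : σ a = i ↔ σ' a = i := by
      rw [← mem_blk, ← mem_blk, h2, h2']
    have e1 : σ a = i + 1 ↔ σ' a = i + 1 := by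
      rw [← mem_blk, ← mem_blk, h]
    rcases fin3_cases i (σ a) with h0 | h0 | h0
    · rw [h0, e0.mp h0]
    · rw [h0, e1.mp h0]
    · rcases fin3_cases i (σ' a) with h0' | h0' | h0'
      · have := e0.mpr h0'
        rw [h0] at this
        exact absurd this (fin3_ne2 i)
      · have := e1.mpr h0'
        rw [h0] at this
        exact absurd this (fin3_ne12 i)
      · rw [h0, h0']
  · intro Y hY
    obtain ⟨hY1, hY2⟩ := Finset.mem_powersetCard.mp hY
    have hdisj : ∀ a, a ∈ Y → a ∉ X := fun a ha => (Finset.mem_sdiff.mp (hY1 ha)).2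
    let σ : A → Fin 3 := fun a => if a ∈ X then i else if a ∈ Y then i + 1 else i + 2
    have b0 : pblk σ i = X := by
      ext a
      rw [mem_blk]
      by_cases h1 : a ∈ X
      · simp [σ, h1]
      · by_cases h2 : a ∈ Y
        · simp [σ, h1, h2, fin3_ne1 i]
        · simp [σ, h1, h2, fin3_ne2 i]
    have b1 : pblk σ (i + 1) = Y := by
      ext a
      rw [mem_blk]
      by_cases h1 : a ∈ X
      · have h2 : a ∉ Y := fun h => hdisj a h h1
        simp [σ, h1, h2, (fin3_ne1 i).symm]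
      · by_cases h2 : a ∈ Y
        · simp [σ, h1, h2]
        · simp [σ, h1, h2, fin3_ne12 i]
    refine ⟨σ, ?_, b1⟩
    rw [Finset.mem_filter]
    refine ⟨?_, b0⟩
    rw [mem_parts]
    have hs := sum_card_blk σ
    rw [fin3_sum i (fun j => (pblk σ j).card), b0, b1, hX, hY2] at hs
    rw [fin3_sum i m] at hm
    intro j
    rcases fin3_cases i j with rfl | rfl | rfl
    · rw [b0, hX]
    · rw [b1, hY2]
    · omega

/-- marginal of the `i`-th block. -/
lemma sum_parts_blk (m : Fin 3 → ℕ) (hm : ∑ j, m j = Fintype.card A) (i : Fin 3)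
    (h : Finset A → ℝ) :
    ∑ σ ∈ (parts m : Finset (A → Fin 3)), h (pblk σ i)
      = ((Fintype.card A - m i).choose (m (i + 1)) : ℝ) *
        ∑ X ∈ (Finset.univ : Finset A).powersetCard (m i), h X := by
  rw [← Finset.sum_fiberwise_of_maps_to (s := (parts m : Finset (A → Fin 3)))
    (t := (Finset.univ : Finset A).powersetCard (m i)) (g := fun σ => pblk σ i)
    (fun σ hσ => Finset.mem_powersetCard.mpr ⟨Finset.subset_univ _, (mem_parts.mp hσ) i⟩),
    Finset.mul_sum]
  refine Finset.sum_congr rfl (fun X hX => ?_)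
  have hX' := (Finset.mem_powersetCard.mp hX).2
  rw [Finset.sum_congr rfl (fun σ hσ => by rw [(Finset.mem_filter.mp hσ).2]), Finset.sum_const,
    fibre_card m hm i X hX', nsmul_eq_mul]

lemma card_parts (m : Fin 3 → ℕ) (hm : ∑ j, m j = Fintype.card A) (i : Fin 3) :
    ((parts m : Finset (A → Fin 3)).card : ℝ)
      = ((Fintype.card A - m i).choose (m (i + 1)) : ℝ) * ((Fintype.card A).choose (m i) : ℝ) := by
  have := sum_parts_blk m hm i (fun _ => (1 : ℝ))
  simp only [Finset.sum_const, nsmul_eq_mul, mul_one, Finset.card_powersetCard, Finset.card_univ] at this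
  exact this

lemma card_parts_factorial (m : Fin 3 → ℕ) (hm : ∑ j, m j = Fintype.card A) :
    ((parts m : Finset (A → Fin 3)).card : ℝ)
      = ((Fintype.card A).factorial : ℝ) * ∏ i, (1 / ((m i).factorial : ℝ)) := by
  rw [card_parts m hm 0, Fin.prod_univ_three]
  rw [Fin.sum_univ_three] at hm
  have h0 : m 0 ≤ Fintype.card A := by omega
  have h1 : m 1 ≤ Fintype.card A - m 0 := by omega
  have h2 : Fintype.card A - m 0 - m 1 = m 2 := by omega
  show (((Fintype.card A - m 0).choose (m 1) : ℕ) : ℝ) * _ = _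
  rw [Nat.cast_choose ℝ h0, Nat.cast_choose ℝ h1, h2]
  have f0 : ((m 0).factorial : ℝ) ≠ 0 := by positivity
  have f1 : ((m 1).factorial : ℝ) ≠ 0 := by positivity
  have f2 : ((m 2).factorial : ℝ) ≠ 0 := by positivity
  have f3 : ((Fintype.card A - m 0).factorial : ℝ) ≠ 0 := by positivity
  field_simp

end count


/-- The statement of Lemma M (three integers, positive log-concave weights, conditioned on the sum). -/
def LemmaM : Prop :=
  ∀ (w : Fin 3 → ℕ → ℝ), (∀ i k, 0 < w i k) → (∀ i k, w i k * w i (k + 2) ≤ w i (k + 1) ^ 2) →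
    ∀ (p : ℕ) (φ : Fin 3 → ℕ → ℝ),
      (∑ m ∈ Finset.piAntidiag (Finset.univ : Finset (Fin 3)) p, ∏ i, w i (m i)) *
          (∑ m ∈ Finset.piAntidiag (Finset.univ : Finset (Fin 3)) p,
            (∏ i, w i (m i)) * (∑ i, φ i (m i)) ^ 2) -
        (∑ m ∈ Finset.piAntidiag (Finset.univ : Finset (Fin 3)) p,
            (∏ i, w i (m i)) * ∑ i, φ i (m i)) ^ 2
      ≤ 2 * ∑ i, ((∑ m ∈ Finset.piAntidiag (Finset.univ : Finset (Fin 3)) p, ∏ j, w j (m j)) *
          (∑ m ∈ Finset.piAntidiag (Finset.univ : Finset (Fin 3)) p,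
            (∏ j, w j (m j)) * (φ i (m i)) ^ 2) -
        (∑ m ∈ Finset.piAntidiag (Finset.univ : Finset (Fin 3)) p,
            (∏ j, w j (m j)) * φ i (m i)) ^ 2)

section level1

variable {A B : Type*} [Fintype A] [DecidableEq A] [Fintype B] [DecidableEq B]

/-- the reduced size vector. -/
def kap (t : Fin 3 → ℤ) (ω : (A → Fin 3) × (B → Fin 3)) : Fin 3 → ℕ :=
  fun i => (pblk ω.1 i).card - (t i).toNat

lemma fibre_kap (t : Fin 3 → ℤ) (k : Fin 3 → ℕ) :
    (Om3 t : Finset ((A → Fin 3) × (B → Fin 3))).filter (fun ω => kap t ω = k)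
      = (parts (fun i => k i + (t i).toNat) : Finset (A → Fin 3)) ×ˢ
        (parts (fun i => k i + (-t i).toNat) : Finset (B → Fin 3)) := by
  ext ω
  simp only [Om3, parts, Finset.mem_filter, Finset.mem_univ, true_and, Finset.mem_product]
  constructor
  · rintro ⟨h1, h2⟩
    refine ⟨fun i => ?_, fun i => ?_⟩
    · have a := h1 i
      have b : (pblk ω.1 i).card - (t i).toNat = k i := congrFun h2 i
      omega
    · have a := h1 i
      have b : (pblk ω.1 i).card - (t i).toNat = k i := congrFun h2 i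
      omega
  · rintro ⟨h1, h2⟩
    refine ⟨fun i => ?_, ?_⟩
    · have a := h1 i
      have b := h2 i
      omega
    · funext i
      have a := h1 i
      show (pblk ω.1 i).card - (t i).toNat = k i
      omega

lemma kap_mem (t : Fin 3 → ℤ) {ω : (A → Fin 3) × (B → Fin 3)} (h : ω ∈ Om3 t) :
    kap t ω ∈ Finset.piAntidiag (Finset.univ : Finset (Fin 3))
      (Fintype.card A - ∑ i, (t i).toNat) := by
  rw [Finset.mem_piAntidiag]
  refine ⟨?_, fun _ _ => Finset.mem_univ _⟩
  have h1 := (Finset.mem_filter.mp h).2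
  have hs := sum_card_blk ω.1
  rw [Fin.sum_univ_three] at hs ⊢
  rw [Fin.sum_univ_three]
  have a0 := h1 0
  have a1 := h1 1
  have a2 := h1 2
  simp only [kap]
  omega

/-- sums of functions of the size vector. -/
lemma sum_Om3_kap (t : Fin 3 → ℤ) (F : (Fin 3 → ℕ) → ℝ) :
    ∑ ω ∈ (Om3 t : Finset ((A → Fin 3) × (B → Fin 3))), F (kap t ω)
      = ∑ k ∈ Finset.piAntidiag (Finset.univ : Finset (Fin 3)) (Fintype.card A - ∑ i, (t i).toNat),
        (((parts (fun i => k i + (t i).toNat) : Finset (A → Fin 3)).card : ℝ) *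
          ((parts (fun i => k i + (-t i).toNat) : Finset (B → Fin 3)).card : ℝ)) * F k := by
  rw [← Finset.sum_fiberwise_of_maps_to (s := (Om3 t : Finset ((A → Fin 3) × (B → Fin 3))))
    (g := kap t) (fun ω hω => kap_mem t hω)]
  refine Finset.sum_congr rfl (fun k _ => ?_)
  rw [Finset.sum_congr rfl (fun ω hω => by rw [(Finset.mem_filter.mp hω).2]), Finset.sum_const,
    fibre_kap, Finset.card_product, nsmul_eq_mul]
  push_cast
  ring

/-- the conditional mean of `φ i (view i ·)` given the sizes, as a function of the `i`-th size. -/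
def phibar (t : Fin 3 → ℤ) (φ : Fin 3 → Finset A × Finset B → ℝ) (i : Fin 3) (k : ℕ) : ℝ :=
  (∑ X ∈ (Finset.univ : Finset A).powersetCard (k + (t i).toNat),
    ∑ Y ∈ (Finset.univ : Finset B).powersetCard (k + (-t i).toNat), φ i (X, Y)) /
  (((Fintype.card A).choose (k + (t i).toNat) : ℝ) * ((Fintype.card B).choose (k + (-t i).toNat) : ℝ))

lemma mem_fibre_self (t : Fin 3 → ℤ) {ω : (A → Fin 3) × (B → Fin 3)} (h : ω ∈ Om3 t) :
    ω.1 ∈ (parts (fun i => kap t ω i + (t i).toNat) : Finset (A → Fin 3)) ∧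
    ω.2 ∈ (parts (fun i => kap t ω i + (-t i).toNat) : Finset (B → Fin 3)) := by
  have : ω ∈ (Om3 t : Finset ((A → Fin 3) × (B → Fin 3))).filter (fun ω' => kap t ω' = kap t ω) := by
    simp [h]
  rw [fibre_kap] at this
  exact Finset.mem_product.mp this

lemma cmean_kap (t : Fin 3 → ℤ) (φ : Fin 3 → Finset A × Finset B → ℝ) (i : Fin 3)
    {ω : (A → Fin 3) × (B → Fin 3)} (h : ω ∈ Om3 t) :
    cmean (Om3 t) (kap t) (fun ω' => φ i (view i ω')) ω = phibar t φ i (kap t ω i) := by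
  obtain ⟨h1, h2⟩ := mem_fibre_self t h
  have hm := sum_of_mem_parts h1
  have hm' := sum_of_mem_parts h2
  unfold cmean phibar
  rw [fibre_kap, Finset.card_product, Finset.sum_product]
  let hX : Finset A → ℝ := fun X => ((Fintype.card B - (kap t ω i + (-t i).toNat)).choose
            (kap t ω (i + 1) + (-t (i + 1)).toNat) : ℝ) *
          ∑ Y ∈ (Finset.univ : Finset B).powersetCard (kap t ω i + (-t i).toNat), φ i (X, Y)
  have e1 : ∀ σ ∈ (parts (fun i => kap t ω i + (t i).toNat) : Finset (A → Fin 3)),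
      ∑ τ ∈ (parts (fun i => kap t ω i + (-t i).toNat) : Finset (B → Fin 3)), φ i (view i (σ, τ))
      = hX (pblk σ i) := by
    intro σ _
    exact sum_parts_blk (fun i => kap t ω i + (-t i).toNat) hm' i (fun Y => φ i (pblk σ i, Y))
  have e2 := sum_parts_blk (fun i => kap t ω i + (t i).toNat) hm i hX
  rw [Finset.sum_congr rfl e1, e2]
  simp only [hX]
  have c1 := card_parts (fun i => kap t ω i + (t i).toNat) hm i
  have c2 := card_parts (fun i => kap t ω i + (-t i).toNat) hm' i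
  have p1 : (0 : ℝ) < ((parts (fun i => kap t ω i + (t i).toNat) : Finset (A → Fin 3)).card : ℝ) := by
    exact_mod_cast Finset.card_pos.mpr ⟨_, h1⟩
  have p2 : (0 : ℝ) < ((parts (fun i => kap t ω i + (-t i).toNat) : Finset (B → Fin 3)).card : ℝ) := by
    exact_mod_cast Finset.card_pos.mpr ⟨_, h2⟩
  push_cast
  rw [c1, c2]
  rw [c1] at p1
  rw [c2] at p2
  set NA : ℝ := ((Fintype.card A - (kap t ω i + (t i).toNat)).choose
    (kap t ω (i + 1) + (t (i + 1)).toNat) : ℝ) with hNA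
  set NB : ℝ := ((Fintype.card B - (kap t ω i + (-t i).toNat)).choose
    (kap t ω (i + 1) + (-t (i + 1)).toNat) : ℝ) with hNB
  set CA : ℝ := ((Fintype.card A).choose (kap t ω i + (t i).toNat) : ℝ) with hCA
  set CB : ℝ := ((Fintype.card B).choose (kap t ω i + (-t i).toNat) : ℝ) with hCB
  have hNA0 : NA ≠ 0 := fun h0 => by rw [h0] at p1; simp at p1
  have hNB0 : NB ≠ 0 := fun h0 => by rw [h0] at p2; simp at p2
  have hCA0 : CA ≠ 0 := fun h0 => by rw [h0] at p1; simp at p1
  have hCB0 : CB ≠ 0 := fun h0 => by rw [h0] at p2; simp at p2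
  rw [← Finset.mul_sum]
  field_simp

/-- the weights of Lemma M in the application. -/
def wgt (t : Fin 3 → ℤ) (i : Fin 3) (k : ℕ) : ℝ :=
  1 / ((k + (t i).toNat).factorial : ℝ) * (1 / ((k + (-t i).toNat).factorial : ℝ))

lemma wgt_pos (t : Fin 3 → ℤ) (i : Fin 3) (k : ℕ) : 0 < wgt t i k := by
  unfold wgt
  positivity

lemma inv_fact_logconcave (n : ℕ) :
    1 / (n.factorial : ℝ) * (1 / ((n + 2).factorial : ℝ)) ≤ (1 / ((n + 1).factorial : ℝ)) ^ 2 := by
  have h1 : ((n + 1).factorial : ℝ) = (n + 1 : ℝ) * (n.factorial : ℝ) := by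
    rw [Nat.factorial_succ]; push_cast; ring
  have h2 : ((n + 2).factorial : ℝ) = (n + 2 : ℝ) * ((n + 1 : ℝ) * (n.factorial : ℝ)) := by
    rw [Nat.factorial_succ, Nat.factorial_succ]; push_cast; ring
  have hf : (0 : ℝ) < (n.factorial : ℝ) := by positivity
  rw [h1, h2, div_mul_div_comm, div_pow, one_mul, one_pow]
  apply one_div_le_one_div_of_le (by positivity)
  have hn : (0 : ℝ) ≤ (n : ℝ) := by positivity
  have : (0 : ℝ) ≤ (n + 1 : ℝ) * (n.factorial : ℝ) ^ 2 := by positivity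
  nlinarith

lemma wgt_logconcave (t : Fin 3 → ℤ) (i : Fin 3) (k : ℕ) :
    wgt t i k * wgt t i (k + 2) ≤ wgt t i (k + 1) ^ 2 := by
  unfold wgt
  have a := inv_fact_logconcave (k + (t i).toNat)
  have b := inv_fact_logconcave (k + (-t i).toNat)
  have e1 : k + 2 + (t i).toNat = k + (t i).toNat + 2 := by ring
  have e2 : k + 2 + (-t i).toNat = k + (-t i).toNat + 2 := by ring
  have e3 : k + 1 + (t i).toNat = k + (t i).toNat + 1 := by ring
  have e4 : k + 1 + (-t i).toNat = k + (-t i).toNat + 1 := by ring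
  rw [e1, e2, e3, e4]
  have := mul_le_mul a b (by positivity) (by positivity)
  calc _ = (1 / ((k + (t i).toNat).factorial : ℝ) * (1 / ((k + (t i).toNat + 2).factorial : ℝ))) *
        (1 / ((k + (-t i).toNat).factorial : ℝ) * (1 / ((k + (-t i).toNat + 2).factorial : ℝ))) := by ring
    _ ≤ _ := this
    _ = _ := by ring

lemma level1_mean (hM : LemmaM) (t : Fin 3 → ℤ) (ψ : Fin 3 → ℕ → ℝ) :
    uvar (Om3 t : Finset ((A → Fin 3) × (B → Fin 3))) (fun ω => ∑ i, ψ i (kap t ω i))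
      ≤ 2 * ∑ i, uvar (Om3 t : Finset ((A → Fin 3) × (B → Fin 3))) (fun ω => ψ i (kap t ω i)) := by
  by_cases hne : (Om3 t : Finset ((A → Fin 3) × (B → Fin 3))).Nonempty
  swap
  · rw [Finset.not_nonempty_iff_eq_empty] at hne
    rw [hne]
    simp [uvar_empty]
  obtain ⟨ω0, h0⟩ := hne
  obtain ⟨h1, h2⟩ := mem_fibre_self t h0
  have hm := sum_of_mem_parts h1
  have hm' := sum_of_mem_parts h2
  have hk0 := (Finset.mem_piAntidiag.mp (kap_mem t h0)).1
  set p' := Fintype.card A - ∑ i, (t i).toNat with hp'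
  set T := Finset.piAntidiag (Finset.univ : Finset (Fin 3)) p' with hT
  set Z : ℝ := ((Fintype.card A).factorial : ℝ) * ((Fintype.card B).factorial : ℝ) with hZ
  have hsumA : ∀ k ∈ T, ∑ j, (k j + (t j).toNat) = Fintype.card A := by
    intro k hk
    have := (Finset.mem_piAntidiag.mp hk).1
    rw [Finset.sum_add_distrib] at hm ⊢
    rw [this, ← hm, hk0]
  have hsumB : ∀ k ∈ T, ∑ j, (k j + (-t j).toNat) = Fintype.card B := by
    intro k hk
    have := (Finset.mem_piAntidiag.mp hk).1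
    rw [Finset.sum_add_distrib] at hm' ⊢
    rw [this, ← hm', hk0]
  have key : ∀ F : (Fin 3 → ℕ) → ℝ,
      ∑ ω ∈ (Om3 t : Finset ((A → Fin 3) × (B → Fin 3))), F (kap t ω)
        = Z * ∑ k ∈ T, (∏ i, wgt t i (k i)) * F k := by
    intro F
    rw [sum_Om3_kap, Finset.mul_sum]
    refine Finset.sum_congr rfl (fun k hk => ?_)
    rw [card_parts_factorial _ (hsumA k hk), card_parts_factorial _ (hsumB k hk)]
    unfold wgt
    rw [Finset.prod_mul_distrib]
    ring
  have hcard : ((Om3 t : Finset ((A → Fin 3) × (B → Fin 3))).card : ℝ)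
      = Z * ∑ k ∈ T, ∏ i, wgt t i (k i) := by
    have := key (fun _ => 1)
    simpa using this
  have huv : ∀ G : (Fin 3 → ℕ) → ℝ,
      uvar (Om3 t : Finset ((A → Fin 3) × (B → Fin 3))) (fun ω => G (kap t ω))
        = Z ^ 2 * ((∑ k ∈ T, ∏ i, wgt t i (k i)) * (∑ k ∈ T, (∏ i, wgt t i (k i)) * (G k) ^ 2)
          - (∑ k ∈ T, (∏ i, wgt t i (k i)) * G k) ^ 2) := by
    intro G
    unfold uvar
    rw [hcard, key (fun k => G k ^ 2), key G]
    ring
  rw [huv (fun k => ∑ i, ψ i (k i))]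
  rw [Finset.sum_congr rfl (fun i _ => huv (fun k => ψ i (k i)))]
  rw [← Finset.mul_sum]
  have hMM := hM (wgt t) (wgt_pos t) (wgt_logconcave t) p' ψ
  have hZ2 : (0 : ℝ) ≤ Z ^ 2 := by positivity
  nlinarith [mul_le_mul_of_nonneg_left hMM hZ2]

/-- **The 3-row lemma, dual form**, from Lemma P and Lemma M. -/
theorem threeRow_dual_of (hA : LemmaP A) (hB : LemmaP B) (hM : LemmaM) (t : Fin 3 → ℤ)
    (φ : Fin 3 → Finset A × Finset B → ℝ) :
    uvar (Om3 t) (fun ω => ∑ i, φ i (view i ω)) ≤ 2 * ∑ i, uvar (Om3 t) (fun ω => φ i (view i ω)) := by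
  refine cond_step Finset.univ (Om3 t) (kap t) (fun i ω => φ i (view i ω)) ?_ ?_
  · intro k _
    rw [fibre_kap]
    exact level2 hA hB _ _ φ
  · have e1 : uvar (Om3 t) (fun ω => ∑ i, cmean (Om3 t) (kap t) (fun ω' => φ i (view i ω')) ω)
        = uvar (Om3 t) (fun ω => ∑ i, phibar t φ i (kap t ω i)) :=
      uvar_congr (fun ω hω => Finset.sum_congr rfl (fun i _ => cmean_kap t φ i hω))
    have e2 : ∀ i, uvar (Om3 t) (cmean (Om3 t) (kap t) (fun ω' => φ i (view i ω')))
        = uvar (Om3 t) (fun ω => phibar t φ i (kap t ω i)) :=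
      fun i => uvar_congr (fun ω hω => cmean_kap t φ i hω)
    rw [e1]
    simp only [e2]
    exact level1_mean hM t (phibar t φ)

end level1

end

end Crest.Agent.S0453Aux.ThreeRow

namespace Crest.Agent.S0453Aux

/-- **The 3-row lemma (dual form).**  For the uniform law on `Om3 t`,
`Var (∑ i, φ i (R i)) ≤ 2 ∑ i, Var (φ i (R i))`, `R i = view i`. -/
theorem threeRow_dual {A B : Type*} [Fintype A] [DecidableEq A] [Fintype B] [DecidableEq B]
    (t : Fin 3 → ℤ) (φ : Fin 3 → Finset A × Finset B → ℝ) :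
    uvar (Om3 t) (fun ω => ∑ i, φ i (view i ω)) ≤ 2 * ∑ i, uvar (Om3 t) (fun ω => φ i (view i ω)) :=
  ThreeRow.threeRow_dual_of (fun m φ => lemmaP m φ) (fun m φ => lemmaP m φ)
    (fun w h1 h2 p φ => lemmaM_piAntidiag w h1 h2 p φ) t φ

end Crest.Agent.S0453Aux
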