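import Crest.Agent.S0453Aux.LemmaP

/-!
# S0453, task T3b: the 3-row lemma for `3 × C` zero-one matrices with prescribed margins

A state is `x : Fin 3 → Finset C` (the three rows) with row sums `r` and column sums `c`.
Columns of sum `1` form `A`, columns of sum `2` form `B`; `x ↔ (σ, τ)`, `σ j` = the row containing the column
`j ∈ A`, `τ j` = the row not containing the column `j ∈ B`.
-/

set_option autoImplicit false
set_option linter.unusedSectionVars false

open Finset

namespace Crest.Agent.S0453Aux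

namespace T3b

theorem uvar_image {α β : Type*} [DecidableEq β] (S : Finset α) (e : α → β)
    (he : Set.InjOn e S) (F : β → ℝ) : uvar (S.image e) F = uvar S (fun x => F (e x)) := by
  unfold uvar
  rw [Finset.card_image_of_injOn he, Finset.sum_image he, Finset.sum_image he]

variable {C : Type*} [Fintype C] [DecidableEq C]

/-- the states. -/
def St (r : Fin 3 → ℕ) (c : C → ℕ) : Finset (Fin 3 → Finset C) :=
  (Finset.univ : Finset (Fin 3 → Finset C)).filter
    (fun x => (∀ i, (x i).card = r i) ∧ ∀ j, (Finset.univ.filter (fun i => j ∈ x i)).card = c j)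

/-- columns of sum `s`. -/
def col (c : C → ℕ) (s : ℕ) : Finset C := Finset.univ.filter (fun j => c j = s)

/-- the row determined by its view. -/
def row (c : C → ℕ) (P : Finset {j // c j = 1}) (Q : Finset {j // c j = 2}) : Finset C :=
  col c 3 ∪ P.map (Function.Embedding.subtype _) ∪ (col c 2 \ Q.map (Function.Embedding.subtype _))

theorem mem_row (c : C → ℕ) (P : Finset {j // c j = 1}) (Q : Finset {j // c j = 2}) (j : C) :
    j ∈ row c P Q ↔ c j = 3 ∨ (∃ h : c j = 1, (⟨j, h⟩ : {j // c j = 1}) ∈ P) ∨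
      (∃ h : c j = 2, (⟨j, h⟩ : {j // c j = 2}) ∉ Q) := by
  simp only [row, col, Finset.mem_union, Finset.mem_sdiff, Finset.mem_filter, Finset.mem_univ,
    true_and, Finset.mem_map, Function.Embedding.coe_subtype, Subtype.exists, exists_and_right,
    exists_eq_right, or_assoc]
  constructor
  · rintro (h | h | ⟨h, h'⟩)
    · exact Or.inl h
    · exact Or.inr (Or.inl h)
    · exact Or.inr (Or.inr ⟨h, fun hq => h' ⟨h, hq⟩⟩)
  · rintro (h | h | ⟨h, h'⟩)
    · exact Or.inl h
    · exact Or.inr (Or.inl h)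
    · exact Or.inr (Or.inr ⟨h, fun ⟨_, hq⟩ => h' hq⟩)

theorem card_row (c : C → ℕ) (P : Finset {j // c j = 1}) (Q : Finset {j // c j = 2}) :
    ((row c P Q).card : ℤ) = (col c 3).card + (col c 2).card + P.card - Q.card := by
  have hQ : Q.map (Function.Embedding.subtype _) ⊆ col c 2 := by
    intro j hj
    simp only [Finset.mem_map, Function.Embedding.coe_subtype] at hj
    obtain ⟨q, _, rfl⟩ := hj
    simp [col, q.2]
  have hd1 : Disjoint (col c 3) (P.map (Function.Embedding.subtype _)) := by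
    rw [Finset.disjoint_left]
    intro j hj hj'
    simp only [Finset.mem_map, Function.Embedding.coe_subtype] at hj'
    obtain ⟨q, _, rfl⟩ := hj'
    simp only [col, Finset.mem_filter, Finset.mem_univ, true_and] at hj
    have := q.2
    omega
  have hd2 : Disjoint (col c 3 ∪ P.map (Function.Embedding.subtype _))
      (col c 2 \ Q.map (Function.Embedding.subtype _)) := by
    rw [Finset.disjoint_left]
    intro j hj hj'
    simp only [Finset.mem_sdiff, col, Finset.mem_filter, Finset.mem_univ, true_and] at hj'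
    simp only [Finset.mem_union, col, Finset.mem_filter, Finset.mem_univ, true_and,
      Finset.mem_map, Function.Embedding.coe_subtype] at hj
    rcases hj with hj | ⟨q, _, rfl⟩
    · omega
    · have := q.2
      omega
  unfold row
  rw [Finset.card_union_of_disjoint hd2, Finset.card_union_of_disjoint hd1,
    Finset.card_sdiff_of_subset hQ, Finset.card_map, Finset.card_map]
  have : Q.card ≤ (col c 2).card := by
    have := Finset.card_le_card hQ
    rwa [Finset.card_map] at this
  push_cast [Nat.cast_sub this]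
  ring

/-- the state attached to `(σ, τ)`. -/
def X (c : C → ℕ) (w : ({j // c j = 1} → Fin 3) × ({j // c j = 2} → Fin 3)) : Fin 3 → Finset C :=
  fun i => row c (pblk w.1 i) (pblk w.2 i)

theorem mem_X (c : C → ℕ) (w : ({j // c j = 1} → Fin 3) × ({j // c j = 2} → Fin 3)) (i : Fin 3)
    (j : C) : j ∈ X c w i ↔ c j = 3 ∨ (∃ h : c j = 1, w.1 ⟨j, h⟩ = i) ∨
      (∃ h : c j = 2, w.2 ⟨j, h⟩ ≠ i) := by
  simp [X, mem_row, pblk]

/-- the parameter `t`. -/
def tt (r : Fin 3 → ℕ) (c : C → ℕ) (i : Fin 3) : ℤ := (r i : ℤ) - (col c 3).card - (col c 2).card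

/-- the (σ,τ)-model. -/
def Om (r : Fin 3 → ℕ) (c : C → ℕ) : Finset (({j // c j = 1} → Fin 3) × ({j // c j = 2} → Fin 3)) :=
  Finset.univ.filter (fun w => ∀ i, ((pblk w.1 i).card : ℤ) - (pblk w.2 i).card = tt r c i)

theorem colsum_X (c : C → ℕ) (hc : ∀ j, c j ≤ 3)
    (w : ({j // c j = 1} → Fin 3) × ({j // c j = 2} → Fin 3)) (j : C) :
    (Finset.univ.filter (fun i => j ∈ X c w i)).card = c j := by
  have h := hc j
  simp only [mem_X]
  have hcases : c j = 0 ∨ c j = 1 ∨ c j = 2 ∨ c j = 3 := by omega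
  rcases hcases with h0 | h1 | h2 | h3
  · refine Eq.trans ?_ h0.symm
    simp [h0]
  · refine Eq.trans ?_ h1.symm
    have : (Finset.univ.filter (fun i : Fin 3 => c j = 3 ∨ (∃ h : c j = 1, w.1 ⟨j, h⟩ = i) ∨
        (∃ h : c j = 2, w.2 ⟨j, h⟩ ≠ i))) = {w.1 ⟨j, h1⟩} := by
      ext i
      simp [h1, eq_comm]
    rw [this, Finset.card_singleton]
  · refine Eq.trans ?_ h2.symm
    have : (Finset.univ.filter (fun i : Fin 3 => c j = 3 ∨ (∃ h : c j = 1, w.1 ⟨j, h⟩ = i) ∨
        (∃ h : c j = 2, w.2 ⟨j, h⟩ ≠ i))) = Finset.univ.erase (w.2 ⟨j, h2⟩) := by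
      ext i
      simp [h2, eq_comm]
    rw [this, Finset.card_erase_of_mem (Finset.mem_univ _)]
    simp
  · refine Eq.trans ?_ h3.symm
    simp [h3]

theorem X_mem_St_iff (r : Fin 3 → ℕ) (c : C → ℕ) (hc : ∀ j, c j ≤ 3)
    (w : ({j // c j = 1} → Fin 3) × ({j // c j = 2} → Fin 3)) : X c w ∈ St r c ↔ w ∈ Om r c := by
  simp only [St, Om, Finset.mem_filter, Finset.mem_univ, true_and]
  constructor
  · rintro ⟨h, _⟩ i
    have h1 := card_row c (pblk w.1 i) (pblk w.2 i)
    have h2 : (row c (pblk w.1 i) (pblk w.2 i)).card = r i := h i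
    rw [h2] at h1
    unfold tt
    linarith
  · intro h
    refine ⟨fun i => ?_, colsum_X c hc w⟩
    have h1 := card_row c (pblk w.1 i) (pblk w.2 i)
    have h2 := h i
    unfold tt at h2
    have : ((row c (pblk w.1 i) (pblk w.2 i)).card : ℤ) = r i := by linarith
    exact_mod_cast this

theorem X_injective (c : C → ℕ) : Function.Injective (X c) := by
  intro w w' h
  have hm : ∀ i j, j ∈ X c w i ↔ j ∈ X c w' i := fun i j => by rw [h]
  apply Prod.ext
  · funext j
    have := (hm (w.1 j) j.1).mp ((mem_X c w _ _).mpr (Or.inr (Or.inl ⟨j.2, rfl⟩)))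
    rw [mem_X] at this
    have hj := j.2
    rcases this with h3 | ⟨_, h1⟩ | ⟨h2, _⟩
    · omega
    · exact h1.symm
    · omega
  · funext j
    by_contra hne
    have := (hm (w'.2 j) j.1).mp ((mem_X c w _ _).mpr (Or.inr (Or.inr ⟨j.2, hne⟩)))
    rw [mem_X] at this
    have hj := j.2
    rcases this with h3 | ⟨h1, _⟩ | ⟨_, h2⟩
    · omega
    · omega
    · exact h2 rfl

theorem exists_X (r : Fin 3 → ℕ) (c : C → ℕ) (hc : ∀ j, c j ≤ 3) (x : Fin 3 → Finset C)
    (hx : x ∈ St r c) : ∃ w, X c w = x := by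
  simp only [St, Finset.mem_filter, Finset.mem_univ, true_and] at hx
  obtain ⟨_, hcol⟩ := hx
  have h1 : ∀ j : {j // c j = 1}, ∃ a, Finset.univ.filter (fun i => j.1 ∈ x i) = {a} := by
    intro j
    apply Finset.card_eq_one.mp
    rw [hcol, j.2]
  have h2 : ∀ j : {j // c j = 2}, ∃ a, Finset.univ.filter (fun i => j.1 ∉ x i) = {a} := by
    intro j
    apply Finset.card_eq_one.mp
    have := Finset.card_filter_add_card_filter_not (s := (Finset.univ : Finset (Fin 3)))
      (fun i => j.1 ∈ x i)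
    rw [hcol, j.2] at this
    simp only [Finset.card_univ, Fintype.card_fin] at this
    omega
  choose σ hσ using h1
  choose τ hτ using h2
  refine ⟨(σ, τ), ?_⟩
  funext i
  ext j
  rw [mem_X]
  have h := hc j
  have hcases : c j = 0 ∨ c j = 1 ∨ c j = 2 ∨ c j = 3 := by omega
  rcases hcases with h0 | h1 | h2 | h3
  · have hj := hcol j
    rw [h0, Finset.card_eq_zero] at hj
    have : i ∉ Finset.univ.filter (fun i => j ∈ x i) := by rw [hj]; simp
    simp only [Finset.mem_filter, Finset.mem_univ, true_and] at this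
    simp [h0, this]
  · have hj := hσ ⟨j, h1⟩
    have : i ∈ Finset.univ.filter (fun i => j ∈ x i) ↔ i = σ ⟨j, h1⟩ := by
      rw [hj]; simp
    simp only [Finset.mem_filter, Finset.mem_univ, true_and] at this
    simp [h1, this, eq_comm]
  · have hj := hτ ⟨j, h2⟩
    have : i ∈ Finset.univ.filter (fun i => j ∉ x i) ↔ i = τ ⟨j, h2⟩ := by
      rw [hj]; simp
    simp only [Finset.mem_filter, Finset.mem_univ, true_and] at this
    have h' : j ∈ x i ↔ τ ⟨j, h2⟩ ≠ i := by
      rw [ne_comm, ne_eq, ← this, not_not]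
    simp [h2, h']
  · have hj := hcol j
    rw [h3] at hj
    have : Finset.univ.filter (fun i => j ∈ x i) = Finset.univ := by
      apply Finset.eq_univ_of_card
      rw [hj]; simp
    have hi : i ∈ Finset.univ.filter (fun i => j ∈ x i) := by rw [this]; simp
    simp only [Finset.mem_filter, Finset.mem_univ, true_and] at hi
    simp [h3, hi]

theorem St_eq_image (r : Fin 3 → ℕ) (c : C → ℕ) (hc : ∀ j, c j ≤ 3) :
    St r c = (Om r c).image (X c) := by
  ext x
  rw [Finset.mem_image]
  constructor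
  · intro hx
    obtain ⟨w, rfl⟩ := exists_X r c hc x hx
    exact ⟨w, (X_mem_St_iff r c hc w).mp hx, rfl⟩
  · rintro ⟨w, hw, rfl⟩
    exact (X_mem_St_iff r c hc w).mpr hw

theorem St_eq_empty (r : Fin 3 → ℕ) (c : C → ℕ) (hc : ¬ ∀ j, c j ≤ 3) : St r c = ∅ := by
  push Not at hc
  obtain ⟨j, hj⟩ := hc
  apply Finset.eq_empty_of_forall_notMem
  intro x hx
  simp only [St, Finset.mem_filter, Finset.mem_univ, true_and] at hx
  have h1 := hx.2 j
  have h2 : (Finset.univ.filter (fun i => j ∈ x i)).card ≤ 3 := by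
    have := Finset.card_filter_le (Finset.univ : Finset (Fin 3)) (fun i => j ∈ x i)
    simpa using this
  omega

/-- the matrix form of the 3-row lemma, from the `(σ,τ)` form. -/
theorem matrix_of_dual (r : Fin 3 → ℕ) (c : C → ℕ) (φ : Fin 3 → Finset C → ℝ)
    (hdual : ∀ ψ : Fin 3 → Finset {j // c j = 1} × Finset {j // c j = 2} → ℝ,
      uvar (Om r c) (fun w => ∑ i, ψ i (pblk w.1 i, pblk w.2 i)) ≤
        2 * ∑ i, uvar (Om r c) (fun w => ψ i (pblk w.1 i, pblk w.2 i))) :
    uvar (St r c) (fun x => ∑ i, φ i (x i)) ≤ 2 * ∑ i, uvar (St r c) (fun x => φ i (x i)) := by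
  by_cases hc : ∀ j, c j ≤ 3
  · rw [St_eq_image r c hc]
    simp only [uvar_image _ _ ((X_injective c).injOn)]
    exact hdual (fun i P => φ i (row c P.1 P.2))
  · rw [St_eq_empty r c hc]
    simp [uvar]

/-- same statement in the raw shape requested by T3 (note 363), still with the `(σ,τ)` form as a hypothesis. -/
theorem threeRow_matrix_of_dual (r : Fin 3 → ℕ) (c : C → ℕ) (φ : Fin 3 → Finset C → ℝ)
    (hdual : ∀ ψ : Fin 3 → Finset {j // c j = 1} × Finset {j // c j = 2} → ℝ,
      uvar (Om r c) (fun w => ∑ i, ψ i (pblk w.1 i, pblk w.2 i)) ≤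
        2 * ∑ i, uvar (Om r c) (fun w => ψ i (pblk w.1 i, pblk w.2 i))) :
    let St := (Finset.univ : Finset (Fin 3 → Finset C)).filter
      (fun x => (∀ i, (x i).card = r i) ∧ ∀ j, (Finset.univ.filter (fun i => j ∈ x i)).card = c j)
    (St.card : ℝ) * ∑ x ∈ St, (∑ i, φ i (x i)) ^ 2 - (∑ x ∈ St, ∑ i, φ i (x i)) ^ 2
      ≤ 2 * ∑ i, ((St.card : ℝ) * ∑ x ∈ St, φ i (x i) ^ 2 - (∑ x ∈ St, φ i (x i)) ^ 2) :=
  matrix_of_dual r c φ hdual

end T3b

end Crest.Agent.S0453Aux
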