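import Crest.Agent.S0453Aux.Triple
import Crest.Agent.S0453Aux.ThreeRow
import Crest.Agent.S0453Aux.ThreeRowMatrix
import Crest.Agent.S0453Aux.Square

/-!
# `HT3 n d` (glue of tasks R3, T3b, T3 for `Square.gap_of_inputs`)
-/

set_option autoImplicit false
open Finset
open Crest Crest.SwitchChain

namespace Crest.Agent.S0453Aux

/-- the three-row lemma in matrix form (R3 + T3b). -/
theorem matrixStatement (n : ℕ) : Triple.MatrixStatement n := by
  intro r c φ
  have h := T3b.threeRow_matrix_of_dual r c φ (fun ψ => threeRow_dual (T3b.tt r c) ψ)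
  intro St
  have hSt : St = (Finset.univ : Finset (Fin 3 → Finset (Fin n))).filter
      (fun x => (∀ i, (x i).card = r i) ∧ ∀ j, (Finset.univ.filter (fun i => j ∈ x i)).card = c j) := by
    ext x
    simp only [St, Finset.mem_filter, Finset.mem_univ, true_and]
  rw [hSt]
  convert h

/-- Output of task T3, in the shape wanted by `Square.lean`. -/
theorem hT3 (n : ℕ) (d : Fin n → ℕ) : HT3 n d :=
  fun _ _ _ hab hac hbc f => Triple.triple_sq_ge_of (matrixStatement n) d hab hac hbc f

end Crest.Agent.S0453Aux
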