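import Mathlib

/-! # S0453 / task J(G): spectral gap of the Johnson graph `J(u,a)` (helper80)

`U : Finset ι`, slice = `U.powersetCard a`.  Main results (namespace `Crest.Agent.S0453Aux.Johnson`):
* `sum_mul_adj_le` : on mean-zero functions `⟨g, Adj g⟩ ≤ (a (u-a) - u) |g|²`
  (induction on `a` with the up/down operators: `UD = a + Adj`, `DU = (u-a+1) + Adj`);
* `johnson_gap`, `johnson_gap'` : `u Σ g² ≤ (1/4) Σ_{c,d ∈ U} Σ_x (g x - g (x.image (swap c d)))²`;
* `johnson_gap_var` : the same without the mean-zero hypothesis (unnormalised variance);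
* `johnson_gap_exch` : exchange form.
-/

set_option autoImplicit false

namespace Crest.Agent.S0453Aux.Johnson

open Finset

variable {ι : Type*} [DecidableEq ι]

/-- down operator of the Boolean lattice restricted to subsets of `U` -/
def dn (U : Finset ι) (g : Finset ι → ℝ) (y : Finset ι) : ℝ := ∑ c ∈ U \ y, g (insert c y)

/-- up operator -/
def up (φ : Finset ι → ℝ) (x : Finset ι) : ℝ := ∑ c ∈ x, φ (x.erase c)

/-- adjacency operator of the Johnson graph on subsets of `U` -/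
def adj (U : Finset ι) (g : Finset ι → ℝ) (x : Finset ι) : ℝ :=
  ∑ c ∈ x, ∑ e ∈ U \ x, g (insert e (x.erase c))

theorem sum_mul_dn (U : Finset ι) (a : ℕ) (φ g : Finset ι → ℝ) :
    ∑ y ∈ U.powersetCard a, φ y * dn U g y = ∑ x ∈ U.powersetCard (a + 1), g x * up φ x := by
  unfold dn up
  simp only [Finset.mul_sum]
  rw [Finset.sum_sigma', Finset.sum_sigma']
  refine Finset.sum_nbij' (fun p => ⟨insert p.2 p.1, p.2⟩) (fun p => ⟨p.1.erase p.2, p.2⟩) ?_ ?_ ?_ ?_ ?_
  · rintro ⟨y, c⟩ h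
    simp only [mem_sigma, mem_powersetCard, mem_sdiff] at h ⊢
    obtain ⟨⟨hy, hc⟩, hcU, hcy⟩ := h
    refine ⟨⟨insert_subset hcU hy, ?_⟩, mem_insert_self _ _⟩
    rw [card_insert_of_notMem hcy, hc]
  · rintro ⟨x, c⟩ h
    simp only [mem_sigma, mem_powersetCard, mem_sdiff] at h ⊢
    obtain ⟨⟨hx, hc⟩, hcx⟩ := h
    refine ⟨⟨(erase_subset _ _).trans hx, ?_⟩, hx hcx, notMem_erase _ _⟩
    rw [card_erase_of_mem hcx, hc]; rfl
  · rintro ⟨y, c⟩ h
    simp only [mem_sigma, mem_powersetCard, mem_sdiff] at h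
    simp [erase_insert h.2.2]
  · rintro ⟨x, c⟩ h
    simp only [mem_sigma, mem_powersetCard] at h
    simp [insert_erase h.2]
  · rintro ⟨y, c⟩ h
    simp only [mem_sigma, mem_powersetCard, mem_sdiff] at h
    simp [erase_insert h.2.2, mul_comm]


theorem up_dn (U : Finset ι) (g : Finset ι → ℝ) (x : Finset ι) (hx : x ⊆ U) :
    up (dn U g) x = x.card * g x + adj U g x := by
  unfold up dn adj
  have h : ∀ c ∈ x, ∑ e ∈ U \ x.erase c, g (insert e (x.erase c))
      = g x + ∑ e ∈ U \ x, g (insert e (x.erase c)) := by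
    intro c hc
    have h1 : U \ x.erase c = insert c (U \ x) := by
      ext z
      simp only [mem_sdiff, mem_erase, mem_insert]
      constructor
      · rintro ⟨hzU, hz⟩
        by_cases hzc : z = c
        · exact Or.inl hzc
        · exact Or.inr ⟨hzU, fun hzx => hz ⟨hzc, hzx⟩⟩
      · rintro (rfl | ⟨hzU, hzx⟩)
        · exact ⟨hx hc, fun h => h.1 rfl⟩
        · exact ⟨hzU, fun h => hzx h.2⟩
    rw [h1, sum_insert (by simp [hc]), insert_erase hc]
  rw [sum_congr rfl h, sum_add_distrib, sum_const, nsmul_eq_mul]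

theorem dn_up (U : Finset ι) (φ : Finset ι → ℝ) (y : Finset ι) :
    dn U (up φ) y = (U \ y).card * φ y + adj U φ y := by
  unfold up dn adj
  have h : ∀ e ∈ U \ y, ∑ c ∈ insert e y, φ ((insert e y).erase c)
      = φ y + ∑ c ∈ y, φ (insert e (y.erase c)) := by
    intro e he
    have hey : e ∉ y := (mem_sdiff.1 he).2
    rw [sum_insert hey, erase_insert hey]
    congr 1
    refine sum_congr rfl (fun c hc => ?_)
    have hce : e ≠ c := fun h => hey (h ▸ hc)
    rw [erase_insert_of_ne hce]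
  rw [sum_congr rfl h, sum_add_distrib, sum_const, nsmul_eq_mul, sum_comm]


theorem up_one (x : Finset ι) : up (fun _ => (1 : ℝ)) x = x.card := by
  unfold up; simp

/-- Second eigenvalue of the Johnson graph: on mean-zero functions on the `a`-subsets of `U`
the adjacency operator is at most `a (u - a) - u`. -/
theorem sum_mul_adj_le (U : Finset ι) (a : ℕ) : ∀ g : Finset ι → ℝ,
    ∑ x ∈ U.powersetCard a, g x = 0 →
    ∑ x ∈ U.powersetCard a, g x * adj U g x
      ≤ ((a : ℝ) * ((U.card : ℝ) - a) - U.card) * ∑ x ∈ U.powersetCard a, g x ^ 2 := by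
  induction a with
  | zero =>
    intro g hg
    simp only [powersetCard_zero, sum_singleton] at hg ⊢
    rw [hg]; simp
  | succ a ih =>
    intro g hg
    by_cases hau : U.card < a + 1
    · rw [powersetCard_eq_empty.2 hau]; simp
    rw [not_lt] at hau
    set u : ℝ := (U.card : ℝ) with hu
    have hau' : (a : ℝ) + 1 ≤ u := by rw [hu]; exact_mod_cast hau
    set φ : Finset ι → ℝ := dn U g with hφ
    set ng : ℝ := ∑ x ∈ U.powersetCard (a + 1), g x ^ 2 with hng
    set nφ : ℝ := ∑ y ∈ U.powersetCard a, φ y ^ 2 with hnφ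
    have hng0 : 0 ≤ ng := sum_nonneg (fun _ _ => sq_nonneg _)
    have hnφ0 : 0 ≤ nφ := sum_nonneg (fun _ _ => sq_nonneg _)
    -- (1) φ has mean zero
    have h1 : ∑ y ∈ U.powersetCard a, φ y = 0 := by
      have := sum_mul_dn U a (fun _ => (1 : ℝ)) g
      simp only [one_mul] at this
      rw [hφ, this]
      have h2 : ∀ x ∈ U.powersetCard (a + 1), g x * up (fun _ => (1 : ℝ)) x = ((a : ℝ) + 1) * g x := by
        intro x hx
        rw [up_one, (mem_powersetCard.1 hx).2]; push_cast; ring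
      rw [sum_congr rfl h2, ← mul_sum, hg, mul_zero]
    -- (2)
    have h2 : nφ = ((a : ℝ) + 1) * ng + ∑ x ∈ U.powersetCard (a + 1), g x * adj U g x := by
      have := sum_mul_dn U a φ g
      have e1 : ∑ y ∈ U.powersetCard a, φ y * dn U g y = nφ := by
        rw [hnφ]; refine sum_congr rfl (fun y _ => ?_); rw [hφ]; ring
      rw [e1] at this
      rw [this, hng, mul_sum, ← sum_add_distrib]
      refine sum_congr rfl (fun x hx => ?_)
      rw [hφ, up_dn U g x (mem_powersetCard.1 hx).1, (mem_powersetCard.1 hx).2]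
      push_cast; ring
    have h2' : ∑ x ∈ U.powersetCard (a + 1), g x * up φ x = nφ := by
      have := sum_mul_dn U a φ g
      rw [← this, hnφ]; refine sum_congr rfl (fun y _ => ?_); rw [hφ]; ring
    -- (3)
    have h3 : ∑ x ∈ U.powersetCard (a + 1), up φ x ^ 2 ≤ ((a : ℝ) * (u - a - 1)) * nφ := by
      have := sum_mul_dn U a φ (up φ)
      have e1 : ∑ x ∈ U.powersetCard (a + 1), up φ x ^ 2
          = ∑ x ∈ U.powersetCard (a + 1), up φ x * up φ x :=
        sum_congr rfl (fun x _ => by ring)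
      rw [e1, ← this]
      have e2 : ∑ y ∈ U.powersetCard a, φ y * dn U (up φ) y
          = (u - a) * nφ + ∑ y ∈ U.powersetCard a, φ y * adj U φ y := by
        rw [hnφ, mul_sum, ← sum_add_distrib]
        refine sum_congr rfl (fun y hy => ?_)
        have hy' := mem_powersetCard.1 hy
        rw [dn_up, card_sdiff_of_subset hy'.1, Nat.cast_sub (card_le_card hy'.1), hy'.2]
        ring
      rw [e2]
      have := ih φ h1
      nlinarith [this]
    -- (4) Cauchy-Schwarz
    have h4 : nφ ^ 2 ≤ ng * (((a : ℝ) * (u - a - 1)) * nφ) := by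
      have cs := sum_mul_sq_le_sq_mul_sq (U.powersetCard (a + 1)) g (up φ)
      rw [h2'] at cs
      exact cs.trans (mul_le_mul_of_nonneg_left h3 hng0)
    have hκ : 0 ≤ (a : ℝ) * (u - a - 1) := mul_nonneg (Nat.cast_nonneg a) (by linarith)
    have h5 : nφ ≤ ((a : ℝ) * (u - a - 1)) * ng := by
      rcases hnφ0.eq_or_lt with h0 | hpos
      · rw [← h0]; exact mul_nonneg hκ hng0
      · have : nφ * nφ ≤ (((a : ℝ) * (u - a - 1)) * ng) * nφ := by nlinarith [h4]
        exact le_of_mul_le_mul_right this hpos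
    have h6 : ∑ x ∈ U.powersetCard (a + 1), g x * adj U g x = nφ - ((a : ℝ) + 1) * ng := by
      rw [h2]; ring
    rw [h6]
    push_cast
    nlinarith [h5]


theorem dn_one (U y : Finset ι) : dn U (fun _ => (1 : ℝ)) y = (U \ y).card := by
  unfold dn; simp

/-- The Johnson graph is regular (summed form). -/
theorem sum_adj (U : Finset ι) (a : ℕ) (ψ : Finset ι → ℝ) :
    ∑ x ∈ U.powersetCard a, adj U ψ x
      = ((a : ℝ) * ((U.card : ℝ) - a)) * ∑ x ∈ U.powersetCard a, ψ x := by
  cases a with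
  | zero => simp [adj]
  | succ a =>
    have h1 : ∑ x ∈ U.powersetCard (a + 1), up (dn U ψ) x
        = ((U.card : ℝ) - a) * (((a : ℝ) + 1) * ∑ x ∈ U.powersetCard (a + 1), ψ x) := by
      have e1 := sum_mul_dn U a (dn U ψ) (fun _ => (1 : ℝ))
      simp only [one_mul] at e1
      rw [← e1]
      have e2 : ∀ y ∈ U.powersetCard a, dn U ψ y * dn U (fun _ => (1 : ℝ)) y
          = ((U.card : ℝ) - a) * ((1 : ℝ) * dn U ψ y) := by
        intro y hy
        have hy' := mem_powersetCard.1 hy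
        rw [dn_one, card_sdiff_of_subset hy'.1, Nat.cast_sub (card_le_card hy'.1), hy'.2]
        ring
      rw [sum_congr rfl e2, ← mul_sum, sum_mul_dn U a (fun _ => (1 : ℝ)) ψ]
      congr 1
      rw [mul_sum]
      refine sum_congr rfl (fun x hx => ?_)
      rw [up_one, (mem_powersetCard.1 hx).2]; push_cast; ring
    have h2 : ∑ x ∈ U.powersetCard (a + 1), up (dn U ψ) x
        = ((a : ℝ) + 1) * ∑ x ∈ U.powersetCard (a + 1), ψ x
          + ∑ x ∈ U.powersetCard (a + 1), adj U ψ x := by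
      rw [mul_sum, ← sum_add_distrib]
      refine sum_congr rfl (fun x hx => ?_)
      rw [up_dn U ψ x (mem_powersetCard.1 hx).1, (mem_powersetCard.1 hx).2]
      push_cast; ring
    push_cast
    linarith [h1, h2]

/-- Dirichlet form of the Johnson graph, exchange form (every edge is counted twice). -/
def jEn (U : Finset ι) (a : ℕ) (g : Finset ι → ℝ) : ℝ :=
  ∑ x ∈ U.powersetCard a, ∑ c ∈ x, ∑ e ∈ U \ x, (g x - g (insert e (x.erase c))) ^ 2

theorem jEn_eq (U : Finset ι) (a : ℕ) (g : Finset ι → ℝ) :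
    jEn U a g = 2 * ((a : ℝ) * ((U.card : ℝ) - a)) * ∑ x ∈ U.powersetCard a, g x ^ 2
      - 2 * ∑ x ∈ U.powersetCard a, g x * adj U g x := by
  have h1 : ∀ x ∈ U.powersetCard a, ∑ c ∈ x, ∑ e ∈ U \ x, (g x - g (insert e (x.erase c))) ^ 2
      = ((a : ℝ) * ((U.card : ℝ) - a)) * g x ^ 2 - 2 * (g x * adj U g x)
        + adj U (fun z => g z ^ 2) x := by
    intro x hx
    have hx' := mem_powersetCard.1 hx
    have e : ∀ c ∈ x, ∀ e ∈ U \ x, (g x - g (insert e (x.erase c))) ^ 2
        = g x ^ 2 - 2 * (g x * g (insert e (x.erase c))) + g (insert e (x.erase c)) ^ 2 := by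
      intro c _ e _; ring
    rw [sum_congr rfl (fun c hc => sum_congr rfl (e c hc))]
    simp only [sum_add_distrib, sum_sub_distrib, sum_const, nsmul_eq_mul, ← mul_sum]
    unfold adj
    rw [card_sdiff_of_subset hx'.1, Nat.cast_sub (card_le_card hx'.1), hx'.2]
    ring
  unfold jEn
  rw [sum_congr rfl h1, sum_add_distrib, sum_sub_distrib, sum_adj, ← mul_sum, ← mul_sum]
  ring

/-- **Spectral gap of the Johnson graph** `J(u,a)` (exchange form): it equals `u`. -/
theorem johnson_gap_exch (U : Finset ι) (a : ℕ) (g : Finset ι → ℝ)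
    (hg : ∑ x ∈ U.powersetCard a, g x = 0) :
    2 * (U.card : ℝ) * ∑ x ∈ U.powersetCard a, g x ^ 2 ≤ jEn U a g := by
  rw [jEn_eq]
  have := sum_mul_adj_le U a g hg
  nlinarith [this]


/-- the transposition `(c d)` acting on finsets -/
def sw (c d : ι) (x : Finset ι) : Finset ι := x.image (Equiv.swap c d)

theorem mem_sw {c d z : ι} {x : Finset ι} : z ∈ sw c d x ↔ Equiv.swap c d z ∈ x := by
  unfold sw
  constructor
  · intro h
    obtain ⟨w, hw, rfl⟩ := mem_image.1 h
    simpa using hw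
  · intro h
    exact mem_image.2 ⟨_, h, by simp⟩

theorem sw_comm (c d : ι) (x : Finset ι) : sw c d x = sw d c x := by
  unfold sw; rw [Equiv.swap_comm]

theorem sw_of_mem_notMem {c d : ι} {x : Finset ι} (hc : c ∈ x) (hd : d ∉ x) :
    sw c d x = insert d (x.erase c) := by
  ext z
  rw [mem_sw, mem_insert, mem_erase]
  by_cases hzc : z = c
  · subst hzc
    rw [Equiv.swap_apply_left]
    constructor
    · intro h; exact absurd h hd
    · rintro (h | h)
      · exact absurd (h ▸ hc) hd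
      · exact absurd rfl h.1
  · by_cases hzd : z = d
    · subst hzd
      rw [Equiv.swap_apply_right]
      exact ⟨fun _ => Or.inl rfl, fun _ => hc⟩
    · rw [Equiv.swap_apply_of_ne_of_ne hzc hzd]
      exact ⟨fun h => Or.inr ⟨hzc, h⟩, fun h => h.elim (fun h => absurd h hzd) (fun h => h.2)⟩

theorem sw_of_notMem_mem {c d : ι} {x : Finset ι} (hc : c ∉ x) (hd : d ∈ x) :
    sw c d x = insert c (x.erase d) := by
  rw [sw_comm]; exact sw_of_mem_notMem hd hc

theorem sw_of_mem_mem {c d : ι} {x : Finset ι} (hc : c ∈ x) (hd : d ∈ x) : sw c d x = x := by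
  ext z
  rw [mem_sw]
  by_cases hzc : z = c
  · subst hzc; rw [Equiv.swap_apply_left]; exact ⟨fun _ => hc, fun _ => hd⟩
  · by_cases hzd : z = d
    · subst hzd; rw [Equiv.swap_apply_right]; exact ⟨fun _ => hd, fun _ => hc⟩
    · rw [Equiv.swap_apply_of_ne_of_ne hzc hzd]

theorem sw_of_notMem_notMem {c d : ι} {x : Finset ι} (hc : c ∉ x) (hd : d ∉ x) :
    sw c d x = x := by
  ext z
  rw [mem_sw]
  by_cases hzc : z = c
  · subst hzc; rw [Equiv.swap_apply_left]; exact ⟨fun h => absurd h hd, fun h => absurd h hc⟩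
  · by_cases hzd : z = d
    · subst hzd; rw [Equiv.swap_apply_right]; exact ⟨fun h => absurd h hc, fun h => absurd h hd⟩
    · rw [Equiv.swap_apply_of_ne_of_ne hzc hzd]

/-- Dirichlet form of the Johnson graph, transposition form (every edge is counted 4 times). -/
def jEnSw (U : Finset ι) (a : ℕ) (g : Finset ι → ℝ) : ℝ :=
  ∑ c ∈ U, ∑ d ∈ U, ∑ x ∈ U.powersetCard a, (g x - g (sw c d x)) ^ 2

theorem jEnSw_eq (U : Finset ι) (a : ℕ) (g : Finset ι → ℝ) : jEnSw U a g = 2 * jEn U a g := by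
  unfold jEnSw jEn
  have h1 : ∑ c ∈ U, ∑ d ∈ U, ∑ x ∈ U.powersetCard a, (g x - g (sw c d x)) ^ 2
      = ∑ x ∈ U.powersetCard a, ∑ c ∈ U, ∑ d ∈ U, (g x - g (sw c d x)) ^ 2 := by
    rw [sum_congr rfl (fun c _ => sum_comm), sum_comm]
  rw [h1, mul_sum]
  refine sum_congr rfl (fun x hx => ?_)
  have hxU := (mem_powersetCard.1 hx).1
  rw [← sum_sdiff hxU]
  have e1 : ∀ c ∈ x, ∑ d ∈ U, (g x - g (sw c d x)) ^ 2
      = ∑ e ∈ U \ x, (g x - g (insert e (x.erase c))) ^ 2 := by
    intro c hc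
    rw [← sum_sdiff hxU]
    have z : ∑ d ∈ x, (g x - g (sw c d x)) ^ 2 = 0 :=
      sum_eq_zero (fun d hd => by rw [sw_of_mem_mem hc hd]; ring)
    rw [z, add_zero]
    exact sum_congr rfl (fun d hd => by rw [sw_of_mem_notMem hc (mem_sdiff.1 hd).2])
  have e2 : ∀ c ∈ U \ x, ∑ d ∈ U, (g x - g (sw c d x)) ^ 2
      = ∑ d ∈ x, (g x - g (insert c (x.erase d))) ^ 2 := by
    intro c hc
    have hc' := (mem_sdiff.1 hc).2
    rw [← sum_sdiff hxU]
    have z : ∑ d ∈ U \ x, (g x - g (sw c d x)) ^ 2 = 0 :=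
      sum_eq_zero (fun d hd => by rw [sw_of_notMem_notMem hc' (mem_sdiff.1 hd).2]; ring)
    rw [z, zero_add]
    exact sum_congr rfl (fun d hd => by rw [sw_of_notMem_mem hc' hd])
  rw [sum_congr rfl e1, sum_congr rfl e2, sum_comm]
  ring

/-- **Spectral gap of the Johnson graph** `J(u,a)`, transposition form. -/
theorem johnson_gap (U : Finset ι) (a : ℕ) (g : Finset ι → ℝ)
    (hg : ∑ x ∈ U.powersetCard a, g x = 0) :
    (U.card : ℝ) * ∑ x ∈ U.powersetCard a, g x ^ 2 ≤ (1 / 4) * jEnSw U a g := by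
  rw [jEnSw_eq]
  have := johnson_gap_exch U a g hg
  linarith

/-- `johnson_gap` with everything unfolded. -/
theorem johnson_gap' (U : Finset ι) (a : ℕ) (g : Finset ι → ℝ)
    (hg : ∑ x ∈ U.powersetCard a, g x = 0) :
    (U.card : ℝ) * ∑ x ∈ U.powersetCard a, g x ^ 2
      ≤ (1 / 4) * ∑ c ∈ U, ∑ d ∈ U, ∑ x ∈ U.powersetCard a,
          (g x - g (x.image (Equiv.swap c d))) ^ 2 :=
  johnson_gap U a g hg

/-- Variance form (no mean-zero hypothesis), unnormalised. -/
theorem johnson_gap_var (U : Finset ι) (a : ℕ) (g : Finset ι → ℝ) :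
    (U.card : ℝ) * (((U.powersetCard a).card : ℝ) * ∑ x ∈ U.powersetCard a, g x ^ 2
        - (∑ x ∈ U.powersetCard a, g x) ^ 2)
      ≤ ((U.powersetCard a).card : ℝ) * ((1 / 4) * ∑ c ∈ U, ∑ d ∈ U, ∑ x ∈ U.powersetCard a,
          (g x - g (x.image (Equiv.swap c d))) ^ 2) := by
  set S := U.powersetCard a with hS
  rcases S.eq_empty_or_nonempty with h0 | hne
  · rw [h0]; simp
  have hcard : (0 : ℝ) < (S.card : ℝ) := by exact_mod_cast card_pos.2 hne
  set m : ℝ := (∑ x ∈ S, g x) / S.card with hm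
  have hmean : ∑ x ∈ S, (g x - m) = 0 := by
    rw [sum_sub_distrib, sum_const, nsmul_eq_mul, hm]; field_simp; ring
  have key := johnson_gap' U a (fun x => g x - m) hmean
  have e1 : ∑ x ∈ S, (g x - m) ^ 2 = ∑ x ∈ S, g x ^ 2 - (∑ x ∈ S, g x) ^ 2 / S.card := by
    have : ∀ x ∈ S, (g x - m) ^ 2 = g x ^ 2 - 2 * m * g x + m ^ 2 := fun x _ => by ring
    rw [sum_congr rfl this, sum_add_distrib, sum_sub_distrib, ← mul_sum, sum_const, nsmul_eq_mul, hm]
    field_simp; ring
  have e2 : ∀ c d x, ((g x - m) - (g (x.image (Equiv.swap c d)) - m)) ^ 2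
      = (g x - g (x.image (Equiv.swap c d))) ^ 2 := fun c d x => by ring
  simp only [e2] at key
  rw [← hS, e1] at key
  have := mul_le_mul_of_nonneg_left key hcard.le
  calc _ = (S.card : ℝ) * ((U.card : ℝ) * (∑ x ∈ S, g x ^ 2 - (∑ x ∈ S, g x) ^ 2 / S.card)) := by
        field_simp
    _ ≤ _ := this

end Crest.Agent.S0453Aux.Johnson
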