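import Crest.Agent.S0453Aux.Orbit
import Crest.Agent.S0453Aux.Square
import Crest.Agent.S0453Aux.Johnson

/-!
# S0453, task LC: `∑_{a ≠ b} |Q_ab f|² ≤ dir d f`

The pair orbits are Johnson slices (`Orbit.lean`), the Johnson graph `J(u,α)` has spectral gap
`u ≥ 2` (hypothesis `JGap`, proved in `Johnson.lean`), transpositions are switches, and every switch
is counted by `dir` (`SwT.lean`).
-/

set_option autoImplicit false
open Finset
open Crest Crest.SwitchChain

namespace Crest.Agent.S0453Aux

variable {n : ℕ}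

/-- The Johnson gap, in the shape of `Johnson.lean`. -/
def JGap (n : ℕ) : Prop :=
  ∀ (U : Finset (Fin n)) (k : ℕ) (g : Finset (Fin n) → ℝ), ∑ x ∈ U.powersetCard k, g x = 0 →
    (U.card : ℝ) * ∑ x ∈ U.powersetCard k, g x ^ 2 ≤
      (1 / 4) * ∑ c ∈ U, ∑ e ∈ U, ∑ x ∈ U.powersetCard k,
        (g x - g (x.image (Equiv.swap c e))) ^ 2

namespace LC

theorem slice_two (hJ : JGap n) (U : Finset (Fin n)) (k : ℕ) (g : Finset (Fin n) → ℝ)
    (h0 : ∑ x ∈ U.powersetCard k, g x = 0) :
    2 * ∑ x ∈ U.powersetCard k, g x ^ 2 ≤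
      (1 / 4) * ∑ c ∈ U, ∑ e ∈ U, ∑ x ∈ U.powersetCard k,
        (g x - g (x.image (Equiv.swap c e))) ^ 2 := by
  have hS : 0 ≤ ∑ x ∈ U.powersetCard k, g x ^ 2 := sum_nonneg fun _ _ => sq_nonneg _
  by_cases hU : 2 ≤ U.card
  · refine le_trans ?_ (hJ U k g h0)
    apply mul_le_mul_of_nonneg_right _ hS
    exact_mod_cast hU
  · have hc : (U.powersetCard k).card ≤ 1 := by
      rw [card_powersetCard]
      have hU' : U.card = 0 ∨ U.card = 1 := by omega
      rcases hU' with h | h <;> rw [h]
      · rcases k with _ | k <;> simp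
      · rcases k with _ | _ | k
        · simp
        · simp
        · rw [Nat.choose_eq_zero_of_lt (by omega)]; omega
    have hz : ∀ x ∈ U.powersetCard k, g x = 0 := by
      intro x hx
      rw [← h0]
      symm
      apply sum_eq_single_of_mem x hx
      intro y hy hne
      exact absurd (card_le_one.1 hc y hy x hx) hne
    have : ∑ x ∈ U.powersetCard k, g x ^ 2 = 0 :=
      sum_eq_zero fun x hx => by rw [hz x hx]; norm_num
    rw [this, mul_zero]
    apply mul_nonneg (by norm_num)
    exact sum_nonneg fun _ _ => sum_nonneg fun _ _ => sum_nonneg fun _ _ => sq_nonneg _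

variable {d : Fin n → ℕ} {a b : Fin n} {G0 : Finset (Edge n)}

/-- the inequality on one orbit -/
theorem orbit_ineq (hJ : JGap n) (hab : a ≠ b) (hG0 : G0 ∈ realizations d)
    (f : Finset (Edge n) → ℝ) :
    ∑ G ∈ (realizations d).filter (fun G => away {a, b} G = away {a, b} G0),
        (f G - cE (realizations d) (away {a, b}) f G0) ^ 2 ≤
      (1 / 4) * ∑ G ∈ (realizations d).filter (fun G => away {a, b} G = away {a, b} G0),
        ∑ c, ∑ e, (f G - f (swT G a b c e)) ^ 2 := by
  set U := Orb.UU G0 a b with hU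
  set k := (Orb.xs a U G0).card with hk
  set R : Finset (Fin n) → Finset (Edge n) := fun x => Orb.reSplit G0 a b U x with hR
  set m := cE (realizations d) (away {a, b}) f G0 with hm
  have haU : a ∉ U := Orb.a_notMem_UU G0 a b
  have hbU : b ∉ U := Orb.b_notMem_UU G0 a b
  rw [Orb.sum_orbit_eq hab hG0 (fun G => (f G - m) ^ 2),
    Orb.sum_orbit_eq hab hG0 (fun G => ∑ c, ∑ e, (f G - f (swT G a b c e)) ^ 2)]
  -- the mean
  have hcard : (((realizations d).filter (fun G => away {a, b} G = away {a, b} G0)).card : ℝ)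
      = ((U.powersetCard k).card : ℝ) := by
    have := Orb.sum_orbit_eq hab hG0 (fun _ => (1 : ℝ))
    simpa using this
  have hpos : (0 : ℝ) < ((U.powersetCard k).card : ℝ) := by
    rw [← hcard]
    have : 0 < ((realizations d).filter (fun G => away {a, b} G = away {a, b} G0)).card :=
      card_pos.2 ⟨G0, mem_filter.2 ⟨hG0, rfl⟩⟩
    exact_mod_cast this
  have hmean : ∑ x ∈ U.powersetCard k, (f (R x) - m) = 0 := by
    rw [sum_sub_distrib, sum_const, nsmul_eq_mul, hm]
    unfold cE
    rw [hcard, Orb.sum_orbit_eq hab hG0 f]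
    field_simp
    ring
  have h1 := slice_two hJ U k (fun x => f (R x) - m) hmean
  -- bound each transposition term by switch terms
  have h2 : ∀ c ∈ U, ∀ e ∈ U, ∀ x ∈ U.powersetCard k,
      ((f (R x) - m) - (f (R (x.image (Equiv.swap c e))) - m)) ^ 2 ≤
        (f (R x) - f (swT (R x) a b c e)) ^ 2 + (f (R x) - f (swT (R x) a b e c)) ^ 2 := by
    intro c hc e he x hx
    have hxU := (mem_powersetCard.1 hx).1
    by_cases hcx : c ∈ x
    · by_cases hex : e ∈ x
      · rw [Orb.image_swap_eq_self (by simp [hcx, hex])]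
        have : (f (R x) - m - (f (R x) - m)) ^ 2 = 0 := by ring
        rw [this]; positivity
      · have := Orb.reSplit_image_swap (G0 := G0) hab haU hbU hxU hcx he hex
        simp only [hR]
        rw [this]
        have e1 : (f (Orb.reSplit G0 a b U x) - m -
            (f (swT (Orb.reSplit G0 a b U x) a b c e) - m)) ^ 2
            = (f (Orb.reSplit G0 a b U x) - f (swT (Orb.reSplit G0 a b U x) a b c e)) ^ 2 := by
          ring
        rw [e1]
        linarith [sq_nonneg (f (Orb.reSplit G0 a b U x) -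
          f (swT (Orb.reSplit G0 a b U x) a b e c))]
    · by_cases hex : e ∈ x
      · have := Orb.reSplit_image_swap (G0 := G0) hab haU hbU hxU hex hc hcx
        simp only [hR]
        rw [Equiv.swap_comm, this]
        have e1 : (f (Orb.reSplit G0 a b U x) - m -
            (f (swT (Orb.reSplit G0 a b U x) a b e c) - m)) ^ 2
            = (f (Orb.reSplit G0 a b U x) - f (swT (Orb.reSplit G0 a b U x) a b e c)) ^ 2 := by
          ring
        rw [e1]
        linarith [sq_nonneg (f (Orb.reSplit G0 a b U x) -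
          f (swT (Orb.reSplit G0 a b U x) a b c e))]
      · rw [Orb.image_swap_eq_self (by simp [hcx, hex])]
        have : (f (R x) - m - (f (R x) - m)) ^ 2 = 0 := by ring
        rw [this]; positivity
  set T : Finset (Fin n) → Fin n → Fin n → ℝ :=
    fun x c e => (f (R x) - f (swT (R x) a b c e)) ^ 2 with hT
  have hTnn : ∀ x c e, 0 ≤ T x c e := fun _ _ _ => sq_nonneg _
  have h3 : ∑ c ∈ U, ∑ e ∈ U, ∑ x ∈ U.powersetCard k,
      ((f (R x) - m) - (f (R (x.image (Equiv.swap c e))) - m)) ^ 2 ≤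
        2 * ∑ x ∈ U.powersetCard k, ∑ c, ∑ e, T x c e := by
    calc ∑ c ∈ U, ∑ e ∈ U, ∑ x ∈ U.powersetCard k,
          ((f (R x) - m) - (f (R (x.image (Equiv.swap c e))) - m)) ^ 2
        ≤ ∑ c ∈ U, ∑ e ∈ U, ∑ x ∈ U.powersetCard k, (T x c e + T x e c) :=
          sum_le_sum fun c hc => sum_le_sum fun e he => sum_le_sum fun x hx => h2 c hc e he x hx
      _ ≤ ∑ c, ∑ e, ∑ x ∈ U.powersetCard k, (T x c e + T x e c) := by
          have hnn : ∀ c e, 0 ≤ ∑ x ∈ U.powersetCard k, (T x c e + T x e c) :=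
            fun c e => sum_nonneg fun x _ => add_nonneg (hTnn _ _ _) (hTnn _ _ _)
          calc ∑ c ∈ U, ∑ e ∈ U, ∑ x ∈ U.powersetCard k, (T x c e + T x e c)
              ≤ ∑ c ∈ U, ∑ e, ∑ x ∈ U.powersetCard k, (T x c e + T x e c) :=
                sum_le_sum fun c _ => sum_le_sum_of_subset_of_nonneg (subset_univ _)
                  fun e _ _ => hnn c e
            _ ≤ ∑ c, ∑ e, ∑ x ∈ U.powersetCard k, (T x c e + T x e c) :=
                sum_le_sum_of_subset_of_nonneg (subset_univ _)
                  fun c _ _ => sum_nonneg fun e _ => hnn c e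
      _ = 2 * ∑ x ∈ U.powersetCard k, ∑ c, ∑ e, T x c e := by
          simp only [sum_add_distrib]
          have e1 : ∑ c, ∑ e, ∑ x ∈ U.powersetCard k, T x c e
              = ∑ x ∈ U.powersetCard k, ∑ c, ∑ e, T x c e := by
            calc ∑ c, ∑ e, ∑ x ∈ U.powersetCard k, T x c e
                = ∑ c, ∑ x ∈ U.powersetCard k, ∑ e, T x c e :=
                  sum_congr rfl fun c _ => sum_comm
              _ = ∑ x ∈ U.powersetCard k, ∑ c, ∑ e, T x c e := sum_comm
          have e2 : ∑ c, ∑ e, ∑ x ∈ U.powersetCard k, T x e c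
              = ∑ x ∈ U.powersetCard k, ∑ c, ∑ e, T x c e := by
            rw [sum_comm, e1]
          rw [e1, e2]; ring
  have h4 : ∑ x ∈ U.powersetCard k, (fun x => f (R x) - m) x ^ 2
      = ∑ x ∈ U.powersetCard k, (f (R x) - m) ^ 2 := rfl
  simp only [hT] at h3
  nlinarith [h1, h3]

/-- the inequality for one pair -/
theorem pair_ineq (hJ : JGap n) (hab : a ≠ b) (f : Finset (Edge n) → ℝ) :
    ip (realizations d) (Qp d a b f) (Qp d a b f) ≤
      (1 / 4) * ∑ G ∈ realizations d, ∑ c, ∑ e, (f G - f (swT G a b c e)) ^ 2 := by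
  classical
  have hmaps : ∀ G ∈ realizations d,
      away {a, b} G ∈ (realizations d).image (away {a, b}) := fun G hG => mem_image_of_mem _ hG
  unfold ip
  rw [← sum_fiberwise_of_maps_to hmaps, ← sum_fiberwise_of_maps_to hmaps, mul_sum]
  apply sum_le_sum
  intro j hj
  obtain ⟨G0, hG0, rfl⟩ := mem_image.1 hj
  refine le_trans (le_of_eq ?_) (orbit_ineq hJ hab hG0 f)
  apply sum_congr rfl
  intro G hG
  have hk := (mem_filter.1 hG).2
  unfold Qp Ep
  have hcE : cE (realizations d) (away {a, b}) f G = cE (realizations d) (away {a, b}) f G0 := by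
    unfold cE; rw [hk]
  rw [hcE]
  ring

end LC

/-- **Task LC**, from the Johnson gap. -/
theorem hlc_of_jgap (hJ : JGap n) (d : Fin n → ℕ) : HLC n d 1 := by
  intro f
  rw [one_mul]
  have h1 : ∀ a b : Fin n,
      (if a ≠ b then ip (realizations d) (Qp d a b f) (Qp d a b f) else 0) ≤
        (1 / 4) * ∑ G ∈ realizations d, ∑ c, ∑ e, (f G - f (swT G a b c e)) ^ 2 := by
    intro a b
    by_cases hab : a ≠ b
    · rw [if_pos hab]; exact LC.pair_ineq hJ hab f
    · rw [if_neg hab]
      apply mul_nonneg (by norm_num)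
      exact sum_nonneg fun _ _ => sum_nonneg fun _ _ => sum_nonneg fun _ _ => sq_nonneg _
  calc (∑ a : Fin n, ∑ b : Fin n,
        if a ≠ b then ip (realizations d) (Qp d a b f) (Qp d a b f) else 0)
      ≤ ∑ a : Fin n, ∑ b : Fin n,
          (1 / 4) * ∑ G ∈ realizations d, ∑ c, ∑ e, (f G - f (swT G a b c e)) ^ 2 :=
        sum_le_sum fun a _ => sum_le_sum fun b _ => h1 a b
    _ = (1 / 4) * ∑ G ∈ realizations d, ∑ a, ∑ b, ∑ c, ∑ e, (f G - f (swT G a b c e)) ^ 2 := by
        simp only [← mul_sum]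
        congr 1
        calc ∑ a : Fin n, ∑ b : Fin n, ∑ G ∈ realizations d, ∑ c, ∑ e,
              (f G - f (swT G a b c e)) ^ 2
            = ∑ a : Fin n, ∑ G ∈ realizations d, ∑ b : Fin n, ∑ c, ∑ e,
              (f G - f (swT G a b c e)) ^ 2 := sum_congr rfl fun a _ => sum_comm
          _ = _ := sum_comm
    _ ≤ (1 / 4) * (4 * dir d f) :=
        mul_le_mul_of_nonneg_left (sum_swT_le_dir d f) (by norm_num)
    _ = dir d f := by ring

theorem jgap (n : ℕ) : JGap n := fun U k g h => Johnson.johnson_gap' U k g h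

/-- **Task LC.** -/
theorem hlc (d : Fin n → ℕ) : HLC n d 1 := hlc_of_jgap (jgap n) d

end Crest.Agent.S0453Aux
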