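import Crest.Agent.S0453Aux.StepB2Abs

/-!
# S0453, step (B2): the abstract inequality
-/

set_option autoImplicit false
open Finset

namespace Crest.Agent.S0453Aux

section abs2

variable {α κ μ : Type*} [DecidableEq κ] [DecidableEq μ]

/-- identification of `B s` on `D` with the `D`-conditional expectation of `Q f`. -/
theorem b2_Bo_eq {Om : Finset α} {σ : α → α} (h : InvOn Om σ) (key : α → κ) (m : α → μ)
    (D : α → Prop) [DecidablePred D]
    (hk : ∀ x ∈ Om, key (σ x) = key x)
    (hD : ∀ x ∈ Om, D x → D (σ x))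
    (hmD : ∀ x ∈ Om, ∀ y ∈ Om, D x → m y = m x → D y)
    (hm1 : ∀ x ∈ Om, ∀ y ∈ Om, D x → D y → m y ≠ m x → m (σ y) = m x)
    (hm2 : ∀ y ∈ Om, D y → m (σ y) ≠ m y)
    (f : α → ℝ) {x : α} (hx : x ∈ Om) (hxD : D x) :
    cE Om (fun y => (key y, m y)) (fun y => (f y + f (σ y)) / 2) x
        - cE Om key (fun y => (f y + f (σ y)) / 2) x
      = cE (Om.filter D) key (fun y => f y - cE Om key f y) x := by
  set s : α → ℝ := fun y => (f y + f (σ y)) / 2 with hs
  set θ : α → ℝ := fun y => (f y - f (σ y)) / 2 with hθ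
  have hsσ : ∀ y ∈ Om, s (σ y) = s y := by
    intro y hy; simp only [hs]; rw [h.inv y hy]; ring
  have hθσ : ∀ y ∈ Om, θ (σ y) = - θ y := by
    intro y hy; simp only [hθ]; rw [h.inv y hy]; ring
  have hE : ∀ y, cE Om key f y = cE Om key s y := by
    intro y
    have h1 : cE Om key f y = cE Om key (fun z => s z + θ z) y := by
      congr 1; funext z; simp only [hs, hθ]; ring
    rw [h1, b2_cE_add, b2_cE_antisymm h key hk θ hθσ, add_zero]
  rw [b2_cE_pair_eq h key m D hk hD hmD hm1 hm2 s hsσ hx hxD]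
  have hDinv : InvOn (Om.filter D) σ := h.filter D hD
  have h2 : cE (Om.filter D) key (fun y => f y - cE Om key f y) x
      = cE (Om.filter D) key (fun y => (s y + θ y) - cE Om key s y) x := by
    congr 1; funext z; rw [hE z]; simp only [hs, hθ]; ring
  rw [h2, b2_cE_sub (Om.filter D) key (fun y => s y + θ y) (fun y => cE Om key s y),
    b2_cE_add,
    b2_cE_antisymm hDinv key (fun y hy => hk y (mem_filter.1 hy).1) θ
      (fun y hy => hθσ y (mem_filter.1 hy).1), add_zero,
    b2_cE_const_on_fibre (Om.filter D) key (fun y => cE Om key s y) (mem_filter.2 ⟨hx, hxD⟩)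
      (fun y _ hy => b2_cE_congr_key Om key s hy)]

variable {κ' μ' : Type*} [DecidableEq κ'] [DecidableEq μ']

/-- abstract form of step (B2). -/
theorem b2_abstract {Om : Finset α} {σ : α → α} (h : InvOn Om σ)
    (key : α → κ) (m : α → μ) (key' : α → κ') (m' : α → μ')
    (D : α → Prop) [DecidablePred D]
    (hD : ∀ x ∈ Om, D x → D (σ x))
    (hk : ∀ x ∈ Om, key (σ x) = key x)
    (hmD : ∀ x ∈ Om, ∀ y ∈ Om, D x → m y = m x → D y)
    (hm1 : ∀ x ∈ Om, ∀ y ∈ Om, D x → D y → m y ≠ m x → m (σ y) = m x)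
    (hm2 : ∀ y ∈ Om, D y → m (σ y) ≠ m y)
    (hk' : ∀ x ∈ Om, key' (σ x) = key' x)
    (hmD' : ∀ x ∈ Om, ∀ y ∈ Om, D x → m' y = m' x → D y)
    (hm1' : ∀ x ∈ Om, ∀ y ∈ Om, D x → D y → m' y ≠ m' x → m' (σ y) = m' x)
    (hm2' : ∀ y ∈ Om, D y → m' (σ y) ≠ m' y)
    (hB1 : ∀ g : α → ℝ,
      ∑ x ∈ Om.filter D, (cE Om (fun y => (key y, m y)) g x - cE Om key g x) *
          (cE Om (fun y => (key' y, m' y)) g x - cE Om key' g x)
        ≤ ip Om (fun y => g y - cE Om key g y) (fun y => g y - cE Om key' g y))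
    (f : α → ℝ) :
    (1 / 4) * ∑ x ∈ Om, (f x - f (σ x)) ^ 2
      - (∑ x ∈ Om.filter D, (cE (Om.filter D) key (fun y => f y - cE Om key f y) x) ^ 2
          + ∑ x ∈ Om.filter D, (cE (Om.filter D) key' (fun y => f y - cE Om key' f y) x) ^ 2) / 2
      ≤ ip Om (fun y => f y - cE Om key f y) (fun y => f y - cE Om key' f y) := by
  set s : α → ℝ := fun y => (f y + f (σ y)) / 2 with hs
  set θ : α → ℝ := fun y => (f y - f (σ y)) / 2 with hθ
  have hsσ : ∀ y ∈ Om, s (σ y) = s y := by
    intro y hy; simp only [hs]; rw [h.inv y hy]; ring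
  have hθσ : ∀ y ∈ Om, θ (σ y) = - θ y := by
    intro y hy; simp only [hθ]; rw [h.inv y hy]; ring
  have hE : ∀ y, cE Om key f y = cE Om key s y := by
    intro y
    have h1 : cE Om key f y = cE Om key (fun z => s z + θ z) y := by
      congr 1; funext z; simp only [hs, hθ]; ring
    rw [h1, b2_cE_add, b2_cE_antisymm h key hk θ hθσ, add_zero]
  have hE' : ∀ y, cE Om key' f y = cE Om key' s y := by
    intro y
    have h1 : cE Om key' f y = cE Om key' (fun z => s z + θ z) y := by
      congr 1; funext z; simp only [hs, hθ]; ring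
    rw [h1, b2_cE_add, b2_cE_antisymm h key' hk' θ hθσ, add_zero]
  set q : α → ℝ := fun y => s y - cE Om key s y with hq
  set q' : α → ℝ := fun y => s y - cE Om key' s y with hq'
  have hqσ : ∀ y ∈ Om, q (σ y) = q y := by
    intro y hy
    simp only [hq]
    rw [hsσ y hy, b2_cE_congr_key Om key s (hk y hy)]
  have hqσ' : ∀ y ∈ Om, q' (σ y) = q' y := by
    intro y hy
    simp only [hq']
    rw [hsσ y hy, b2_cE_congr_key Om key' s (hk' y hy)]
  have hexp : ip Om (fun y => f y - cE Om key f y) (fun y => f y - cE Om key' f y)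
      = ip Om θ θ + ip Om θ q' + ip Om θ q + ip Om q q' := by
    unfold ip
    rw [← Finset.sum_add_distrib, ← Finset.sum_add_distrib, ← Finset.sum_add_distrib]
    apply Finset.sum_congr rfl
    intro y _
    show (f y - cE Om key f y) * (f y - cE Om key' f y) = _
    rw [hE y, hE' y]
    have hf : f y = s y + θ y := by simp only [hs, hθ]; ring
    rw [hf]
    simp only [hq, hq']
    ring
  have h0 : ip Om θ q' = 0 := b2_ip_antisymm_symm h θ q' hθσ hqσ'
  have h0' : ip Om θ q = 0 := b2_ip_antisymm_symm h θ q hθσ hqσ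
  have hθθ : ip Om θ θ = (1 / 4) * ∑ x ∈ Om, (f x - f (σ x)) ^ 2 := by
    unfold ip
    rw [Finset.mul_sum]
    apply Finset.sum_congr rfl
    intro y _
    simp only [hθ]; ring
  have hB := hB1 s
  have hlow : - (∑ x ∈ Om.filter D, (cE (Om.filter D) key (fun y => f y - cE Om key f y) x) ^ 2
          + ∑ x ∈ Om.filter D, (cE (Om.filter D) key' (fun y => f y - cE Om key' f y) x) ^ 2) / 2
      ≤ ∑ x ∈ Om.filter D, (cE Om (fun y => (key y, m y)) s x - cE Om key s x) *
          (cE Om (fun y => (key' y, m' y)) s x - cE Om key' s x) := by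
    rw [← Finset.sum_add_distrib, neg_div, Finset.sum_div, ← Finset.sum_neg_distrib]
    apply Finset.sum_le_sum
    intro x hx
    obtain ⟨hx1, hx2⟩ := mem_filter.1 hx
    rw [← b2_Bo_eq h key m D hk hD hmD hm1 hm2 f hx1 hx2,
      ← b2_Bo_eq h key' m' D hk' hD hmD' hm1' hm2' f hx1 hx2]
    nlinarith [sq_nonneg ((cE Om (fun y => (key y, m y)) s x - cE Om key s x) +
          (cE Om (fun y => (key' y, m' y)) s x - cE Om key' s x))]
  rw [hexp, h0, h0', hθθ]
  have : ip Om q q' = ip Om (fun y => s y - cE Om key s y) (fun y => s y - cE Om key' s y) := rfl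
  linarith

end abs2

end Crest.Agent.S0453Aux
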