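import Crest.Agent.S0453Aux.Tau
import Crest.Agent.S0453Aux.StepB2Abs2

/-!
# S0453, step (B2)

`stepB2_of_stepB1`: from step (B1) (as a hypothesis) deduce
`(1/4) ∑ (f - f∘τ)^2 - (z_{pp'} + z_{p'p})/2 ≤ ⟨Q_p f, Q_{p'} f⟩`.
-/

set_option autoImplicit false
open Finset
open Crest Crest.SwitchChain

namespace Crest.Agent.S0453Aux

variable {n : ℕ}

namespace B2T

theorem blk4_eq_iff {a b c e : Fin n} {G G' : Finset (Edge n)} :
    blk4 a b c e G = blk4 a b c e G' ↔
      ((Adj G a c ↔ Adj G' a c) ∧ (Adj G a e ↔ Adj G' a e) ∧ (Adj G b c ↔ Adj G' b c) ∧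
        (Adj G b e ↔ Adj G' b e)) := by
  classical
  simp only [blk4, Prod.mk.injEq, decide_eq_decide]

theorem isD_of_blk4_eq {a b c e : Fin n} {G G' : Finset (Edge n)} (hD : isD a b c e G)
    (h : blk4 a b c e G' = blk4 a b c e G) : isD a b c e G' := by
  rw [blk4_eq_iff] at h
  unfold isD isD1 at hD ⊢
  tauto

theorem blk4_tau_eq {a b c e : Fin n} (h : Dis4 a b c e) {G G' : Finset (Edge n)}
    (hD : isD a b c e G) (hD' : isD a b c e G') (hne : blk4 a b c e G' ≠ blk4 a b c e G) :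
    blk4 a b c e (tau a b c e G') = blk4 a b c e G := by
  rw [Ne, blk4_eq_iff] at hne
  rw [blk4_eq_iff]
  rcases hD' with hD' | hD'
  · have h1 := isD1_tau h hD'
    unfold isD isD1 at *
    tauto
  · have h1 := isD1_tau' h hD'
    unfold isD isD1 at *
    tauto

theorem blk4_tau_ne {a b c e : Fin n} (h : Dis4 a b c e) {G : Finset (Edge n)}
    (hD : isD a b c e G) : blk4 a b c e (tau a b c e G) ≠ blk4 a b c e G := by
  rw [Ne, blk4_eq_iff]
  rcases hD with hD | hD
  · have h1 := isD1_tau h hD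
    unfold isD1 at *
    tauto
  · have h1 := isD1_tau' h hD
    unfold isD1 at *
    tauto

theorem invOn_tau (d : Fin n → ℕ) {a b c e : Fin n} (h : Dis4 a b c e) :
    InvOn (realizations d) (tau a b c e) :=
  ⟨fun _ hG => tau_mem h hG, fun G _ => tau_tau h G⟩

end B2T

open B2T in
/-- Step (B2), with step (B1) as a hypothesis. -/
theorem stepB2_of_stepB1 (d : Fin n → ℕ) {a b c e : Fin n} (h : Dis4 a b c e)
    (hB1 : ∀ g : Finset (Edge n) → ℝ,
      ∑ G ∈ OmD d a b c e, Bo d a b c e g G * Bo d c e a b g G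
        ≤ ip (realizations d) (Qp d a b g) (Qp d c e g))
    (f : Finset (Edge n) → ℝ) :
    (1 / 4) * ∑ G ∈ realizations d, (f G - f (tau a b c e G)) ^ 2
        - (zz d a b c e f + zz d c e a b f) / 2
      ≤ ip (realizations d) (Qp d a b f) (Qp d c e f) := by
  classical
  have key := b2_abstract (invOn_tau d h) (away {a, b}) (blk4 a b c e) (away {c, e}) (blk4 c e a b)
    (isD a b c e)
    (fun G _ hD => isD_tau h hD)
    (fun G _ => away_tau_left G)
    (fun G _ G' _ hD hm => isD_of_blk4_eq hD hm)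
    (fun G _ G' _ hD hD' hne => blk4_tau_eq h hD hD' hne)
    (fun G _ hD => blk4_tau_ne h hD)
    (fun G _ => away_tau_right G)
    (fun G _ G' _ hD hm => (isD_swap_pairs G').1 (isD_of_blk4_eq ((isD_swap_pairs G).2 hD) hm))
    (fun G _ G' _ hD hD' hne => by
      rw [← tau_swap_pairs]
      exact blk4_tau_eq h.swap_pairs ((isD_swap_pairs G).2 hD) ((isD_swap_pairs G').2 hD') hne)
    (fun G _ hD => by
      rw [← tau_swap_pairs]
      exact blk4_tau_ne h.swap_pairs ((isD_swap_pairs G).2 hD))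
    hB1 f
  unfold zz
  rw [OmD_swap_pairs (d := d) (a := a) (b := b) (c := c) (e := e)]
  exact key

end Crest.Agent.S0453Aux
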