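import Mathlib

/-!
# Claim (J) for S0453: an elementary inequality on Johnson-type orbits

Abstract setting: a finite set `O` of states, a finite index set `Us`, indicator functions
`x c : Ω → ℝ` (values in `{0,1}`, constant sum over `c ∈ Us`), involutions `τ c d` of `O` which act on the indicator
functions by the transposition `(c d)`.  With `a c d = x c + x d - 2 x c x d` (indicator of
"`c`, `d` on different sides") we prove, for `g` of zero sum on `O`,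

`∑_{(c,d)} (∑_ω g a_cd)² / (∑_ω a_cd) ≤ (1/4) ∑_{(c,d)} ∑_ω (g ω - g (τ c d ω))²`.
-/

set_option autoImplicit false
open Finset

namespace Crest.Agent.S0453Aux.ClaimJ

variable {U : Type*}

/-- `∑∑ (p c - p d)² = 2 u ∑ p² - 2 (∑ p)²`. -/
theorem sum_sum_sub_sq (Us : Finset U) (p : U → ℝ) :
    ∑ c ∈ Us, ∑ d ∈ Us, (p c - p d) ^ 2
      = 2 * (Us.card : ℝ) * ∑ c ∈ Us, p c ^ 2 - 2 * (∑ c ∈ Us, p c) ^ 2 := by
  have h1 : ∀ c ∈ Us, ∑ d ∈ Us, (p c - p d) ^ 2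
      = (Us.card : ℝ) * p c ^ 2 - 2 * p c * (∑ d ∈ Us, p d) + ∑ d ∈ Us, p d ^ 2 := by
    intro c _
    have : ∀ d ∈ Us, (p c - p d) ^ 2 = p c ^ 2 - 2 * p c * p d + p d ^ 2 := by
      intro d _; ring
    rw [Finset.sum_congr rfl this, Finset.sum_add_distrib, Finset.sum_sub_distrib,
      Finset.sum_const, ← Finset.mul_sum, nsmul_eq_mul]
  rw [Finset.sum_congr rfl h1, Finset.sum_add_distrib, Finset.sum_sub_distrib,
    Finset.sum_const, ← Finset.mul_sum, ← Finset.sum_mul, ← Finset.mul_sum, nsmul_eq_mul]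
  ring

/-- `∑∑ (p c + p d)² = 2 u ∑ p² + 2 (∑ p)²`. -/
theorem sum_sum_add_sq (Us : Finset U) (p : U → ℝ) :
    ∑ c ∈ Us, ∑ d ∈ Us, (p c + p d) ^ 2
      = 2 * (Us.card : ℝ) * ∑ c ∈ Us, p c ^ 2 + 2 * (∑ c ∈ Us, p c) ^ 2 := by
  have h1 : ∀ c ∈ Us, ∑ d ∈ Us, (p c + p d) ^ 2
      = (Us.card : ℝ) * p c ^ 2 + 2 * p c * (∑ d ∈ Us, p d) + ∑ d ∈ Us, p d ^ 2 := by
    intro c _
    have : ∀ d ∈ Us, (p c + p d) ^ 2 = p c ^ 2 + 2 * p c * p d + p d ^ 2 := by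
      intro d _; ring
    rw [Finset.sum_congr rfl this, Finset.sum_add_distrib, Finset.sum_add_distrib,
      Finset.sum_const, ← Finset.mul_sum, nsmul_eq_mul]
  rw [Finset.sum_congr rfl h1, Finset.sum_add_distrib, Finset.sum_add_distrib,
    Finset.sum_const, ← Finset.mul_sum, ← Finset.sum_mul, ← Finset.mul_sum, nsmul_eq_mul]
  ring

variable [DecidableEq U]

/-- sums over `offDiag` as double sums, when the diagonal terms vanish. -/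
theorem sum_offDiag_eq (Us : Finset U) (F : U → U → ℝ) (h : ∀ c ∈ Us, F c c = 0) :
    ∑ q ∈ Us.offDiag, F q.1 q.2 = ∑ c ∈ Us, ∑ d ∈ Us, F c d := by
  rw [← Finset.sum_product' (f := F), ← Finset.diag_union_offDiag,
    Finset.sum_union (Finset.disjoint_diag_offDiag Us)]
  have : ∑ q ∈ Us.diag, F q.1 q.2 = 0 := by
    apply Finset.sum_eq_zero
    intro q hq
    rw [Finset.mem_diag] at hq
    rw [← hq.2]; exact h _ hq.1
  rw [this, zero_add]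

/-- The Laplacian of the triangular graph, computed. -/
theorem triangular (Us : Finset U) (w : U → U → ℝ)
    (hsymm : ∀ c ∈ Us, ∀ d ∈ Us, w c d = w d c) (hdiag : ∀ c ∈ Us, w c c = 0) :
    ∑ q ∈ Us.offDiag, ∑ e ∈ (Us.erase q.1).erase q.2, (w q.1 e - w q.2 e) ^ 2
      = (2 * (Us.card : ℝ) - 2) * (∑ c ∈ Us, ∑ d ∈ Us, w c d ^ 2)
        - 2 * ∑ c ∈ Us, (∑ d ∈ Us, w c d) ^ 2 := by
  have h1 : ∀ q ∈ Us.offDiag, ∑ e ∈ (Us.erase q.1).erase q.2, (w q.1 e - w q.2 e) ^ 2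
      = (∑ e ∈ Us, (w q.1 e - w q.2 e) ^ 2) - 2 * w q.1 q.2 ^ 2 := by
    intro q hq
    rw [Finset.mem_offDiag] at hq
    obtain ⟨hc, hd, hne⟩ := hq
    have hd' : q.2 ∈ Us.erase q.1 := Finset.mem_erase.2 ⟨hne.symm, hd⟩
    have e1 := Finset.add_sum_erase (Us.erase q.1) (fun e => (w q.1 e - w q.2 e) ^ 2) hd'
    have e2 := Finset.add_sum_erase Us (fun e => (w q.1 e - w q.2 e) ^ 2) hc
    rw [hdiag _ hd] at e1
    rw [hdiag _ hc, hsymm _ hd _ hc] at e2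
    linarith
  rw [Finset.sum_congr rfl h1]
  rw [sum_offDiag_eq Us (fun c d => (∑ e ∈ Us, (w c e - w d e) ^ 2) - 2 * w c d ^ 2)]
  · have h2 : ∑ c ∈ Us, ∑ d ∈ Us, ∑ e ∈ Us, (w c e - w d e) ^ 2
        = 2 * (Us.card : ℝ) * (∑ c ∈ Us, ∑ d ∈ Us, w c d ^ 2)
          - 2 * ∑ c ∈ Us, (∑ d ∈ Us, w c d) ^ 2 := by
      have e1 : ∑ c ∈ Us, ∑ d ∈ Us, ∑ e ∈ Us, (w c e - w d e) ^ 2
          = ∑ e ∈ Us, ∑ c ∈ Us, ∑ d ∈ Us, (w c e - w d e) ^ 2 := by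
        calc _ = ∑ c ∈ Us, ∑ e ∈ Us, ∑ d ∈ Us, (w c e - w d e) ^ 2 :=
              Finset.sum_congr rfl (fun c _ => Finset.sum_comm)
          _ = _ := Finset.sum_comm
      have e2 : ∀ e ∈ Us, ∑ c ∈ Us, ∑ d ∈ Us, (w c e - w d e) ^ 2
          = 2 * (Us.card : ℝ) * (∑ d ∈ Us, w e d ^ 2) - 2 * (∑ d ∈ Us, w e d) ^ 2 := by
        intro e he
        rw [sum_sum_sub_sq Us (fun c => w c e)]
        rw [Finset.sum_congr rfl (fun c hc => by rw [hsymm c hc e he] :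
            ∀ c ∈ Us, w c e ^ 2 = w e c ^ 2),
          Finset.sum_congr rfl (fun c hc => hsymm c hc e he : ∀ c ∈ Us, w c e = w e c)]
      rw [e1, Finset.sum_congr rfl e2, Finset.sum_sub_distrib, ← Finset.mul_sum,
        ← Finset.mul_sum]
    simp only [Finset.sum_sub_distrib, ← Finset.mul_sum]
    rw [h2]; ring
  · intro c hc
    simp [hdiag c hc]

/-- Second eigenvalue of the triangular graph: `2 |y|² ≤ (u-2) W` when `∑ y = 0`. -/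
theorem row_sums_le (Us : Finset U) (w : U → U → ℝ)
    (hsymm : ∀ c ∈ Us, ∀ d ∈ Us, w c d = w d c) (hdiag : ∀ c ∈ Us, w c c = 0)
    (hzero : ∑ c ∈ Us, ∑ d ∈ Us, w c d = 0) (hu : 2 ≤ Us.card) :
    2 * ∑ c ∈ Us, (∑ d ∈ Us, w c d) ^ 2
      ≤ ((Us.card : ℝ) - 2) * (∑ c ∈ Us, ∑ d ∈ Us, w c d ^ 2) := by
  set y : U → ℝ := fun c => ∑ d ∈ Us, w c d with hy
  set Y : ℝ := ∑ c ∈ Us, y c ^ 2 with hY
  set W : ℝ := ∑ c ∈ Us, ∑ d ∈ Us, w c d ^ 2 with hW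
  have hu' : (2 : ℝ) ≤ (Us.card : ℝ) := by exact_mod_cast hu
  have hY0 : 0 ≤ Y := Finset.sum_nonneg (fun c _ => sq_nonneg _)
  have hW0 : 0 ≤ W := Finset.sum_nonneg (fun c _ => Finset.sum_nonneg (fun d _ => sq_nonneg _))
  -- 2 Y = ∑_{offDiag} (y c + y d) w c d
  have h1 : ∑ q ∈ Us.offDiag, (y q.1 + y q.2) * w q.1 q.2 = 2 * Y := by
    rw [sum_offDiag_eq Us (fun c d => (y c + y d) * w c d)
      (fun c hc => by simp [hdiag c hc])]
    have e1 : ∑ c ∈ Us, ∑ d ∈ Us, y c * w c d = Y := by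
      apply Finset.sum_congr rfl
      intro c _
      rw [← Finset.mul_sum, sq]
    have e2 : ∑ c ∈ Us, ∑ d ∈ Us, y d * w c d = Y := by
      rw [Finset.sum_comm]
      apply Finset.sum_congr rfl
      intro d hd
      rw [← Finset.mul_sum, sq]
      congr 1
      exact Finset.sum_congr rfl (fun c hc => hsymm c hc d hd)
    simp only [add_mul, Finset.sum_add_distrib]
    rw [e1, e2]; ring
  have h2 : ∑ q ∈ Us.offDiag, (y q.1 + y q.2) ^ 2 = (2 * (Us.card : ℝ) - 4) * Y := by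
    have e0 := sum_sum_add_sq Us y
    rw [hzero] at e0
    have e1 : ∑ q ∈ Us ×ˢ Us, (y q.1 + y q.2) ^ 2 = ∑ c ∈ Us, ∑ d ∈ Us, (y c + y d) ^ 2 :=
      Finset.sum_product' (f := fun c d => (y c + y d) ^ 2) ..
    rw [← Finset.diag_union_offDiag, Finset.sum_union (Finset.disjoint_diag_offDiag Us),
      Finset.sum_diag] at e1
    have e2 : ∑ c ∈ Us, (y c + y c) ^ 2 = 4 * Y := by
      rw [hY, Finset.mul_sum]
      exact Finset.sum_congr rfl (fun c _ => by ring)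
    simp only at e1
    rw [e2] at e1
    linarith
  have h3 : ∑ q ∈ Us.offDiag, w q.1 q.2 ^ 2 = W :=
    sum_offDiag_eq Us (fun c d => w c d ^ 2) (fun c hc => by simp [hdiag c hc])
  have hcs := Finset.sum_mul_sq_le_sq_mul_sq Us.offDiag (fun q => y q.1 + y q.2)
    (fun q => w q.1 q.2)
  rw [h1, h2, h3] at hcs
  -- (2Y)² ≤ (2u-4) Y W
  by_cases hY1 : Y = 0
  · rw [hY1]
    have : 0 ≤ ((Us.card : ℝ) - 2) * W := mul_nonneg (by linarith) hW0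
    linarith
  · have hYpos : 0 < Y := lt_of_le_of_ne hY0 (Ne.symm hY1)
    have : Y * (2 * Y) ≤ Y * (((Us.card : ℝ) - 2) * W) := by nlinarith
    exact le_of_mul_le_mul_left this hYpos


section main

variable {Ω : Type*}

/-- indicator of "`c` and `d` are on different sides". -/
def a (x : U → Ω → ℝ) (c d : U) (ω : Ω) : ℝ := x c ω + x d ω - 2 * x c ω * x d ω

omit [DecidableEq U] in
theorem a_comm (x : U → Ω → ℝ) (c d : U) (ω : Ω) : a x c d ω = a x d c ω := by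
  unfold a; ring

omit [DecidableEq U] in
theorem a_self {x : U → Ω → ℝ} {c : U} {ω : Ω} (h : x c ω = 0 ∨ x c ω = 1) : a x c c ω = 0 := by
  unfold a; rcases h with h | h <;> rw [h] <;> norm_num

omit [DecidableEq U] in
theorem a_eq_sq {x : U → Ω → ℝ} {c d : U} {ω : Ω} (hc : x c ω = 0 ∨ x c ω = 1)
    (hd : x d ω = 0 ∨ x d ω = 1) : a x c d ω = (x c ω - x d ω) ^ 2 := by
  unfold a; rcases hc with h | h <;> rcases hd with h' | h' <;> rw [h, h'] <;> norm_num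

omit [DecidableEq U] in
theorem a_nonneg {x : U → Ω → ℝ} {c d : U} {ω : Ω} (hc : x c ω = 0 ∨ x c ω = 1)
    (hd : x d ω = 0 ∨ x d ω = 1) : 0 ≤ a x c d ω := by
  rw [a_eq_sq hc hd]; exact sq_nonneg _

variable (O : Finset Ω) (Us : Finset U) (x : U → Ω → ℝ) (τ : U → U → Ω → Ω)

omit [DecidableEq U] in
theorem sum_comp_tau
    (hmem : ∀ c ∈ Us, ∀ d ∈ Us, ∀ ω ∈ O, τ c d ω ∈ O)
    (hinv : ∀ c ∈ Us, ∀ d ∈ Us, ∀ ω ∈ O, τ c d (τ c d ω) = ω)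
    {c d : U} (hc : c ∈ Us) (hd : d ∈ Us) (F : Ω → ℝ) :
    ∑ ω ∈ O, F (τ c d ω) = ∑ ω ∈ O, F ω :=
  Finset.sum_nbij' (τ c d) (τ c d) (hmem c hc d hd) (hmem c hc d hd) (hinv c hc d hd)
    (hinv c hc d hd) (fun _ _ => rfl)

theorem sum_a_swap
    (hmem : ∀ c ∈ Us, ∀ d ∈ Us, ∀ ω ∈ O, τ c d ω ∈ O)
    (hinv : ∀ c ∈ Us, ∀ d ∈ Us, ∀ ω ∈ O, τ c d (τ c d ω) = ω)
    (hact : ∀ c ∈ Us, ∀ d ∈ Us, ∀ e ∈ Us, ∀ ω ∈ O, x e (τ c d ω) = x (Equiv.swap c d e) ω)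
    {c d e : U} (hc : c ∈ Us) (hd : d ∈ Us) (he : e ∈ Us) (hec : e ≠ c) (hed : e ≠ d) :
    ∑ ω ∈ O, a x c e ω = ∑ ω ∈ O, a x d e ω := by
  rw [← sum_comp_tau O Us τ hmem hinv hc hd (fun ω => a x d e ω)]
  apply Finset.sum_congr rfl
  intro ω hω
  unfold a
  rw [hact c hc d hd d hd ω hω, hact c hc d hd e he ω hω, Equiv.swap_apply_right,
    Equiv.swap_apply_of_ne_of_ne hec hed]

/-- `∑ a c d` does not depend on the off-diagonal pair. -/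
theorem sum_a_const
    (hmem : ∀ c ∈ Us, ∀ d ∈ Us, ∀ ω ∈ O, τ c d ω ∈ O)
    (hinv : ∀ c ∈ Us, ∀ d ∈ Us, ∀ ω ∈ O, τ c d (τ c d ω) = ω)
    (hact : ∀ c ∈ Us, ∀ d ∈ Us, ∀ e ∈ Us, ∀ ω ∈ O, x e (τ c d ω) = x (Equiv.swap c d e) ω)
    {c d c' d' : U} (hc : c ∈ Us) (hd : d ∈ Us) (hcd : c ≠ d)
    (hc' : c' ∈ Us) (hd' : d' ∈ Us) (hcd' : c' ≠ d') :
    ∑ ω ∈ O, a x c d ω = ∑ ω ∈ O, a x c' d' ω := by
  have hs : ∀ p q : U, ∑ ω ∈ O, a x p q ω = ∑ ω ∈ O, a x q p ω := fun p q =>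
    Finset.sum_congr rfl (fun ω _ => a_comm x p q ω)
  by_cases h : c' = d
  · subst h
    rw [sum_a_swap O Us x τ hmem hinv hact hc hd' hc' hcd.symm hcd', hs]
  · rw [sum_a_swap O Us x τ hmem hinv hact hc hc' hd hcd.symm (Ne.symm h), hs,
      sum_a_swap O Us x τ hmem hinv hact hd hd' hc' h hcd', hs]

/-- The Bessel step. -/
theorem bessel
    (hx : ∀ c ∈ Us, ∀ ω ∈ O, x c ω = 0 ∨ x c ω = 1)
    (hmem : ∀ c ∈ Us, ∀ d ∈ Us, ∀ ω ∈ O, τ c d ω ∈ O)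
    (hinv : ∀ c ∈ Us, ∀ d ∈ Us, ∀ ω ∈ O, τ c d (τ c d ω) = ω)
    (hact : ∀ c ∈ Us, ∀ d ∈ Us, ∀ e ∈ Us, ∀ ω ∈ O, x e (τ c d ω) = x (Equiv.swap c d e) ω)
    (g : Ω → ℝ) {c d : U} (hc : c ∈ Us) (hd : d ∈ Us) (hcd : c ≠ d) :
    ∑ e ∈ (Us.erase c).erase d,
        ((∑ ω ∈ O, g ω * a x c e ω) - (∑ ω ∈ O, g ω * a x d e ω)) ^ 2
      ≤ ((Us.card : ℝ) - 2) * (∑ ω ∈ O, a x c d ω) *
          ((1 / 4) * ∑ ω ∈ O, (g ω - g (τ c d ω)) ^ 2) := by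
  set I : Finset U := (Us.erase c).erase d with hI
  have hIcard : (I.card : ℝ) = (Us.card : ℝ) - 2 := by
    have h1 : I.card = (Us.erase c).card - 1 :=
      Finset.card_erase_of_mem (Finset.mem_erase.2 ⟨hcd.symm, hd⟩)
    have h2 : (Us.erase c).card = Us.card - 1 := Finset.card_erase_of_mem hc
    have h3 : 2 ≤ Us.card := by
      have : ({c, d} : Finset U) ⊆ Us := by
        intro z hz
        rcases Finset.mem_insert.1 hz with rfl | hz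
        · exact hc
        · rw [Finset.mem_singleton.1 hz]; exact hd
      calc 2 = ({c, d} : Finset U).card := (Finset.card_pair hcd).symm
        _ ≤ _ := Finset.card_le_card this
    have : I.card + 2 = Us.card := by omega
    rw [← this]; push_cast; ring
  have hIm : ∀ e ∈ I, e ∈ Us ∧ e ≠ c ∧ e ≠ d := by
    intro e he
    rw [hI, Finset.mem_erase, Finset.mem_erase] at he
    exact ⟨he.2.2, he.2.1, he.1⟩
  set t : U → ℝ := fun e => (∑ ω ∈ O, g ω * a x c e ω) - (∑ ω ∈ O, g ω * a x d e ω) with ht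
  set v : U → Ω → ℝ := fun e ω => (x c ω - x d ω) * (1 - 2 * x e ω) with hv
  set k : Ω → ℝ := fun ω => g ω - g (τ c d ω) with hk
  -- t e = ⟨g, v e⟩
  have h1 : ∀ e, t e = ∑ ω ∈ O, g ω * v e ω := by
    intro e
    rw [ht]; simp only
    rw [← Finset.sum_sub_distrib]
    apply Finset.sum_congr rfl
    intro ω _
    rw [hv]; unfold a; ring
  -- antisymmetry
  have h2 : ∀ e ∈ I, ∀ ω ∈ O, v e (τ c d ω) = - v e ω := by
    intro e he ω hω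
    obtain ⟨heU, hec, hed⟩ := hIm e he
    rw [hv]; simp only
    rw [hact c hc d hd c hc ω hω, hact c hc d hd d hd ω hω, hact c hc d hd e heU ω hω,
      Equiv.swap_apply_left, Equiv.swap_apply_right, Equiv.swap_apply_of_ne_of_ne hec hed]
    ring
  have h3 : ∀ e ∈ I, 2 * t e = ∑ ω ∈ O, k ω * v e ω := by
    intro e he
    have e1 : ∑ ω ∈ O, g (τ c d ω) * v e ω = - t e := by
      rw [← sum_comp_tau O Us τ hmem hinv hc hd (fun ω => g (τ c d ω) * v e ω), h1 e,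
        ← Finset.sum_neg_distrib]
      apply Finset.sum_congr rfl
      intro ω hω
      rw [hinv c hc d hd ω hω, h2 e he ω hω]; ring
    rw [hk]; simp only [sub_mul]
    rw [Finset.sum_sub_distrib, e1, ← h1 e]; ring
  set T : ℝ := ∑ e ∈ I, t e ^ 2 with hT
  have hT0 : 0 ≤ T := Finset.sum_nonneg (fun e _ => sq_nonneg _)
  set V : Ω → ℝ := fun ω => ∑ e ∈ I, t e * v e ω with hV
  have h4 : 2 * T = ∑ ω ∈ O, k ω * V ω := by
    rw [hT, Finset.mul_sum]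
    have : ∀ e ∈ I, 2 * t e ^ 2 = ∑ ω ∈ O, t e * (k ω * v e ω) := by
      intro e he
      rw [← Finset.mul_sum, ← h3 e he]; ring
    rw [Finset.sum_congr rfl this, Finset.sum_comm]
    apply Finset.sum_congr rfl
    intro ω _
    rw [hV]; simp only
    rw [Finset.mul_sum]
    exact Finset.sum_congr rfl (fun e _ => by ring)
  have h5 : ∀ ω ∈ O, V ω ^ 2 ≤ a x c d ω * (((Us.card : ℝ) - 2) * T) := by
    intro ω hω
    have e1 : V ω = (x c ω - x d ω) * ∑ e ∈ I, t e * (1 - 2 * x e ω) := by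
      rw [hV]; simp only
      rw [Finset.mul_sum]
      exact Finset.sum_congr rfl (fun e _ => by rw [hv]; ring)
    have e2 := Finset.sum_mul_sq_le_sq_mul_sq I t (fun e => 1 - 2 * x e ω)
    have e3 : ∑ e ∈ I, (1 - 2 * x e ω) ^ 2 = (Us.card : ℝ) - 2 := by
      rw [← hIcard, Finset.card_eq_sum_ones]; push_cast
      apply Finset.sum_congr rfl
      intro e he
      rcases hx e (hIm e he).1 ω hω with h | h <;> rw [h] <;> norm_num
    rw [e3] at e2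
    rw [e1, mul_pow, ← a_eq_sq (hx c hc ω hω) (hx d hd ω hω)]
    apply mul_le_mul_of_nonneg_left _ (a_nonneg (hx c hc ω hω) (hx d hd ω hω))
    linarith
  have h6 : ∑ ω ∈ O, V ω ^ 2 ≤ (∑ ω ∈ O, a x c d ω) * (((Us.card : ℝ) - 2) * T) := by
    rw [Finset.sum_mul]
    exact Finset.sum_le_sum h5
  have hcs := Finset.sum_mul_sq_le_sq_mul_sq O k V
  rw [← h4] at hcs
  set K : ℝ := ∑ ω ∈ O, k ω ^ 2 with hK
  have hK0 : 0 ≤ K := Finset.sum_nonneg (fun _ _ => sq_nonneg _)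
  set A : ℝ := ∑ ω ∈ O, a x c d ω with hA
  have hA0 : 0 ≤ A := Finset.sum_nonneg (fun ω hω => a_nonneg (hx c hc ω hω) (hx d hd ω hω))
  have hu0 : 0 ≤ (Us.card : ℝ) - 2 := by rw [← hIcard]; exact Nat.cast_nonneg _
  have h7 : (2 * T) ^ 2 ≤ K * (A * (((Us.card : ℝ) - 2) * T)) :=
    hcs.trans (mul_le_mul_of_nonneg_left h6 hK0)
  change T ≤ ((Us.card : ℝ) - 2) * A * ((1 / 4) * K)
  by_cases hT1 : T = 0
  · rw [hT1]; positivity
  · have hTpos : 0 < T := lt_of_le_of_ne hT0 (Ne.symm hT1)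
    have : T * T ≤ T * (((Us.card : ℝ) - 2) * A * ((1 / 4) * K)) := by nlinarith
    exact le_of_mul_le_mul_left this hTpos

/-- **Claim (J)**, multiplied-out form, with the sharp factor `(u-2)/u`. -/
theorem claimJ_mul (al : ℝ)
    (hx : ∀ c ∈ Us, ∀ ω ∈ O, x c ω = 0 ∨ x c ω = 1)
    (hsum : ∀ ω ∈ O, ∑ c ∈ Us, x c ω = al)
    (hmem : ∀ c ∈ Us, ∀ d ∈ Us, ∀ ω ∈ O, τ c d ω ∈ O)
    (hinv : ∀ c ∈ Us, ∀ d ∈ Us, ∀ ω ∈ O, τ c d (τ c d ω) = ω)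
    (hact : ∀ c ∈ Us, ∀ d ∈ Us, ∀ e ∈ Us, ∀ ω ∈ O, x e (τ c d ω) = x (Equiv.swap c d e) ω)
    (g : Ω → ℝ) (hg : ∑ ω ∈ O, g ω = 0) (S0 : ℝ)
    (hS0 : ∀ q ∈ Us.offDiag, ∑ ω ∈ O, a x q.1 q.2 ω = S0) :
    (Us.card : ℝ) * ∑ q ∈ Us.offDiag, (∑ ω ∈ O, g ω * a x q.1 q.2 ω) ^ 2
      ≤ ((Us.card : ℝ) - 2) * S0 *
          ((1 / 4) * ∑ q ∈ Us.offDiag, ∑ ω ∈ O, (g ω - g (τ q.1 q.2 ω)) ^ 2) := by
  by_cases hne : Us.offDiag = ∅
  · rw [hne]; simp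
  obtain ⟨q0, hq0⟩ := Finset.nonempty_iff_ne_empty.2 hne
  have hu : 2 ≤ Us.card := by
    rw [Finset.mem_offDiag] at hq0
    have : ({q0.1, q0.2} : Finset U) ⊆ Us := by
      intro z hz
      rcases Finset.mem_insert.1 hz with rfl | hz
      · exact hq0.1
      · rw [Finset.mem_singleton.1 hz]; exact hq0.2.1
    calc 2 = ({q0.1, q0.2} : Finset U).card := (Finset.card_pair hq0.2.2).symm
      _ ≤ _ := Finset.card_le_card this
  set w : U → U → ℝ := fun c d => ∑ ω ∈ O, g ω * a x c d ω with hw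
  have hsymm : ∀ c ∈ Us, ∀ d ∈ Us, w c d = w d c := by
    intro c _ d _
    exact Finset.sum_congr rfl (fun ω _ => by rw [a_comm])
  have hdiag : ∀ c ∈ Us, w c c = 0 := by
    intro c hc
    apply Finset.sum_eq_zero
    intro ω hω
    rw [a_self (hx c hc ω hω), mul_zero]
  have hzero : ∑ c ∈ Us, ∑ d ∈ Us, w c d = 0 := by
    have e1 : ∑ c ∈ Us, ∑ d ∈ Us, w c d
        = ∑ ω ∈ O, g ω * ∑ c ∈ Us, ∑ d ∈ Us, a x c d ω := by
      calc ∑ c ∈ Us, ∑ d ∈ Us, w c d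
          = ∑ c ∈ Us, ∑ ω ∈ O, ∑ d ∈ Us, g ω * a x c d ω :=
            Finset.sum_congr rfl (fun c _ => Finset.sum_comm)
        _ = ∑ ω ∈ O, ∑ c ∈ Us, ∑ d ∈ Us, g ω * a x c d ω := Finset.sum_comm
        _ = _ := by
            apply Finset.sum_congr rfl
            intro ω _
            rw [Finset.mul_sum]
            exact Finset.sum_congr rfl (fun c _ => by rw [Finset.mul_sum])
    have e2 : ∀ ω ∈ O, ∑ c ∈ Us, ∑ d ∈ Us, a x c d ω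
        = 2 * (Us.card : ℝ) * al - 2 * al ^ 2 := by
      intro ω hω
      have i1 : ∀ c ∈ Us, ∑ d ∈ Us, a x c d ω
          = (Us.card : ℝ) * x c ω + al - 2 * x c ω * al := by
        intro c _
        unfold a
        rw [Finset.sum_sub_distrib, Finset.sum_add_distrib, Finset.sum_const, ← Finset.mul_sum,
          hsum ω hω, nsmul_eq_mul]
      rw [Finset.sum_congr rfl i1, Finset.sum_sub_distrib, Finset.sum_add_distrib,
        Finset.sum_const, ← Finset.mul_sum, ← Finset.sum_mul, ← Finset.mul_sum, hsum ω hω,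
        nsmul_eq_mul]
      ring
    rw [e1, Finset.sum_congr rfl (fun ω hω => by rw [e2 ω hω]), ← Finset.sum_mul, hg, zero_mul]
  have htri := triangular Us w hsymm hdiag
  have hrow := row_sums_le Us w hsymm hdiag hzero hu
  have hW : ∑ q ∈ Us.offDiag, w q.1 q.2 ^ 2 = ∑ c ∈ Us, ∑ d ∈ Us, w c d ^ 2 :=
    sum_offDiag_eq Us (fun c d => w c d ^ 2) (fun c hc => by simp [hdiag c hc])
  have hbes : ∑ q ∈ Us.offDiag, ∑ e ∈ (Us.erase q.1).erase q.2, (w q.1 e - w q.2 e) ^ 2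
      ≤ ∑ q ∈ Us.offDiag, ((Us.card : ℝ) - 2) * S0 *
          ((1 / 4) * ∑ ω ∈ O, (g ω - g (τ q.1 q.2 ω)) ^ 2) := by
    apply Finset.sum_le_sum
    intro q hq
    have hq' := Finset.mem_offDiag.1 hq
    have := bessel O Us x τ hx hmem hinv hact g hq'.1 hq'.2.1 hq'.2.2
    rw [hS0 q hq] at this
    exact this
  rw [← Finset.mul_sum, ← Finset.mul_sum] at hbes
  change (Us.card : ℝ) * ∑ q ∈ Us.offDiag, w q.1 q.2 ^ 2 ≤ _
  rw [hW]
  rw [htri] at hbes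
  linarith

/-- **Claim (J)** (weak form `J(g) ≥ 0`): for `g` of zero sum on `O`,
`∑_{(c,d)} (∑ g a_cd)² / (∑ a_cd) ≤ (1/4) ∑_{(c,d)} ∑ (g - g ∘ τ_cd)²`
(ordered pairs `c ≠ d` on both sides). -/
theorem claimJ (al : ℝ)
    (hx : ∀ c ∈ Us, ∀ ω ∈ O, x c ω = 0 ∨ x c ω = 1)
    (hsum : ∀ ω ∈ O, ∑ c ∈ Us, x c ω = al)
    (hmem : ∀ c ∈ Us, ∀ d ∈ Us, ∀ ω ∈ O, τ c d ω ∈ O)
    (hinv : ∀ c ∈ Us, ∀ d ∈ Us, ∀ ω ∈ O, τ c d (τ c d ω) = ω)
    (hact : ∀ c ∈ Us, ∀ d ∈ Us, ∀ e ∈ Us, ∀ ω ∈ O, x e (τ c d ω) = x (Equiv.swap c d e) ω)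
    (g : Ω → ℝ) (hg : ∑ ω ∈ O, g ω = 0) :
    ∑ q ∈ Us.offDiag, (∑ ω ∈ O, g ω * a x q.1 q.2 ω) ^ 2 / (∑ ω ∈ O, a x q.1 q.2 ω)
      ≤ (1 / 4) * ∑ q ∈ Us.offDiag, ∑ ω ∈ O, (g ω - g (τ q.1 q.2 ω)) ^ 2 := by
  by_cases hne : Us.offDiag = ∅
  · rw [hne]; simp
  obtain ⟨q0, hq0⟩ := Finset.nonempty_iff_ne_empty.2 hne
  set S0 : ℝ := ∑ ω ∈ O, a x q0.1 q0.2 ω with hS0def
  have hq0' := Finset.mem_offDiag.1 hq0
  have hS0 : ∀ q ∈ Us.offDiag, ∑ ω ∈ O, a x q.1 q.2 ω = S0 := by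
    intro q hq
    have hq' := Finset.mem_offDiag.1 hq
    exact sum_a_const O Us x τ hmem hinv hact hq'.1 hq'.2.1 hq'.2.2 hq0'.1 hq0'.2.1 hq0'.2.2
  have hmain := claimJ_mul O Us x τ al hx hsum hmem hinv hact g hg S0 hS0
  have hS0nn : 0 ≤ S0 :=
    Finset.sum_nonneg (fun ω hω => a_nonneg (hx _ hq0'.1 ω hω) (hx _ hq0'.2.1 ω hω))
  set R : ℝ := (1 / 4) * ∑ q ∈ Us.offDiag, ∑ ω ∈ O, (g ω - g (τ q.1 q.2 ω)) ^ 2 with hR
  have hR0 : 0 ≤ R := by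
    rw [hR]
    exact mul_nonneg (by norm_num)
      (Finset.sum_nonneg (fun _ _ => Finset.sum_nonneg (fun _ _ => sq_nonneg _)))
  rw [Finset.sum_congr rfl (fun q hq => by rw [hS0 q hq] :
    ∀ q ∈ Us.offDiag, (∑ ω ∈ O, g ω * a x q.1 q.2 ω) ^ 2 / (∑ ω ∈ O, a x q.1 q.2 ω)
      = (∑ ω ∈ O, g ω * a x q.1 q.2 ω) ^ 2 / S0), ← Finset.sum_div]
  by_cases hS : S0 = 0
  · rw [hS, div_zero]; exact hR0
  have hSpos : 0 < S0 := lt_of_le_of_ne hS0nn (Ne.symm hS)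
  rw [div_le_iff₀ hSpos]
  have hupos : (0 : ℝ) < (Us.card : ℝ) := by
    have : 0 < Us.card := Finset.card_pos.2 ⟨q0.1, hq0'.1⟩
    exact_mod_cast this
  have : (Us.card : ℝ) * ∑ q ∈ Us.offDiag, (∑ ω ∈ O, g ω * a x q.1 q.2 ω) ^ 2
      ≤ (Us.card : ℝ) * (R * S0) := by
    have h2 : 0 ≤ S0 * R := mul_nonneg hS0nn hR0
    nlinarith
  exact le_of_mul_le_mul_left this hupos

end main

end Crest.Agent.S0453Aux.ClaimJ
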