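import Crest.Agent.S0453Aux.BDefs

/-!
# Basic facts on the switch involution `tau a b c e` (S0453, step B)
-/

set_option autoImplicit false
set_option linter.unusedVariables false
open Finset
open Crest Crest.SwitchChain

namespace Crest.Agent.S0453Aux.B3

variable {n : ℕ}

/-- `{u,w}` is one of the four slots `ac, be, ae, bc`. -/
def InCyc (a b c e u w : Fin n) : Prop :=
  (u = a ∧ w = c) ∨ (u = c ∧ w = a) ∨ (u = b ∧ w = e) ∨ (u = e ∧ w = b) ∨
    (u = a ∧ w = e) ∨ (u = e ∧ w = a) ∨ (u = b ∧ w = c) ∨ (u = c ∧ w = b)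

theorem mkE_mem_cyc {a b c e u w : Fin n} (h : u ≠ w) :
    mkE u w h ∈ cyc a b c e ↔ InCyc a b c e u w := by
  simp only [cyc, mem_filter, mem_univ, true_and, mkE, Sym2.eq_iff, InCyc]
  tauto

theorem adj_symmDiff_cyc {a b c e : Fin n} (G : Finset (Edge n)) (u w : Fin n) :
    Adj (symmDiff G (cyc a b c e)) u w ↔
      u ≠ w ∧ ((Adj G u w ∧ ¬ InCyc a b c e u w) ∨ (¬ Adj G u w ∧ InCyc a b c e u w)) := by
  by_cases h : u = w
  · subst h
    constructor
    · intro h'; exact absurd rfl h'.ne
    · intro h'; exact absurd rfl h'.1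
  · rw [adj_iff_mem h, adj_iff_mem h, Finset.mem_symmDiff, mkE_mem_cyc h]
    tauto

theorem adj_tau_of_isD {a b c e : Fin n} {G : Finset (Edge n)} (hD : isD a b c e G) (u w : Fin n) :
    Adj (tau a b c e G) u w ↔
      u ≠ w ∧ ((Adj G u w ∧ ¬ InCyc a b c e u w) ∨ (¬ Adj G u w ∧ InCyc a b c e u w)) := by
  classical
  rw [tau, if_pos hD, adj_symmDiff_cyc]

theorem tau_of_not_isD {a b c e : Fin n} {G : Finset (Edge n)} (hD : ¬ isD a b c e G) :
    tau a b c e G = G := by
  classical
  rw [tau, if_neg hD]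

section distinct

variable {a b c e : Fin n}

theorem isD_tau (hab : a ≠ b) (hac : a ≠ c) (hae : a ≠ e) (hbc : b ≠ c) (hbe : b ≠ e) (hce : c ≠ e)
    (G : Finset (Edge n)) : isD a b c e (tau a b c e G) ↔ isD a b c e G := by
  by_cases hD : isD a b c e G
  · simp only [hD, iff_true]
    unfold isD isD1
    simp only [adj_tau_of_isD hD, InCyc]
    unfold isD isD1 at hD
    grind
  · rw [tau_of_not_isD hD]

theorem tau_tau (hab : a ≠ b) (hac : a ≠ c) (hae : a ≠ e) (hbc : b ≠ c) (hbe : b ≠ e)
    (hce : c ≠ e) (G : Finset (Edge n)) : tau a b c e (tau a b c e G) = G := by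
  classical
  by_cases hD : isD a b c e G
  · have hD' := (isD_tau hab hac hae hbc hbe hce G).2 hD
    rw [tau, if_pos hD', tau, if_pos hD]
    exact symmDiff_symmDiff_cancel_right _ _
  · rw [tau_of_not_isD hD, tau_of_not_isD hD]

/-- If the cycle is alternating, `G → tau G` is a switch step. -/
theorem switchStep_tau (hab : a ≠ b) (hac : a ≠ c) (hae : a ≠ e) (hbc : b ≠ c) (hbe : b ≠ e)
    (hce : c ≠ e) {G : Finset (Edge n)} (hD : isD a b c e G) : SwitchStep G (tau a b c e G) := by
  have hD0 := hD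
  rcases hD with ⟨h1, h2, h3, h4⟩ | ⟨h1, h2, h3, h4⟩
  · refine ⟨a, b, c, e, hac, hbe, hae, hbc, hab, hce, h1.2, h2.2, ?_, ?_, ?_⟩
    · rwa [← adj_iff_mem]
    · rwa [← adj_iff_mem]
    · apply graph_ext; intro u w
      rw [adj_tau_of_isD hD0, adj_sw]
      have := @adj_comm n G
      have hne : Adj G u w → u ≠ w := Adj.ne
      unfold InCyc
      grind
  · refine ⟨a, b, e, c, hae, hbc, hac, hbe, hab, hce.symm, h1.2, h2.2, ?_, ?_, ?_⟩
    · rwa [← adj_iff_mem]
    · rwa [← adj_iff_mem]
    · apply graph_ext; intro u w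
      rw [adj_tau_of_isD hD0, adj_sw]
      have := @adj_comm n G
      have hne : Adj G u w → u ≠ w := Adj.ne
      unfold InCyc
      grind

theorem tau_mem_realizations (hab : a ≠ b) (hac : a ≠ c) (hae : a ≠ e) (hbc : b ≠ c) (hbe : b ≠ e)
    (hce : c ≠ e) {d : Fin n → ℕ} {G : Finset (Edge n)} (hG : G ∈ realizations d) :
    tau a b c e G ∈ realizations d := by
  by_cases hD : isD a b c e G
  · exact (switchStep_tau hab hac hae hbc hbe hce hD).mem_realizations hG
  · rwa [tau_of_not_isD hD]

end distinct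

theorem mem_away {S : Finset (Fin n)} {G : Finset (Edge n)} {u w : Fin n} (h : u ≠ w) :
    mkE u w h ∈ away S G ↔ Adj G u w ∧ u ∉ S ∧ w ∉ S := by
  simp only [away, mem_filter, adj_iff_mem h, mkE, Sym2.mem_iff]
  constructor
  · rintro ⟨h1, h2⟩
    exact ⟨h1, fun hu => h2 u hu (Or.inl rfl), fun hw => h2 w hw (Or.inr rfl)⟩
  · rintro ⟨h1, h2, h3⟩
    refine ⟨h1, fun v hv hvv => ?_⟩
    rcases hvv with rfl | rfl
    · exact h2 hv
    · exact h3 hv

theorem adj_away {S : Finset (Fin n)} {G : Finset (Edge n)} {u w : Fin n} :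
    Adj (away S G) u w ↔ Adj G u w ∧ u ∉ S ∧ w ∉ S := by
  by_cases h : u = w
  · subst h
    constructor
    · intro h'; exact absurd rfl h'.ne
    · intro h'; exact absurd rfl h'.1.ne
  · rw [adj_iff_mem h, mem_away h]

/-- two graphs have the same `away S` part iff they agree on all pairs avoiding `S` -/
theorem away_eq_iff {S : Finset (Fin n)} {G G' : Finset (Edge n)} :
    away S G = away S G' ↔ ∀ u w, u ∉ S → w ∉ S → (Adj G u w ↔ Adj G' u w) := by
  constructor
  · intro h u w hu hw
    have h1 := @adj_away n S G u w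
    have h2 := @adj_away n S G' u w
    rw [h] at h1
    constructor
    · intro hA; exact (h2.1 (h1.2 ⟨hA, hu, hw⟩)).1
    · intro hA; exact (h1.1 (h2.2 ⟨hA, hu, hw⟩)).1
  · intro h
    apply graph_ext
    intro u w
    rw [adj_away, adj_away]
    constructor
    · rintro ⟨h1, h2, h3⟩; exact ⟨(h u w h2 h3).1 h1, h2, h3⟩
    · rintro ⟨h1, h2, h3⟩; exact ⟨(h u w h2 h3).2 h1, h2, h3⟩

theorem away_tau_left (a b c e : Fin n) (G : Finset (Edge n)) :
    away {a, b} (tau a b c e G) = away {a, b} G := by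
  by_cases hD : isD a b c e G
  · rw [away_eq_iff]
    intro u w hu hw
    simp only [mem_insert, mem_singleton, not_or] at hu hw
    rw [adj_tau_of_isD hD]
    have hne : Adj G u w → u ≠ w := Adj.ne
    unfold InCyc
    grind
  · rw [tau_of_not_isD hD]

theorem away_tau_right (a b c e : Fin n) (G : Finset (Edge n)) :
    away {c, e} (tau a b c e G) = away {c, e} G := by
  by_cases hD : isD a b c e G
  · rw [away_eq_iff]
    intro u w hu hw
    simp only [mem_insert, mem_singleton, not_or] at hu hw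
    rw [adj_tau_of_isD hD]
    have hne : Adj G u w → u ≠ w := Adj.ne
    unfold InCyc
    grind
  · rw [tau_of_not_isD hD]

theorem cyc_swap_pairs (a b c e : Fin n) : cyc c e a b = cyc a b c e := by
  ext x
  simp only [cyc, mem_filter, mem_univ, true_and]
  rw [Sym2.eq_swap (a := c) (b := a), Sym2.eq_swap (a := e) (b := b), Sym2.eq_swap (a := c) (b := b),
    Sym2.eq_swap (a := e) (b := a)]
  tauto

theorem isD_swap_pairs (a b c e : Fin n) (G : Finset (Edge n)) : isD c e a b G ↔ isD a b c e G := by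
  unfold isD isD1
  rw [@adj_comm n G c a, @adj_comm n G e b, @adj_comm n G c b, @adj_comm n G e a]
  tauto

theorem tau_swap_pairs (a b c e : Fin n) (G : Finset (Edge n)) : tau c e a b G = tau a b c e G := by
  classical
  unfold tau
  simp only [isD_swap_pairs, cyc_swap_pairs]

theorem cyc_swap_right (a b c e : Fin n) : cyc a b e c = cyc a b c e := by
  ext x
  simp only [cyc, mem_filter, mem_univ, true_and]
  tauto

theorem isD_swap_right (a b c e : Fin n) (G : Finset (Edge n)) : isD a b e c G ↔ isD a b c e G := by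
  unfold isD isD1
  tauto

theorem tau_swap_right (a b c e : Fin n) (G : Finset (Edge n)) : tau a b e c G = tau a b c e G := by
  classical
  unfold tau
  simp only [isD_swap_right, cyc_swap_right]

end Crest.Agent.S0453Aux.B3
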