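import Crest.Agent.S0453Aux.BDefs
import Crest.Agent.S0453Aux.TauFacts
import Crest.Agent.S0453Aux.ClaimJ

/-!
# S0453, step (B3): summing over `p'`, claim (J) on every `p`-orbit, `X4 ≥ 0`
-/

set_option autoImplicit false
set_option linter.unusedVariables false
open Finset
open Crest Crest.SwitchChain

namespace Crest.Agent.S0453Aux.B3

variable {n : ℕ}

/-! ### the set `U_p` and its invariance on `p`-orbits -/

open Classical in
/-- `U_p`: vertices outside `{a,b}` adjacent to exactly one of `a`, `b`. -/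
noncomputable def UU (a b : Fin n) (G : Finset (Edge n)) : Finset (Fin n) :=
  univ.filter fun w => w ≠ a ∧ w ≠ b ∧ (Adj G a w ↔ ¬ Adj G b w)

theorem mem_UU {a b w : Fin n} {G : Finset (Edge n)} :
    w ∈ UU a b G ↔ w ≠ a ∧ w ≠ b ∧ (Adj G a w ↔ ¬ Adj G b w) := by
  classical
  simp [UU]

open Classical in
/-- number of edges from `w` to `{a,b}` -/
noncomputable def cnt (a b : Fin n) (G : Finset (Edge n)) (w : Fin n) : ℕ :=
  (if Adj G a w then 1 else 0) + (if Adj G b w then 1 else 0)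

open Classical in
theorem card_nb_eq_cnt {a b : Fin n} (hab : a ≠ b) (G : Finset (Edge n)) (w : Fin n) :
    (nb G w).card = ((nb G w).filter (fun v => v ≠ a ∧ v ≠ b)).card + cnt a b G w := by
  rw [← Finset.card_filter_add_card_filter_not (s := nb G w) (fun v => v ≠ a ∧ v ≠ b)]
  congr 1
  have h : (nb G w).filter (fun v => ¬ (v ≠ a ∧ v ≠ b)) =
      (if Adj G a w then {a} else ∅) ∪ (if Adj G b w then {b} else ∅) := by
    ext v
    have h1 := @adj_comm n G w a
    have h2 := @adj_comm n G w b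
    simp only [mem_filter, mem_nb, mem_union]
    split_ifs <;> simp <;> grind
  rw [h, card_union_of_disjoint, cnt]
  · split_ifs <;> simp
  · split_ifs <;> simp [hab]

theorem cnt_eq_of_away_eq {d : Fin n → ℕ} {a b : Fin n} (hab : a ≠ b) {G G' : Finset (Edge n)}
    (hG : G ∈ realizations d) (hG' : G' ∈ realizations d)
    (h : away {a, b} G = away {a, b} G') {w : Fin n} (hwa : w ≠ a) (hwb : w ≠ b) :
    cnt a b G w = cnt a b G' w := by
  classical
  have e1 := card_nb_eq_cnt hab G w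
  have e2 := card_nb_eq_cnt hab G' w
  rw [(Crest.Agent.S0453Aux.mem_realizations.1 hG) w] at e1
  rw [(Crest.Agent.S0453Aux.mem_realizations.1 hG') w] at e2
  have e3 : (nb G w).filter (fun v => v ≠ a ∧ v ≠ b) = (nb G' w).filter (fun v => v ≠ a ∧ v ≠ b) := by
    ext v
    simp only [mem_filter, mem_nb]
    constructor
    · rintro ⟨h1, h2, h3⟩
      exact ⟨((away_eq_iff.1 h) w v (by simp [hwa, hwb]) (by simp [h2, h3])).1 h1, h2, h3⟩
    · rintro ⟨h1, h2, h3⟩
      exact ⟨((away_eq_iff.1 h) w v (by simp [hwa, hwb]) (by simp [h2, h3])).2 h1, h2, h3⟩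
  rw [e3] at e1
  omega

theorem mem_UU_iff_cnt {a b w : Fin n} {G : Finset (Edge n)} :
    w ∈ UU a b G ↔ w ≠ a ∧ w ≠ b ∧ cnt a b G w = 1 := by
  classical
  rw [mem_UU, cnt]
  by_cases h1 : Adj G a w <;> by_cases h2 : Adj G b w <;> simp [h1, h2]

theorem UU_eq_of_away_eq {d : Fin n → ℕ} {a b : Fin n} (hab : a ≠ b) {G G' : Finset (Edge n)}
    (hG : G ∈ realizations d) (hG' : G' ∈ realizations d)
    (h : away {a, b} G = away {a, b} G') : UU a b G = UU a b G' := by
  ext w
  rw [mem_UU_iff_cnt, mem_UU_iff_cnt]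
  constructor
  · rintro ⟨h1, h2, h3⟩
    exact ⟨h1, h2, by rw [← cnt_eq_of_away_eq hab hG hG' h h1 h2]; exact h3⟩
  · rintro ⟨h1, h2, h3⟩
    exact ⟨h1, h2, by rw [cnt_eq_of_away_eq hab hG hG' h h1 h2]; exact h3⟩

open Classical in
/-- `2 |U ∩ N(a)| = |U| + d_a - d_b`. -/
theorem two_mul_card_UU_filter {d : Fin n → ℕ} {a b : Fin n} (hab : a ≠ b) {G : Finset (Edge n)}
    (hG : G ∈ realizations d) :
    2 * ((UU a b G).filter (fun c => Adj G a c)).card + d b = (UU a b G).card + d a := by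
  have ha := (Crest.Agent.S0453Aux.mem_realizations.1 hG) a
  have hb := (Crest.Agent.S0453Aux.mem_realizations.1 hG) b
  have e1 := Finset.card_filter_add_card_filter_not (s := nb G a) (fun v => v ∈ UU a b G)
  have e2 := Finset.card_filter_add_card_filter_not (s := nb G b) (fun v => v ∈ UU a b G)
  have e3 := Finset.card_filter_add_card_filter_not (s := UU a b G) (fun c => Adj G a c)
  have f1 : (nb G a).filter (fun v => v ∈ UU a b G) = (UU a b G).filter (fun c => Adj G a c) := by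
    ext v; simp only [mem_filter, mem_nb]; tauto
  have f2 : (nb G b).filter (fun v => v ∈ UU a b G) = (UU a b G).filter (fun c => ¬ Adj G a c) := by
    ext v; simp only [mem_filter, mem_nb, mem_UU]; tauto
  have f3 : ((nb G b).filter (fun v => v ∉ UU a b G)).card =
      ((nb G a).filter (fun v => v ∉ UU a b G)).card := by
    apply Finset.card_bij (fun v _ => Equiv.swap a b v)
    · intro v hv
      simp only [mem_filter, mem_nb, mem_UU] at hv ⊢
      have hc := @adj_comm n G a b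
      have hne := hv.1.ne
      by_cases hva : v = a
      · subst hva
        rw [Equiv.swap_apply_left]
        grind
      · have hvb : v ≠ b := fun h => hne h.symm
        rw [Equiv.swap_apply_of_ne_of_ne hva hvb]
        grind
    · intro v _ v' _ h
      exact (Equiv.swap a b).injective h
    · intro v hv
      refine ⟨Equiv.swap a b v, ?_, by simp⟩
      simp only [mem_filter, mem_nb, mem_UU] at hv ⊢
      have hc := @adj_comm n G a b
      have hne := hv.1.ne
      by_cases hvb : v = b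
      · subst hvb
        rw [Equiv.swap_apply_right]
        grind
      · have hva : v ≠ a := fun h => hne h.symm
        rw [Equiv.swap_apply_of_ne_of_ne hva hvb]
        grind
  rw [f1] at e1
  rw [f2] at e2
  omega

/-! ### `isD` in terms of `U_p` -/

theorem isD_mem_UU {a b c e : Fin n} (h : Dis4 a b c e) {G : Finset (Edge n)}
    (hD : isD a b c e G) : c ∈ UU a b G ∧ e ∈ UU a b G := by
  rw [mem_UU, mem_UU]
  unfold isD isD1 at hD
  have := h.ac; have := h.ae; have := h.bc; have := h.be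
  grind

theorem isD_iff_of_mem_UU {a b c e : Fin n} {G : Finset (Edge n)}
    (hc : c ∈ UU a b G) (he : e ∈ UU a b G) : isD a b c e G ↔ (Adj G a c ↔ ¬ Adj G a e) := by
  rw [mem_UU] at hc he
  unfold isD isD1
  grind

theorem not_isD_self (a b c : Fin n) (G : Finset (Edge n)) : ¬ isD a b c c G := by
  unfold isD isD1
  tauto

/-! ### claim (J) on one `p`-orbit -/

open Classical in
/-- the indicator of `c ~ a` -/
noncomputable def xx (a : Fin n) (c : Fin n) (G : Finset (Edge n)) : ℝ :=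
  if Adj G a c then 1 else 0

open Classical in
theorem a_xx_eq {a b c e : Fin n} {G : Finset (Edge n)}
    (hc : c ∈ UU a b G) (he : e ∈ UU a b G) :
    ClaimJ.a (xx a) c e G = if isD a b c e G then 1 else 0 := by
  rw [ClaimJ.a, xx, xx]
  have := isD_iff_of_mem_UU hc he
  by_cases h1 : Adj G a c <;> by_cases h2 : Adj G a e <;> simp [h1, h2, this]
  norm_num

theorem adj_tau_a {a b c e e' : Fin n} {G : Finset (Edge n)}
    (hcU : c ∈ UU a b G) (heU : e ∈ UU a b G) (he'U : e' ∈ UU a b G) :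
    Adj (tau a b c e G) a e' ↔ Adj G a (Equiv.swap c e e') := by
  have hiff := isD_iff_of_mem_UU hcU heU
  rw [mem_UU] at hcU heU he'U
  obtain ⟨hca, hcb, -⟩ := hcU
  obtain ⟨hea, heb, -⟩ := heU
  obtain ⟨he'a, he'b, -⟩ := he'U
  by_cases hD : isD a b c e G
  · have hA := adj_tau_of_isD hD a e'
    have hX := hiff.1 hD
    rw [hA]
    unfold InCyc
    by_cases h1 : e' = c
    · subst h1
      rw [Equiv.swap_apply_left]
      have : (a = a ∧ e' = e') := ⟨rfl, rfl⟩
      constructor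
      · rintro ⟨-, h | h⟩
        · exact absurd (Or.inl this) h.2
        · by_contra hcon; exact h.1 (hX.2 hcon)
      · intro h
        exact ⟨he'a.symm, Or.inr ⟨fun h' => hX.1 h' h, Or.inl this⟩⟩
    · by_cases h2 : e' = e
      · subst h2
        rw [Equiv.swap_apply_right]
        have : (a = a ∧ e' = e') := ⟨rfl, rfl⟩
        constructor
        · rintro ⟨-, h | h⟩
          · exact absurd (Or.inr (Or.inr (Or.inr (Or.inr (Or.inl this))))) h.2
          · exact hX.2 h.1
        · intro h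
          exact ⟨he'a.symm, Or.inr ⟨hX.1 h, Or.inr (Or.inr (Or.inr (Or.inr (Or.inl this))))⟩⟩
      · rw [Equiv.swap_apply_of_ne_of_ne h1 h2]
        have hno : ¬ ((a = a ∧ e' = c) ∨ (a = c ∧ e' = a) ∨ (a = b ∧ e' = e) ∨ (a = e ∧ e' = b) ∨
            (a = a ∧ e' = e) ∨ (a = e ∧ e' = a) ∨ (a = b ∧ e' = c) ∨ (a = c ∧ e' = b)) := by
          rintro (h | h | h | h | h | h | h | h)
          · exact h1 h.2
          · exact he'a h.2
          · exact h2 h.2
          · exact he'b h.2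
          · exact h2 h.2
          · exact he'a h.2
          · exact h1 h.2
          · exact he'b h.2
        constructor
        · rintro ⟨-, h | h⟩
          · exact h.1
          · exact absurd h.2 hno
        · intro h
          exact ⟨he'a.symm, Or.inl ⟨h, hno⟩⟩
  · rw [tau_of_not_isD hD]
    have hEq : Adj G a c ↔ Adj G a e := by
      by_cases h1 : Adj G a c <;> by_cases h2 : Adj G a e <;> simp_all
    by_cases h1 : e' = c
    · subst h1
      rw [Equiv.swap_apply_left]; exact hEq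
    · by_cases h2 : e' = e
      · subst h2
        rw [Equiv.swap_apply_right]; exact hEq.symm
      · rw [Equiv.swap_apply_of_ne_of_ne h1 h2]

theorem xx_tau {a b c e e' : Fin n} {G : Finset (Edge n)}
    (hcU : c ∈ UU a b G) (heU : e ∈ UU a b G) (he'U : e' ∈ UU a b G) :
    xx a e' (tau a b c e G) = xx a (Equiv.swap c e e') G := by
  classical
  unfold xx
  exact if_congr (adj_tau_a hcU heU he'U) rfl rfl

open Classical in
/-- Claim (J) on the fibre `O` of `away {a,b}` through `G₀`. -/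
theorem fibre_ineq {d : Fin n → ℕ} {a b : Fin n} (hab : a ≠ b) {G₀ : Finset (Edge n)}
    (hG₀ : G₀ ∈ realizations d) (g : Finset (Edge n) → ℝ)
    (hg : ∑ G ∈ (realizations d).filter (fun G => away {a, b} G = away {a, b} G₀), g G = 0) :
    ∑ q ∈ (UU a b G₀).offDiag,
      (∑ G ∈ ((realizations d).filter (fun G => away {a, b} G = away {a, b} G₀)).filter
          (isD a b q.1 q.2), g G) ^ 2 /
        ((((realizations d).filter (fun G => away {a, b} G = away {a, b} G₀)).filter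
          (isD a b q.1 q.2)).card : ℝ) ≤
    (1 / 4) * ∑ q ∈ (UU a b G₀).offDiag,
      ∑ G ∈ (realizations d).filter (fun G => away {a, b} G = away {a, b} G₀),
        (g G - g (tau a b q.1 q.2 G)) ^ 2 := by
  set O := (realizations d).filter (fun G => away {a, b} G = away {a, b} G₀) with hO
  set Us := UU a b G₀ with hUs
  have hOmem : ∀ G ∈ O, G ∈ realizations d ∧ away {a, b} G = away {a, b} G₀ := by
    intro G hG; simpa [hO] using hG
  have hU : ∀ G ∈ O, UU a b G = Us := by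
    intro G hG
    exact UU_eq_of_away_eq hab (hOmem G hG).1 hG₀ (hOmem G hG).2
  have hdis : ∀ c ∈ Us, ∀ e ∈ Us, c ≠ e → Dis4 a b c e := by
    intro c hc e he hce
    rw [hUs, mem_UU] at hc he
    exact ⟨hab, hc.1.symm, he.1.symm, hc.2.1.symm, he.2.1.symm, hce⟩
  have key := ClaimJ.claimJ O Us (xx a) (fun c e => tau a b c e)
    (((Us.card : ℝ) + d a - d b) / 2)
    (by intro c _ G _; unfold xx; split_ifs <;> simp)
    (by
      intro G hG
      have h1 := two_mul_card_UU_filter hab (hOmem G hG).1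
      rw [hU G hG] at h1
      have h2 : ∑ c ∈ Us, xx a c G = ((Us.filter (fun c => Adj G a c)).card : ℝ) := by
        unfold xx
        rw [Finset.sum_ite, Finset.sum_const_zero, add_zero, Finset.sum_const]
        simp
      rw [h2]
      have h3 : (2 : ℝ) * ((Us.filter (fun c => Adj G a c)).card : ℝ) + d b = Us.card + d a := by
        exact_mod_cast h1
      linarith)
    (by
      intro c hc e he G hG
      by_cases hce : c = e
      · subst hce; rw [tau_of_not_isD (not_isD_self a b c G)]; exact hG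
      · have hd := hdis c hc e he hce
        rw [hO, mem_filter]
        refine ⟨tau_mem_realizations hd.ab hd.ac hd.ae hd.bc hd.be hd.ce (hOmem G hG).1, ?_⟩
        rw [away_tau_left]; exact (hOmem G hG).2)
    (by
      intro c hc e he G hG
      by_cases hce : c = e
      · subst hce
        rw [tau_of_not_isD (not_isD_self a b c G), tau_of_not_isD (not_isD_self a b c G)]
      · have hd := hdis c hc e he hce
        exact tau_tau hd.ab hd.ac hd.ae hd.bc hd.be hd.ce G)
    (by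
      intro c hc e he e' he' G hG
      exact xx_tau (by rw [hU G hG]; exact hc) (by rw [hU G hG]; exact he)
        (by rw [hU G hG]; exact he'))
    g hg
  refine le_trans (le_of_eq ?_) key
  apply Finset.sum_congr rfl
  intro q hq
  rw [mem_offDiag] at hq
  have ha : ∀ G ∈ O, ClaimJ.a (xx a) q.1 q.2 G = if isD a b q.1 q.2 G then 1 else 0 := by
    intro G hG
    exact a_xx_eq (by rw [hU G hG]; exact hq.1) (by rw [hU G hG]; exact hq.2.1)
  congr 1
  · congr 1
    rw [Finset.sum_filter]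
    apply Finset.sum_congr rfl
    intro G hG
    rw [ha G hG]
    split_ifs <;> simp
  · rw [Finset.sum_congr rfl ha, Finset.sum_ite, Finset.sum_const_zero, add_zero, Finset.sum_const]
    simp

/-! ### fibre decompositions -/

theorem cE_eq_of_key_eq {α κ : Type*} [DecidableEq κ] (Om : Finset α) (key : α → κ) (f : α → ℝ)
    {x y : α} (h : key x = key y) : cE Om key f x = cE Om key f y := by
  unfold cE; rw [h]

theorem Qp_sub_tau (d : Fin n → ℕ) (a b c e : Fin n) (f : Finset (Edge n) → ℝ)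
    (G : Finset (Edge n)) :
    Qp d a b f G - Qp d a b f (tau a b c e G) = f G - f (tau a b c e G) := by
  unfold Qp Ep
  rw [cE_eq_of_key_eq _ _ _ (away_tau_left a b c e G)]
  ring

theorem sum_fibre_sub_cE {α κ : Type*} [DecidableEq κ] (Om : Finset α) (key : α → κ) (f : α → ℝ)
    (k : κ) : ∑ x ∈ Om.filter (fun x => key x = k), (f x - cE Om key f x) = 0 := by
  have h : ∀ x ∈ Om.filter (fun x => key x = k), f x - cE Om key f x =
      f x - (∑ y ∈ Om.filter (fun y => key y = k), f y) /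
        ((Om.filter (fun y => key y = k)).card : ℝ) := by
    intro x hx
    rw [mem_filter] at hx
    unfold cE
    rw [hx.2]
  rw [Finset.sum_congr rfl h, Finset.sum_sub_distrib, Finset.sum_const, nsmul_eq_mul]
  by_cases h0 : ((Om.filter (fun y => key y = k)).card : ℝ) = 0
  · have : Om.filter (fun y => key y = k) = ∅ := by
      rw [← Finset.card_eq_zero]; exact_mod_cast h0
    rw [this]; simp
  · rw [mul_div_cancel₀ _ h0, sub_self]

theorem sum_cE_sq {α κ : Type*} [DecidableEq κ] (Om : Finset α) (key : α → κ) (g : α → ℝ)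
    (K : Finset κ) (hK : ∀ x ∈ Om, key x ∈ K) :
    ∑ x ∈ Om, (cE Om key g x) ^ 2 =
      ∑ k ∈ K, (∑ x ∈ Om.filter (fun x => key x = k), g x) ^ 2 /
        ((Om.filter (fun x => key x = k)).card : ℝ) := by
  rw [← Finset.sum_fiberwise_of_maps_to hK]
  apply Finset.sum_congr rfl
  intro k _
  have h : ∀ x ∈ Om.filter (fun x => key x = k), (cE Om key g x) ^ 2 =
      ((∑ y ∈ Om.filter (fun y => key y = k), g y) /
        ((Om.filter (fun y => key y = k)).card : ℝ)) ^ 2 := by
    intro x hx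
    rw [mem_filter] at hx
    unfold cE
    rw [hx.2]
  rw [Finset.sum_congr rfl h, Finset.sum_const, nsmul_eq_mul]
  by_cases h0 : ((Om.filter (fun y => key y = k)).card : ℝ) = 0
  · rw [h0]; simp
  · field_simp

open Classical in
/-- For a fixed pair `p = {a,b}`: `∑_{p'} (|Θ_{pp'} f|² - z_{pp'}(f)) ≥ 0`. -/
theorem pair_sum_nonneg (d : Fin n → ℕ) {a b : Fin n} (hab : a ≠ b) (f : Finset (Edge n) → ℝ) :
    0 ≤ ∑ c, ∑ e, if (a ≠ c ∧ a ≠ e ∧ b ≠ c ∧ b ≠ e ∧ c ≠ e) then
      ((1 / 4) * ∑ G ∈ realizations d, (f G - f (tau a b c e G)) ^ 2 - zz d a b c e f) else 0 := by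
  set Ω := realizations d with hΩ
  set g := Qp d a b f with hg
  set key : Finset (Edge n) → Finset (Edge n) := away {a, b} with hkey
  set K := Ω.image key with hK
  have hKmem : ∀ G ∈ Ω, key G ∈ K := fun G hG => mem_image_of_mem _ hG
  set t : Finset (Edge n) → Fin n → Fin n → ℝ := fun k c e =>
    (1 / 4) * ∑ G ∈ Ω.filter (fun G => key G = k), (g G - g (tau a b c e G)) ^ 2 -
      (∑ G ∈ (Ω.filter (fun G => key G = k)).filter (isD a b c e), g G) ^ 2 /
        (((Ω.filter (fun G => key G = k)).filter (isD a b c e)).card : ℝ) with ht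
  have hT : ∀ c e, (1 / 4) * ∑ G ∈ Ω, (f G - f (tau a b c e G)) ^ 2 - zz d a b c e f =
      ∑ k ∈ K, t k c e := by
    intro c e
    rw [ht, Finset.sum_sub_distrib, ← Finset.mul_sum, Finset.sum_fiberwise_of_maps_to hKmem]
    congr 1
    · congr 1
      apply Finset.sum_congr rfl
      intro G _
      rw [hg, Qp_sub_tau]
    · unfold zz OmD
      rw [sum_cE_sq _ _ _ K (fun G hG => hKmem G (mem_filter.1 hG).1)]
      apply Finset.sum_congr rfl
      intro k _
      rw [Finset.filter_comm]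
  have hswap : (∑ c, ∑ e, if (a ≠ c ∧ a ≠ e ∧ b ≠ c ∧ b ≠ e ∧ c ≠ e) then
      ((1 / 4) * ∑ G ∈ Ω, (f G - f (tau a b c e G)) ^ 2 - zz d a b c e f) else 0) =
      ∑ k ∈ K, ∑ c, ∑ e, if (a ≠ c ∧ a ≠ e ∧ b ≠ c ∧ b ≠ e ∧ c ≠ e) then t k c e else 0 := by
    have h1 : ∀ c e, (if (a ≠ c ∧ a ≠ e ∧ b ≠ c ∧ b ≠ e ∧ c ≠ e) then
      ((1 / 4) * ∑ G ∈ Ω, (f G - f (tau a b c e G)) ^ 2 - zz d a b c e f) else 0) =
      ∑ k ∈ K, if (a ≠ c ∧ a ≠ e ∧ b ≠ c ∧ b ≠ e ∧ c ≠ e) then t k c e else 0 := by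
      intro c e
      rw [hT]
      split_ifs <;> simp
    simp only [h1]
    calc _ = ∑ c, ∑ k ∈ K, ∑ e, if (a ≠ c ∧ a ≠ e ∧ b ≠ c ∧ b ≠ e ∧ c ≠ e) then t k c e else 0 :=
          Finset.sum_congr rfl (fun c _ => Finset.sum_comm)
      _ = _ := Finset.sum_comm
  rw [hswap]
  apply Finset.sum_nonneg
  intro k hk
  obtain ⟨G₀, hG₀, rfl⟩ := mem_image.1 hk
  set Us := UU a b G₀ with hUs
  set O := Ω.filter (fun G => key G = key G₀) with hO
  have hOmem : ∀ G ∈ O, G ∈ Ω ∧ key G = key G₀ := by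
    intro G hG; simpa [hO] using hG
  have hU : ∀ G ∈ O, UU a b G = Us := by
    intro G hG
    exact UU_eq_of_away_eq hab (hOmem G hG).1 hG₀ (hOmem G hG).2
  have e1 : (∑ c, ∑ e, if (a ≠ c ∧ a ≠ e ∧ b ≠ c ∧ b ≠ e ∧ c ≠ e) then t (key G₀) c e else 0) =
      ∑ q ∈ (univ ×ˢ univ : Finset (Fin n × Fin n)).filter
        (fun q => a ≠ q.1 ∧ a ≠ q.2 ∧ b ≠ q.1 ∧ b ≠ q.2 ∧ q.1 ≠ q.2), t (key G₀) q.1 q.2 := by
    rw [Finset.sum_filter, Finset.sum_product]
  have e2 : ∑ q ∈ Us.offDiag, t (key G₀) q.1 q.2 =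
      ∑ q ∈ (univ ×ˢ univ : Finset (Fin n × Fin n)).filter
        (fun q => a ≠ q.1 ∧ a ≠ q.2 ∧ b ≠ q.1 ∧ b ≠ q.2 ∧ q.1 ≠ q.2), t (key G₀) q.1 q.2 := by
    apply Finset.sum_subset
    · intro q hq
      rw [mem_offDiag, hUs, mem_UU, mem_UU] at hq
      simp only [mem_filter, mem_product, mem_univ, true_and]
      exact ⟨hq.1.1.symm, hq.2.1.1.symm, hq.1.2.1.symm, hq.2.1.2.1.symm, hq.2.2⟩
    · intro q hq hq'
      simp only [mem_filter, mem_product, mem_univ, true_and] at hq
      have hd : Dis4 a b q.1 q.2 := ⟨hab, hq.1, hq.2.1, hq.2.2.1, hq.2.2.2.1, hq.2.2.2.2⟩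
      have hno : ∀ G ∈ O, ¬ isD a b q.1 q.2 G := by
        intro G hG hD
        have := isD_mem_UU hd hD
        rw [hU G hG] at this
        exact hq' (mem_offDiag.2 ⟨this.1, this.2, hd.ce⟩)
      have h1 : O.filter (isD a b q.1 q.2) = ∅ := by
        rw [Finset.filter_eq_empty_iff]; exact hno
      have h2 : ∑ G ∈ O, (g G - g (tau a b q.1 q.2 G)) ^ 2 = 0 := by
        apply Finset.sum_eq_zero
        intro G hG
        rw [tau_of_not_isD (hno G hG)]; ring
      simp only [ht]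
      rw [h1, h2]
      simp
  rw [e1, ← e2]
  have hsum0 : ∑ G ∈ O, g G = 0 := sum_fibre_sub_cE Ω key f (key G₀)
  have hfi := fibre_ineq hab hG₀ g hsum0
  simp only [ht]
  rw [Finset.sum_sub_distrib, ← Finset.mul_sum]
  linarith

theorem sum4_swap (F : Fin n → Fin n → Fin n → Fin n → ℝ) :
    ∑ a, ∑ b, ∑ c, ∑ e, F c e a b = ∑ a, ∑ b, ∑ c, ∑ e, F a b c e := by
  calc ∑ a, ∑ b, ∑ c, ∑ e, F c e a b
      = ∑ p ∈ (univ ×ˢ univ : Finset (Fin n × Fin n)),
          ∑ q ∈ (univ ×ˢ univ : Finset (Fin n × Fin n)), F q.1 q.2 p.1 p.2 := by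
        simp only [Finset.sum_product]
    _ = ∑ q ∈ (univ ×ˢ univ : Finset (Fin n × Fin n)),
          ∑ p ∈ (univ ×ˢ univ : Finset (Fin n × Fin n)), F q.1 q.2 p.1 p.2 := Finset.sum_comm
    _ = _ := by simp only [Finset.sum_product]

open Classical in
/-- **Step (B3)**: `X4 ≥ 0`, from the per-pair bound of step (B2). -/
theorem X4_nonneg_of_stepB2 (d : Fin n → ℕ)
    (hB2 : ∀ {a b c e : Fin n}, Dis4 a b c e → ∀ f : Finset (Edge n) → ℝ,
      (1 / 4) * ∑ G ∈ realizations d, (f G - f (tau a b c e G)) ^ 2 -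
        (zz d a b c e f + zz d c e a b f) / 2 ≤ ip (realizations d) (Qp d a b f) (Qp d c e f))
    (f : Finset (Edge n) → ℝ) :
    0 ≤ ∑ a, ∑ b, ∑ c, ∑ e, if (a ≠ b ∧ a ≠ c ∧ a ≠ e ∧ b ≠ c ∧ b ≠ e ∧ c ≠ e) then
      ip (realizations d) (Qp d a b f) (Qp d c e f) else 0 := by
  set θ : Fin n → Fin n → Fin n → Fin n → ℝ := fun a b c e =>
    if (a ≠ b ∧ a ≠ c ∧ a ≠ e ∧ b ≠ c ∧ b ≠ e ∧ c ≠ e) then
      (1 / 4) * ∑ G ∈ realizations d, (f G - f (tau a b c e G)) ^ 2 else 0 with hθ
  set Z : Fin n → Fin n → Fin n → Fin n → ℝ := fun a b c e =>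
    if (a ≠ b ∧ a ≠ c ∧ a ≠ e ∧ b ≠ c ∧ b ≠ e ∧ c ≠ e) then zz d a b c e f else 0 with hZ
  have h1 : ∑ a, ∑ b, ∑ c, ∑ e, (θ a b c e - (Z a b c e + Z c e a b) / 2) ≤
      ∑ a, ∑ b, ∑ c, ∑ e, if (a ≠ b ∧ a ≠ c ∧ a ≠ e ∧ b ≠ c ∧ b ≠ e ∧ c ≠ e) then
        ip (realizations d) (Qp d a b f) (Qp d c e f) else 0 := by
    apply Finset.sum_le_sum; intro a _
    apply Finset.sum_le_sum; intro b _
    apply Finset.sum_le_sum; intro c _
    apply Finset.sum_le_sum; intro e _
    by_cases hP : (a ≠ b ∧ a ≠ c ∧ a ≠ e ∧ b ≠ c ∧ b ≠ e ∧ c ≠ e)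
    · have hP' : (c ≠ e ∧ c ≠ a ∧ c ≠ b ∧ e ≠ a ∧ e ≠ b ∧ a ≠ b) :=
        ⟨hP.2.2.2.2.2, hP.2.1.symm, hP.2.2.2.1.symm, hP.2.2.1.symm, hP.2.2.2.2.1.symm, hP.1⟩
      simp only [hθ, hZ, if_pos hP, if_pos hP']
      exact hB2 ⟨hP.1, hP.2.1, hP.2.2.1, hP.2.2.2.1, hP.2.2.2.2.1, hP.2.2.2.2.2⟩ f
    · have hP' : ¬ (c ≠ e ∧ c ≠ a ∧ c ≠ b ∧ e ≠ a ∧ e ≠ b ∧ a ≠ b) := by
        intro h
        exact hP ⟨h.2.2.2.2.2, h.2.1.symm, h.2.2.2.1.symm, h.2.2.1.symm, h.2.2.2.2.1.symm, h.1⟩
      simp only [hθ, hZ, if_neg hP, if_neg hP']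
      simp
  have h2 : ∑ a, ∑ b, ∑ c, ∑ e, (θ a b c e - (Z a b c e + Z c e a b) / 2) =
      ∑ a, ∑ b, ∑ c, ∑ e, (θ a b c e - Z a b c e) := by
    have hs := sum4_swap Z
    simp only [Finset.sum_sub_distrib, add_div, Finset.sum_add_distrib, ← Finset.sum_div]
    rw [hs]
    ring
  have h3 : 0 ≤ ∑ a, ∑ b, ∑ c, ∑ e, (θ a b c e - Z a b c e) := by
    apply Finset.sum_nonneg; intro a _
    apply Finset.sum_nonneg; intro b _
    by_cases hab : a = b
    · apply le_of_eq
      symm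
      apply Finset.sum_eq_zero; intro c _
      apply Finset.sum_eq_zero; intro e _
      simp [hθ, hZ, hab]
    · refine le_trans (pair_sum_nonneg d hab f) (le_of_eq ?_)
      apply Finset.sum_congr rfl; intro c _
      apply Finset.sum_congr rfl; intro e _
      simp only [hθ, hZ]
      by_cases hP : (a ≠ c ∧ a ≠ e ∧ b ≠ c ∧ b ≠ e ∧ c ≠ e)
      · rw [if_pos hP, if_pos ⟨hab, hP⟩, if_pos ⟨hab, hP⟩]
      · have : ¬ (a ≠ b ∧ a ≠ c ∧ a ≠ e ∧ b ≠ c ∧ b ≠ e ∧ c ≠ e) := fun h => hP h.2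
        rw [if_neg hP, if_neg this, if_neg this]
        simp
  linarith

end Crest.Agent.S0453Aux.B3
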