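import Crest.Agent.S0453Aux.Assembly
import Crest.Agent.S0453Aux.Square
import Crest.Agent.S0453Aux.LgeCL
import Crest.Agent.S0453Aux.HT3
import Crest.Agent.S0453Aux.StepB2
import Crest.Agent.S0453Aux.StepB3

/-!
# S0453: final assembly (everything except step B1, which enters as the hypothesis `HB1`)
-/

set_option autoImplicit false

open Finset
open Crest Crest.SwitchChain

namespace Crest.Agent.S0453Aux

/-- Output of task B1. -/
def HB1 (n : ℕ) (d : Fin n → ℕ) : Prop :=
  ∀ {a b c e : Fin n}, Dis4 a b c e → ∀ g : Finset (Edge n) → ℝ,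
    ∑ G ∈ OmD d a b c e, Bo d a b c e g G * Bo d c e a b g G
      ≤ ip (realizations d) (Qp d a b g) (Qp d c e g)

theorem hb3_of_hb1 {n : ℕ} {d : Fin n → ℕ} (h : HB1 n d) : HB3 n d :=
  fun f => B3.X4_nonneg_of_stepB2 d (fun h4 f => stepB2_of_stepB1 d h4 (fun g => h h4 g) f) f

theorem gap_of_hb1 {n : ℕ} (h0 : 1 ≤ n) {d : Fin n → ℕ} (h : HB1 n d) : Gap n d := by
  refine gap_of_inputs (hT3 n d) (hb3_of_hb1 h) (hlc d) ?_
  have h1 : (1 : ℝ) ≤ (n : ℝ) := by exact_mod_cast h0
  nlinarith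

/-- the frozen statement of S0453, from step B1. -/
theorem result_of_hb1 (n : ℕ) (hn : 4 ≤ n) (d : Fin n → ℕ) (hd : (realizations d).Nonempty)
    (h : HB1 n d) :
    (∃ t : ℕ, t ≤ 2 * n ^ 8 ∧ ∀ G ∈ realizations d,
        tvDist (fun G' => (kernel n ^ t) G G') (unifOn (realizations d)) ≤ 1 / 4) ∧
      ∀ f : Finset (Edge n) → ℝ,
        ((realizations d).card : ℝ) * (∑ G ∈ realizations d, f G ^ 2) -
            (∑ G ∈ realizations d, f G) ^ 2 ≤
          24 * (n : ℝ) ^ 2 * (n.choose 4 : ℝ) * (realizations d).card *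
            ∑ G ∈ realizations d,
              f G * (f G - ∑ G' ∈ realizations d, kernel n G G' * f G') :=
  result_of_gap n hn d hd (gap_of_hb1 (by omega) h)

end Crest.Agent.S0453Aux
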