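import Crest.Prelude.Def_SwitchChain

/-!
# Shared definitions for the spectral gap part of S0453

`cE Om key f` : conditional expectation of `f` given `key` for the uniform law on the finset `Om`.
`away S G`    : the edges of `G` touching no vertex of `S`.
`Ep d a b`    : the pair heat bath `E_p`, `p = {a,b}`: conditional expectation given `G - a - b`.
`Qp d a b`    : `I - E_p`.
`ip Om f g`   : the (unnormalised) inner product `∑_{x ∈ Om} f x * g x`.
-/

set_option autoImplicit false
open Finset
open Crest Crest.SwitchChain

namespace Crest.Agent.S0453Aux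

variable {n : ℕ}

/-- Edges of `G` touching no vertex of `S`. -/
def away (S : Finset (Fin n)) (G : Finset (Edge n)) : Finset (Edge n) :=
  G.filter (fun e => ∀ v ∈ S, v ∉ e.1)

/-- Conditional expectation of `f` given `key`, uniform law on `Om`. -/
noncomputable def cE {α κ : Type*} [DecidableEq κ] (Om : Finset α) (key : α → κ) (f : α → ℝ)
    (x : α) : ℝ :=
  (∑ y ∈ Om.filter (fun y => key y = key x), f y) /
    ((Om.filter (fun y => key y = key x)).card : ℝ)

/-- The pair heat bath `E_p`, `p = {a,b}`. -/
noncomputable def Ep (d : Fin n → ℕ) (a b : Fin n) (f : Finset (Edge n) → ℝ) :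
    Finset (Edge n) → ℝ :=
  cE (realizations d) (away {a, b}) f

/-- `Q_p = I - E_p`. -/
noncomputable def Qp (d : Fin n → ℕ) (a b : Fin n) (f : Finset (Edge n) → ℝ) :
    Finset (Edge n) → ℝ :=
  fun G => f G - Ep d a b f G

/-- Unnormalised inner product on `Om`. -/
def ip {α : Type*} (Om : Finset α) (f g : α → ℝ) : ℝ := ∑ x ∈ Om, f x * g x

end Crest.Agent.S0453Aux
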