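import Mathlib
import Crest.Agent.S0453Aux.Defs

/-!
# Conditional expectations on a finite set with uniform weights (S0453 auxiliary, task FW)

`Om : Finset α` carries the uniform law.  For `φ : α → β` the conditional expectation
`condExp Om φ f x` is the average of `f` over the fibre `{y ∈ Om | φ y = φ x}`.
All statements are elementary finite sums; `ip Om f g = ∑ x ∈ Om, f x * g x`.
-/

set_option autoImplicit false
open Finset

namespace Crest.Agent.S0453Aux

variable {α α' β β' γ : Type*} [DecidableEq β] [DecidableEq β'] [DecidableEq γ]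

/-- fibre of `φ` through `x` inside `Om` -/
def fib (Om : Finset α) (φ : α → β) (x : α) : Finset α := Om.filter (fun y => φ y = φ x)
/-- conditional expectation given `φ` under the uniform law on `Om` -/
noncomputable def condExp (Om : Finset α) (φ : α → β) (f : α → ℝ) (x : α) : ℝ :=
  (∑ y ∈ fib Om φ x, f y) / ((fib Om φ x).card : ℝ)
/-- `g` is a function of `φ` on `Om` -/
def Factors {δ : Type*} (Om : Finset α) (φ : α → β) (g : α → δ) : Prop :=
  ∀ x ∈ Om, ∀ y ∈ Om, φ x = φ y → g x = g y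

/-- `cE` of `Defs.lean` is the same object as `condExp` -/
theorem cE_eq_condExp (Om : Finset α) (φ : α → β) (f : α → ℝ) : cE Om φ f = condExp Om φ f := rfl

section basic
variable {Om : Finset α} {φ : α → β} {f g : α → ℝ} {x y : α}
theorem mem_fib : y ∈ fib Om φ x ↔ y ∈ Om ∧ φ y = φ x := by simp [fib]
theorem self_mem_fib (hx : x ∈ Om) : x ∈ fib Om φ x := by simp [fib, hx]
theorem fib_subset : fib Om φ x ⊆ Om := filter_subset _ _
theorem fib_card_pos (hx : x ∈ Om) : (0 : ℝ) < ((fib Om φ x).card : ℝ) := by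
  exact_mod_cast card_pos.2 ⟨x, self_mem_fib hx⟩
theorem fib_eq_of_eq (h : φ x = φ y) : fib Om φ x = fib Om φ y := by simp [fib, h]
theorem fib_eq_of_mem (h : y ∈ fib Om φ x) : fib Om φ y = fib Om φ x :=
  fib_eq_of_eq (mem_fib.1 h).2
theorem condExp_eq_of_eq (h : φ x = φ y) : condExp Om φ f x = condExp Om φ f y := by
  simp [condExp, fib_eq_of_eq h]
theorem condExp_congr (h : ∀ y ∈ Om, f y = g y) : condExp Om φ f = condExp Om φ g := by
  funext x
  unfold condExp
  rw [sum_congr rfl (fun y hy => h y (fib_subset hy))]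
end basic

section linear
variable {Om : Finset α} {φ : α → β} {f g : α → ℝ} {x y : α}

theorem condExp_add (f g : α → ℝ) (x : α) :
    condExp Om φ (fun y => f y + g y) x = condExp Om φ f x + condExp Om φ g x := by
  simp only [condExp, sum_add_distrib, add_div]

theorem condExp_sub (f g : α → ℝ) (x : α) :
    condExp Om φ (fun y => f y - g y) x = condExp Om φ f x - condExp Om φ g x := by
  simp only [condExp, sum_sub_distrib, sub_div]

theorem condExp_const_mul (c : ℝ) (f : α → ℝ) (x : α) :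
    condExp Om φ (fun y => c * f y) x = c * condExp Om φ f x := by
  simp only [condExp, ← mul_sum, mul_div_assoc]

theorem condExp_neg (f : α → ℝ) (x : α) :
    condExp Om φ (fun y => - f y) x = - condExp Om φ f x := by
  simp only [condExp, sum_neg_distrib, neg_div]

theorem condExp_zero (x : α) : condExp Om φ (fun _ => 0) x = 0 := by
  simp [condExp]

theorem condExp_sum {ι : Type*} (s : Finset ι) (F : ι → α → ℝ) (x : α) :
    condExp Om φ (fun y => ∑ i ∈ s, F i y) x = ∑ i ∈ s, condExp Om φ (F i) x := by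
  simp only [condExp]
  rw [sum_comm, sum_div]

theorem condExp_const (c : ℝ) (hx : x ∈ Om) : condExp Om φ (fun _ => c) x = c := by
  have := fib_card_pos (φ := φ) hx
  simp only [condExp, sum_const, nsmul_eq_mul]
  field_simp

/-- sum over a fibre of the conditional expectation -/
theorem sum_fib_condExp (f : α → ℝ) (x : α) :
    ∑ y ∈ fib Om φ x, condExp Om φ f y = ∑ y ∈ fib Om φ x, f y := by
  rcases (fib Om φ x).eq_empty_or_nonempty with h | h
  · simp [h]
  · have hc : (0 : ℝ) < ((fib Om φ x).card : ℝ) := by exact_mod_cast card_pos.2 h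
    rw [sum_congr rfl (fun y hy => condExp_eq_of_eq (f := f) (mem_fib.1 hy).2)]
    simp only [condExp, sum_const, nsmul_eq_mul]
    field_simp

theorem factors_condExp (f : α → ℝ) : Factors Om φ (condExp Om φ f) :=
  fun _ _ _ _ h => condExp_eq_of_eq h

/-- pull out what is known -/
theorem condExp_mul_of_factors (hg : Factors Om φ g) (f : α → ℝ) (hx : x ∈ Om) :
    condExp Om φ (fun y => g y * f y) x = g x * condExp Om φ f x := by
  simp only [condExp]
  rw [sum_congr rfl (fun y hy => by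
    rw [hg y (mem_fib.1 hy).1 x hx (mem_fib.1 hy).2]), ← mul_sum, mul_div_assoc]

theorem condExp_of_factors (hg : Factors Om φ g) (hx : x ∈ Om) : condExp Om φ g x = g x := by
  have h := condExp_mul_of_factors hg (fun _ => 1) hx
  rw [condExp_const 1 hx] at h
  simpa using h

theorem condExp_idem (f : α → ℝ) (x : α) :
    condExp Om φ (condExp Om φ f) x = condExp Om φ f x := by
  unfold condExp
  have := sum_fib_condExp (Om := Om) (φ := φ) f x
  unfold condExp at this
  rw [this]

theorem condExp_nonneg (hf : ∀ y ∈ Om, 0 ≤ f y) (x : α) : 0 ≤ condExp Om φ f x :=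
  div_nonneg (sum_nonneg fun y hy => hf y (fib_subset hy)) (Nat.cast_nonneg _)

theorem condExp_mono (hfg : ∀ y ∈ Om, f y ≤ g y) (x : α) : condExp Om φ f x ≤ condExp Om φ g x :=
  div_le_div_of_nonneg_right (sum_le_sum fun y hy => hfg y (fib_subset hy)) (Nat.cast_nonneg _)

end linear

section ip
variable {Om : Finset α} {φ : α → β} {χ : α → γ}

theorem ip_comm (f g : α → ℝ) : ip Om f g = ip Om g f := by
  simp only [ip, mul_comm]

theorem ip_self_nonneg (f : α → ℝ) : 0 ≤ ip Om f f :=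
  sum_nonneg fun _ _ => mul_self_nonneg _

theorem ip_congr {f f' g g' : α → ℝ} (hf : ∀ x ∈ Om, f x = f' x) (hg : ∀ x ∈ Om, g x = g' x) :
    ip Om f g = ip Om f' g' :=
  sum_congr rfl fun x hx => by rw [hf x hx, hg x hx]

theorem ip_add_left (f f' g : α → ℝ) : ip Om (fun x => f x + f' x) g = ip Om f g + ip Om f' g := by
  simp only [ip, add_mul, sum_add_distrib]

theorem ip_sub_left (f f' g : α → ℝ) : ip Om (fun x => f x - f' x) g = ip Om f g - ip Om f' g := by
  simp only [ip, sub_mul, sum_sub_distrib]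

theorem ip_add_right (f g g' : α → ℝ) : ip Om f (fun x => g x + g' x) = ip Om f g + ip Om f g' := by
  simp only [ip, mul_add, sum_add_distrib]

theorem ip_sub_right (f g g' : α → ℝ) : ip Om f (fun x => g x - g' x) = ip Om f g - ip Om f g' := by
  simp only [ip, mul_sub, sum_sub_distrib]

theorem ip_const_mul_left (c : ℝ) (f g : α → ℝ) : ip Om (fun x => c * f x) g = c * ip Om f g := by
  simp only [ip, mul_sum, mul_assoc]

theorem ip_const_mul_right (c : ℝ) (f g : α → ℝ) : ip Om f (fun x => c * g x) = c * ip Om f g := by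
  simp only [ip, mul_sum, mul_left_comm]

theorem ip_sum_left {ι : Type*} (s : Finset ι) (F : ι → α → ℝ) (g : α → ℝ) :
    ip Om (fun x => ∑ i ∈ s, F i x) g = ∑ i ∈ s, ip Om (F i) g := by
  simp only [ip, sum_mul]
  rw [sum_comm]

theorem ip_sum_right {ι : Type*} (s : Finset ι) (f : α → ℝ) (G : ι → α → ℝ) :
    ip Om f (fun x => ∑ i ∈ s, G i x) = ∑ i ∈ s, ip Om f (G i) := by
  simp only [ip, mul_sum]
  rw [sum_comm]

/-- Cauchy-Schwarz -/
theorem ip_sq_le (f g : α → ℝ) : (ip Om f g) ^ 2 ≤ ip Om f f * ip Om g g := by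
  have := sum_mul_sq_le_sq_mul_sq Om f g
  simpa only [ip, ← pow_two] using this

/-- decomposition of a sum over `Om` into fibres -/
theorem sum_eq_sum_fibres (χ : α → γ) (F : α → ℝ) :
    ∑ x ∈ Om, F x = ∑ b ∈ Om.image χ, ∑ x ∈ Om.filter (fun x => χ x = b), F x :=
  (sum_fiberwise_of_maps_to (fun _ hx => mem_image_of_mem χ hx) F).symm

/-- if `g` is a function of `φ`, then `f` may be replaced by `E f` against `g` -/
theorem ip_condExp_of_factors {g : α → ℝ} (hg : Factors Om φ g) (f : α → ℝ) :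
    ip Om (condExp Om φ f) g = ip Om f g := by
  unfold ip
  rw [sum_eq_sum_fibres φ, sum_eq_sum_fibres φ (fun x => f x * g x)]
  refine sum_congr rfl fun b hb => ?_
  obtain ⟨x, hx, rfl⟩ := mem_image.1 hb
  have e : Om.filter (fun y => φ y = φ x) = fib Om φ x := rfl
  rw [e]
  rw [sum_congr rfl (fun y hy => by
      rw [hg y (mem_fib.1 hy).1 x hx (mem_fib.1 hy).2]),
    sum_congr (s₂ := fib Om φ x) (f := fun y => f y * g y) rfl (fun y hy => by
      rw [hg y (mem_fib.1 hy).1 x hx (mem_fib.1 hy).2]), ← sum_mul, ← sum_mul, sum_fib_condExp]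

theorem ip_condExp_condExp (f g : α → ℝ) :
    ip Om (condExp Om φ f) (condExp Om φ g) = ip Om f (condExp Om φ g) :=
  ip_condExp_of_factors (factors_condExp g) f

/-- self-adjointness -/
theorem ip_condExp_comm (f g : α → ℝ) :
    ip Om (condExp Om φ f) g = ip Om f (condExp Om φ g) := by
  rw [← ip_condExp_condExp f g, ip_comm (condExp Om φ f) (condExp Om φ g), ip_condExp_condExp,
    ip_comm]

theorem sum_condExp (f : α → ℝ) : ∑ x ∈ Om, condExp Om φ f x = ∑ x ∈ Om, f x := by
  have := ip_condExp_of_factors (Om := Om) (φ := φ) (g := fun _ => 1) (fun _ _ _ _ _ => rfl) f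
  simpa [ip] using this

/-- tower property, coarse after fine -/
theorem condExp_tower (h : Factors Om φ χ) (f : α → ℝ) (x : α) :
    condExp Om χ (condExp Om φ f) x = condExp Om χ f x := by
  unfold condExp
  congr 1
  -- sum over the χ-fibre, which is a union of φ-fibres
  have key : ∀ y ∈ fib Om χ x, fib (fib Om χ x) φ y = fib Om φ y := by
    intro y hy
    ext z
    simp only [mem_fib]
    constructor
    · rintro ⟨⟨hz, _⟩, h2⟩; exact ⟨hz, h2⟩
    · rintro ⟨hz, h2⟩
      exact ⟨⟨hz, by rw [h z hz y (mem_fib.1 hy).1 h2]; exact (mem_fib.1 hy).2⟩, h2⟩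
  have := sum_condExp (Om := fib Om χ x) (φ := φ) f
  rw [← this]
  refine sum_congr rfl fun y hy => ?_
  unfold condExp
  rw [key y hy]

/-- tower property, fine after coarse -/
theorem condExp_tower' (h : Factors Om φ χ) (f : α → ℝ) {x : α} (hx : x ∈ Om) :
    condExp Om φ (condExp Om χ f) x = condExp Om χ f x :=
  condExp_of_factors (fun y hy z hz hyz => condExp_eq_of_eq (h y hy z hz hyz)) hx

/-- `⟨f, (I - E) f⟩ = ‖(I - E) f‖²` -/
theorem ip_sub_condExp (f : α → ℝ) :
    ip Om f (fun x => f x - condExp Om φ f x)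
      = ip Om (fun x => f x - condExp Om φ f x) (fun x => f x - condExp Om φ f x) := by
  rw [ip_sub_left, ip_sub_right (condExp Om φ f), ip_condExp_condExp, ip_condExp_comm]
  ring

/-- Pythagoras -/
theorem ip_self_eq_add (f : α → ℝ) :
    ip Om f f = ip Om (fun x => f x - condExp Om φ f x) (fun x => f x - condExp Om φ f x)
      + ip Om (condExp Om φ f) (condExp Om φ f) := by
  rw [← ip_sub_condExp, ip_sub_right, ip_condExp_condExp]
  ring

theorem ip_condExp_self_le (f : α → ℝ) :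
    ip Om (condExp Om φ f) (condExp Om φ f) ≤ ip Om f f := by
  rw [ip_self_eq_add (φ := φ) f]
  linarith [ip_self_nonneg (Om := Om) (fun x => f x - condExp Om φ f x)]

/-- coarser conditional expectations have smaller norm -/
theorem ip_condExp_le_of_factors (h : Factors Om φ χ) (f : α → ℝ) :
    ip Om (condExp Om χ f) (condExp Om χ f) ≤ ip Om (condExp Om φ f) (condExp Om φ f) := by
  have := ip_condExp_self_le (Om := Om) (φ := χ) (condExp Om φ f)
  rwa [show condExp Om χ (condExp Om φ f) = condExp Om χ f from funext (condExp_tower h f)] at this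

/-- conditional Cauchy-Schwarz -/
theorem condExp_mul_sq_le (f g : α → ℝ) (x : α) :
    (condExp Om φ (fun y => f y * g y) x) ^ 2
      ≤ condExp Om φ (fun y => f y ^ 2) x * condExp Om φ (fun y => g y ^ 2) x := by
  unfold condExp
  rw [div_pow, div_mul_div_comm, ← pow_two]
  exact div_le_div_of_nonneg_right (sum_mul_sq_le_sq_mul_sq _ f g) (by positivity)

/-- Jensen -/
theorem condExp_sq_le (f : α → ℝ) (x : α) :
    (condExp Om φ f x) ^ 2 ≤ condExp Om φ (fun y => f y ^ 2) x := by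
  rcases (fib Om φ x).eq_empty_or_nonempty with h | h
  · simp [condExp, h]
  · have hc : (0 : ℝ) < ((fib Om φ x).card : ℝ) := by exact_mod_cast card_pos.2 h
    have := condExp_mul_sq_le (Om := Om) (φ := φ) (fun _ => 1) f x
    have h1 : condExp Om φ (fun _ => (1:ℝ) ^ 2) x = 1 := by
      simp only [condExp, one_pow, sum_const, nsmul_eq_mul, mul_one]
      field_simp
    rw [h1] at this
    simpa using this

/-- conditional Jensen for a refinement: `(E[f|χ])² ≤ E[(E[f|φ])² | χ]` -/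
theorem condExp_sq_le_of_factors (h : Factors Om φ χ) (f : α → ℝ) (x : α) :
    (condExp Om χ f x) ^ 2 ≤ condExp Om χ (fun y => condExp Om φ f y ^ 2) x := by
  rw [← condExp_tower h f x]
  exact condExp_sq_le _ x

end ip

section variance
variable {Om : Finset α} {φ : α → β}

/-- unnormalised variance: `∑ (f - mean)²` -/
noncomputable def nvar (Om : Finset α) (f : α → ℝ) : ℝ :=
  ip Om f f - (∑ x ∈ Om, f x) ^ 2 / (Om.card : ℝ)

theorem fib_unit (x : α) : fib Om (fun _ => ()) x = Om := by simp [fib]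

theorem condExp_unit (f : α → ℝ) (x : α) :
    condExp Om (fun _ => ()) f x = (∑ y ∈ Om, f y) / (Om.card : ℝ) := by
  simp [condExp, fib_unit]

theorem nvar_eq_ip_sub (f : α → ℝ) :
    nvar Om f = ip Om (fun x => f x - condExp Om (fun _ => ()) f x)
      (fun x => f x - condExp Om (fun _ => ()) f x) := by
  have h := ip_self_eq_add (Om := Om) (φ := fun _ => ()) f
  have h2 : ip Om (condExp Om (fun _ => ()) f) (condExp Om (fun _ => ()) f)
      = (∑ x ∈ Om, f x) ^ 2 / (Om.card : ℝ) := by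
    rcases Om.eq_empty_or_nonempty with h0 | h0
    · simp [ip, h0]
    · have hc : (0 : ℝ) < (Om.card : ℝ) := by exact_mod_cast card_pos.2 h0
      simp only [ip, condExp_unit, sum_const, nsmul_eq_mul]
      field_simp
  unfold nvar
  linarith

theorem nvar_nonneg (f : α → ℝ) : 0 ≤ nvar Om f := by
  rw [nvar_eq_ip_sub]; exact ip_self_nonneg _

/-- law of total variance -/
theorem nvar_eq_add (f : α → ℝ) :
    nvar Om f = ip Om (fun x => f x - condExp Om φ f x) (fun x => f x - condExp Om φ f x)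
      + nvar Om (condExp Om φ f) := by
  unfold nvar
  rw [sum_condExp, ip_self_eq_add (φ := φ) f]
  ring

theorem nvar_congr {f g : α → ℝ} (h : ∀ x ∈ Om, f x = g x) : nvar Om f = nvar Om g := by
  unfold nvar
  rw [ip_congr h h, sum_congr rfl h]

/-- the within-fibre part of the variance is the sum of the variances on the fibres -/
theorem ip_sub_condExp_eq_sum_nvar (f : α → ℝ) :
    ip Om (fun x => f x - condExp Om φ f x) (fun x => f x - condExp Om φ f x)
      = ∑ b ∈ Om.image φ, nvar (Om.filter (fun x => φ x = b)) f := by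
  unfold ip
  rw [sum_eq_sum_fibres φ]
  refine sum_congr rfl fun b hb => ?_
  obtain ⟨x, hx, rfl⟩ := mem_image.1 hb
  rw [nvar_eq_ip_sub]
  unfold ip
  refine sum_congr rfl fun y hy => ?_
  have hy' : φ y = φ x := (mem_filter.1 hy).2
  have : condExp Om φ f y = condExp (Om.filter (fun z => φ z = φ x)) (fun _ => ()) f y := by
    rw [condExp_unit, condExp, fib_eq_of_eq hy']; rfl
  simp only [this]

end variance

section restrict
variable {Om : Finset α} {φ : α → β} {χ : α → γ}

/-- restriction to a fibre of a coarser map does not change the conditional expectation -/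
theorem condExp_filter_eq (h : Factors Om φ χ) (f : α → ℝ) {x : α} (hx : x ∈ Om) (b : γ)
    (hb : χ x = b) :
    condExp (Om.filter (fun y => χ y = b)) φ f x = condExp Om φ f x := by
  have : fib (Om.filter (fun y => χ y = b)) φ x = fib Om φ x := by
    ext z
    simp only [mem_fib, mem_filter]
    constructor
    · rintro ⟨⟨hz, _⟩, h2⟩; exact ⟨hz, h2⟩
    · rintro ⟨hz, h2⟩; exact ⟨⟨hz, by rw [h z hz x hx h2, hb]⟩, h2⟩
  unfold condExp
  rw [this]

/-- only the partition into fibres matters -/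
theorem condExp_eq_of_iff {φ' : α → β'} (h : ∀ x ∈ Om, ∀ y ∈ Om, φ x = φ y ↔ φ' x = φ' y)
    (f : α → ℝ) {x : α} (hx : x ∈ Om) : condExp Om φ f x = condExp Om φ' f x := by
  have : fib Om φ x = fib Om φ' x := by
    ext z
    simp only [mem_fib]
    constructor
    · rintro ⟨hz, h2⟩; exact ⟨hz, (h z hz x hx).1 h2⟩
    · rintro ⟨hz, h2⟩; exact ⟨hz, (h z hz x hx).2 h2⟩
  unfold condExp
  rw [this]

/-- transport along a bijection `e : Om' → Om` -/
theorem condExp_comp_bij {Om' : Finset α'} {φ' : α' → β'} (e : α' → α)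
    (hmaps : ∀ x ∈ Om', e x ∈ Om) (hinj : ∀ x ∈ Om', ∀ y ∈ Om', e x = e y → x = y)
    (hsurj : ∀ z ∈ Om, ∃ x ∈ Om', e x = z)
    (h : ∀ x ∈ Om', ∀ y ∈ Om', φ' x = φ' y ↔ φ (e x) = φ (e y))
    (f : α → ℝ) {x : α'} (hx : x ∈ Om') :
    condExp Om' φ' (fun y => f (e y)) x = condExp Om φ f (e x) := by
  classical
  have himg : fib Om φ (e x) = (fib Om' φ' x).image e := by
    ext z
    simp only [mem_fib, mem_image]
    constructor
    · rintro ⟨hz, h2⟩
      obtain ⟨y, hy, rfl⟩ := hsurj z hz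
      exact ⟨y, ⟨hy, (h y hy x hx).2 h2⟩, rfl⟩
    · rintro ⟨y, ⟨hy, h2⟩, rfl⟩
      exact ⟨hmaps y hy, (h y hy x hx).1 h2⟩
  have hinj' : Set.InjOn e (fib Om' φ' x : Set α') := fun a ha b hb hab =>
    hinj a (fib_subset ha) b (fib_subset hb) hab
  unfold condExp
  rw [himg, sum_image hinj', card_image_of_injOn hinj']

theorem ip_comp_bij {Om' : Finset α'} (e : α' → α)
    (hmaps : ∀ x ∈ Om', e x ∈ Om) (hinj : ∀ x ∈ Om', ∀ y ∈ Om', e x = e y → x = y)
    (hsurj : ∀ z ∈ Om, ∃ x ∈ Om', e x = z) (f g : α → ℝ) :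
    ip Om' (fun y => f (e y)) (fun y => g (e y)) = ip Om f g := by
  unfold ip
  exact sum_bij (fun x _ => e x) hmaps hinj (fun z hz => by
    obtain ⟨x, hx, rfl⟩ := hsurj z hz; exact ⟨x, hx, rfl⟩) (fun _ _ => rfl)

theorem surj_of_inj_maps (τ : α → α) (hmaps : ∀ x ∈ Om, τ x ∈ Om)
    (hinj : ∀ x ∈ Om, ∀ y ∈ Om, τ x = τ y → x = y) : ∀ z ∈ Om, ∃ x ∈ Om, τ x = z := by
  classical
  have hinj' : Set.InjOn τ (Om : Set α) := fun a ha b hb hab => hinj a ha b hb hab
  have himg : Om.image τ = Om :=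
    eq_of_subset_of_card_le (image_subset_iff.2 hmaps) (by rw [card_image_of_injOn hinj'])
  intro z hz
  rw [← himg] at hz
  obtain ⟨x, hx, rfl⟩ := mem_image.1 hz
  exact ⟨x, hx, rfl⟩

/-- a permutation `τ` of `Om` that respects the partition commutes with `E` -/
theorem condExp_comp_perm (τ : α → α) (hmaps : ∀ x ∈ Om, τ x ∈ Om)
    (hinj : ∀ x ∈ Om, ∀ y ∈ Om, τ x = τ y → x = y)
    (h : ∀ x ∈ Om, ∀ y ∈ Om, φ x = φ y ↔ φ (τ x) = φ (τ y))
    (f : α → ℝ) {x : α} (hx : x ∈ Om) :
    condExp Om φ (fun y => f (τ y)) x = condExp Om φ f (τ x) :=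
  condExp_comp_bij τ hmaps hinj (surj_of_inj_maps τ hmaps hinj) h f hx

/-- a permutation `τ` of `Om` moving inside the fibres is invisible for `E` -/
theorem condExp_comp_of_fixes (τ : α → α) (hmaps : ∀ x ∈ Om, τ x ∈ Om)
    (hinj : ∀ x ∈ Om, ∀ y ∈ Om, τ x = τ y → x = y) (h : ∀ x ∈ Om, φ (τ x) = φ x)
    (f : α → ℝ) {x : α} (hx : x ∈ Om) :
    condExp Om φ (fun y => f (τ y)) x = condExp Om φ f x := by
  rw [condExp_comp_perm τ hmaps hinj (fun a ha b hb => by rw [h a ha, h b hb]) f hx]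
  exact condExp_eq_of_eq (h x hx)

end restrict

section rectangle
variable {Om : Finset α} {φ : α → β} {ψ : α → β'} {χ : α → γ}

/-- conditional independence of `φ` and `ψ` given `χ` (counting form) gives `E_φ E_ψ = E_χ` -/
theorem condExp_condExp_of_card (hφ : Factors Om φ χ) (hψ : Factors Om ψ χ)
    (hcard : ∀ x ∈ Om, ∀ y ∈ Om, χ x = χ y →
      ((Om.filter (fun z => φ z = φ x ∧ ψ z = ψ y)).card : ℝ) * ((fib Om χ x).card : ℝ)
        = ((fib Om φ x).card : ℝ) * ((fib Om ψ y).card : ℝ))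
    (f : α → ℝ) {x : α} (hx : x ∈ Om) :
    condExp Om φ (condExp Om ψ f) x = condExp Om χ f x := by
  have hA := fib_card_pos (φ := φ) hx
  have hC := fib_card_pos (φ := χ) hx
  -- expand the double sum
  have h1 : ∑ y ∈ fib Om φ x, condExp Om ψ f y
      = ∑ w ∈ Om, ∑ y ∈ fib Om φ x, if ψ w = ψ y then f w / ((fib Om ψ w).card : ℝ) else 0 := by
    rw [sum_comm]
    refine sum_congr rfl fun y _ => ?_
    rw [← sum_filter]
    unfold condExp
    rw [sum_div]
    refine sum_congr rfl fun w hw => ?_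
    rw [fib_eq_of_eq (mem_filter.1 hw).2]
  have h2 : ∀ w ∈ Om, (∑ y ∈ fib Om φ x, if ψ w = ψ y then f w / ((fib Om ψ w).card : ℝ) else 0)
      = if χ w = χ x then f w * ((fib Om φ x).card : ℝ) / ((fib Om χ x).card : ℝ) else 0 := by
    intro w hw
    have hB := fib_card_pos (φ := ψ) hw
    rw [← sum_filter, sum_const, nsmul_eq_mul]
    have e : (fib Om φ x).filter (fun y => ψ w = ψ y)
        = Om.filter (fun z => φ z = φ x ∧ ψ z = ψ w) := by
      ext z; simp only [mem_filter, mem_fib]; constructor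
      · rintro ⟨⟨a, b⟩, c⟩; exact ⟨a, b, c.symm⟩
      · rintro ⟨a, b, c⟩; exact ⟨⟨a, b⟩, c.symm⟩
    rw [e]
    split_ifs with hχ
    · have := hcard x hx w hw hχ.symm
      field_simp
      linear_combination (f w) * this
    · have : Om.filter (fun z => φ z = φ x ∧ ψ z = ψ w) = ∅ := by
        rw [filter_eq_empty_iff]
        rintro z hz ⟨a, b⟩
        exact hχ (by rw [← hψ z hz w hw b, hφ z hz x hx a])
      simp [this]
  unfold condExp at h1 ⊢
  rw [h1, sum_congr rfl h2, ← sum_filter]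
  have e2 : Om.filter (fun w => χ w = χ x) = fib Om χ x := rfl
  rw [e2, ← sum_div, ← sum_mul]
  field_simp

/-- in a rectangle the `ψ`-fibres are in bijection with the `φ`-values of the `χ`-fibre -/
theorem card_fib_eq_card_image (hψ : Factors Om ψ χ)
    (hinj : ∀ z ∈ Om, ∀ z' ∈ Om, φ z = φ z' → ψ z = ψ z' → z = z')
    (hrect : ∀ x ∈ Om, ∀ y ∈ Om, χ x = χ y → ∃ z ∈ Om, φ z = φ x ∧ ψ z = ψ y)
    {x y : α} (hy : y ∈ Om) (hxy : χ x = χ y) :
    (fib Om ψ y).card = ((fib Om χ x).image φ).card := by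
  have hi : Set.InjOn φ (fib Om ψ y : Set α) := fun a ha b hb hab =>
    hinj a (fib_subset ha) b (fib_subset hb) hab
      ((mem_fib.1 ha).2.trans (mem_fib.1 hb).2.symm)
  rw [← card_image_of_injOn hi]
  congr 1
  ext t
  simp only [mem_image, mem_fib]
  constructor
  · rintro ⟨z, ⟨hz, h2⟩, rfl⟩
    exact ⟨z, ⟨hz, by rw [hψ z hz y hy h2, hxy]⟩, rfl⟩
  · rintro ⟨w, ⟨hw, h2⟩, rfl⟩
    obtain ⟨z, hz, h3, h4⟩ := hrect w hw y hy (h2.trans hxy)
    exact ⟨z, ⟨hz, h4⟩, h3⟩

/-- in a rectangle the fibre cardinalities multiply -/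
theorem card_fib_mul_of_rectangle (hφ : Factors Om φ χ) (hψ : Factors Om ψ χ)
    (hinj : ∀ z ∈ Om, ∀ z' ∈ Om, φ z = φ z' → ψ z = ψ z' → z = z')
    (hrect : ∀ x ∈ Om, ∀ y ∈ Om, χ x = χ y → ∃ z ∈ Om, φ z = φ x ∧ ψ z = ψ y)
    {x y : α} (hx : x ∈ Om) (hy : y ∈ Om) (hxy : χ x = χ y) :
    (fib Om χ x).card = (fib Om φ x).card * (fib Om ψ y).card := by
  have h3 := card_fib_eq_card_image (φ := φ) hψ hinj hrect hy hxy
  have h4 : (fib Om φ x).card = ((fib Om χ x).image ψ).card :=
    card_fib_eq_card_image (φ := ψ) (ψ := φ) (x := x) hφ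
      (fun z hz z' hz' a b => hinj z hz z' hz' b a)
      (fun a ha b hb hab => by
        obtain ⟨z, hz, h1, h2⟩ := hrect b hb a ha hab.symm
        exact ⟨z, hz, h2, h1⟩) hx rfl
  rw [h3, h4, mul_comm, ← card_product]
  have hi : Set.InjOn (fun z => (φ z, ψ z)) (fib Om χ x : Set α) := fun a ha b hb hab => by
    simp only [Prod.mk.injEq] at hab
    exact hinj a (fib_subset ha) b (fib_subset hb) hab.1 hab.2
  rw [← card_image_of_injOn hi]
  congr 1
  ext ⟨s, t⟩
  simp only [mem_image, mem_product, Prod.mk.injEq]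
  constructor
  · rintro ⟨z, hz, rfl, rfl⟩
    exact ⟨⟨z, hz, rfl⟩, ⟨z, hz, rfl⟩⟩
  · rintro ⟨⟨a, ha, rfl⟩, ⟨b, hb, rfl⟩⟩
    obtain ⟨z, hz, h1, h2⟩ := hrect a (fib_subset ha) b (fib_subset hb)
      ((mem_fib.1 ha).2.trans (mem_fib.1 hb).2.symm)
    exact ⟨z, mem_fib.2 ⟨hz, by rw [hφ z hz a (fib_subset ha) h1]; exact (mem_fib.1 ha).2⟩, h1, h2⟩

/-- RECTANGLE LEMMA. `χ` is a function of `φ` and of `ψ`; `(φ,ψ)` is injective on `Om`; every
`χ`-fibre is a rectangle.  Then `E_φ E_ψ = E_χ`. -/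
theorem condExp_condExp_of_rectangle (hφ : Factors Om φ χ) (hψ : Factors Om ψ χ)
    (hinj : ∀ z ∈ Om, ∀ z' ∈ Om, φ z = φ z' → ψ z = ψ z' → z = z')
    (hrect : ∀ x ∈ Om, ∀ y ∈ Om, χ x = χ y → ∃ z ∈ Om, φ z = φ x ∧ ψ z = ψ y)
    (f : α → ℝ) {x : α} (hx : x ∈ Om) :
    condExp Om φ (condExp Om ψ f) x = condExp Om χ f x := by
  refine condExp_condExp_of_card hφ hψ (fun a ha b hb hab => ?_) f hx
  have h1 : (Om.filter (fun z => φ z = φ a ∧ ψ z = ψ b)).card = 1 := by
    obtain ⟨z, hz, h1, h2⟩ := hrect a ha b hb hab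
    rw [card_eq_one]
    refine ⟨z, ?_⟩
    ext w
    simp only [mem_filter, mem_singleton]
    constructor
    · rintro ⟨hw, h3, h4⟩
      exact hinj w hw z hz (h3.trans h1.symm) (h4.trans h2.symm)
    · rintro rfl; exact ⟨hz, h1, h2⟩
  rw [h1, card_fib_mul_of_rectangle hφ hψ hinj hrect ha hb hab]
  push_cast; ring

/-- symmetric form of the rectangle lemma -/
theorem condExp_condExp_of_rectangle' (hφ : Factors Om φ χ) (hψ : Factors Om ψ χ)
    (hinj : ∀ z ∈ Om, ∀ z' ∈ Om, φ z = φ z' → ψ z = ψ z' → z = z')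
    (hrect : ∀ x ∈ Om, ∀ y ∈ Om, χ x = χ y → ∃ z ∈ Om, φ z = φ x ∧ ψ z = ψ y)
    (f : α → ℝ) {x : α} (hx : x ∈ Om) :
    condExp Om ψ (condExp Om φ f) x = condExp Om χ f x :=
  condExp_condExp_of_rectangle hψ hφ (fun z hz z' hz' a b => hinj z hz z' hz' b a)
    (fun a ha b hb hab => by
      obtain ⟨z, hz, h1, h2⟩ := hrect b hb a ha hab.symm
      exact ⟨z, hz, h2, h1⟩) f hx

end rectangle

section proj

/-- an orthogonal projection of `ℓ²(Om)` (operators act on all functions `α → ℝ`, but only the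
values on `Om` matter) -/
structure IsProj (Om : Finset α) (P : (α → ℝ) → (α → ℝ)) : Prop where
  congr : ∀ f g : α → ℝ, (∀ x ∈ Om, f x = g x) → ∀ x ∈ Om, P f x = P g x
  add : ∀ f g : α → ℝ, ∀ x ∈ Om, P (fun y => f y + g y) x = P f x + P g x
  smul : ∀ (c : ℝ) (f : α → ℝ), ∀ x ∈ Om, P (fun y => c * f y) x = c * P f x
  idem : ∀ f : α → ℝ, ∀ x ∈ Om, P (P f) x = P f x
  symm : ∀ f g : α → ℝ, ip Om (P f) g = ip Om f (P g)

variable {Om : Finset α} {P Q : (α → ℝ) → (α → ℝ)}

theorem isProj_condExp (Om : Finset α) (φ : α → β) : IsProj Om (condExp Om φ) where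
  congr f g h x _ := by rw [condExp_congr h]
  add f g x _ := condExp_add f g x
  smul c f x _ := condExp_const_mul c f x
  idem f x _ := condExp_idem f x
  symm f g := ip_condExp_comm f g

theorem isProj_id (Om : Finset α) : IsProj Om (fun f => f) where
  congr _ _ h := h
  add _ _ _ _ := rfl
  smul _ _ _ _ := rfl
  idem _ _ _ := rfl
  symm _ _ := rfl

theorem IsProj.sub_apply (hP : IsProj Om P) (f g : α → ℝ) {x : α} (hx : x ∈ Om) :
    P (fun y => f y - g y) x = P f x - P g x := by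
  have h1 := hP.add f (fun y => (-1) * g y) x hx
  have h2 := hP.smul (-1) g x hx
  have h3 : (fun y => f y - g y) = (fun y => f y + (-1) * g y) := by funext y; ring
  rw [h3, h1, h2]; ring

/-- `P - Q` is a projection if `Q ≤ P` (i.e. `PQ = QP = Q`) -/
theorem IsProj.sub (hP : IsProj Om P) (hQ : IsProj Om Q)
    (hPQ : ∀ f, ∀ x ∈ Om, P (Q f) x = Q f x) (hQP : ∀ f, ∀ x ∈ Om, Q (P f) x = Q f x) :
    IsProj Om (fun f x => P f x - Q f x) where
  congr f g h x hx := by
    show P f x - Q f x = P g x - Q g x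
    rw [hP.congr f g h x hx, hQ.congr f g h x hx]
  add f g x hx := by
    show P _ x - Q _ x = (P f x - Q f x) + (P g x - Q g x)
    rw [hP.add f g x hx, hQ.add f g x hx]; ring
  smul c f x hx := by
    show P _ x - Q _ x = c * (P f x - Q f x)
    rw [hP.smul c f x hx, hQ.smul c f x hx]; ring
  idem f x hx := by
    show P (fun y => P f y - Q f y) x - Q (fun y => P f y - Q f y) x = P f x - Q f x
    rw [hP.sub_apply _ _ hx, hQ.sub_apply _ _ hx, hP.idem f x hx, hPQ f x hx, hQP f x hx,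
      hQ.idem f x hx]
    ring
  symm f g := by
    rw [ip_sub_left, ip_sub_right, hP.symm, hQ.symm]

theorem IsProj.one_sub (hP : IsProj Om P) : IsProj Om (fun f x => f x - P f x) :=
  (isProj_id Om).sub hP (fun _ _ _ => rfl) (fun _ _ _ => rfl)

theorem IsProj.ip_self (hP : IsProj Om P) (f : α → ℝ) : ip Om f (P f) = ip Om (P f) (P f) := by
  rw [hP.symm f (P f)]
  exact ip_congr (fun _ _ => rfl) (fun x hx => (hP.idem f x hx).symm)

/-- products of commuting projections are PSD -/
theorem IsProj.ip_nonneg_of_comm (hP : IsProj Om P) (hQ : IsProj Om Q)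
    (hcomm : ∀ f, ∀ x ∈ Om, P (Q f) x = Q (P f) x) (f : α → ℝ) : 0 ≤ ip Om (P f) (Q f) := by
  have h : ip Om (P f) (Q f) = ip Om (P (Q f)) (P (Q f)) := by
    -- ⟨PQf, PQf⟩ = ⟨Qf, PPQf⟩ = ⟨Qf, PQf⟩ = ⟨Qf, QPf⟩ = ⟨QQf, Pf⟩ = ⟨Qf, Pf⟩
    rw [hP.symm (Q f) (P (Q f)),
      ip_congr (g := P (P (Q f))) (g' := Q (P f)) (fun _ _ => rfl)
        (fun x hx => by rw [hP.idem (Q f) x hx, hcomm f x hx]),
      ← hQ.symm (Q f) (P f),
      ip_congr (f := Q (Q f)) (f' := Q f) (fun x hx => hQ.idem f x hx) (fun _ _ => rfl), ip_comm]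
  rw [h]; exact ip_self_nonneg _

end proj
end Crest.Agent.S0453Aux
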