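import Crest.Agent.S0453Aux.BDefs
import Crest.Agent.S0453Aux.CondExp

/-!
# S0453, step (B1): two disjoint pairs `p = {a,b}`, `p' = {c,e}`

`stepB1`: `∑_{G ∈ D} B_p f * B_p' f ≤ ⟨Q_p f, Q_p' f⟩`.
-/

set_option autoImplicit false
set_option linter.unnecessarySeqFocus false
open Finset
open Crest Crest.SwitchChain

namespace Crest.Agent.S0453Aux
namespace B1

variable {n : ℕ}

/-! ### degrees and slot sets -/

theorem deg_union {A B : Finset (Edge n)} (h : Disjoint A B) (v : Fin n) :
    deg (A ∪ B) v = deg A v + deg B v := by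
  unfold deg
  rw [filter_union, card_union_of_disjoint (disjoint_filter_filter h)]

theorem deg_split (G R : Finset (Edge n)) (v : Fin n) :
    deg G v = deg (G \ R) v + deg (G ∩ R) v := by
  rw [← deg_union (disjoint_sdiff_inter G R), sdiff_union_inter]

theorem mem_real {d : Fin n → ℕ} {G : Finset (Edge n)} :
    G ∈ realizations d ↔ ∀ v, deg G v = d v := by
  simp [realizations]

/-- take the slots of `R` from `y` and the others from `x`. -/
def mix (R x y : Finset (Edge n)) : Finset (Edge n) := (x \ R) ∪ (y ∩ R)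

theorem mix_sdiff (R x y : Finset (Edge n)) : mix R x y \ R = x \ R := by
  ext ε; simp only [mix, mem_sdiff, mem_union, mem_inter]; tauto

theorem mix_inter (R x y : Finset (Edge n)) : mix R x y ∩ R = y ∩ R := by
  ext ε; simp only [mix, mem_sdiff, mem_union, mem_inter]; tauto

theorem mix_mem {d : Fin n → ℕ} {R x y : Finset (Edge n)} (hx : x ∈ realizations d)
    (h : ∀ v, deg (x ∩ R) v = deg (y ∩ R) v) : mix R x y ∈ realizations d := by
  rw [mem_real] at hx ⊢
  intro v
  rw [deg_split (mix R x y) R v, mix_sdiff, mix_inter, ← h v, ← deg_split, hx v]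

theorem deg_inter_eq {d : Fin n → ℕ} {R x y : Finset (Edge n)} (hx : x ∈ realizations d)
    (hy : y ∈ realizations d) (h : x \ R = y \ R) (v : Fin n) :
    deg (x ∩ R) v = deg (y ∩ R) v := by
  rw [mem_real] at hx hy
  have h1 := deg_split x R v
  have h2 := deg_split y R v
  rw [hx v] at h1
  rw [hy v, ← h] at h2
  omega

/-- the key of the meet of `G \ R` and `G \ R'`. -/
def chi (R R' : Finset (Edge n)) (G : Finset (Edge n)) : Finset (Edge n) × (Fin n → ℕ) :=
  (G \ (R ∪ R'), fun v => deg (G ∩ R) v)

/-- For disjoint slot sets the two heat baths commute. -/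
theorem slot_comm {d : Fin n → ℕ} {Om : Finset (Finset (Edge n))} (hOm : Om ⊆ realizations d)
    {R R' : Finset (Edge n)} (hRR : Disjoint R R')
    (hcl : ∀ x ∈ Om, ∀ y ∈ Om, mix R x y ∈ realizations d → mix R x y ∈ Om)
    (f : Finset (Edge n) → ℝ) {x : Finset (Edge n)} (hx : x ∈ Om) :
    condExp Om (fun G => G \ R) (condExp Om (fun G => G \ R') f) x
      = condExp Om (fun G => G \ R') (condExp Om (fun G => G \ R) f) x := by
  have hφ : Factors Om (fun G : Finset (Edge n) => G \ R) (chi R R') := by
    intro x hx y hy h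
    simp only at h
    refine Prod.ext ?_ ?_
    · simp only [chi]
      ext ε
      have a1 := Finset.ext_iff.1 h ε
      simp only [mem_sdiff] at a1
      simp only [mem_sdiff, mem_union]
      tauto
    · funext v
      exact deg_inter_eq (hOm hx) (hOm hy) h v
  have hψ : Factors Om (fun G : Finset (Edge n) => G \ R') (chi R R') := by
    intro x hx y hy h
    simp only at h
    refine Prod.ext ?_ ?_
    · simp only [chi]
      ext ε
      have a1 := Finset.ext_iff.1 h ε
      simp only [mem_sdiff] at a1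
      simp only [mem_sdiff, mem_union]
      tauto
    · funext v
      have : x ∩ R = y ∩ R := by
        have e1 : ∀ G : Finset (Edge n), G ∩ R = (G \ R') ∩ R := by
          intro G
          ext ε
          simp only [mem_inter, mem_sdiff]
          have := fun h1 h2 => (Finset.disjoint_left.1 hRR) (a := ε) h1 h2
          tauto
        rw [e1 x, e1 y, h]
      show deg (x ∩ R) v = deg (y ∩ R) v
      rw [this]
  have hinj : ∀ z ∈ Om, ∀ z' ∈ Om, (fun G : Finset (Edge n) => G \ R) z = (fun G => G \ R) z' →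
      (fun G : Finset (Edge n) => G \ R') z = (fun G => G \ R') z' → z = z' := by
    intro z _ z' _ h1 h2
    simp only at h1 h2
    ext ε
    have a1 := Finset.ext_iff.1 h1 ε
    have a2 := Finset.ext_iff.1 h2 ε
    simp only [mem_sdiff] at a1 a2
    have := fun h1 h2 => (Finset.disjoint_left.1 hRR) (a := ε) h1 h2
    tauto
  have hrect : ∀ x ∈ Om, ∀ y ∈ Om, chi R R' x = chi R R' y →
      ∃ z ∈ Om, (fun G : Finset (Edge n) => G \ R) z = (fun G => G \ R) x ∧
        (fun G : Finset (Edge n) => G \ R') z = (fun G => G \ R') y := by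
    intro x hx y hy h
    have h1 : x \ (R ∪ R') = y \ (R ∪ R') := congrArg Prod.fst h
    have h2 : ∀ v, deg (x ∩ R) v = deg (y ∩ R) v := fun v => congrFun (congrArg Prod.snd h) v
    refine ⟨mix R x y, hcl x hx y hy (mix_mem (hOm hx) h2), mix_sdiff R x y, ?_⟩
    ext ε
    have a1 := Finset.ext_iff.1 h1 ε
    simp only [mem_sdiff, mem_union] at a1
    simp only [mix, mem_sdiff, mem_union, mem_inter]
    have := fun h1 h2 => (Finset.disjoint_left.1 hRR) (a := ε) h1 h2
    tauto
  rw [condExp_condExp_of_rectangle hφ hψ hinj hrect f hx,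
    condExp_condExp_of_rectangle' hφ hψ hinj hrect f hx]

/-! ### abstract algebra of commuting conditional expectations -/

section abstract

variable {α β₁ β₂ β₃ β₄ : Type*} [DecidableEq β₁] [DecidableEq β₂] [DecidableEq β₃]
  [DecidableEq β₄]

/-- two conditional expectations commute on `Om`. -/
def Comm (Om : Finset α) (φ : α → β₁) (ψ : α → β₂) : Prop :=
  ∀ f : α → ℝ, ∀ x ∈ Om, condExp Om φ (condExp Om ψ f) x = condExp Om ψ (condExp Om φ f) x

theorem Comm.symm {Om : Finset α} {φ : α → β₁} {ψ : α → β₂} (h : Comm Om φ ψ) : Comm Om ψ φ :=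
  fun f x hx => (h f x hx).symm

theorem Comm.transfer {Om : Finset α} {φ : α → β₁} {ψ : α → β₂} {φ' : α → β₃} {ψ' : α → β₄}
    (h : Comm Om φ ψ) (hφ : ∀ x ∈ Om, ∀ y ∈ Om, φ x = φ y ↔ φ' x = φ' y)
    (hψ : ∀ x ∈ Om, ∀ y ∈ Om, ψ x = ψ y ↔ ψ' x = ψ' y) : Comm Om φ' ψ' := by
  intro f x hx
  have e1 : ∀ g : α → ℝ, ∀ y ∈ Om, condExp Om φ' g y = condExp Om φ g y :=
    fun g y hy => (condExp_eq_of_iff hφ g hy).symm
  have e2 : ∀ g : α → ℝ, ∀ y ∈ Om, condExp Om ψ' g y = condExp Om ψ g y :=
    fun g y hy => (condExp_eq_of_iff hψ g hy).symm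
  rw [e1 _ x hx, e2 _ x hx, condExp_congr (e2 f), condExp_congr (e1 f)]
  exact h f x hx

theorem ip_one_sub_nonneg {Om : Finset α} {φ : α → β₁} {ψ : α → β₂} (hc : Comm Om φ ψ)
    (f : α → ℝ) :
    0 ≤ ip Om (fun x => f x - condExp Om φ f x) (fun x => f x - condExp Om ψ f x) := by
  refine IsProj.ip_nonneg_of_comm (isProj_condExp Om φ).one_sub (isProj_condExp Om ψ).one_sub
    ?_ f
  intro g x hx
  simp only [condExp_sub]
  rw [hc g x hx]
  ring

theorem ip_ge_of_comm {Om : Finset α} {φ : α → β₁} {φo : α → β₂} {ψ : α → β₃} {ψo : α → β₄}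
    (hφ : Factors Om φo φ) (hψ : Factors Om ψo ψ)
    (h1 : Comm Om φo ψo) (h2 : Comm Om φo ψ) (h3 : Comm Om φ ψo) (f : α → ℝ) :
    ip Om (fun x => condExp Om φo f x - condExp Om φ f x)
        (fun x => condExp Om ψo f x - condExp Om ψ f x)
      ≤ ip Om (fun x => f x - condExp Om φ f x) (fun x => f x - condExp Om ψ f x) := by
  have pφo := (isProj_condExp Om φo).one_sub
  have pψo := (isProj_condExp Om ψo).one_sub
  have pBφ : IsProj Om (fun f x => condExp Om φo f x - condExp Om φ f x) :=
    IsProj.sub (isProj_condExp Om φo) (isProj_condExp Om φ)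
      (fun f x hx => condExp_tower' hφ f hx) (fun f x _ => condExp_tower hφ f x)
  have pBψ : IsProj Om (fun f x => condExp Om ψo f x - condExp Om ψ f x) :=
    IsProj.sub (isProj_condExp Om ψo) (isProj_condExp Om ψ)
      (fun f x hx => condExp_tower' hψ f hx) (fun f x _ => condExp_tower hψ f x)
  have t1 := IsProj.ip_nonneg_of_comm pφo pψo (by
    intro g x hx
    simp only [condExp_sub]
    rw [h1 g x hx]; ring) f
  have t2 := IsProj.ip_nonneg_of_comm pφo pBψ (by
    intro g x hx
    simp only [condExp_sub]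
    rw [h1 g x hx, h2 g x hx]; ring) f
  have t3 := IsProj.ip_nonneg_of_comm pBφ pψo (by
    intro g x hx
    simp only [condExp_sub]
    rw [h1 g x hx, h3 g x hx]; ring) f
  have key : ip Om (fun x => f x - condExp Om φ f x) (fun x => f x - condExp Om ψ f x)
      = ip Om (fun x => f x - condExp Om φo f x) (fun x => f x - condExp Om ψo f x)
        + ip Om (fun x => f x - condExp Om φo f x)
            (fun x => condExp Om ψo f x - condExp Om ψ f x)
        + ip Om (fun x => condExp Om φo f x - condExp Om φ f x)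
            (fun x => f x - condExp Om ψo f x)
        + ip Om (fun x => condExp Om φo f x - condExp Om φ f x)
            (fun x => condExp Om ψo f x - condExp Om ψ f x) := by
    simp only [ip, ← sum_add_distrib]
    refine sum_congr rfl fun x _ => ?_
    ring
  rw [key]
  linarith

end abstract

/-! ### the slot sets of the two pairs -/

/-- `{u,w}` is one of the four slots `ac, be, ae, bc`. -/
def InCyc (a b c e u w : Fin n) : Prop :=
  (u = a ∧ w = c) ∨ (u = c ∧ w = a) ∨ (u = b ∧ w = e) ∨ (u = e ∧ w = b) ∨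
    (u = a ∧ w = e) ∨ (u = e ∧ w = a) ∨ (u = b ∧ w = c) ∨ (u = c ∧ w = b)

theorem mkE_mem_cyc {a b c e u w : Fin n} (h : u ≠ w) :
    mkE u w h ∈ cyc a b c e ↔ InCyc a b c e u w := by
  simp only [cyc, mem_filter, mem_univ, true_and, mkE, Sym2.eq_iff, InCyc]
  tauto

/-- slots touching `a` or `b`. -/
def T (a b : Fin n) : Finset (Edge n) := univ.filter fun ε => a ∈ ε.1 ∨ b ∈ ε.1

theorem mkE_mem_T {a b u w : Fin n} (h : u ≠ w) :
    mkE u w h ∈ T a b ↔ (a = u ∨ a = w) ∨ (b = u ∨ b = w) := by
  simp [T, mkE]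

theorem away_eq (a b : Fin n) : away {a, b} = fun G : Finset (Edge n) => G \ T a b := by
  funext G
  ext ε
  simp only [away, T, mem_filter, mem_sdiff, mem_univ, true_and, mem_insert, mem_singleton]
  constructor
  · rintro ⟨h1, h2⟩
    exact ⟨h1, fun h => h.elim (h2 a (Or.inl rfl)) (h2 b (Or.inr rfl))⟩
  · rintro ⟨h1, h2⟩
    refine ⟨h1, ?_⟩
    rintro v (rfl | rfl) hv
    · exact h2 (Or.inl hv)
    · exact h2 (Or.inr hv)

theorem cyc_swap_pairs (a b c e : Fin n) : cyc c e a b = cyc a b c e := by
  ext ε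
  simp only [cyc, mem_filter, mem_univ, true_and]
  rw [Sym2.eq_swap (a := c) (b := a), Sym2.eq_swap (a := c) (b := b),
    Sym2.eq_swap (a := e) (b := a), Sym2.eq_swap (a := e) (b := b)]
  tauto

theorem cyc_swap_left (a b c e : Fin n) : cyc b a c e = cyc a b c e := by
  ext ε
  simp only [cyc, mem_filter, mem_univ, true_and]
  tauto

section four

variable {a b c e : Fin n}

theorem cyc_subset_T (a b c e : Fin n) : cyc a b c e ⊆ T a b := by
  intro ε hε
  obtain ⟨u, w, huw, rfl⟩ := edge_exists ε
  rw [mkE_mem_cyc] at hε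
  rw [mkE_mem_T]
  unfold InCyc at hε
  grind

theorem cyc_subset_T' (a b c e : Fin n) : cyc a b c e ⊆ T c e := by
  rw [← cyc_swap_pairs]; exact cyc_subset_T c e a b

theorem T_inter_T (h : Dis4 a b c e) {ε : Edge n} (h1 : ε ∈ T a b) (h2 : ε ∈ T c e) :
    ε ∈ cyc a b c e := by
  obtain ⟨u, w, huw, rfl⟩ := edge_exists ε
  rw [mkE_mem_cyc]
  rw [mkE_mem_T] at h1 h2
  unfold InCyc
  have := h.ab; have := h.ac; have := h.ae; have := h.bc; have := h.be; have := h.ce
  grind

theorem disj_To_T (h : Dis4 a b c e) : Disjoint (T a b \ cyc a b c e) (T c e) := by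
  rw [Finset.disjoint_left]
  intro ε h1 h2
  rw [mem_sdiff] at h1
  exact h1.2 (T_inter_T h h1.1 h2)

theorem disj_To_To (h : Dis4 a b c e) :
    Disjoint (T a b \ cyc a b c e) (T c e \ cyc a b c e) :=
  (disj_To_T h).mono_right sdiff_subset

theorem disj_To_T' (h : Dis4 a b c e) : Disjoint (T c e \ cyc a b c e) (T a b) := by
  have := disj_To_T h.swap_pairs
  rwa [cyc_swap_pairs] at this

theorem blk_eq_iff (h : Dis4 a b c e) (x y : Finset (Edge n)) :
    blk4 a b c e x = blk4 a b c e y ↔ x ∩ cyc a b c e = y ∩ cyc a b c e := by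
  classical
  simp only [blk4, Prod.mk.injEq, decide_eq_decide]
  rw [adj_iff_mem h.ac, adj_iff_mem h.ac, adj_iff_mem h.ae, adj_iff_mem h.ae,
    adj_iff_mem h.bc, adj_iff_mem h.bc, adj_iff_mem h.be, adj_iff_mem h.be]
  constructor
  · rintro ⟨h1, h2, h3, h4⟩
    ext ε
    simp only [mem_inter, cyc, mem_filter, mem_univ, true_and]
    constructor
    · rintro ⟨hx, hc⟩
      refine ⟨?_, hc⟩
      rcases hc with hc | hc | hc | hc
      · have : ε = mkE a c h.ac := Subtype.ext hc
        subst this; exact h1.1 hx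
      · have : ε = mkE a e h.ae := Subtype.ext hc
        subst this; exact h2.1 hx
      · have : ε = mkE b c h.bc := Subtype.ext hc
        subst this; exact h3.1 hx
      · have : ε = mkE b e h.be := Subtype.ext hc
        subst this; exact h4.1 hx
    · rintro ⟨hx, hc⟩
      refine ⟨?_, hc⟩
      rcases hc with hc | hc | hc | hc
      · have : ε = mkE a c h.ac := Subtype.ext hc
        subst this; exact h1.2 hx
      · have : ε = mkE a e h.ae := Subtype.ext hc
        subst this; exact h2.2 hx
      · have : ε = mkE b c h.bc := Subtype.ext hc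
        subst this; exact h3.2 hx
      · have : ε = mkE b e h.be := Subtype.ext hc
        subst this; exact h4.2 hx
  · intro hh
    have key : ∀ ε ∈ cyc a b c e, (ε ∈ x ↔ ε ∈ y) := by
      intro ε hε
      have := Finset.ext_iff.1 hh ε
      simp only [mem_inter] at this
      tauto
    refine ⟨key _ ?_, key _ ?_, key _ ?_, key _ ?_⟩ <;> simp [cyc, mkE]

/-- the key `(away {a,b}, blk4)` and the slot key `G \ (T a b \ cyc)` induce the same partition. -/
theorem key_o_iff (h : Dis4 a b c e) (x y : Finset (Edge n)) :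
    x \ (T a b \ cyc a b c e) = y \ (T a b \ cyc a b c e) ↔
      (away {a, b} x, blk4 a b c e x) = (away {a, b} y, blk4 a b c e y) := by
  rw [Prod.mk.injEq, blk_eq_iff h, away_eq]
  have hs := cyc_subset_T a b c e
  constructor
  · intro hh
    constructor
    · ext ε
      have := Finset.ext_iff.1 hh ε
      simp only [mem_sdiff] at this ⊢
      tauto
    · ext ε
      have := Finset.ext_iff.1 hh ε
      simp only [mem_sdiff] at this
      simp only [mem_inter]
      tauto
  · rintro ⟨h1, h2⟩
    ext ε
    have a1 := Finset.ext_iff.1 h1 ε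
    have a2 := Finset.ext_iff.1 h2 ε
    simp only [mem_sdiff] at a1
    simp only [mem_inter] at a2
    simp only [mem_sdiff]
    tauto

end four

/-! ### the cross block and degrees -/

/-- row and column sums of a `2 × 2` block `(ac, ae, bc, be)`. -/
def rA (β : Bool × Bool × Bool × Bool) : ℕ := β.1.toNat + β.2.1.toNat
def rB (β : Bool × Bool × Bool × Bool) : ℕ := β.2.2.1.toNat + β.2.2.2.toNat
def cC (β : Bool × Bool × Bool × Bool) : ℕ := β.1.toNat + β.2.2.1.toNat
def cF (β : Bool × Bool × Bool × Bool) : ℕ := β.2.1.toNat + β.2.2.2.toNat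
def cnt (β : Bool × Bool × Bool × Bool) : ℕ :=
  β.1.toNat + β.2.1.toNat + β.2.2.1.toNat + β.2.2.2.toNat
/-- transpose -/
def tr (β : Bool × Bool × Bool × Bool) : Bool × Bool × Bool × Bool :=
  (β.1, β.2.2.1, β.2.1, β.2.2.2)

theorem bl_exists : ∀ βx βy : Bool × Bool × Bool × Bool, cnt βx = cnt βy → cnt βx ≠ 2 →
    ∃ βz, cC βz = cC βx ∧ cF βz = cF βx ∧ rA βz = rA βy ∧ rB βz = rB βy ∧ cnt βz ≠ 2 := by
  decide

theorem bl_inj : ∀ β β' : Bool × Bool × Bool × Bool, cnt β ≠ 2 → cC β = cC β' → cF β = cF β' →
    rA β = rA β' → rB β = rB β' → β = β' := by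
  decide

theorem bl_vanish : ∀ β : Bool × Bool × Bool × Bool, cnt β = 2 →
    β ≠ (true, false, false, true) → β ≠ (false, true, true, false) →
    (∀ β', cC β' = cC β → cF β' = cF β → β' = β) ∨
      (∀ β', rA β' = rA β → rB β' = rB β → β' = β) := by
  rintro ⟨_ | _, _ | _, _ | _, _ | _⟩ <;> decide

theorem cnt_eq_cols : ∀ β : Bool × Bool × Bool × Bool, cnt β = cC β + cF β := by decide
theorem cnt_eq_rows : ∀ β : Bool × Bool × Bool × Bool, cnt β = rA β + rB β := by decide
theorem cnt_tr : ∀ β : Bool × Bool × Bool × Bool, cnt (tr β) = cnt β := by decide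
theorem cC_tr : ∀ β : Bool × Bool × Bool × Bool, cC (tr β) = rA β := by decide
theorem cF_tr : ∀ β : Bool × Bool × Bool × Bool, cF (tr β) = rB β := by decide
theorem tr_inj : ∀ β β' : Bool × Bool × Bool × Bool, tr β = tr β' → β = β' := by decide

theorem blk_swap (a b c e : Fin n) (G : Finset (Edge n)) :
    blk4 c e a b G = tr (blk4 a b c e G) := by
  classical
  simp only [blk4, tr, Prod.mk.injEq, decide_eq_decide]
  exact ⟨adj_comm, adj_comm, adj_comm, adj_comm⟩

theorem adj_inter_cyc {a b c e : Fin n} (G : Finset (Edge n)) (u w : Fin n) :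
    Adj (G ∩ cyc a b c e) u w ↔ Adj G u w ∧ InCyc a b c e u w := by
  constructor
  · rintro ⟨h, hm⟩
    rw [mem_inter, mkE_mem_cyc] at hm
    exact ⟨⟨h, hm.1⟩, hm.2⟩
  · rintro ⟨⟨h, hm⟩, hc⟩
    exact ⟨h, mem_inter.2 ⟨hm, (mkE_mem_cyc h).2 hc⟩⟩

theorem adj_inter_T {a b : Fin n} (G : Finset (Edge n)) (u w : Fin n) :
    Adj (G ∩ T a b) u w ↔ Adj G u w ∧ ((a = u ∨ a = w) ∨ (b = u ∨ b = w)) := by
  constructor
  · rintro ⟨h, hm⟩
    rw [mem_inter, mkE_mem_T] at hm
    exact ⟨⟨h, hm.1⟩, hm.2⟩
  · rintro ⟨⟨h, hm⟩, hc⟩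
    exact ⟨h, mem_inter.2 ⟨hm, (mkE_mem_T h).2 hc⟩⟩

theorem adj_sdiff_T {a b : Fin n} (G : Finset (Edge n)) (u w : Fin n) :
    Adj (G \ T a b) u w ↔ Adj G u w ∧ ¬ ((a = u ∨ a = w) ∨ (b = u ∨ b = w)) := by
  constructor
  · rintro ⟨h, hm⟩
    rw [mem_sdiff, mkE_mem_T] at hm
    exact ⟨⟨h, hm.1⟩, hm.2⟩
  · rintro ⟨⟨h, hm⟩, hc⟩
    exact ⟨h, mem_sdiff.2 ⟨hm, fun h' => hc ((mkE_mem_T h).1 h')⟩⟩

section four'

variable {a b c e : Fin n}

theorem deg_cyc_aux (h : Dis4 a b c e) (G : Finset (Edge n)) :
    deg (G ∩ cyc a b c e) a = rA (blk4 a b c e G) := by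
  classical
  rw [deg_eq_card_nb]
  have : nb (G ∩ cyc a b c e) a = ({c, e} : Finset (Fin n)).filter (fun w => Adj G a w) := by
    ext w
    simp only [mem_nb, adj_inter_cyc, mem_filter, mem_insert, mem_singleton, InCyc]
    have := h.ab; have := h.ac; have := h.ae
    grind
  rw [this, card_filter, sum_pair h.ce]
  by_cases h1 : Adj G a c <;> by_cases h2 : Adj G a e <;> simp [rA, blk4, h1, h2]

theorem deg_cyc_a (h : Dis4 a b c e) (G : Finset (Edge n)) :
    deg (G ∩ cyc a b c e) a = rA (blk4 a b c e G) := deg_cyc_aux h G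

theorem deg_cyc_b (h : Dis4 a b c e) (G : Finset (Edge n)) :
    deg (G ∩ cyc a b c e) b = rB (blk4 a b c e G) := by
  have := deg_cyc_aux h.swap_left G
  rw [cyc_swap_left] at this
  rw [this]; rfl

theorem deg_cyc_c (h : Dis4 a b c e) (G : Finset (Edge n)) :
    deg (G ∩ cyc a b c e) c = cC (blk4 a b c e G) := by
  have := deg_cyc_a h.swap_pairs G
  rw [cyc_swap_pairs, blk_swap] at this
  rw [this]
  generalize blk4 a b c e G = β
  revert β; decide

theorem deg_cyc_e (h : Dis4 a b c e) (G : Finset (Edge n)) :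
    deg (G ∩ cyc a b c e) e = cF (blk4 a b c e G) := by
  have := deg_cyc_b h.swap_pairs G
  rw [cyc_swap_pairs, blk_swap] at this
  rw [this]
  generalize blk4 a b c e G = β
  revert β; decide

theorem deg_cyc_other (G : Finset (Edge n)) {v : Fin n} (ha : v ≠ a) (hb : v ≠ b) (hc : v ≠ c)
    (he : v ≠ e) : deg (G ∩ cyc a b c e) v = 0 := by
  rw [deg_eq_card_nb, card_eq_zero]
  ext w
  simp only [mem_nb, adj_inter_cyc, InCyc, notMem_empty, iff_false]
  grind

theorem deg_sdiff_T_left (G : Finset (Edge n)) : deg (G \ T a b) a = 0 := by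
  rw [deg_eq_card_nb, card_eq_zero]
  ext w
  simp only [mem_nb, adj_sdiff_T, notMem_empty, iff_false]
  grind

theorem deg_sdiff_T_right (G : Finset (Edge n)) : deg (G \ T a b) b = 0 := by
  rw [deg_eq_card_nb, card_eq_zero]
  ext w
  simp only [mem_nb, adj_sdiff_T, notMem_empty, iff_false]
  grind

theorem deg_T_c (h : Dis4 a b c e) (G : Finset (Edge n)) :
    deg (G ∩ T a b) c = deg (G ∩ cyc a b c e) c := by
  rw [deg_eq_card_nb, deg_eq_card_nb]
  congr 1
  ext w
  simp only [mem_nb, adj_inter_cyc, adj_inter_T, InCyc]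
  have := h.ab; have := h.ac; have := h.ae; have := h.bc; have := h.be; have := h.ce
  grind

theorem deg_T_e (h : Dis4 a b c e) (G : Finset (Edge n)) :
    deg (G ∩ T a b) e = deg (G ∩ cyc a b c e) e := by
  rw [deg_eq_card_nb, deg_eq_card_nb]
  congr 1
  ext w
  simp only [mem_nb, adj_inter_cyc, adj_inter_T, InCyc]
  have := h.ab; have := h.ac; have := h.ae; have := h.bc; have := h.be; have := h.ce
  grind

/-- column sums of the block are determined by `G - a - b`. -/
theorem cols_eq {d : Fin n → ℕ} (h : Dis4 a b c e) {x y : Finset (Edge n)}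
    (hx : x ∈ realizations d) (hy : y ∈ realizations d) (hxy : x \ T a b = y \ T a b) :
    cC (blk4 a b c e x) = cC (blk4 a b c e y) ∧ cF (blk4 a b c e x) = cF (blk4 a b c e y) := by
  constructor
  · rw [← deg_cyc_c h, ← deg_cyc_c h, ← deg_T_c h, ← deg_T_c h]
    exact deg_inter_eq hx hy hxy c
  · rw [← deg_cyc_e h, ← deg_cyc_e h, ← deg_T_e h, ← deg_T_e h]
    exact deg_inter_eq hx hy hxy e

/-- row sums of the block are determined by `G - c - e`. -/
theorem rows_eq {d : Fin n → ℕ} (h : Dis4 a b c e) {x y : Finset (Edge n)}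
    (hx : x ∈ realizations d) (hy : y ∈ realizations d) (hxy : x \ T c e = y \ T c e) :
    rA (blk4 a b c e x) = rA (blk4 a b c e y) ∧ rB (blk4 a b c e x) = rB (blk4 a b c e y) := by
  have := cols_eq h.swap_pairs hx hy hxy
  rwa [blk_swap a b c e x, blk_swap a b c e y, cC_tr, cC_tr, cF_tr, cF_tr] at this

end four'

/-! ### the case `t ≠ 2`: `E_p` and `E_p'` commute -/

/-- is the number of cross edges equal to `2`? -/
noncomputable def tq (a b c e : Fin n) (G : Finset (Edge n)) : Bool :=
  decide (cnt (blk4 a b c e G) = 2)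

/-- the key of the meet of `G - a - b` and `G - c - e` (used when `t ≠ 2`). -/
noncomputable def chi4 (a b c e : Fin n) (G : Finset (Edge n)) :
    Finset (Edge n) × (Fin n → ℕ) × ℕ :=
  (G \ (T a b ∪ T c e),
    fun v => if v = a ∨ v = b ∨ v = c ∨ v = e then 0 else deg (G ∩ T a b) v,
    cnt (blk4 a b c e G))

section four''

variable {a b c e : Fin n}

theorem exists_blk (h : Dis4 a b c e) (β : Bool × Bool × Bool × Bool) :
    ∃ m : Finset (Edge n), blk4 a b c e m = β := by
  classical
  refine ⟨univ.filter (fun ε : Edge n => (ε.1 = s(a, c) ∧ β.1 = true) ∨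
    (ε.1 = s(a, e) ∧ β.2.1 = true) ∨ (ε.1 = s(b, c) ∧ β.2.2.1 = true) ∨
    (ε.1 = s(b, e) ∧ β.2.2.2 = true)), ?_⟩
  obtain ⟨b1, b2, b3, b4⟩ := β
  have := h.ab; have := h.ac; have := h.ae; have := h.bc; have := h.be; have := h.ce
  simp only [blk4, Prod.mk.injEq]
  rw [adj_iff_mem h.ac, adj_iff_mem h.ae, adj_iff_mem h.bc, adj_iff_mem h.be]
  simp only [mem_filter, mem_univ, true_and, mkE, Sym2.eq_iff]
  refine ⟨?_, ?_, ?_, ?_⟩
  · cases b1 <;> simp <;> grind
  · cases b2 <;> simp <;> grind
  · cases b3 <;> simp <;> grind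
  · cases b4 <;> simp <;> grind

theorem mix_inter_of_subset {R M : Finset (Edge n)} (hM : M ⊆ R) (x y : Finset (Edge n)) :
    mix R x y ∩ M = y ∩ M := by
  ext ε
  have := @hM ε
  simp only [mix, mem_sdiff, mem_union, mem_inter]; tauto

theorem mix_inter_of_disjoint {R M : Finset (Edge n)} (hM : Disjoint R M)
    (x y : Finset (Edge n)) : mix R x y ∩ M = x ∩ M := by
  ext ε
  have := fun h1 h2 => (Finset.disjoint_left.1 hM) (a := ε) h1 h2
  simp only [mix, mem_sdiff, mem_union, mem_inter]; tauto

theorem ext_of_three {z z' T₁ T₂ M : Finset (Edge n)} (hM : ∀ ε, ε ∈ T₁ → ε ∈ T₂ → ε ∈ M)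
    (h1 : z \ T₁ = z' \ T₁) (h2 : z \ T₂ = z' \ T₂) (h3 : z ∩ M = z' ∩ M) : z = z' := by
  ext ε
  have a1 := Finset.ext_iff.1 h1 ε
  have a2 := Finset.ext_iff.1 h2 ε
  have a3 := Finset.ext_iff.1 h3 ε
  simp only [mem_sdiff] at a1 a2
  simp only [mem_inter] at a3
  have := hM ε
  tauto

theorem mix_mix_sdiff_left {T₁ M : Finset (Edge n)} (hM : M ⊆ T₁) (x y m : Finset (Edge n)) :
    mix M (mix T₁ x y) m \ T₁ = x \ T₁ := by
  ext ε
  have s1 := @hM ε
  simp only [mix, mem_sdiff, mem_union, mem_inter]
  tauto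

theorem mix_mix_sdiff_right {T₁ T₂ M x y : Finset (Edge n)} (hM : M ⊆ T₂)
    (h1 : x \ (T₁ ∪ T₂) = y \ (T₁ ∪ T₂)) (m : Finset (Edge n)) :
    mix M (mix T₁ x y) m \ T₂ = y \ T₂ := by
  ext ε
  have s1 := @hM ε
  have a1 := Finset.ext_iff.1 h1 ε
  simp only [mem_sdiff, mem_union] at a1
  simp only [mix, mem_sdiff, mem_union, mem_inter]
  tauto

theorem comm4 (d : Fin n → ℕ) (h : Dis4 a b c e) :
    Comm ((realizations d).filter (fun G => tq a b c e G = false))
      (fun G : Finset (Edge n) => G \ T a b) (fun G : Finset (Edge n) => G \ T c e) := by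
  set Om := (realizations d).filter (fun G => tq a b c e G = false) with hOmdef
  have hOm : ∀ x ∈ Om, x ∈ realizations d ∧ cnt (blk4 a b c e x) ≠ 2 := by
    intro x hx
    rw [hOmdef, mem_filter] at hx
    exact ⟨hx.1, by simpa [tq] using hx.2⟩
  have hφ : Factors Om (fun G : Finset (Edge n) => G \ T a b) (chi4 a b c e) := by
    intro x hx y hy hxy
    simp only at hxy
    refine Prod.ext ?_ (Prod.ext ?_ ?_)
    · simp only [chi4]
      ext ε
      have a1 := Finset.ext_iff.1 hxy ε
      simp only [mem_sdiff] at a1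
      simp only [mem_sdiff, mem_union]
      tauto
    · funext v
      simp only [chi4]
      rw [deg_inter_eq (hOm x hx).1 (hOm y hy).1 hxy v]
    · simp only [chi4]
      have := cols_eq h (hOm x hx).1 (hOm y hy).1 hxy
      rw [cnt_eq_cols, cnt_eq_cols, this.1, this.2]
  have hψ : Factors Om (fun G : Finset (Edge n) => G \ T c e) (chi4 a b c e) := by
    intro x hx y hy hxy
    simp only at hxy
    refine Prod.ext ?_ (Prod.ext ?_ ?_)
    · simp only [chi4]
      ext ε
      have a1 := Finset.ext_iff.1 hxy ε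
      simp only [mem_sdiff] at a1
      simp only [mem_sdiff, mem_union]
      tauto
    · funext v
      simp only [chi4]
      split_ifs with hv
      · rfl
      · rw [deg_eq_card_nb, deg_eq_card_nb]
        congr 1
        ext w
        have key : ∀ u w, Adj (x \ T c e) u w ↔ Adj (y \ T c e) u w := by rw [hxy]; simp
        have k1 := key v a
        have k2 := key v b
        simp only [adj_sdiff_T] at k1 k2
        simp only [mem_nb, adj_inter_T]
        have := h.ab; have := h.ac; have := h.ae; have := h.bc; have := h.be; have := h.ce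
        grind
    · simp only [chi4]
      have := rows_eq h (hOm x hx).1 (hOm y hy).1 hxy
      rw [cnt_eq_rows, cnt_eq_rows, this.1, this.2]
  have hinj : ∀ z ∈ Om, ∀ z' ∈ Om,
      (fun G : Finset (Edge n) => G \ T a b) z = (fun G => G \ T a b) z' →
      (fun G : Finset (Edge n) => G \ T c e) z = (fun G => G \ T c e) z' → z = z' := by
    intro z hz z' hz' h1 h2
    simp only at h1 h2
    have c1 := cols_eq h (hOm z hz).1 (hOm z' hz').1 h1
    have c2 := rows_eq h (hOm z hz).1 (hOm z' hz').1 h2
    have hb := bl_inj _ _ (hOm z hz).2 c1.1 c1.2 c2.1 c2.2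
    rw [blk_eq_iff h] at hb
    exact ext_of_three (fun ε => T_inter_T h) h1 h2 hb
  have hrect : ∀ x ∈ Om, ∀ y ∈ Om, chi4 a b c e x = chi4 a b c e y →
      ∃ z ∈ Om, (fun G : Finset (Edge n) => G \ T a b) z = (fun G => G \ T a b) x ∧
        (fun G : Finset (Edge n) => G \ T c e) z = (fun G => G \ T c e) y := by
    intro x hx y hy hxy
    have h1 : x \ (T a b ∪ T c e) = y \ (T a b ∪ T c e) := congrArg Prod.fst hxy
    have h2 : ∀ v, v ≠ a → v ≠ b → v ≠ c → v ≠ e →
        deg (x ∩ T a b) v = deg (y ∩ T a b) v := by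
      intro v ha hb hc he
      have := congrFun (congrArg (fun p => p.2.1) hxy) v
      simpa [chi4, ha, hb, hc, he] using this
    have h3 : cnt (blk4 a b c e x) = cnt (blk4 a b c e y) := congrArg (fun p => p.2.2) hxy
    obtain ⟨βz, z1, z2, z3, z4, z5⟩ := bl_exists _ _ h3 (hOm x hx).2
    obtain ⟨m, hm⟩ := exists_blk h βz
    set w := mix (T a b) x y with hw
    set z := mix (cyc a b c e) w m with hz
    have hzM : z ∩ cyc a b c e = m ∩ cyc a b c e := mix_inter _ _ _
    have hzb : blk4 a b c e z = βz := by rw [← hm, blk_eq_iff h, hzM]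
    have hwM : w ∩ cyc a b c e = y ∩ cyc a b c e :=
      mix_inter_of_subset (cyc_subset_T a b c e) x y
    have hxr := mem_real.1 (hOm x hx).1
    have hyr := mem_real.1 (hOm y hy).1
    have hzr : z ∈ realizations d := by
      rw [mem_real]
      intro v
      have e1 := deg_split z (cyc a b c e) v
      rw [hz, mix_sdiff, ← hz, hzM] at e1
      have e2 := deg_split w (cyc a b c e) v
      rw [hwM] at e2
      have e3 := deg_split w (T a b) v
      rw [hw, mix_sdiff, mix_inter, ← hw] at e3
      have e4 := deg_split x (T a b) v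
      have e5 := deg_split y (T a b) v
      rw [hxr v] at e4
      rw [hyr v] at e5
      by_cases hva : v = a
      · subst hva
        have f1 := deg_sdiff_T_left (a := v) (b := b) x
        have f2 := deg_sdiff_T_left (a := v) (b := b) y
        have f3 := deg_cyc_a h m
        have f4 := deg_cyc_a h y
        rw [hm] at f3
        omega
      by_cases hvb : v = b
      · subst hvb
        have f1 := deg_sdiff_T_right (a := a) (b := v) x
        have f2 := deg_sdiff_T_right (a := a) (b := v) y
        have f3 := deg_cyc_b h m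
        have f4 := deg_cyc_b h y
        rw [hm] at f3
        omega
      by_cases hvc : v = c
      · subst hvc
        have f1 := deg_T_c h x
        have f2 := deg_T_c h y
        have f3 := deg_cyc_c h m
        have f4 := deg_cyc_c h x
        rw [hm] at f3
        omega
      by_cases hve : v = e
      · subst hve
        have f1 := deg_T_e h x
        have f2 := deg_T_e h y
        have f3 := deg_cyc_e h m
        have f4 := deg_cyc_e h x
        rw [hm] at f3
        omega
      · have f1 := deg_cyc_other (a := a) (b := b) (c := c) (e := e) m hva hvb hvc hve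
        have f2 := deg_cyc_other (a := a) (b := b) (c := c) (e := e) y hva hvb hvc hve
        have f3 := h2 v hva hvb hvc hve
        omega
    refine ⟨z, ?_, ?_, ?_⟩
    · rw [hOmdef, mem_filter]
      refine ⟨hzr, ?_⟩
      simp [tq, hzb, z5]
    · exact mix_mix_sdiff_left (cyc_subset_T a b c e) x y m
    · exact mix_mix_sdiff_right (cyc_subset_T' a b c e) h1 m
  intro f x hx
  rw [condExp_condExp_of_rectangle hφ hψ hinj hrect f hx,
    condExp_condExp_of_rectangle' hφ hψ hinj hrect f hx]

end four''

/-! ### the case `t = 2` and the assembly -/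

theorem sdiff_eq_of_subset {R R' x y : Finset (Edge n)} (hR : R ⊆ R') (h : x \ R = y \ R) :
    x \ R' = y \ R' := by
  ext ε
  have s1 := @hR ε
  have a1 := Finset.ext_iff.1 h ε
  simp only [mem_sdiff] at a1 ⊢
  tauto

theorem sdiff_sdiff_eq {T₁ M x y : Finset (Edge n)} (h1 : x \ T₁ = y \ T₁)
    (h2 : x ∩ M = y ∩ M) : x \ (T₁ \ M) = y \ (T₁ \ M) := by
  ext ε
  have a1 := Finset.ext_iff.1 h1 ε
  have a2 := Finset.ext_iff.1 h2 ε
  simp only [mem_sdiff] at a1
  simp only [mem_inter] at a2
  simp only [mem_sdiff]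
  tauto

section four3

variable {a b c e : Fin n}

theorem isD_iff (G : Finset (Edge n)) : isD a b c e G ↔
    blk4 a b c e G = (true, false, false, true) ∨ blk4 a b c e G = (false, true, true, false) := by
  classical
  simp only [isD, isD1, blk4, Prod.mk.injEq, decide_eq_true_eq, decide_eq_false_iff_not]
  tauto

theorem fac1 (d : Fin n → ℕ) (h : Dis4 a b c e) :
    Factors (realizations d) (fun G : Finset (Edge n) => G \ T a b) (tq a b c e) := by
  intro x hx y hy hxy
  have := cols_eq h hx hy hxy
  simp only [tq]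
  rw [cnt_eq_cols, cnt_eq_cols, this.1, this.2]

theorem fac2 (d : Fin n → ℕ) (h : Dis4 a b c e) :
    Factors (realizations d) (fun G : Finset (Edge n) => G \ T c e) (tq a b c e) := by
  intro x hx y hy hxy
  have := rows_eq h hx hy hxy
  simp only [tq]
  rw [cnt_eq_rows, cnt_eq_rows, this.1, this.2]

theorem fac1o (d : Fin n → ℕ) (h : Dis4 a b c e) :
    Factors (realizations d) (fun G : Finset (Edge n) => G \ (T a b \ cyc a b c e))
      (tq a b c e) :=
  fun x hx y hy hxy => fac1 d h x hx y hy (sdiff_eq_of_subset sdiff_subset hxy)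

theorem fac2o (d : Fin n → ℕ) (h : Dis4 a b c e) :
    Factors (realizations d) (fun G : Finset (Edge n) => G \ (T c e \ cyc a b c e))
      (tq a b c e) :=
  fun x hx y hy hxy => fac2 d h x hx y hy (sdiff_eq_of_subset sdiff_subset hxy)

theorem comm_gen (d : Fin n → ℕ) (h : Dis4 a b c e) {R R' : Finset (Edge n)}
    (hRR : Disjoint R R') (hRM : Disjoint R (cyc a b c e)) :
    Comm ((realizations d).filter (fun G => tq a b c e G = true))
      (fun G : Finset (Edge n) => G \ R) (fun G : Finset (Edge n) => G \ R') := by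
  intro f x hx
  refine slot_comm (d := d) (filter_subset _ _) hRR ?_ f hx
  intro x hx y _ hm
  rw [mem_filter] at hx ⊢
  refine ⟨hm, ?_⟩
  have : blk4 a b c e (mix R x y) = blk4 a b c e x := by
    rw [blk_eq_iff h, mix_inter_of_disjoint hRM]
  rw [← hx.2]
  simp only [tq, this]

/-- off `D` (and for `t = 2`) one of the two factors vanishes. -/
theorem vanish (d : Fin n → ℕ) (h : Dis4 a b c e) (f : Finset (Edge n) → ℝ)
    {x : Finset (Edge n)} (hx : x ∈ realizations d) (ht : tq a b c e x = true)
    (hD : ¬ isD a b c e x) :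
    (condExp (realizations d) (fun G : Finset (Edge n) => G \ (T a b \ cyc a b c e)) f x
        - condExp (realizations d) (fun G : Finset (Edge n) => G \ T a b) f x)
      * (condExp (realizations d) (fun G : Finset (Edge n) => G \ (T c e \ cyc a b c e)) f x
        - condExp (realizations d) (fun G : Finset (Edge n) => G \ T c e) f x) = 0 := by
  rw [isD_iff, not_or] at hD
  have ht' : cnt (blk4 a b c e x) = 2 := by simpa [tq] using ht
  rcases bl_vanish _ ht' hD.1 hD.2 with hv | hv
  · have : fib (realizations d) (fun G : Finset (Edge n) => G \ (T a b \ cyc a b c e)) x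
        = fib (realizations d) (fun G : Finset (Edge n) => G \ T a b) x := by
      ext y
      simp only [mem_fib]
      constructor
      · rintro ⟨hy, hyx⟩
        exact ⟨hy, sdiff_eq_of_subset sdiff_subset hyx⟩
      · rintro ⟨hy, hyx⟩
        refine ⟨hy, sdiff_sdiff_eq hyx ?_⟩
        have c1 := cols_eq h hy hx hyx
        rw [← blk_eq_iff h]
        exact hv _ c1.1 c1.2
    simp only [condExp, this, sub_self, zero_mul]
  · have : fib (realizations d) (fun G : Finset (Edge n) => G \ (T c e \ cyc a b c e)) x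
        = fib (realizations d) (fun G : Finset (Edge n) => G \ T c e) x := by
      ext y
      simp only [mem_fib]
      constructor
      · rintro ⟨hy, hyx⟩
        exact ⟨hy, sdiff_eq_of_subset sdiff_subset hyx⟩
      · rintro ⟨hy, hyx⟩
        refine ⟨hy, sdiff_sdiff_eq hyx ?_⟩
        have c1 := rows_eq h hy hx hyx
        rw [← blk_eq_iff h]
        exact hv _ c1.1 c1.2
    simp only [condExp, this, sub_self, mul_zero]

theorem main_slot (d : Fin n → ℕ) (h : Dis4 a b c e) (f : Finset (Edge n) → ℝ) :
    ∑ x ∈ OmD d a b c e,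
      (condExp (realizations d) (fun G : Finset (Edge n) => G \ (T a b \ cyc a b c e)) f x
        - condExp (realizations d) (fun G : Finset (Edge n) => G \ T a b) f x)
      * (condExp (realizations d) (fun G : Finset (Edge n) => G \ (T c e \ cyc a b c e)) f x
        - condExp (realizations d) (fun G : Finset (Edge n) => G \ T c e) f x)
    ≤ ip (realizations d)
        (fun x => f x - condExp (realizations d) (fun G : Finset (Edge n) => G \ T a b) f x)
        (fun x => f x - condExp (realizations d) (fun G : Finset (Edge n) => G \ T c e) f x) := by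
  classical
  -- splitting
  have hsplit : ∀ F : Finset (Edge n) → ℝ, ∑ x ∈ realizations d, F x
      = ∑ x ∈ (realizations d).filter (fun G => tq a b c e G = true), F x
        + ∑ x ∈ (realizations d).filter (fun G => tq a b c e G = false), F x := by
    intro F
    rw [← sum_filter_add_sum_filter_not (realizations d) (fun G => tq a b c e G = true)]
    congr 1
    refine sum_congr (filter_congr fun x _ => ?_) fun _ _ => rfl
    simp
  -- the part `t ≠ 2`
  have part0 : 0 ≤ ∑ x ∈ (realizations d).filter (fun G => tq a b c e G = false),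
      (f x - condExp (realizations d) (fun G : Finset (Edge n) => G \ T a b) f x)
      * (f x - condExp (realizations d) (fun G : Finset (Edge n) => G \ T c e) f x) := by
    have := ip_one_sub_nonneg (comm4 d h) f
    refine this.trans (le_of_eq ?_)
    refine sum_congr rfl fun x hx => ?_
    have hx' := mem_filter.1 hx
    have l1 := condExp_filter_eq (fac1 d h) f hx'.1 false hx'.2
    have l2 := condExp_filter_eq (fac2 d h) f hx'.1 false hx'.2
    beta_reduce
    rw [l1, l2]
  -- the part `t = 2`
  have part2 : ∑ x ∈ (realizations d).filter (fun G => tq a b c e G = true),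
      (condExp (realizations d) (fun G : Finset (Edge n) => G \ (T a b \ cyc a b c e)) f x
        - condExp (realizations d) (fun G : Finset (Edge n) => G \ T a b) f x)
      * (condExp (realizations d) (fun G : Finset (Edge n) => G \ (T c e \ cyc a b c e)) f x
        - condExp (realizations d) (fun G : Finset (Edge n) => G \ T c e) f x)
      ≤ ∑ x ∈ (realizations d).filter (fun G => tq a b c e G = true),
        (f x - condExp (realizations d) (fun G : Finset (Edge n) => G \ T a b) f x)
      * (f x - condExp (realizations d) (fun G : Finset (Edge n) => G \ T c e) f x) := by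
    have c1 := comm_gen d h (disj_To_To h) (sdiff_disjoint)
    have c2 := comm_gen d h (disj_To_T h) (sdiff_disjoint)
    have c3 := (comm_gen d h (disj_To_T' h) (sdiff_disjoint)).symm
    have hφ : Factors ((realizations d).filter (fun G => tq a b c e G = true))
        (fun G : Finset (Edge n) => G \ (T a b \ cyc a b c e))
        (fun G : Finset (Edge n) => G \ T a b) :=
      fun x _ y _ hxy => sdiff_eq_of_subset sdiff_subset hxy
    have hψ : Factors ((realizations d).filter (fun G => tq a b c e G = true))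
        (fun G : Finset (Edge n) => G \ (T c e \ cyc a b c e))
        (fun G : Finset (Edge n) => G \ T c e) :=
      fun x _ y _ hxy => sdiff_eq_of_subset sdiff_subset hxy
    have := ip_ge_of_comm hφ hψ c1 c2 c3 f
    unfold ip at this
    refine le_trans (le_of_eq ?_) (this.trans (le_of_eq ?_))
    · refine sum_congr rfl fun x hx => ?_
      have hx' := mem_filter.1 hx
      have l1 := condExp_filter_eq (fac1 d h) f hx'.1 true hx'.2
      have l2 := condExp_filter_eq (fac2 d h) f hx'.1 true hx'.2
      have l3 := condExp_filter_eq (fac1o d h) f hx'.1 true hx'.2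
      have l4 := condExp_filter_eq (fac2o d h) f hx'.1 true hx'.2
      beta_reduce
      rw [l1, l2, l3, l4]
    · refine sum_congr rfl fun x hx => ?_
      have hx' := mem_filter.1 hx
      have l1 := condExp_filter_eq (fac1 d h) f hx'.1 true hx'.2
      have l2 := condExp_filter_eq (fac2 d h) f hx'.1 true hx'.2
      beta_reduce
      rw [l1, l2]
  -- from `t = 2` to `D`
  have hsub : OmD d a b c e ⊆ (realizations d).filter (fun G => tq a b c e G = true) := by
    intro x hx
    rw [OmD, mem_filter] at hx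
    rw [mem_filter]
    refine ⟨hx.1, ?_⟩
    rcases (isD_iff x).1 hx.2 with hb | hb <;> simp [tq, hb, cnt]
  have hD : ∑ x ∈ OmD d a b c e,
      (condExp (realizations d) (fun G : Finset (Edge n) => G \ (T a b \ cyc a b c e)) f x
        - condExp (realizations d) (fun G : Finset (Edge n) => G \ T a b) f x)
      * (condExp (realizations d) (fun G : Finset (Edge n) => G \ (T c e \ cyc a b c e)) f x
        - condExp (realizations d) (fun G : Finset (Edge n) => G \ T c e) f x)
      = ∑ x ∈ (realizations d).filter (fun G => tq a b c e G = true),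
      (condExp (realizations d) (fun G : Finset (Edge n) => G \ (T a b \ cyc a b c e)) f x
        - condExp (realizations d) (fun G : Finset (Edge n) => G \ T a b) f x)
      * (condExp (realizations d) (fun G : Finset (Edge n) => G \ (T c e \ cyc a b c e)) f x
        - condExp (realizations d) (fun G : Finset (Edge n) => G \ T c e) f x) := by
    refine sum_subset hsub fun x hx hxD => ?_
    have hx' := mem_filter.1 hx
    refine vanish d h f hx'.1 hx'.2 ?_
    intro hd
    exact hxD (by rw [OmD, mem_filter]; exact ⟨hx'.1, hd⟩)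
  rw [hD]
  unfold ip
  rw [hsplit]
  linarith

end four3

end B1

/-- **Step B1.** -/
theorem stepB1 {n : ℕ} (d : Fin n → ℕ) {a b c e : Fin n} (h : Dis4 a b c e)
    (f : Finset (Edge n) → ℝ) :
    ∑ G ∈ OmD d a b c e, Bo d a b c e f G * Bo d c e a b f G
      ≤ ip (realizations d) (Qp d a b f) (Qp d c e f) := by
  classical
  have E1 : ∀ a b : Fin n, Ep d a b f
      = condExp (realizations d) (fun G : Finset (Edge n) => G \ B1.T a b) f := by
    intro a b
    unfold Ep
    rw [B1.away_eq]
    rfl
  have E1o : ∀ G ∈ realizations d, Eo d a b c e f G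
      = condExp (realizations d) (fun G : Finset (Edge n) => G \ (B1.T a b \ cyc a b c e)) f G :=
    fun G hG => condExp_eq_of_iff (fun x _ y _ => (B1.key_o_iff h x y).symm) f hG
  have E2o : ∀ G ∈ realizations d, Eo d c e a b f G
      = condExp (realizations d) (fun G : Finset (Edge n) => G \ (B1.T c e \ cyc a b c e)) f G := by
    intro G hG
    rw [← B1.cyc_swap_pairs a b c e]
    exact condExp_eq_of_iff (fun x _ y _ => (B1.key_o_iff h.swap_pairs x y).symm) f hG
  have := B1.main_slot d h f
  refine le_trans (le_of_eq ?_) (this.trans (le_of_eq ?_))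
  · refine sum_congr rfl fun G hG => ?_
    have hG' : G ∈ realizations d := by
      rw [OmD, mem_filter] at hG; exact hG.1
    simp only [Bo]
    rw [E1o G hG', E2o G hG', E1, E1]
  · unfold Qp
    rw [E1, E1]

end Crest.Agent.S0453Aux
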