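import Crest.Agent.S0453Aux.Defs
import Crest.Agent.S0453Aux.Connected

/-!
# S0453, step (B): shared definitions for two disjoint pairs `p = {a,b}`, `p' = {c,e}`

* `blk4 a b c e G` : the statuses of the four cross slots `ac, ae, bc, be`.
* `isD1 a b c e G`: `ac, be ∈ G`, `ae, bc ∉ G`;  `isD a b c e G`: `isD1 a b c e G ∨ isD1 a b e c G`.
* `tau a b c e`   : the switch involution `D ↔ D'` (identity off `isD`).
* `Eo d a b c e`  : `E_p^o`, conditional expectation given `G - a - b` and the cross block.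
* `Bo d a b c e`  : `B_p = E_p^o - E_p`.
* `zz d a b c e f`: `z_{pp'}(f) = ∑_{p-orbits O} (∑_{O ∩ D} Q_p f)^2 / |O ∩ D|`.
-/

set_option autoImplicit false
open Finset
open Crest Crest.SwitchChain

namespace Crest.Agent.S0453Aux

variable {n : ℕ}

/-- four pairwise distinct vertices -/
structure Dis4 (a b c e : Fin n) : Prop where
  ab : a ≠ b
  ac : a ≠ c
  ae : a ≠ e
  bc : b ≠ c
  be : b ≠ e
  ce : c ≠ e

theorem Dis4.swap_right {a b c e : Fin n} (h : Dis4 a b c e) : Dis4 a b e c :=
  ⟨h.ab, h.ae, h.ac, h.be, h.bc, h.ce.symm⟩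

theorem Dis4.swap_left {a b c e : Fin n} (h : Dis4 a b c e) : Dis4 b a c e :=
  ⟨h.ab.symm, h.bc, h.be, h.ac, h.ae, h.ce⟩

theorem Dis4.swap_pairs {a b c e : Fin n} (h : Dis4 a b c e) : Dis4 c e a b :=
  ⟨h.ce, h.ac.symm, h.bc.symm, h.ae.symm, h.be.symm, h.ab⟩

open Classical in
/-- statuses of the cross slots `ac, ae, bc, be`. -/
noncomputable def blk4 (a b c e : Fin n) (G : Finset (Edge n)) : Bool × Bool × Bool × Bool :=
  (decide (Adj G a c), decide (Adj G a e), decide (Adj G b c), decide (Adj G b e))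

/-- `ac, be` present, `ae, bc` absent. -/
def isD1 (a b c e : Fin n) (G : Finset (Edge n)) : Prop :=
  Adj G a c ∧ Adj G b e ∧ ¬ Adj G a e ∧ ¬ Adj G b c

/-- the cross block is one of the two permutation matrices. -/
def isD (a b c e : Fin n) (G : Finset (Edge n)) : Prop :=
  isD1 a b c e G ∨ isD1 a b e c G

/-- the four cross slots. -/
def cyc (a b c e : Fin n) : Finset (Edge n) :=
  univ.filter fun x => x.1 = s(a, c) ∨ x.1 = s(a, e) ∨ x.1 = s(b, c) ∨ x.1 = s(b, e)

open Classical in
/-- the switch involution. -/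
noncomputable def tau (a b c e : Fin n) (G : Finset (Edge n)) : Finset (Edge n) :=
  if isD a b c e G then symmDiff G (cyc a b c e) else G

/-- `E_p^o`. -/
noncomputable def Eo (d : Fin n → ℕ) (a b c e : Fin n) (f : Finset (Edge n) → ℝ) :
    Finset (Edge n) → ℝ :=
  cE (realizations d) (fun G => (away {a, b} G, blk4 a b c e G)) f

/-- `B_p = E_p^o - E_p`. -/
noncomputable def Bo (d : Fin n → ℕ) (a b c e : Fin n) (f : Finset (Edge n) → ℝ) :
    Finset (Edge n) → ℝ :=
  fun G => Eo d a b c e f G - Ep d a b f G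

open Classical in
/-- the realizations whose cross block is a permutation matrix. -/
noncomputable def OmD (d : Fin n → ℕ) (a b c e : Fin n) : Finset (Finset (Edge n)) :=
  (realizations d).filter (isD a b c e)

/-- `z_{pp'}(f)`. -/
noncomputable def zz (d : Fin n → ℕ) (a b c e : Fin n) (f : Finset (Edge n) → ℝ) : ℝ :=
  ∑ G ∈ OmD d a b c e, (cE (OmD d a b c e) (away {a, b}) (Qp d a b f) G) ^ 2

end Crest.Agent.S0453Aux
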