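import Mathlib
import Crest.Prelude.Def_SwitchChain
import Crest.Agent.S0453Aux.Kernel
import Crest.Agent.S0453Aux.Connected

/-!
# S0453: from sums over ordered 4-tuples of vertices to the proposal sum `propSum`
-/

namespace Crest.Agent.S0453Aux

open Finset Crest.SwitchChain

variable {n : ℕ}

theorem emb_ne (t : Fin 4 ↪ Fin n) {i j : Fin 4} (h : i ≠ j) : t i ≠ t j :=
  fun he => h (t.injective he)

/-- the matching `{ac, bd}` of the tuple `t = (a,b,c,d)` -/
def tF (t : Fin 4 ↪ Fin n) : Finset (Edge n) :=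
  {mkE (t 0) (t 2) (emb_ne t (by decide)), mkE (t 1) (t 3) (emb_ne t (by decide))}

/-- the matching `{ad, bc}` of the tuple `t = (a,b,c,d)` -/
def tF' (t : Fin 4 ↪ Fin n) : Finset (Edge n) :=
  {mkE (t 0) (t 3) (emb_ne t (by decide)), mkE (t 1) (t 2) (emb_ne t (by decide))}

def F0 : Finset (Edge 4) := {mkE 0 2 (by decide), mkE 1 3 (by decide)}
def F0' : Finset (Edge 4) := {mkE 0 3 (by decide), mkE 1 2 (by decide)}

set_option maxRecDepth 100000 in
theorem F0_mem : F0 ∈ pmSet (univ : Finset (Fin 4)) := by decide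

set_option maxRecDepth 100000 in
theorem F0'_mem : F0' ∈ pmSet (univ : Finset (Fin 4)) := by decide

theorem edgeMap_mkE {m : ℕ} (t : Fin m ↪ Fin n) (i j : Fin m) (h : i ≠ j) :
    edgeMap t (mkE i j h) = mkE (t i) (t j) (fun he => h (t.injective he)) := by
  apply Subtype.ext
  simp [edgeMap, mkE]

theorem tF_eq_map (t : Fin 4 ↪ Fin n) : tF t = F0.map (edgeMap t) := by
  simp only [tF, F0, map_insert, map_singleton, edgeMap_mkE]

theorem tF'_eq_map (t : Fin 4 ↪ Fin n) : tF' t = F0'.map (edgeMap t) := by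
  simp only [tF', F0', map_insert, map_singleton, edgeMap_mkE]

theorem tF_mem (t : Fin 4 ↪ Fin n) : tF t ∈ pmSet (univ.map t) := by
  rw [tF_eq_map]; exact map_mem_pmSet t F0_mem

theorem tF'_mem (t : Fin 4 ↪ Fin n) : tF' t ∈ pmSet (univ.map t) := by
  rw [tF'_eq_map]; exact map_mem_pmSet t F0'_mem

theorem tF'_ne (t : Fin 4 ↪ Fin n) : tF' t ≠ tF t := by
  intro h
  have h1 : mkE (t 0) (t 3) (emb_ne t (by decide)) ∈ tF t := by
    rw [← h]; simp [tF']
  simp only [tF, mem_insert, mem_singleton, mkE_eq_iff] at h1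
  have i03 := emb_ne t (show (0 : Fin 4) ≠ 3 by decide)
  have i32 := emb_ne t (show (3 : Fin 4) ≠ 2 by decide)
  have i01 := emb_ne t (show (0 : Fin 4) ≠ 1 by decide)
  rcases h1 with (⟨-, h⟩ | ⟨h, -⟩) | (⟨h, -⟩ | ⟨h, -⟩)
  · exact i32 h
  · exact emb_ne t (show (0 : Fin 4) ≠ 2 by decide) h
  · exact i01 h
  · exact i03 h

/-- a tuple is determined by its two matchings and its first vertex -/
theorem tuple_inj {t t' : Fin 4 ↪ Fin n} (hF : tF t = tF t') (hF' : tF' t = tF' t')
    (h0 : t 0 = t' 0) : t = t' := by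
  have ne : ∀ {i j : Fin 4}, i ≠ j → t i ≠ t j := fun h => emb_ne t h
  have ne' : ∀ {i j : Fin 4}, i ≠ j → t' i ≠ t' j := fun h => emb_ne t' h
  have h2 : t 2 = t' 2 := by
    have h1 : mkE (t 0) (t 2) (emb_ne t (by decide)) ∈ tF t' := by rw [← hF]; simp [tF]
    simp only [tF, mem_insert, mem_singleton, mkE_eq_iff] at h1
    rcases h1 with (⟨-, h⟩ | ⟨h, -⟩) | (⟨h, -⟩ | ⟨h, -⟩)
    · exact h
    · exact absurd (h0.symm.trans h) (ne' (by decide))
    · exact absurd (h0.symm.trans h) (ne' (by decide))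
    · exact absurd (h0.symm.trans h) (ne' (by decide))
  have h3 : t 3 = t' 3 := by
    have h1 : mkE (t 0) (t 3) (emb_ne t (by decide)) ∈ tF' t' := by rw [← hF']; simp [tF']
    simp only [tF', mem_insert, mem_singleton, mkE_eq_iff] at h1
    rcases h1 with (⟨-, h⟩ | ⟨h, -⟩) | (⟨h, -⟩ | ⟨h, -⟩)
    · exact h
    · exact absurd (h0.symm.trans h) (ne' (by decide))
    · exact absurd (h0.symm.trans h) (ne' (by decide))
    · exact absurd (h0.symm.trans h) (ne' (by decide))
  have h1 : t 1 = t' 1 := by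
    have h1 : mkE (t 1) (t 3) (emb_ne t (by decide)) ∈ tF t' := by rw [← hF]; simp [tF]
    simp only [tF, mem_insert, mem_singleton, mkE_eq_iff] at h1
    rcases h1 with (⟨-, h⟩ | ⟨-, h⟩) | (⟨h, -⟩ | ⟨-, h⟩)
    · exact absurd (h3.symm.trans h) (ne' (by decide))
    · exact absurd (h3.symm.trans h) (ne' (by decide))
    · exact h
    · exact absurd (h3.symm.trans h) (ne' (by decide))
  ext i
  congr 1
  fin_cases i
  · exact h0
  · exact h1
  · exact h2
  · exact h3

/-- **Bridge.** The sum over ordered 4-tuples of distinct vertices is at most four times the sum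
over proposals. -/
theorem sum_tuples_le (g : Finset (Edge n) → Finset (Edge n) → ℝ) (hg : ∀ F F', 0 ≤ g F F') :
    ∑ t : Fin 4 ↪ Fin n, g (tF t) (tF' t) ≤ 4 * propSum n g := by
  classical
  unfold propSum
  -- fibre over S
  have hmaps : ∀ t ∈ (univ : Finset (Fin 4 ↪ Fin n)),
      (univ.map t : Finset (Fin n)) ∈ (univ : Finset (Fin n)).powersetCard 4 := by
    intro t _
    rw [mem_powersetCard]
    exact ⟨subset_univ _, by simp⟩
  rw [← sum_fiberwise_of_maps_to hmaps, mul_sum]
  apply sum_le_sum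
  intro S hS
  have hScard : S.card = 4 := (mem_powersetCard.mp hS).2
  set TS := (univ : Finset (Fin 4 ↪ Fin n)).filter fun t => univ.map t = S with hTS
  -- fibre over F
  have hmapsF : ∀ t ∈ TS, tF t ∈ pmSet S := by
    intro t ht
    have := (mem_filter.mp ht).2
    rw [← this]; exact tF_mem t
  rw [← sum_fiberwise_of_maps_to hmapsF, mul_sum]
  apply sum_le_sum
  intro F hF
  set TF := TS.filter fun t => tF t = F with hTF
  have hmapsF' : ∀ t ∈ TF, tF' t ∈ (pmSet S).erase F := by
    intro t ht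
    have h1 := (mem_filter.mp ht).2
    have h2 := (mem_filter.mp (mem_filter.mp ht).1).2
    rw [mem_erase]
    refine ⟨by rw [← h1]; exact tF'_ne t, by rw [← h2]; exact tF'_mem t⟩
  rw [← sum_fiberwise_of_maps_to hmapsF', mul_sum]
  apply sum_le_sum
  intro F' _
  set TF' := TF.filter fun t => tF' t = F' with hTF'
  have hval : ∀ t ∈ TF', g (tF t) (tF' t) = g F F' := by
    intro t ht
    rw [(mem_filter.mp ht).2, (mem_filter.mp (mem_filter.mp ht).1).2]
  rw [sum_congr rfl hval, sum_const, nsmul_eq_mul]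
  apply mul_le_mul_of_nonneg_right _ (hg F F')
  have hcard : TF'.card ≤ S.card := by
    apply card_le_card_of_injOn (fun t => t 0)
    · intro t ht
      have h2 := (mem_filter.mp (mem_filter.mp (mem_filter.mp ht).1).1).2
      rw [← h2]
      exact mem_coe.mpr (mem_map_of_mem _ (mem_univ _))
    · intro t ht t' ht' h0
      have a1 := (mem_filter.mp ht).2
      have a2 := (mem_filter.mp (mem_filter.mp ht).1).2
      have b1 := (mem_filter.mp ht').2
      have b2 := (mem_filter.mp (mem_filter.mp ht').1).2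
      exact tuple_inj (a2.trans b2.symm) (a1.trans b1.symm) h0
  rw [hScard] at hcard
  exact_mod_cast hcard

end Crest.Agent.S0453Aux
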