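import Mathlib

/-!
# Abstract spectral-gap lemma (S0453 auxiliary)

If `A` is a symmetric positive semidefinite operator on `ι → ℝ` with `‖A h‖² ≥ c ⟨h, A h⟩` for all `h`
(i.e. `A² ≥ c A`) and whose kernel consists of constant functions, then
`c * (|ι| ∑ f² - (∑ f)²) ≤ |ι| ⟨f, A f⟩`.
No spectral theorem is used: `ι → ℝ = ker A ⊕ range A` and log-convexity of the moments `⟨g, A^k g⟩`.
-/

set_option autoImplicit false
open Finset

namespace Crest.Agent.S0453Aux

theorem gap_of_sq_ge {ι : Type*} [Fintype ι] (A : (ι → ℝ) →ₗ[ℝ] (ι → ℝ)) (c : ℝ)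
    (hsymm : ∀ f g : ι → ℝ, ∑ i, f i * A g i = ∑ i, A f i * g i)
    (hpsd : ∀ f : ι → ℝ, 0 ≤ ∑ i, f i * A f i)
    (hsq : ∀ f : ι → ℝ, c * ∑ i, f i * A f i ≤ ∑ i, A f i * A f i)
    (hker : ∀ f : ι → ℝ, A f = 0 → ∀ i j, f i = f j) (f : ι → ℝ) :
    c * ((Fintype.card ι : ℝ) * ∑ i, f i ^ 2 - (∑ i, f i) ^ 2) ≤
      (Fintype.card ι : ℝ) * ∑ i, f i * A f i := by
  classical
  -- decomposition
  have hdisj : Disjoint (LinearMap.ker A) (LinearMap.range A) := by
    rw [Submodule.disjoint_def]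
    rintro x hx ⟨g, rfl⟩
    have h0 : A (A g) = 0 := hx
    have h1 : ∑ i, A g i * A g i = 0 := by
      rw [← hsymm g (A g), h0]; simp
    have h2 : ∀ i ∈ (univ : Finset ι), A g i * A g i = 0 :=
      (sum_eq_zero_iff_of_nonneg (fun i _ => mul_self_nonneg _)).1 h1
    funext i
    simpa using h2 i (mem_univ i)
  have htop : LinearMap.ker A ⊔ LinearMap.range A = ⊤ := by
    apply Submodule.eq_top_of_disjoint _ _ _ hdisj
    rw [add_comm]; exact le_of_eq (LinearMap.finrank_range_add_finrank_ker A).symm |>.ge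
  have hf : f ∈ LinearMap.ker A ⊔ LinearMap.range A := by rw [htop]; trivial
  obtain ⟨k, hk, r, ⟨g, rfl⟩, rfl⟩ := Submodule.mem_sup.1 hf
  have hk0 : A k = 0 := hk
  set r := A g with hr
  set m1 := ∑ i, g i * r i with hm1
  set m2 := ∑ i, r i * r i with hm2
  set m3 := ∑ i, r i * A r i with hm3
  have h12 : c * m1 ≤ m2 := hsq g
  have h3 : 0 ≤ m3 := hpsd r
  have h2 : 0 ≤ m2 := sum_nonneg fun i _ => mul_self_nonneg _
  have hgr : ∑ i, g i * A r i = m2 := hsymm g r
  have hcs : m2 ^ 2 ≤ m1 * m3 := by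
    have hq : ∀ t : ℝ, 0 ≤ m3 * (t * t) + (2 * m2) * t + m1 := by
      intro t
      have := hpsd (g + t • r)
      have e : ∑ i, (g + t • r) i * A (g + t • r) i = m3 * (t * t) + (2 * m2) * t + m1 := by
        rw [map_add, map_smul, ← hr]
        simp only [Pi.add_apply, Pi.smul_apply, smul_eq_mul]
        have : ∀ i, (g i + t * r i) * (r i + t * A r i) =
            g i * r i + t * (r i * r i) + t * (g i * A r i) + t * t * (r i * A r i) := by
          intro i; ring
        simp only [this, sum_add_distrib, ← mul_sum]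
        rw [hgr]; ring
      rwa [e] at this
    have := discrim_le_zero hq
    unfold discrim at this
    nlinarith
  have hmain : c * m2 ≤ m3 := by
    rcases h2.eq_or_lt with h | h
    · rw [← h]; simpa using h3
    · rcases le_or_gt c 0 with hc | hc
      · nlinarith [mul_nonneg_of_nonpos_of_nonpos hc (neg_nonpos.2 h2)]
      · have h4 : c * m1 * m3 ≤ m2 * m3 := mul_le_mul_of_nonneg_right h12 h3
        have h5 : c * m2 ^ 2 ≤ c * (m1 * m3) := mul_le_mul_of_nonneg_left hcs hc.le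
        have h6 : m2 * (c * m2) ≤ m2 * m3 := by nlinarith
        exact le_of_mul_le_mul_left h6 h
  have hfA : ∑ i, (k + r) i * A (k + r) i = m3 := by
    rw [map_add, hk0, zero_add]
    simp only [Pi.add_apply, add_mul, sum_add_distrib]
    rw [hsymm k r, hk0]; simp [hm3]
  rw [hfA]
  rcases isEmpty_or_nonempty ι with hι | ⟨⟨i0⟩⟩
  · simp [hm3]
  have hkc : ∀ i, k i = k i0 := fun i => hker k hk0 i i0
  set κ := k i0
  set N : ℝ := (Fintype.card ι : ℝ) with hN
  have hN0 : 0 ≤ N := Nat.cast_nonneg _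
  have e1 : ∑ i, (k + r) i ^ 2 = N * κ ^ 2 + 2 * κ * ∑ i, r i + m2 := by
    simp only [Pi.add_apply, hkc]
    have : ∀ i, (κ + r i) ^ 2 = κ ^ 2 + 2 * κ * r i + r i * r i := by intro i; ring
    simp only [this, sum_add_distrib, ← mul_sum, sum_const, card_univ, nsmul_eq_mul]
    rfl
  have e2 : ∑ i, (k + r) i = N * κ + ∑ i, r i := by
    simp only [Pi.add_apply, hkc, sum_add_distrib, sum_const, card_univ, nsmul_eq_mul]
    rfl
  rw [e1, e2]
  by_cases hc : 0 ≤ c
  · have : c * (N * (N * κ ^ 2 + 2 * κ * ∑ i, r i + m2) - (N * κ + ∑ i, r i) ^ 2) ≤ c * (N * m2) := by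
      apply mul_le_mul_of_nonneg_left _ hc
      nlinarith [sq_nonneg (∑ i, r i)]
    nlinarith [mul_le_mul_of_nonneg_left hmain hN0]
  · push Not at hc
    have hcs2 : (∑ i, r i) ^ 2 ≤ N * m2 := by
      have := sq_sum_le_card_mul_sum_sq (s := (univ : Finset ι)) (f := r)
      simpa [card_univ, hm2, sq] using this
    have h5 : 0 ≤ N * (N * κ ^ 2 + 2 * κ * ∑ i, r i + m2) - (N * κ + ∑ i, r i) ^ 2 := by
      nlinarith
    nlinarith [mul_nonneg hN0 h3, mul_nonneg_of_nonpos_of_nonpos hc.le (neg_nonpos.2 h5)]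

end Crest.Agent.S0453Aux
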