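import Crest.Agent.S0453Aux.Defs
import Crest.Agent.S0453Aux.GapAbstract

/-!
# Finset version of the abstract gap lemma, and basic facts on `cE` used by `Square.lean`
-/

set_option autoImplicit false
open Finset

namespace Crest.Agent.S0453Aux

namespace SQ

variable {X : Type*}

/-- extension by zero of a function on the subtype -/
noncomputable def ext0 [DecidableEq X] (Om : Finset X) (g : {x // x ∈ Om} → ℝ) : X → ℝ :=
  fun x => if h : x ∈ Om then g ⟨x, h⟩ else 0

theorem ext0_coe [DecidableEq X] (Om : Finset X) (g : {x // x ∈ Om} → ℝ) (i : {x // x ∈ Om}) :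
    ext0 Om g i.1 = g i := by
  simp [ext0, i.2]

theorem gap_finset [DecidableEq X] (Om : Finset X) (A : (X → ℝ) → (X → ℝ)) (c : ℝ)
    (hadd : ∀ (f g : X → ℝ) (x : X), A (f + g) x = A f x + A g x)
    (hsmul : ∀ (t : ℝ) (f : X → ℝ) (x : X), A (t • f) x = t * A f x)
    (hloc : ∀ f g : X → ℝ, (∀ x ∈ Om, f x = g x) → ∀ x ∈ Om, A f x = A g x)
    (hsymm : ∀ f g : X → ℝ, ip Om f (A g) = ip Om (A f) g)
    (hpsd : ∀ f : X → ℝ, 0 ≤ ip Om f (A f))
    (hsq : ∀ f : X → ℝ, c * ip Om f (A f) ≤ ip Om (A f) (A f))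
    (hker : ∀ f : X → ℝ, (∀ x ∈ Om, A f x = 0) → ∀ x ∈ Om, ∀ y ∈ Om, f x = f y) (f : X → ℝ) :
    c * ((Om.card : ℝ) * ∑ x ∈ Om, f x ^ 2 - (∑ x ∈ Om, f x) ^ 2) ≤
      (Om.card : ℝ) * ip Om f (A f) := by
  classical
  have hext_add : ∀ g g' : {x // x ∈ Om} → ℝ, ext0 Om (g + g') = ext0 Om g + ext0 Om g' := by
    intro g g'; funext x
    by_cases h : x ∈ Om <;> simp [ext0, h]
  have hext_smul : ∀ (t : ℝ) (g : {x // x ∈ Om} → ℝ), ext0 Om (t • g) = t • ext0 Om g := by
    intro t g; funext x
    by_cases h : x ∈ Om <;> simp [ext0, h]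
  let A' : ({x // x ∈ Om} → ℝ) →ₗ[ℝ] ({x // x ∈ Om} → ℝ) :=
    { toFun := fun g i => A (ext0 Om g) i.1
      map_add' := by
        intro g g'; funext i
        simp only [hext_add, hadd, Pi.add_apply]
      map_smul' := by
        intro t g; funext i
        simp only [hext_smul, hsmul, Pi.smul_apply, smul_eq_mul, RingHom.id_apply] }
  have hA' : ∀ g i, A' g i = A (ext0 Om g) i.1 := fun _ _ => rfl
  have hsum : ∀ F : X → ℝ, ∑ i : {x // x ∈ Om}, F i.1 = ∑ x ∈ Om, F x := fun F =>
    Finset.sum_coe_sort Om F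
  have key := gap_of_sq_ge A' c ?_ ?_ ?_ ?_ (fun i => f i.1)
  · have hfe : ∀ x ∈ Om, A (ext0 Om fun i => f i.1) x = A f x := by
      apply hloc
      intro x hx
      simp [ext0, hx]
    have e1 : ∑ i : {x // x ∈ Om}, f i.1 * A' (fun i => f i.1) i = ip Om f (A f) := by
      simp only [hA']
      rw [hsum (fun x => f x * A (ext0 Om fun i => f i.1) x)]
      exact sum_congr rfl fun x hx => by rw [hfe x hx]
    rw [e1, hsum (fun x => f x ^ 2), hsum f, Fintype.card_coe] at key
    exact key
  · intro g g'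
    have := hsymm (ext0 Om g) (ext0 Om g')
    unfold ip at this
    rw [← hsum, ← hsum] at this
    simpa only [hA', ext0_coe] using this
  · intro g
    have := hpsd (ext0 Om g)
    unfold ip at this
    rw [← hsum] at this
    simpa only [hA', ext0_coe] using this
  · intro g
    have := hsq (ext0 Om g)
    unfold ip at this
    rw [← hsum, ← hsum] at this
    simpa only [hA', ext0_coe] using this
  · intro g hg i j
    have h0 : ∀ x ∈ Om, A (ext0 Om g) x = 0 := by
      intro x hx
      have := congrFun hg ⟨x, hx⟩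
      simpa [hA'] using this
    have := hker (ext0 Om g) h0 i.1 i.2 j.1 j.2
    simpa only [ext0_coe] using this

/-! ### basic facts on `cE` -/

variable {κ : Type*} [DecidableEq κ] (Om : Finset X) (key : X → κ)

theorem cE_eq_of_key {f : X → ℝ} {x y : X} (h : key x = key y) : cE Om key f x = cE Om key f y := by
  unfold cE; rw [h]

theorem cE_add (f g : X → ℝ) (x : X) : cE Om key (f + g) x = cE Om key f x + cE Om key g x := by
  unfold cE; simp only [Pi.add_apply, sum_add_distrib, add_div]

theorem cE_smul (t : ℝ) (f : X → ℝ) (x : X) : cE Om key (t • f) x = t * cE Om key f x := by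
  unfold cE; simp only [Pi.smul_apply, smul_eq_mul, ← mul_sum, mul_div_assoc]

theorem cE_congr {f g : X → ℝ} (h : ∀ x ∈ Om, f x = g x) (x : X) :
    cE Om key f x = cE Om key g x := by
  unfold cE
  congr 1
  exact sum_congr rfl fun y hy => h y (mem_filter.1 hy).1

theorem cE_idem (f : X → ℝ) (x : X) : cE Om key (cE Om key f) x = cE Om key f x := by
  have h1 : ∑ y ∈ Om.filter (fun y => key y = key x), cE Om key f y =
      ((Om.filter (fun y => key y = key x)).card : ℝ) * cE Om key f x := by
    rw [← nsmul_eq_mul, ← sum_const]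
    exact sum_congr rfl fun y hy => cE_eq_of_key Om key (mem_filter.1 hy).2
  by_cases h0 : ((Om.filter (fun y => key y = key x)).card : ℝ) = 0
  · unfold cE; rw [h0]; simp
  · have h2 : cE Om key (cE Om key f) x = (∑ y ∈ Om.filter (fun y => key y = key x), cE Om key f y) /
        ((Om.filter (fun y => key y = key x)).card : ℝ) := rfl
    rw [h2, h1]; field_simp

theorem cE_symm (f g : X → ℝ) : ip Om (cE Om key f) g = ip Om f (cE Om key g) := by
  unfold ip cE
  simp only [sum_filter, div_mul_eq_mul_div, mul_div_assoc', sum_mul, mul_sum, sum_div]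
  rw [sum_comm]
  refine sum_congr rfl fun x _ => sum_congr rfl fun y _ => ?_
  by_cases h : key x = key y
  · simp only [h, if_true]
  · simp only [h, Ne.symm h, if_false, zero_mul, mul_zero, zero_div]

theorem eq_of_cE_eq {f : X → ℝ} (h : ∀ x ∈ Om, cE Om key f x = f x) {x y : X} (hx : x ∈ Om)
    (hy : y ∈ Om) (hxy : key x = key y) : f x = f y := by
  rw [← h x hx, ← h y hy]; exact cE_eq_of_key Om key hxy

end SQ

end Crest.Agent.S0453Aux
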