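import Mathlib

/-!
# Lemma M for S0453 (three-row lemma, integer part)

Abstract form: finitely many `ℕ`-valued coordinates `m i` on a weighted finite set with constant
sum, all pair marginals satisfying the reverse rule of order two (RR2).  Then
`Var (∑ φ i (m i)) ≤ 2 ∑ Var (φ i (m i))`.
-/

open Finset

namespace Crest.Agent.S0453Aux.LemmaM

/-! ### 1. bounded log-convex sequences -/

theorem logconvex_bounded (x : ℕ → ℝ) (C : ℝ) (h0 : ∀ k, 0 ≤ x k)
    (hlc : ∀ k, x (k + 1) ^ 2 ≤ x k * x (k + 2)) (hb : ∀ k, x k ≤ C) : x 1 ≤ x 0 := by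
  by_contra hlt
  rw [not_le] at hlt
  have hx1 : 0 < x 1 := lt_of_le_of_lt (h0 0) hlt
  have hx0 : 0 < x 0 := by
    rcases (h0 0).lt_or_eq with h | h
    · exact h
    · exfalso
      have := hlc 0
      rw [← h] at this
      simp at this
      nlinarith
  -- ratio claim
  have key : ∀ k, 0 < x k ∧ x k * x 1 ≤ x (k + 1) * x 0 := by
    intro k
    induction k with
    | zero => exact ⟨hx0, by simp [mul_comm]⟩
    | succ k ih =>
      obtain ⟨hk, hr⟩ := ih
      have hk1 : 0 < x (k + 1) := by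
        by_contra hneg
        have h' : x (k + 1) = 0 := le_antisymm (not_lt.mp hneg) (h0 _)
        rw [h'] at hr
        have : 0 < x k * x 1 := mul_pos hk hx1
        linarith
      refine ⟨hk1, ?_⟩
      have h2 := hlc k
      -- x (k+2) * x 0 * x k ≥ x (k+1)^2 * x 0 ≥ x (k+1) * (x k * x 1)
      have h3 : x (k + 1) * (x k * x 1) ≤ x (k + 1) * (x (k + 1) * x 0) :=
        mul_le_mul_of_nonneg_left hr hk1.le
      have h4 : x (k + 1) ^ 2 * x 0 ≤ x k * x (k + 2) * x 0 :=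
        mul_le_mul_of_nonneg_right h2 hx0.le
      have h5 : x k * (x (k + 1) * x 1) ≤ x k * (x (k + 2) * x 0) := by nlinarith
      exact le_of_mul_le_mul_left h5 hk
  set r := x 1 / x 0 with hr
  have hr1 : 1 < r := by rw [hr, one_lt_div hx0]; exact hlt
  have hgrow : ∀ k, x 0 * r ^ k ≤ x k := by
    intro k
    induction k with
    | zero => simp
    | succ k ih =>
      have h1 := (key k).2
      have : x k * r ≤ x (k + 1) := by
        rw [hr, mul_div_assoc', div_le_iff₀ hx0]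
        exact h1
      calc x 0 * r ^ (k + 1) = (x 0 * r ^ k) * r := by ring
        _ ≤ x k * r := mul_le_mul_of_nonneg_right ih (by linarith)
        _ ≤ x (k + 1) := this
  obtain ⟨n, hn⟩ := pow_unbounded_of_one_lt (C / x 0) hr1
  have h1 : C < x 0 * r ^ n := by
    rw [div_lt_iff₀ hx0] at hn
    linarith
  linarith [hgrow n, hb n]

/-! ### 2. abstract iteration lemma -/

theorem iter_bound {V : Type*} (B : V → V → ℝ) (N : V → V)
    (hpsd : ∀ x, 0 ≤ B x x) (hCS : ∀ x y, B x y ^ 2 ≤ B x x * B y y)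
    (hsa : ∀ x y, B (N x) y = B x (N y)) (φ : V) (C : ℝ)
    (hb : ∀ k, B (N^[k] φ) (N^[k] φ) ≤ C) : |B φ (N φ)| ≤ B φ φ := by
  have h1 : B (N φ) (N φ) ≤ B φ φ := by
    have := logconvex_bounded (fun k => B (N^[k] φ) (N^[k] φ)) C (fun k => hpsd _) ?_ hb
    · simpa using this
    · intro k
      have e1 : N^[k + 1] φ = N (N^[k] φ) := Function.iterate_succ_apply' N k φ
      have e2 : N^[k + 2] φ = N (N (N^[k] φ)) := by
        rw [Function.iterate_succ_apply' N (k + 1) φ, e1]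
      simp only [e1, e2]
      have := hCS (N^[k] φ) (N (N (N^[k] φ)))
      rw [hsa (N^[k] φ) (N (N^[k] φ))]
      exact this
  have h2 := hCS φ (N φ)
  have h3 : B φ (N φ) ^ 2 ≤ B φ φ ^ 2 := by
    calc B φ (N φ) ^ 2 ≤ B φ φ * B (N φ) (N φ) := h2
      _ ≤ B φ φ * B φ φ := mul_le_mul_of_nonneg_left h1 (hpsd φ)
      _ = B φ φ ^ 2 := by ring
  exact abs_le_of_sq_le_sq h3 (hpsd φ)

/-! ### 3. unnormalised weighted covariance -/

section cov

variable {Ω : Type*}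

/-- unnormalised weighted covariance, `Z² Cov(F,G)`. -/
def wcov (Om : Finset Ω) (W F G : Ω → ℝ) : ℝ :=
  (∑ x ∈ Om, W x) * (∑ x ∈ Om, W x * F x * G x)
    - (∑ x ∈ Om, W x * F x) * (∑ x ∈ Om, W x * G x)

theorem wcov_symm (Om : Finset Ω) (W F G : Ω → ℝ) : wcov Om W F G = wcov Om W G F := by
  unfold wcov
  have : ∑ x ∈ Om, W x * F x * G x = ∑ x ∈ Om, W x * G x * F x :=
    Finset.sum_congr rfl (fun x _ => by ring)
  rw [this]; ring

theorem two_wcov (Om : Finset Ω) (W F G : Ω → ℝ) :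
    2 * wcov Om W F G = ∑ x ∈ Om, ∑ y ∈ Om, W x * W y * ((F x - F y) * (G x - G y)) := by
  have h : ∀ x ∈ Om, ∑ y ∈ Om, W x * W y * ((F x - F y) * (G x - G y))
      = (W x * F x * G x) * (∑ y ∈ Om, W y) - (W x * F x) * (∑ y ∈ Om, W y * G y)
        - (W x * G x) * (∑ y ∈ Om, W y * F y) + W x * (∑ y ∈ Om, W y * F y * G y) := by
    intro x _
    rw [Finset.mul_sum, Finset.mul_sum, Finset.mul_sum, Finset.mul_sum,
      ← Finset.sum_sub_distrib, ← Finset.sum_sub_distrib, ← Finset.sum_add_distrib]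
    exact Finset.sum_congr rfl (fun y _ => by ring)
  rw [Finset.sum_congr rfl h, Finset.sum_add_distrib, Finset.sum_sub_distrib,
    Finset.sum_sub_distrib, ← Finset.sum_mul, ← Finset.sum_mul, ← Finset.sum_mul,
    ← Finset.sum_mul]
  unfold wcov
  ring

theorem wcov_self_nonneg (Om : Finset Ω) (W F : Ω → ℝ) (hW : ∀ x ∈ Om, 0 ≤ W x) :
    0 ≤ wcov Om W F F := by
  have h := two_wcov Om W F F
  have : 0 ≤ ∑ x ∈ Om, ∑ y ∈ Om, W x * W y * ((F x - F y) * (F x - F y)) :=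
    Finset.sum_nonneg (fun x hx => Finset.sum_nonneg (fun y hy =>
      mul_nonneg (mul_nonneg (hW x hx) (hW y hy)) (mul_self_nonneg _)))
  linarith

theorem wcov_add_right (Om : Finset Ω) (W F G H : Ω → ℝ) :
    wcov Om W F (fun x => G x + H x) = wcov Om W F G + wcov Om W F H := by
  unfold wcov
  have h1 : ∑ x ∈ Om, W x * F x * (G x + H x)
      = ∑ x ∈ Om, W x * F x * G x + ∑ x ∈ Om, W x * F x * H x := by
    rw [← Finset.sum_add_distrib]; exact Finset.sum_congr rfl (fun x _ => by ring)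
  have h2 : ∑ x ∈ Om, W x * (G x + H x) = ∑ x ∈ Om, W x * G x + ∑ x ∈ Om, W x * H x := by
    rw [← Finset.sum_add_distrib]; exact Finset.sum_congr rfl (fun x _ => by ring)
  rw [h1, h2]; ring

theorem wcov_smul_right (Om : Finset Ω) (W F G : Ω → ℝ) (c : ℝ) :
    wcov Om W F (fun x => c * G x) = c * wcov Om W F G := by
  unfold wcov
  have h1 : ∑ x ∈ Om, W x * F x * (c * G x) = c * ∑ x ∈ Om, W x * F x * G x := by
    rw [Finset.mul_sum]; exact Finset.sum_congr rfl (fun x _ => by ring)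
  have h2 : ∑ x ∈ Om, W x * (c * G x) = c * ∑ x ∈ Om, W x * G x := by
    rw [Finset.mul_sum]; exact Finset.sum_congr rfl (fun x _ => by ring)
  rw [h1, h2]; ring

theorem wcov_neg_right (Om : Finset Ω) (W F G : Ω → ℝ) :
    wcov Om W F (fun x => - G x) = - wcov Om W F G := by
  have := wcov_smul_right Om W F G (-1)
  simpa using this

theorem wcov_sum_right {κ : Type*} (s : Finset κ) (Om : Finset Ω) (W F : Ω → ℝ)
    (G : κ → Ω → ℝ) :
    wcov Om W F (fun x => ∑ k ∈ s, G k x) = ∑ k ∈ s, wcov Om W F (G k) := by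
  classical
  induction s using Finset.induction_on with
  | empty => simp [wcov]
  | insert a s ha ih =>
    simp only [Finset.sum_insert ha]
    rw [wcov_add_right, ih]

theorem wcov_sum_left {κ : Type*} (s : Finset κ) (Om : Finset Ω) (W F : Ω → ℝ)
    (G : κ → Ω → ℝ) :
    wcov Om W (fun x => ∑ k ∈ s, G k x) F = ∑ k ∈ s, wcov Om W (G k) F := by
  rw [wcov_symm, wcov_sum_right]
  exact Finset.sum_congr rfl (fun k _ => wcov_symm _ _ _ _)

theorem wcov_congr (Om : Finset Ω) (W F G F' G' : Ω → ℝ) (hF : ∀ x ∈ Om, F x = F' x)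
    (hG : ∀ x ∈ Om, G x = G' x) : wcov Om W F G = wcov Om W F' G' := by
  unfold wcov
  rw [Finset.sum_congr rfl (fun x hx => by rw [hF x hx, hG x hx] :
        ∀ x ∈ Om, W x * F x * G x = W x * F' x * G' x),
    Finset.sum_congr rfl (fun x hx => by rw [hF x hx] : ∀ x ∈ Om, W x * F x = W x * F' x),
    Finset.sum_congr rfl (fun x hx => by rw [hG x hx] : ∀ x ∈ Om, W x * G x = W x * G' x)]

/-- Cauchy–Schwarz for a finite sum of covariances. -/
theorem sum_wcov_cs {ι : Type*} (s : Finset ι) (Om : Finset Ω) (W : Ω → ℝ)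
    (hW : ∀ x ∈ Om, 0 ≤ W x) (F G : ι → Ω → ℝ) :
    (∑ i ∈ s, wcov Om W (F i) (G i)) ^ 2
      ≤ (∑ i ∈ s, wcov Om W (F i) (F i)) * (∑ i ∈ s, wcov Om W (G i) (G i)) := by
  have hq : ∀ t : ℝ, 0 ≤ (∑ i ∈ s, wcov Om W (G i) (G i)) * (t * t)
      + (2 * ∑ i ∈ s, wcov Om W (F i) (G i)) * t + ∑ i ∈ s, wcov Om W (F i) (F i) := by
    intro t
    have h1 : ∀ i ∈ s, wcov Om W (fun x => F i x + t * G i x) (fun x => F i x + t * G i x)
        = wcov Om W (G i) (G i) * (t * t) + 2 * wcov Om W (F i) (G i) * t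
          + wcov Om W (F i) (F i) := by
      intro i _
      rw [wcov_add_right, wcov_smul_right,
        wcov_symm Om W (fun x => F i x + t * G i x) (F i),
        wcov_symm Om W (fun x => F i x + t * G i x) (G i),
        wcov_add_right, wcov_add_right, wcov_smul_right, wcov_smul_right,
        wcov_symm Om W (G i) (F i)]
      ring
    have h2 : 0 ≤ ∑ i ∈ s, wcov Om W (fun x => F i x + t * G i x) (fun x => F i x + t * G i x) :=
      Finset.sum_nonneg (fun i _ => wcov_self_nonneg Om W _ hW)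
    rw [Finset.sum_congr rfl h1, Finset.sum_add_distrib, Finset.sum_add_distrib,
      ← Finset.sum_mul, ← Finset.sum_mul, ← Finset.mul_sum] at h2
    exact h2
  have := discrim_le_zero hq
  unfold discrim at this
  nlinarith

end cov

/-! ### 4. conditional expectation with respect to an `ℕ`-valued map -/

section cond

variable {Ω : Type*}

/-- marginal weight -/
def mu (Om : Finset Ω) (W : Ω → ℝ) (u : Ω → ℕ) (a : ℕ) : ℝ := ∑ x ∈ Om with u x = a, W x

/-- numerator of the conditional expectation -/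
def cnum (Om : Finset Ω) (W : Ω → ℝ) (u : Ω → ℕ) (F : Ω → ℝ) (a : ℕ) : ℝ :=
  ∑ x ∈ Om with u x = a, W x * F x

/-- conditional expectation of `F` given `u = a` -/
noncomputable def cond (Om : Finset Ω) (W : Ω → ℝ) (u : Ω → ℕ) (F : Ω → ℝ) (a : ℕ) : ℝ :=
  cnum Om W u F a / mu Om W u a

/-- pair marginal -/
def pm (Om : Finset Ω) (W : Ω → ℝ) (u v : Ω → ℕ) (a b : ℕ) : ℝ :=
  ∑ x ∈ Om with (u x = a ∧ v x = b), W x

theorem mu_nonneg (Om : Finset Ω) (W : Ω → ℝ) (hW : ∀ x ∈ Om, 0 ≤ W x) (u : Ω → ℕ) (a : ℕ) :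
    0 ≤ mu Om W u a :=
  Finset.sum_nonneg (fun x hx => hW x (Finset.mem_filter.mp hx).1)

theorem pm_nonneg (Om : Finset Ω) (W : Ω → ℝ) (hW : ∀ x ∈ Om, 0 ≤ W x) (u v : Ω → ℕ) (a b : ℕ) :
    0 ≤ pm Om W u v a b :=
  Finset.sum_nonneg (fun x hx => hW x (Finset.mem_filter.mp hx).1)

theorem cond_mul_mu (Om : Finset Ω) (W : Ω → ℝ) (hW : ∀ x ∈ Om, 0 ≤ W x) (u : Ω → ℕ)
    (F : Ω → ℝ) (a : ℕ) : cond Om W u F a * mu Om W u a = cnum Om W u F a := by
  unfold cond
  by_cases h : mu Om W u a = 0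
  · rw [h]
    simp only [div_zero, zero_mul]
    unfold cnum
    symm
    apply Finset.sum_eq_zero
    intro x hx
    have hz := (Finset.sum_eq_zero_iff_of_nonneg
      (fun y hy => hW y (Finset.mem_filter.mp hy).1)).mp h x hx
    rw [hz, zero_mul]
  · exact div_mul_cancel₀ _ h

theorem sum_cond (Om : Finset Ω) (W : Ω → ℝ) (hW : ∀ x ∈ Om, 0 ≤ W x) (u : Ω → ℕ)
    (F : Ω → ℝ) (ψ : ℕ → ℝ) :
    ∑ x ∈ Om, W x * ψ (u x) * cond Om W u F (u x) = ∑ x ∈ Om, W x * ψ (u x) * F x := by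
  classical
  rw [← Finset.sum_fiberwise_of_maps_to (s := Om) (t := Om.image u) (g := u)
      (fun x hx => Finset.mem_image_of_mem u hx),
    ← Finset.sum_fiberwise_of_maps_to (s := Om) (t := Om.image u) (g := u)
      (fun x hx => Finset.mem_image_of_mem u hx) (f := fun x => W x * ψ (u x) * F x)]
  apply Finset.sum_congr rfl
  intro a _
  have h1 : ∑ x ∈ Om with u x = a, W x * ψ (u x) * cond Om W u F (u x)
      = ψ a * (cond Om W u F a * mu Om W u a) := by
    unfold mu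
    rw [Finset.mul_sum, Finset.mul_sum]
    apply Finset.sum_congr rfl
    intro x hx
    rw [(Finset.mem_filter.mp hx).2]; ring
  have h2 : ∑ x ∈ Om with u x = a, W x * ψ (u x) * F x = ψ a * cnum Om W u F a := by
    unfold cnum
    rw [Finset.mul_sum]
    apply Finset.sum_congr rfl
    intro x hx
    rw [(Finset.mem_filter.mp hx).2]; ring
  rw [h1, h2, cond_mul_mu Om W hW]

theorem wcov_cond (Om : Finset Ω) (W : Ω → ℝ) (hW : ∀ x ∈ Om, 0 ≤ W x) (u : Ω → ℕ)
    (F : Ω → ℝ) (ψ : ℕ → ℝ) :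
    wcov Om W (fun x => ψ (u x)) (fun x => cond Om W u F (u x))
      = wcov Om W (fun x => ψ (u x)) F := by
  unfold wcov
  have h1 := sum_cond Om W hW u F ψ
  have h2 := sum_cond Om W hW u F (fun _ => 1)
  simp only [mul_one] at h2
  rw [h1, h2]

theorem cnum_eq_sum_pm (Om : Finset Ω) (W : Ω → ℝ) (u v : Ω → ℕ) (h : ℕ → ℝ) (a : ℕ)
    (R : Finset ℕ) (hR : ∀ x ∈ Om, v x ∈ R) :
    cnum Om W u (fun x => h (v x)) a = ∑ b ∈ R, pm Om W u v a b * h b := by
  classical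
  unfold cnum pm
  rw [← Finset.sum_fiberwise_of_maps_to (s := Om.filter (fun x => u x = a)) (t := R) (g := v)
      (fun x hx => hR x (Finset.mem_filter.mp hx).1)]
  apply Finset.sum_congr rfl
  intro b _
  rw [Finset.filter_filter, Finset.sum_mul]
  apply Finset.sum_congr rfl
  intro x hx
  show W x * h (v x) = W x * h b
  rw [(Finset.mem_filter.mp hx).2.2]

theorem mu_eq_sum_pm (Om : Finset Ω) (W : Ω → ℝ) (u v : Ω → ℕ) (a : ℕ)
    (R : Finset ℕ) (hR : ∀ x ∈ Om, v x ∈ R) :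
    mu Om W u a = ∑ b ∈ R, pm Om W u v a b := by
  have := cnum_eq_sum_pm Om W u v (fun _ => 1) a R hR
  simpa [cnum, mu] using this

theorem pm_le_mu_right (Om : Finset Ω) (W : Ω → ℝ) (hW : ∀ x ∈ Om, 0 ≤ W x) (u v : Ω → ℕ)
    (a b : ℕ) : pm Om W u v a b ≤ mu Om W v b := by
  classical
  unfold pm mu
  apply Finset.sum_le_sum_of_subset_of_nonneg
  · intro x hx
    rw [Finset.mem_filter] at hx ⊢
    exact ⟨hx.1, hx.2.2⟩
  · intro x hx _
    exact hW x (Finset.mem_filter.mp hx).1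

end cond

/-! ### 5. monotonicity from RR2 -/

theorem mon_of_rr2 (R : Finset ℕ) (ν ν' h : ℕ → ℝ)
    (hrr : ∀ b ∈ R, ∀ b' ∈ R, b < b' → ν b * ν' b' ≤ ν b' * ν' b)
    (hmon : ∀ b ∈ R, ∀ b' ∈ R, b < b' → 0 < ν' b → 0 < ν b' → h b ≤ h b')
    (hν : ∀ b ∈ R, 0 ≤ ν b) (hν' : ∀ b ∈ R, 0 ≤ ν' b) :
    (∑ b ∈ R, ν b) * (∑ b ∈ R, ν' b * h b) ≤ (∑ b ∈ R, ν' b) * (∑ b ∈ R, ν b * h b) := by
  have key : ∀ b ∈ R, ∀ b' ∈ R, b < b' →
      0 ≤ (h b - h b') * (ν b * ν' b' - ν b' * ν' b) := by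
    intro b hb b' hb' hlt
    have hA := hrr b hb b' hb' hlt
    rcases hA.lt_or_eq with hA' | hA'
    · have hpos : 0 < ν b' * ν' b :=
        lt_of_le_of_lt (mul_nonneg (hν b hb) (hν' b' hb')) hA'
      have h1 : 0 < ν b' := by
        rcases (hν b' hb').lt_or_eq with h | h
        · exact h
        · rw [← h] at hpos; simp at hpos
      have h2 : 0 < ν' b := by
        rcases (hν' b hb).lt_or_eq with h | h
        · exact h
        · rw [← h] at hpos; simp at hpos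
      have := hmon b hb b' hb' hlt h2 h1
      exact mul_nonneg_of_nonpos_of_nonpos (by linarith) (by linarith)
    · rw [hA']; simp
  have hterm : ∀ b ∈ R, ∀ b' ∈ R, 0 ≤ (h b - h b') * (ν b * ν' b' - ν b' * ν' b) := by
    intro b hb b' hb'
    rcases lt_trichotomy b b' with hlt | heq | hgt
    · exact key b hb b' hb' hlt
    · rw [heq]; simp
    · have := key b' hb' b hb hgt
      have e : (h b - h b') * (ν b * ν' b' - ν b' * ν' b)
          = (h b' - h b) * (ν b' * ν' b - ν b * ν' b') := by ring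
      rw [e]; exact this
  have hsum : 0 ≤ ∑ b ∈ R, ∑ b' ∈ R, (h b - h b') * (ν b * ν' b' - ν b' * ν' b) :=
    Finset.sum_nonneg (fun b hb => Finset.sum_nonneg (fun b' hb' => hterm b hb b' hb'))
  have hexp : ∑ b ∈ R, ∑ b' ∈ R, (h b - h b') * (ν b * ν' b' - ν b' * ν' b)
      = 2 * ((∑ b ∈ R, ν' b) * (∑ b ∈ R, ν b * h b) - (∑ b ∈ R, ν b) * (∑ b ∈ R, ν' b * h b)) := by
    have h1 : ∀ b ∈ R, ∑ b' ∈ R, (h b - h b') * (ν b * ν' b' - ν b' * ν' b)
        = (ν b * h b) * (∑ b' ∈ R, ν' b') - (ν' b * h b) * (∑ b' ∈ R, ν b')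
          - ν b * (∑ b' ∈ R, ν' b' * h b') + ν' b * (∑ b' ∈ R, ν b' * h b') := by
      intro b _
      rw [Finset.mul_sum, Finset.mul_sum, Finset.mul_sum, Finset.mul_sum,
        ← Finset.sum_sub_distrib, ← Finset.sum_sub_distrib, ← Finset.sum_add_distrib]
      exact Finset.sum_congr rfl (fun y _ => by ring)
    rw [Finset.sum_congr rfl h1, Finset.sum_add_distrib, Finset.sum_sub_distrib,
      Finset.sum_sub_distrib, ← Finset.sum_mul, ← Finset.sum_mul, ← Finset.sum_mul,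
      ← Finset.sum_mul]
    ring
  rw [hexp] at hsum
  linarith

/-! ### 6. the operator `N`, the form `B`, Lipschitz tuples -/

section main

variable {Ω ι : Type*} [Fintype ι] [DecidableEq ι]

/-- `(N φ)_i = - E[∑_{j ≠ i} φ_j(m_j) | m_i]`. -/
noncomputable def Nop (Om : Finset Ω) (W : Ω → ℝ) (m : ι → Ω → ℕ) (φ : ι → ℕ → ℝ) :
    ι → ℕ → ℝ :=
  fun i a => - cond Om W (m i) (fun x => ∑ j ∈ univ.erase i, φ j (m j x)) a

/-- `B(φ,ψ) = ∑_i Cov(φ_i(m_i), ψ_i(m_i))`. -/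
def Bf (Om : Finset Ω) (W : Ω → ℝ) (m : ι → Ω → ℕ) (φ ψ : ι → ℕ → ℝ) : ℝ :=
  ∑ i, wcov Om W (fun x => φ i (m i x)) (fun x => ψ i (m i x))

/-- `L`-Lipschitz on the supports of the marginals. -/
def LipOn (Om : Finset Ω) (W : Ω → ℝ) (m : ι → Ω → ℕ) (L : ℝ) (φ : ι → ℕ → ℝ) : Prop :=
  ∀ i a a', a < a' → 0 < mu Om W (m i) a → 0 < mu Om W (m i) a' →
    |φ i a' - φ i a| ≤ L * ((a' : ℝ) - a)

theorem Bf_Nop (Om : Finset Ω) (W : Ω → ℝ) (hW : ∀ x ∈ Om, 0 ≤ W x) (m : ι → Ω → ℕ)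
    (ψ φ : ι → ℕ → ℝ) :
    Bf Om W m ψ (Nop Om W m φ)
      = - ∑ i, ∑ j ∈ univ.erase i, wcov Om W (fun x => ψ i (m i x)) (fun x => φ j (m j x)) := by
  unfold Bf
  rw [← Finset.sum_neg_distrib]
  apply Finset.sum_congr rfl
  intro i _
  have h1 : wcov Om W (fun x => ψ i (m i x)) (fun x => Nop Om W m φ i (m i x))
      = - wcov Om W (fun x => ψ i (m i x))
          (fun x => cond Om W (m i) (fun x => ∑ j ∈ univ.erase i, φ j (m j x)) (m i x)) := by
    rw [← wcov_neg_right]; rfl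
  rw [h1, wcov_cond Om W hW (m i) _ (ψ i), wcov_sum_right]

omit [DecidableEq ι] in
theorem Bf_symm (Om : Finset Ω) (W : Ω → ℝ) (m : ι → Ω → ℕ) (ψ φ : ι → ℕ → ℝ) :
    Bf Om W m ψ φ = Bf Om W m φ ψ :=
  Finset.sum_congr rfl (fun _ _ => wcov_symm _ _ _ _)

theorem Bf_selfadj (Om : Finset Ω) (W : Ω → ℝ) (hW : ∀ x ∈ Om, 0 ≤ W x) (m : ι → Ω → ℕ)
    (ψ φ : ι → ℕ → ℝ) :
    Bf Om W m (Nop Om W m ψ) φ = Bf Om W m ψ (Nop Om W m φ) := by
  rw [Bf_symm, Bf_Nop Om W hW, Bf_Nop Om W hW]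
  congr 1
  simp only [Finset.sum_erase_eq_sub (Finset.mem_univ _), Finset.sum_sub_distrib]
  rw [Finset.sum_comm]
  congr 1
  · exact Finset.sum_congr rfl (fun i _ => Finset.sum_congr rfl (fun j _ => wcov_symm _ _ _ _))
  · exact Finset.sum_congr rfl (fun i _ => wcov_symm _ _ _ _)

theorem wcov_sum_eq (Om : Finset Ω) (W : Ω → ℝ) (hW : ∀ x ∈ Om, 0 ≤ W x) (m : ι → Ω → ℕ)
    (φ : ι → ℕ → ℝ) :
    wcov Om W (fun x => ∑ i, φ i (m i x)) (fun x => ∑ i, φ i (m i x))
      = Bf Om W m φ φ - Bf Om W m φ (Nop Om W m φ) := by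
  rw [Bf_Nop Om W hW, wcov_sum_left]
  unfold Bf
  rw [sub_neg_eq_add, ← Finset.sum_add_distrib]
  apply Finset.sum_congr rfl
  intro i _
  rw [wcov_sum_right, ← Finset.add_sum_erase _ _ (Finset.mem_univ i)]

omit [DecidableEq ι] in
theorem le_of_mu_pos (Om : Finset Ω) (W : Ω → ℝ) (m : ι → Ω → ℕ) (p : ℕ)
    (hsum : ∀ x ∈ Om, ∑ i, m i x = p) (i : ι) (a : ℕ) (h : 0 < mu Om W (m i) a) : a ≤ p := by
  unfold mu at h
  obtain ⟨x, hx, _⟩ := Finset.exists_ne_zero_of_sum_ne_zero h.ne'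
  rw [Finset.mem_filter] at hx
  rw [← hx.2, ← hsum x hx.1]
  exact Finset.single_le_sum (f := fun j => m j x) (fun j _ => Nat.zero_le _) (Finset.mem_univ i)

theorem mu_pos_of_pos (Om : Finset Ω) (W : Ω → ℝ) (hW : ∀ x ∈ Om, 0 ≤ W x) (u : Ω → ℕ)
    (x : Ω) (hx : x ∈ Om) (h : 0 < W x) : 0 < mu Om W u (u x) := by
  unfold mu
  have hmem : x ∈ Om.filter (fun y => u y = u x) := Finset.mem_filter.mpr ⟨hx, rfl⟩
  exact lt_of_lt_of_le h (Finset.single_le_sum (f := W)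
    (fun y hy => hW y (Finset.mem_filter.mp hy).1) hmem)

theorem exists_lip (Om : Finset Ω) (W : Ω → ℝ) (m : ι → Ω → ℕ) (p : ℕ)
    (hsum : ∀ x ∈ Om, ∑ i, m i x = p) (φ : ι → ℕ → ℝ) :
    ∃ L : ℝ, 0 ≤ L ∧ LipOn Om W m L φ := by
  set L0 : ℝ := ∑ i, ∑ a ∈ range (p + 1), |φ i a| with hL0
  have hL0nn : 0 ≤ L0 := Finset.sum_nonneg (fun i _ => Finset.sum_nonneg (fun a _ => abs_nonneg _))
  have hle : ∀ i a, a ≤ p → |φ i a| ≤ L0 := by
    intro i a ha
    calc |φ i a| ≤ ∑ a ∈ range (p + 1), |φ i a| :=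
          Finset.single_le_sum (f := fun a => |φ i a|) (fun a _ => abs_nonneg _)
            (Finset.mem_range.mpr (Nat.lt_succ_of_le ha))
      _ ≤ L0 := Finset.single_le_sum (f := fun i => ∑ a ∈ range (p + 1), |φ i a|)
            (fun i _ => Finset.sum_nonneg (fun a _ => abs_nonneg _)) (Finset.mem_univ i)
  refine ⟨2 * L0, by linarith, ?_⟩
  intro i a a' haa' h1 h2
  have ha := le_of_mu_pos Om W m p hsum i a h1
  have ha' := le_of_mu_pos Om W m p hsum i a' h2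
  have h3 : |φ i a' - φ i a| ≤ |φ i a'| + |φ i a| := abs_sub _ _
  have h4 : (1 : ℝ) ≤ (a' : ℝ) - a := by
    have : (a : ℝ) + 1 ≤ a' := by exact_mod_cast haa'
    linarith
  have h5 := hle i a ha
  have h6 := hle i a' ha'
  nlinarith

theorem Bf_le_of_lip (Om : Finset Ω) (W : Ω → ℝ) (hW : ∀ x ∈ Om, 0 ≤ W x) (m : ι → Ω → ℕ)
    (p : ℕ) (hsum : ∀ x ∈ Om, ∑ i, m i x = p) (L : ℝ) (hL : 0 ≤ L) (ψ : ι → ℕ → ℝ)
    (hψ : LipOn Om W m L ψ) :
    Bf Om W m ψ ψ ≤ (Fintype.card ι : ℝ) * ((∑ x ∈ Om, W x) * (∑ x ∈ Om, W x) * (L * p) ^ 2) := by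
  unfold Bf
  have hone : ∀ i ∈ (univ : Finset ι), wcov Om W (fun x => ψ i (m i x)) (fun x => ψ i (m i x))
      ≤ (∑ x ∈ Om, W x) * (∑ x ∈ Om, W x) * (L * p) ^ 2 := by
    intro i _
    have h2 := two_wcov Om W (fun x => ψ i (m i x)) (fun x => ψ i (m i x))
    have hnn := wcov_self_nonneg Om W (fun x => ψ i (m i x)) hW
    have hb : ∑ x ∈ Om, ∑ y ∈ Om, W x * W y *
          ((ψ i (m i x) - ψ i (m i y)) * (ψ i (m i x) - ψ i (m i y)))
        ≤ ∑ x ∈ Om, ∑ y ∈ Om, W x * W y * (L * p) ^ 2 := by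
      apply Finset.sum_le_sum; intro x hx
      apply Finset.sum_le_sum; intro y hy
      rcases (hW x hx).lt_or_eq with hx0 | hx0
      · rcases (hW y hy).lt_or_eq with hy0 | hy0
        · apply mul_le_mul_of_nonneg_left _ (mul_nonneg hx0.le hy0.le)
          have hmx := mu_pos_of_pos Om W hW (m i) x hx hx0
          have hmy := mu_pos_of_pos Om W hW (m i) y hy hy0
          have hxp : ((m i x : ℕ) : ℝ) ≤ p := by
            exact_mod_cast le_of_mu_pos Om W m p hsum i _ hmx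
          have hyp : ((m i y : ℕ) : ℝ) ≤ p := by
            exact_mod_cast le_of_mu_pos Om W m p hsum i _ hmy
          have hx0' : (0 : ℝ) ≤ (m i x : ℕ) := Nat.cast_nonneg _
          have hy0' : (0 : ℝ) ≤ (m i y : ℕ) := Nat.cast_nonneg _
          have habs : |ψ i (m i x) - ψ i (m i y)| ≤ L * p := by
            rcases lt_trichotomy (m i x) (m i y) with hlt | heq | hgt
            · have := hψ i _ _ hlt hmx hmy
              rw [abs_sub_comm] at this
              calc |ψ i (m i x) - ψ i (m i y)| ≤ L * ((m i y : ℝ) - m i x) := this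
                _ ≤ L * p := mul_le_mul_of_nonneg_left (by linarith) hL
            · rw [heq]; simp only [sub_self, abs_zero]
              exact mul_nonneg hL (Nat.cast_nonneg _)
            · have := hψ i _ _ hgt hmy hmx
              calc |ψ i (m i x) - ψ i (m i y)| ≤ L * ((m i x : ℝ) - m i y) := this
                _ ≤ L * p := mul_le_mul_of_nonneg_left (by linarith) hL
          rw [← pow_two]
          exact sq_le_sq' (by linarith [(abs_le.mp habs).1]) (abs_le.mp habs).2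
        · rw [← hy0]; simp
      · rw [← hx0]; simp
    have hc : ∑ x ∈ Om, ∑ y ∈ Om, W x * W y * (L * p) ^ 2
        = (∑ x ∈ Om, W x) * (∑ x ∈ Om, W x) * (L * p) ^ 2 := by
      rw [Finset.sum_mul_sum, Finset.sum_mul]
      apply Finset.sum_congr rfl; intro x _
      rw [Finset.sum_mul]
    linarith
  calc ∑ i, wcov Om W (fun x => ψ i (m i x)) (fun x => ψ i (m i x))
      ≤ ∑ _i : ι, (∑ x ∈ Om, W x) * (∑ x ∈ Om, W x) * (L * p) ^ 2 := Finset.sum_le_sum hone
    _ = _ := by rw [Finset.sum_const, Finset.card_univ, nsmul_eq_mul]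

/-- one-sided Lipschitz estimate for the conditional expectation, with a sign `s = ±1`. -/
theorem lip_step (Om : Finset Ω) (W : Ω → ℝ) (hW : ∀ x ∈ Om, 0 ≤ W x) (m : ι → Ω → ℕ)
    (p : ℕ) (hsum : ∀ x ∈ Om, ∑ i, m i x = p)
    (hRR : ∀ i j, i ≠ j → ∀ a a' b b', a < a' → b < b' →
      pm Om W (m i) (m j) a b * pm Om W (m i) (m j) a' b'
        ≤ pm Om W (m i) (m j) a b' * pm Om W (m i) (m j) a' b)
    (L : ℝ) (φ : ι → ℕ → ℝ) (hφ : LipOn Om W m L φ) (s : ℝ) (hs : s = 1 ∨ s = -1)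
    (i : ι) (a a' : ℕ) (haa' : a < a') (hμa : 0 < mu Om W (m i) a)
    (hμa' : 0 < mu Om W (m i) a') :
    s * (cond Om W (m i) (fun x => ∑ j ∈ univ.erase i, φ j (m j x)) a'
        - cond Om W (m i) (fun x => ∑ j ∈ univ.erase i, φ j (m j x)) a) ≤ L * ((a' : ℝ) - a) := by
  set G : Ω → ℝ := fun x => ∑ j ∈ univ.erase i, φ j (m j x) with hG
  set R : Finset ℕ := range (p + 1) with hR
  have hmemR : ∀ j, ∀ x ∈ Om, m j x ∈ R := by
    intro j x hx
    rw [hR, Finset.mem_range, Nat.lt_succ_iff, ← hsum x hx]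
    exact Finset.single_le_sum (f := fun j => m j x) (fun j _ => Nat.zero_le _) (Finset.mem_univ j)
  -- monotonicity for each j
  have hmonj : ∀ j ∈ univ.erase i,
      mu Om W (m i) a * cnum Om W (m i) (fun x => L * (m j x : ℝ) + s * φ j (m j x)) a'
        ≤ mu Om W (m i) a' * cnum Om W (m i) (fun x => L * (m j x : ℝ) + s * φ j (m j x)) a := by
    intro j hj
    have hij : i ≠ j := fun h => (Finset.mem_erase.mp hj).1 h.symm
    have e1 := cnum_eq_sum_pm Om W (m i) (m j) (fun b => L * (b : ℝ) + s * φ j b) a R (hmemR j)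
    have e2 := cnum_eq_sum_pm Om W (m i) (m j) (fun b => L * (b : ℝ) + s * φ j b) a' R (hmemR j)
    rw [e1, e2, mu_eq_sum_pm Om W (m i) (m j) a R (hmemR j),
      mu_eq_sum_pm Om W (m i) (m j) a' R (hmemR j)]
    apply mon_of_rr2 R (pm Om W (m i) (m j) a) (pm Om W (m i) (m j) a')
    · intro b _ b' _ hbb'
      exact hRR i j hij a a' b b' haa' hbb'
    · intro b _ b' _ hbb' h1 h2
      have hb : 0 < mu Om W (m j) b := lt_of_lt_of_le h1 (pm_le_mu_right Om W hW _ _ _ _)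
      have hb' : 0 < mu Om W (m j) b' := lt_of_lt_of_le h2 (pm_le_mu_right Om W hW _ _ _ _)
      have := abs_le.mp (hφ j b b' hbb' hb hb')
      rcases hs with hs | hs <;> rw [hs] <;> nlinarith [this.1, this.2]
    · intro b _; exact pm_nonneg Om W hW _ _ _ _
    · intro b _; exact pm_nonneg Om W hW _ _ _ _
  -- sum over j
  have hcn : ∀ c : ℕ, ∑ j ∈ univ.erase i,
        cnum Om W (m i) (fun x => L * (m j x : ℝ) + s * φ j (m j x)) c
      = L * ((p : ℝ) - c) * mu Om W (m i) c + s * cnum Om W (m i) G c := by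
    intro c
    unfold cnum mu
    rw [Finset.sum_comm, Finset.mul_sum, Finset.mul_sum, ← Finset.sum_add_distrib]
    apply Finset.sum_congr rfl
    intro x hx
    rw [Finset.mem_filter] at hx
    rw [← Finset.mul_sum, Finset.sum_add_distrib, ← Finset.mul_sum, ← Finset.mul_sum]
    have h1 : ∑ j ∈ univ.erase i, (m j x : ℝ) = (p : ℝ) - c := by
      rw [Finset.sum_erase_eq_sub (Finset.mem_univ i), hx.2, ← hsum x hx.1]
      push_cast
      ring
    rw [h1, hG]
    ring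
  have hsumj := Finset.sum_le_sum hmonj
  rw [← Finset.mul_sum, ← Finset.mul_sum, hcn a, hcn a',
    ← cond_mul_mu Om W hW (m i) G a, ← cond_mul_mu Om W hW (m i) G a'] at hsumj
  have hpos : 0 < mu Om W (m i) a * mu Om W (m i) a' := mul_pos hμa hμa'
  have hfin : (mu Om W (m i) a * mu Om W (m i) a') *
        (L * ((p : ℝ) - a') + s * cond Om W (m i) G a')
      ≤ (mu Om W (m i) a * mu Om W (m i) a') * (L * ((p : ℝ) - a) + s * cond Om W (m i) G a) := by
    nlinarith [hsumj]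
  have := le_of_mul_le_mul_left hfin hpos
  linarith

theorem lip_Nop (Om : Finset Ω) (W : Ω → ℝ) (hW : ∀ x ∈ Om, 0 ≤ W x) (m : ι → Ω → ℕ)
    (p : ℕ) (hsum : ∀ x ∈ Om, ∑ i, m i x = p)
    (hRR : ∀ i j, i ≠ j → ∀ a a' b b', a < a' → b < b' →
      pm Om W (m i) (m j) a b * pm Om W (m i) (m j) a' b'
        ≤ pm Om W (m i) (m j) a b' * pm Om W (m i) (m j) a' b)
    (L : ℝ) (φ : ι → ℕ → ℝ) (hφ : LipOn Om W m L φ) : LipOn Om W m L (Nop Om W m φ) := by
  intro i a a' haa' h1 h2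
  have hp := lip_step Om W hW m p hsum hRR L φ hφ 1 (Or.inl rfl) i a a' haa' h1 h2
  have hn := lip_step Om W hW m p hsum hRR L φ hφ (-1) (Or.inr rfl) i a a' haa' h1 h2
  unfold Nop
  rw [abs_le]
  constructor <;> linarith

/-- **Lemma M, abstract form.** -/
theorem lemmaM_abstract (Om : Finset Ω) (W : Ω → ℝ) (hW : ∀ x ∈ Om, 0 ≤ W x) (m : ι → Ω → ℕ)
    (p : ℕ) (hsum : ∀ x ∈ Om, ∑ i, m i x = p)
    (hRR : ∀ i j, i ≠ j → ∀ a a' b b', a < a' → b < b' →
      pm Om W (m i) (m j) a b * pm Om W (m i) (m j) a' b'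
        ≤ pm Om W (m i) (m j) a b' * pm Om W (m i) (m j) a' b)
    (φ : ι → ℕ → ℝ) :
    wcov Om W (fun x => ∑ i, φ i (m i x)) (fun x => ∑ i, φ i (m i x))
      ≤ 2 * ∑ i, wcov Om W (fun x => φ i (m i x)) (fun x => φ i (m i x)) := by
  obtain ⟨L, hL, hlip⟩ := exists_lip Om W m p hsum φ
  have hlipk : ∀ k, LipOn Om W m L ((Nop Om W m)^[k] φ) := by
    intro k
    induction k with
    | zero => simpa using hlip
    | succ k ih =>
      rw [Function.iterate_succ_apply']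
      exact lip_Nop Om W hW m p hsum hRR L _ ih
  have hiter := iter_bound (Bf Om W m) (Nop Om W m)
    (fun x => Finset.sum_nonneg (fun i _ => wcov_self_nonneg Om W _ hW))
    (fun x y => sum_wcov_cs univ Om W hW _ _)
    (fun x y => Bf_selfadj Om W hW m x y) φ _
    (fun k => Bf_le_of_lip Om W hW m p hsum L hL _ (hlipk k))
  rw [wcov_sum_eq Om W hW]
  have h1 := (abs_le.mp hiter).1
  have h2 : Bf Om W m φ φ = ∑ i, wcov Om W (fun x => φ i (m i x)) (fun x => φ i (m i x)) := rfl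
  rw [← h2]
  linarith

end main

end Crest.Agent.S0453Aux.LemmaM
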