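import Mathlib

/-!
# S0453, task P: Lemma P (uniform ordered partitions)

`(X_i)_{i : ι}` a uniform ordered partition of a finite type `A` with prescribed block sizes `m`.
Then `Var (∑ i, φ i (X i)) ≤ 2 * ∑ i, Var (φ i (X i))`, stated with unnormalised variances `uvar`.

Proof: induction over a set `F` of free positions with a frozen background `s₀`
(`partsF F s₀ m`); conditioning on the value `s x` of one free position, the conditional means of
`φ i (pblk s i)` take the same value for all `s x ≠ i` (swap double count), and the law of total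
variance in the division-free form `uvar_step`.
-/

set_option autoImplicit false
set_option linter.unusedSectionVars false

open Finset

namespace Crest.Agent.S0453Aux


def uvar {a : Type*} (S : Finset a) (f : a → ℝ) : ℝ :=
  (S.card : ℝ) * ∑ x ∈ S, f x ^ 2 - (∑ x ∈ S, f x) ^ 2

section abstractStep
variable {β ι : Type*} [Fintype ι] [DecidableEq ι]

theorem uvar_fiberwise (Ω : Finset β) (key : β → ι) (H : β → ℝ) :
    uvar Ω H = ∑ j, ∑ j', ((((Ω.filter (fun s => key s = j')).card : ℝ)) *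
        (∑ s ∈ Ω.filter (fun s => key s = j), H s ^ 2) -
      (∑ s ∈ Ω.filter (fun s => key s = j), H s) * (∑ s ∈ Ω.filter (fun s => key s = j'), H s)) := by
  classical
  have h1 : (Ω.card : ℝ) = ∑ j, ((Ω.filter (fun s => key s = j)).card : ℝ) := by
    rw [← Nat.cast_sum]
    congr 1
    exact Finset.card_eq_sum_card_fiberwise (fun s _ => Finset.mem_univ (key s))
  have h2 : ∑ s ∈ Ω, H s ^ 2 = ∑ j, ∑ s ∈ Ω.filter (fun s => key s = j), H s ^ 2 :=
    (Finset.sum_fiberwise Ω key (fun s => H s ^ 2)).symm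
  have h3 : ∑ s ∈ Ω, H s = ∑ j, ∑ s ∈ Ω.filter (fun s => key s = j), H s :=
    (Finset.sum_fiberwise Ω key H).symm
  unfold uvar
  rw [h1, h2, h3, sq, Finset.sum_mul_sum, Finset.sum_mul_sum, Finset.sum_comm, ← Finset.sum_sub_distrib]
  refine Finset.sum_congr rfl fun j _ => ?_
  rw [← Finset.sum_sub_distrib]

theorem sq_sum_le_two {δ : ι → ℝ} (j j' : ι) (h : ∀ i, i ≠ j → i ≠ j' → δ i = 0) :
    (∑ i, δ i) ^ 2 ≤ 2 * ∑ i, δ i ^ 2 := by
  classical
  have hs : ∑ i, δ i = ∑ i ∈ ({j, j'} : Finset ι), δ i := by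
    symm
    apply Finset.sum_subset (Finset.subset_univ _)
    intro i _ hi
    simp only [Finset.mem_insert, Finset.mem_singleton, not_or] at hi
    exact h i hi.1 hi.2
  have hs2 : ∑ i ∈ ({j, j'} : Finset ι), δ i ^ 2 ≤ ∑ i, δ i ^ 2 :=
    Finset.sum_le_sum_of_subset_of_nonneg (Finset.subset_univ _) (fun i _ _ => sq_nonneg _)
  have hc : ((({j, j'} : Finset ι).card : ℝ)) ≤ 2 := by
    exact_mod_cast Finset.card_le_two
  have h0 : 0 ≤ ∑ i ∈ ({j, j'} : Finset ι), δ i ^ 2 := Finset.sum_nonneg fun i _ => sq_nonneg _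
  calc (∑ i, δ i) ^ 2 = (∑ i ∈ ({j, j'} : Finset ι), δ i) ^ 2 := by rw [hs]
    _ ≤ (({j, j'} : Finset ι).card : ℝ) * ∑ i ∈ ({j, j'} : Finset ι), δ i ^ 2 :=
        sq_sum_le_card_mul_sum_sq
    _ ≤ 2 * ∑ i ∈ ({j, j'} : Finset ι), δ i ^ 2 := by nlinarith
    _ ≤ 2 * ∑ i, δ i ^ 2 := by linarith

/-- abstract induction step. -/
theorem uvar_step (Ω : Finset β) (key : β → ι) (G : ι → β → ℝ)
    (IH : ∀ j, uvar (Ω.filter (fun s => key s = j)) (fun s => ∑ i, G i s) ≤
      2 * ∑ i, uvar (Ω.filter (fun s => key s = j)) (G i))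
    (TV : ∀ i j j', j ≠ i → j' ≠ i →
      ((Ω.filter (fun s => key s = j')).card : ℝ) * ∑ s ∈ Ω.filter (fun s => key s = j), G i s =
      ((Ω.filter (fun s => key s = j)).card : ℝ) * ∑ s ∈ Ω.filter (fun s => key s = j'), G i s) :
    uvar Ω (fun s => ∑ i, G i s) ≤ 2 * ∑ i, uvar Ω (G i) := by
  classical
  set N : ι → ℝ := fun j => ((Ω.filter (fun s => key s = j)).card : ℝ) with hN
  set a : ι → ι → ℝ := fun i j => ∑ s ∈ Ω.filter (fun s => key s = j), G i s with ha
  set q : ι → ι → ℝ := fun i j => ∑ s ∈ Ω.filter (fun s => key s = j), G i s ^ 2 with hq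
  set Q : ι → ℝ := fun j => ∑ s ∈ Ω.filter (fun s => key s = j), (∑ i, G i s) ^ 2 with hQ
  have hsumA : ∀ j, ∑ s ∈ Ω.filter (fun s => key s = j), (∑ i, G i s) = ∑ i, a i j := by
    intro j; rw [Finset.sum_comm]
  -- W
  set W : ι → ι → ℝ := fun j j' =>
    2 * ∑ i, (N j' * q i j - a i j * a i j') - (N j' * Q j - (∑ i, a i j) * (∑ i, a i j')) with hW
  have hD : 2 * ∑ i, uvar Ω (G i) - uvar Ω (fun s => ∑ i, G i s) = ∑ j, ∑ j', W j j' := by
    rw [uvar_fiberwise Ω key (fun s => ∑ i, G i s)]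
    have : ∀ i, uvar Ω (G i) = ∑ j, ∑ j', (N j' * q i j - a i j * a i j') := by
      intro i; rw [uvar_fiberwise Ω key (G i)]
    simp_rw [this]
    rw [Finset.sum_comm, Finset.mul_sum, ← Finset.sum_sub_distrib]
    refine Finset.sum_congr rfl fun j _ => ?_
    rw [Finset.sum_comm, Finset.mul_sum, ← Finset.sum_sub_distrib]
    refine Finset.sum_congr rfl fun j' _ => ?_
    simp only [hW, hsumA, hQ, hN]
  have hsym : ∀ j j', 0 ≤ W j j' + W j' j := by
    intro j j'
    have hNj : 0 ≤ N j := Nat.cast_nonneg _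
    have hNj' : 0 ≤ N j' := Nat.cast_nonneg _
    have hzero : ∀ l, N l = 0 → (∀ i, a i l = 0) ∧ (∀ i, q i l = 0) ∧ Q l = 0 := by
      intro l hl
      have : Ω.filter (fun s => key s = l) = ∅ := by
        have h' : ((Ω.filter (fun s => key s = l)).card : ℝ) = 0 := hl
        have : (Ω.filter (fun s => key s = l)).card = 0 := by exact_mod_cast h'
        exact Finset.card_eq_zero.mp this
      refine ⟨fun i => ?_, fun i => ?_, ?_⟩ <;> simp [ha, hq, hQ, this]
    rcases eq_or_lt_of_le hNj with h0 | hpos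
    · obtain ⟨h1, h2, h3⟩ := hzero j h0.symm
      simp [hW, h1, h2, h3, ← h0]
    rcases eq_or_lt_of_le hNj' with h0' | hpos'
    · obtain ⟨h1, h2, h3⟩ := hzero j' h0'.symm
      simp [hW, h1, h2, h3, ← h0']
    have IHj := IH j
    have IHj' := IH j'
    unfold uvar at IHj IHj'
    rw [hsumA] at IHj IHj'
    have key1 : N j * N j' * (W j j' + W j' j) =
        N j' ^ 2 * (2 * ∑ i, (N j * q i j - a i j ^ 2) - (N j * Q j - (∑ i, a i j) ^ 2)) +
        N j ^ 2 * (2 * ∑ i, (N j' * q i j' - a i j' ^ 2) - (N j' * Q j' - (∑ i, a i j') ^ 2)) +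
        (2 * ∑ i, (N j' * a i j - N j * a i j') ^ 2 - (∑ i, (N j' * a i j - N j * a i j')) ^ 2) := by
      have e1 : ∑ i, (N j' * a i j - N j * a i j') = N j' * ∑ i, a i j - N j * ∑ i, a i j' := by
        rw [Finset.sum_sub_distrib, Finset.mul_sum, Finset.mul_sum]
      have e2 : ∑ i, (N j' * a i j - N j * a i j') ^ 2 =
          N j' ^ 2 * ∑ i, a i j ^ 2 - 2 * N j * N j' * ∑ i, a i j * a i j' + N j ^ 2 * ∑ i, a i j' ^ 2 := by
        rw [Finset.mul_sum, Finset.mul_sum, Finset.mul_sum, ← Finset.sum_sub_distrib, ← Finset.sum_add_distrib]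
        refine Finset.sum_congr rfl fun i _ => ?_
        ring
      have e3 : ∀ l l', ∑ i, (N l' * q i l - a i l * a i l') = N l' * ∑ i, q i l - ∑ i, a i l * a i l' := by
        intro l l'
        rw [Finset.sum_sub_distrib, Finset.mul_sum]
      have e4 : ∀ l, ∑ i, (N l * q i l - a i l ^ 2) = N l * ∑ i, q i l - ∑ i, a i l ^ 2 := by
        intro l
        rw [Finset.sum_sub_distrib, Finset.mul_sum]
      have e5 : ∑ i, a i j' * a i j = ∑ i, a i j * a i j' :=
        Finset.sum_congr rfl fun i _ => mul_comm _ _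
      simp only [hW]
      rw [e1, e2, e3, e3, e4, e4, e5]
      ring
    have hδ : (∑ i, (N j' * a i j - N j * a i j')) ^ 2 ≤ 2 * ∑ i, (N j' * a i j - N j * a i j') ^ 2 := by
      apply sq_sum_le_two j j'
      intro i hij hij'
      have := TV i j j' hij.symm hij'.symm
      simp only [hN, ha]
      linarith
    have hA : 0 ≤ 2 * ∑ i, (N j * q i j - a i j ^ 2) - (N j * Q j - (∑ i, a i j) ^ 2) := by
      simp only [hN, hq, ha, hQ]; linarith
    have hB : 0 ≤ 2 * ∑ i, (N j' * q i j' - a i j' ^ 2) - (N j' * Q j' - (∑ i, a i j') ^ 2) := by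
      simp only [hN, hq, ha, hQ]; linarith
    have hpp : 0 < N j * N j' := mul_pos hpos hpos'
    have : 0 ≤ N j * N j' * (W j j' + W j' j) := by
      rw [key1]
      have := mul_nonneg (sq_nonneg (N j')) hA
      have := mul_nonneg (sq_nonneg (N j)) hB
      linarith
    exact nonneg_of_mul_nonneg_right this hpp
  have hfin : 0 ≤ ∑ j, ∑ j', W j j' := by
    have h2 : ∑ j, ∑ j', W j j' = ∑ j, ∑ j', W j' j := Finset.sum_comm
    have h3 : 0 ≤ ∑ j, ∑ j', (W j j' + W j' j) :=
      Finset.sum_nonneg fun j _ => Finset.sum_nonneg fun j' _ => hsym j j'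
    simp only [Finset.sum_add_distrib] at h3
    linarith
  linarith

end abstractStep

variable {A ι : Type*} [Fintype A] [DecidableEq A] [Fintype ι] [DecidableEq ι]

def pblk (s : A → ι) (i : ι) : Finset A := Finset.univ.filter (fun a => s a = i)

def parts (m : ι → ℕ) : Finset (A → ι) :=
  Finset.univ.filter (fun s => ∀ i, (pblk s i).card = m i)

/-- assignments with prescribed block sizes that agree with `s₀` off the free set `F`. -/
def partsF (F : Finset A) (s₀ : A → ι) (m : ι → ℕ) : Finset (A → ι) :=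
  (parts m).filter (fun s => ∀ x, x ∉ F → s x = s₀ x)

theorem partsF_univ (s₀ : A → ι) (m : ι → ℕ) : partsF Finset.univ s₀ m = parts m := by
  unfold partsF
  apply Finset.filter_true_of_mem
  intro s _ x hx
  exact absurd (Finset.mem_univ x) hx

theorem partsF_insert_filter (F : Finset A) (x : A) (hx : x ∉ F) (s₀ : A → ι) (m : ι → ℕ) (j : ι) :
    (partsF (insert x F) s₀ m).filter (fun s => s x = j) = partsF F (Function.update s₀ x j) m := by
  ext s
  simp only [partsF, Finset.mem_filter, Finset.mem_insert, not_or]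
  constructor
  · rintro ⟨⟨h1, h2⟩, h3⟩
    refine ⟨h1, fun y hy => ?_⟩
    by_cases hyx : y = x
    · subst hyx; simp [h3]
    · rw [Function.update_of_ne hyx]; exact h2 y ⟨hyx, hy⟩
  · rintro ⟨h1, h2⟩
    refine ⟨⟨h1, fun y hy => ?_⟩, ?_⟩
    · have := h2 y hy.2
      rwa [Function.update_of_ne hy.1] at this
    · have := h2 x hx
      simpa using this

theorem blk_comp_swap (s : A → ι) (x y : A) (i : ι) :
    pblk (s ∘ Equiv.swap x y) i = (pblk s i).map (Equiv.swap x y).toEmbedding := by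
  ext z
  simp only [pblk, Finset.mem_filter, Finset.mem_univ, true_and, Function.comp, Finset.mem_map,
    Equiv.coe_toEmbedding]
  constructor
  · intro h
    exact ⟨Equiv.swap x y z, h, Equiv.swap_apply_self x y z⟩
  · rintro ⟨w, hw, rfl⟩
    rw [Equiv.swap_apply_self]; exact hw

theorem blk_comp_swap_of_ne (s : A → ι) (x y : A) (i : ι) (hx : s x ≠ i) (hy : s y ≠ i) :
    pblk (s ∘ Equiv.swap x y) i = pblk s i := by
  ext z
  simp only [pblk, Finset.mem_filter, Finset.mem_univ, true_and, Function.comp]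
  by_cases hzx : z = x
  · subst hzx; rw [Equiv.swap_apply_left]; exact ⟨fun h => absurd h hy, fun h => absurd h hx⟩
  by_cases hzy : z = y
  · subst hzy; rw [Equiv.swap_apply_right]; exact ⟨fun h => absurd h hx, fun h => absurd h hy⟩
  rw [Equiv.swap_apply_of_ne_of_ne hzx hzy]

theorem comp_swap_mem_partsF (F : Finset A) (s₀ : A → ι) (m : ι → ℕ) (x y : A) (hx : x ∈ F) (hy : y ∈ F)
    (s : A → ι) (hs : s ∈ partsF F s₀ m) : s ∘ Equiv.swap x y ∈ partsF F s₀ m := by
  simp only [partsF, parts, Finset.mem_filter, Finset.mem_univ, true_and] at hs ⊢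
  refine ⟨fun i => ?_, fun z hz => ?_⟩
  · rw [blk_comp_swap, Finset.card_map]; exact hs.1 i
  · have hzx : z ≠ x := fun h => hz (h ▸ hx)
    have hzy : z ≠ y := fun h => hz (h ▸ hy)
    simp only [Function.comp, Equiv.swap_apply_of_ne_of_ne hzx hzy]
    exact hs.2 z hz

/-- swap double count, for one `y`. -/
theorem swap_sum (F : Finset A) (s₀ : A → ι) (m : ι → ℕ) (x y : A) (hx : x ∈ F) (hy : y ∈ F)
    (j j' : ι) (g : (A → ι) → ℝ)
    (hg : ∀ s : A → ι, s x = j → s y = j' → g (s ∘ Equiv.swap x y) = g s) :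
    ∑ s ∈ partsF F s₀ m, (if s x = j ∧ s y = j' then g s else 0) =
      ∑ s ∈ partsF F s₀ m, (if s x = j' ∧ s y = j then g s else 0) := by
  refine Finset.sum_nbij' (fun s => s ∘ Equiv.swap x y) (fun s => s ∘ Equiv.swap x y) ?_ ?_ ?_ ?_ ?_
  · intro s hs; exact comp_swap_mem_partsF F s₀ m x y hx hy s hs
  · intro s hs; exact comp_swap_mem_partsF F s₀ m x y hx hy s hs
  · intro s _; funext z; simp [Function.comp]
  · intro s _; funext z; simp [Function.comp]
  · intro s _
    simp only [Function.comp, Equiv.swap_apply_left, Equiv.swap_apply_right]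
    by_cases h : s x = j ∧ s y = j'
    · rw [if_pos h, if_pos ⟨h.2, h.1⟩]
      exact (hg s h.1 h.2).symm
    · rw [if_neg h, if_neg (fun h' => h ⟨h'.2, h'.1⟩)]


/-- number of frozen positions with value `l`. -/
def fz (F : Finset A) (s₀ : A → ι) (l : ι) : ℕ :=
  (Finset.univ.filter (fun y => y ∉ F ∧ s₀ y = l)).card

theorem cnt_of_ne (F : Finset A) (x : A) (s₀ : A → ι) (m : ι → ℕ) (s : A → ι)
    (hs : s ∈ partsF (insert x F) s₀ m) (l : ι) (hl : s x ≠ l) :
    ((F.filter (fun y => s y = l)).card : ℝ) = (m l : ℝ) - fz (insert x F) s₀ l := by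
  simp only [partsF, parts, Finset.mem_filter, Finset.mem_univ, true_and] at hs
  have h1 : pblk s l = F.filter (fun y => s y = l) ∪
      Finset.univ.filter (fun y => y ∉ insert x F ∧ s₀ y = l) := by
    ext z
    simp only [pblk, Finset.mem_filter, Finset.mem_univ, true_and, Finset.mem_union]
    constructor
    · intro hz
      by_cases hzF : z ∈ F
      · exact Or.inl ⟨hzF, hz⟩
      · right
        have hzx : z ≠ x := fun h => hl (h ▸ hz)
        have hz' : z ∉ insert x F := by simp [hzx, hzF]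
        exact ⟨hz', (hs.2 z hz') ▸ hz⟩
    · rintro (⟨_, hz⟩ | ⟨hz', hz⟩)
      · exact hz
      · rw [hs.2 z hz']; exact hz
  have h2 : Disjoint (F.filter (fun y => s y = l))
      (Finset.univ.filter (fun y => y ∉ insert x F ∧ s₀ y = l)) := by
    rw [Finset.disjoint_left]
    intro z hz hz'
    simp only [Finset.mem_filter, Finset.mem_univ, true_and, Finset.mem_insert, not_or] at hz hz'
    exact hz'.1.2 hz.1
  have h3 := hs.1 l
  rw [h1, Finset.card_union_of_disjoint h2] at h3
  unfold fz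
  rw [← h3]; push_cast; ring

theorem fz_lt_of_eq (F : Finset A) (x : A) (s₀ : A → ι) (m : ι → ℕ) (s : A → ι)
    (hs : s ∈ partsF (insert x F) s₀ m) (l : ι) (hl : s x = l) :
    (0 : ℝ) < (m l : ℝ) - fz (insert x F) s₀ l := by
  simp only [partsF, parts, Finset.mem_filter, Finset.mem_univ, true_and] at hs
  have h1 : insert x (Finset.univ.filter (fun y => y ∉ insert x F ∧ s₀ y = l)) ⊆ pblk s l := by
    intro z hz
    simp only [Finset.mem_insert, Finset.mem_filter, Finset.mem_univ, true_and] at hz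
    simp only [pblk, Finset.mem_filter, Finset.mem_univ, true_and]
    rcases hz with rfl | ⟨hz', hz⟩
    · exact hl
    · rw [hs.2 z (by simpa using hz')]; exact hz
  have h2 : x ∉ Finset.univ.filter (fun y => y ∉ insert x F ∧ s₀ y = l) := by simp
  have h3 := Finset.card_le_card h1
  rw [Finset.card_insert_of_notMem h2, hs.1 l] at h3
  have h4 : ((fz (insert x F) s₀ l : ℕ) : ℝ) + 1 ≤ (m l : ℝ) := by
    unfold fz; exact_mod_cast h3
  linarith

theorem double_count (F : Finset A) (x : A) (_hx : x ∉ F) (s₀ : A → ι) (m : ι → ℕ) (j j' : ι) (hjj' : j ≠ j')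
    (g : (A → ι) → ℝ)
    (hg : ∀ (s : A → ι) (y : A), s x = j → s y = j' → g (s ∘ Equiv.swap x y) = g s) :
    ((m j' : ℝ) - fz (insert x F) s₀ j') * ∑ s ∈ (partsF (insert x F) s₀ m).filter (fun s => s x = j), g s =
    ((m j : ℝ) - fz (insert x F) s₀ j) * ∑ s ∈ (partsF (insert x F) s₀ m).filter (fun s => s x = j'), g s := by
  have main : ∑ y ∈ F, ∑ s ∈ partsF (insert x F) s₀ m, (if s x = j ∧ s y = j' then g s else 0) =
      ∑ y ∈ F, ∑ s ∈ partsF (insert x F) s₀ m, (if s x = j' ∧ s y = j then g s else 0) := by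
    refine Finset.sum_congr rfl fun y hy => ?_
    exact swap_sum (insert x F) s₀ m x y (Finset.mem_insert_self x F) (Finset.mem_insert_of_mem hy) j j' g
      (fun s h1 h2 => hg s y h1 h2)
  have side : ∀ k k' : ι, k ≠ k' →
      ∑ y ∈ F, ∑ s ∈ partsF (insert x F) s₀ m, (if s x = k ∧ s y = k' then g s else 0) =
      ((m k' : ℝ) - fz (insert x F) s₀ k') * ∑ s ∈ (partsF (insert x F) s₀ m).filter (fun s => s x = k), g s := by
    intro k k' hkk'
    rw [Finset.sum_comm, Finset.mul_sum, Finset.sum_filter]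
    refine Finset.sum_congr rfl fun s hs => ?_
    by_cases hk : s x = k
    · rw [if_pos hk, ← cnt_of_ne F x s₀ m s hs k' (by rw [hk]; exact hkk')]
      simp only [hk, true_and]
      rw [← Finset.sum_filter, Finset.sum_const, nsmul_eq_mul]
    · rw [if_neg hk]
      simp [hk]
  rw [side j j' hjj', side j' j hjj'.symm] at main
  exact main

theorem tv_partsF (F : Finset A) (x : A) (hx : x ∉ F) (s₀ : A → ι) (m : ι → ℕ) (i j j' : ι)
    (hj : j ≠ i) (hj' : j' ≠ i) (φ : Finset A → ℝ) :
    (((partsF (insert x F) s₀ m).filter (fun s => s x = j')).card : ℝ) *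
        ∑ s ∈ (partsF (insert x F) s₀ m).filter (fun s => s x = j), φ (pblk s i) =
    (((partsF (insert x F) s₀ m).filter (fun s => s x = j)).card : ℝ) *
        ∑ s ∈ (partsF (insert x F) s₀ m).filter (fun s => s x = j'), φ (pblk s i) := by
  by_cases hjj' : j = j'
  · subst hjj'; rfl
  have h1 := double_count F x hx s₀ m j j' hjj' (fun s => φ (pblk s i))
    (fun s y h1 h2 => by
      show φ (pblk (s ∘ Equiv.swap x y) i) = φ (pblk s i)
      rw [blk_comp_swap_of_ne s x y i (by rw [h1]; exact hj) (by rw [h2]; exact hj')])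
  have h2 := double_count F x hx s₀ m j j' hjj' (fun _ => (1 : ℝ)) (fun _ _ _ _ => rfl)
  simp only [Finset.sum_const, nsmul_eq_mul, mul_one] at h2
  rcases Finset.eq_empty_or_nonempty ((partsF (insert x F) s₀ m).filter (fun s => s x = j')) with he | ⟨s, hs⟩
  · rw [he]; simp
  have hs' := Finset.mem_filter.mp hs
  have hpos := fz_lt_of_eq F x s₀ m s hs'.1 j' hs'.2
  have hne : ((m j' : ℝ) - fz (insert x F) s₀ j') ≠ 0 := ne_of_gt hpos
  apply mul_left_cancel₀ hne
  set c' := ((m j' : ℝ) - fz (insert x F) s₀ j')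
  set c := ((m j : ℝ) - fz (insert x F) s₀ j)
  set N' := (((partsF (insert x F) s₀ m).filter (fun s => s x = j')).card : ℝ)
  set N := (((partsF (insert x F) s₀ m).filter (fun s => s x = j)).card : ℝ)
  set a := ∑ s ∈ (partsF (insert x F) s₀ m).filter (fun s => s x = j), φ (pblk s i)
  set a' := ∑ s ∈ (partsF (insert x F) s₀ m).filter (fun s => s x = j'), φ (pblk s i)
  calc c' * (N' * a) = N' * (c' * a) := by ring
    _ = N' * (c * a') := by rw [h1]
    _ = (c * N') * a' := by ring
    _ = (c' * N) * a' := by rw [h2]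
    _ = c' * (N * a') := by ring


theorem uvar_of_card_le_one {a : Type*} (S : Finset a) (h : S.card ≤ 1) (f : a → ℝ) : uvar S f = 0 := by
  rcases Finset.eq_empty_or_nonempty S with rfl | ⟨x, hx⟩
  · simp [uvar]
  · have hS : S = {x} := by
      apply Finset.eq_singleton_iff_unique_mem.mpr
      exact ⟨hx, fun y hy => (Finset.card_le_one.mp h) y hy x hx⟩
    subst hS
    simp [uvar]

theorem lemmaP_frozen (F : Finset A) (s₀ : A → ι) (m : ι → ℕ) (φ : ι → Finset A → ℝ) :
    uvar (partsF F s₀ m) (fun s => ∑ i, φ i (pblk s i)) ≤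
      2 * ∑ i, uvar (partsF F s₀ m) (fun s => φ i (pblk s i)) := by
  induction F using Finset.induction_on generalizing s₀ with
  | empty =>
    have hc : (partsF (∅ : Finset A) s₀ m).card ≤ 1 := by
      rw [Finset.card_le_one]
      intro s hs t ht
      simp only [partsF, Finset.mem_filter, Finset.notMem_empty, not_false_eq_true, true_implies] at hs ht
      funext z
      rw [hs.2 z, ht.2 z]
    rw [uvar_of_card_le_one _ hc]
    simp [uvar_of_card_le_one _ hc]
  | insert x F hx ih =>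
    apply uvar_step (partsF (insert x F) s₀ m) (fun s => s x) (fun i s => φ i (pblk s i))
    · intro j
      rw [partsF_insert_filter F x hx s₀ m j]
      exact ih (Function.update s₀ x j)
    · intro i j j' hj hj'
      exact tv_partsF F x hx s₀ m i j j' hj hj' (φ i)

theorem lemmaP (m : ι → ℕ) (φ : ι → Finset A → ℝ) :
    uvar (parts m) (fun s => ∑ i, φ i (pblk s i)) ≤
      2 * ∑ i, uvar (parts m) (fun s => φ i (pblk s i)) := by
  rcases isEmpty_or_nonempty (A → ι) with h | ⟨⟨s₀⟩⟩
  · have : (parts m : Finset (A → ι)) = ∅ := Finset.eq_empty_of_isEmpty _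
    simp [this, uvar]
  · have := lemmaP_frozen Finset.univ s₀ m φ
    rwa [partsF_univ] at this

end Crest.Agent.S0453Aux

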