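import Mathlib
import Crest.Prelude.Def_SwitchChain
import Crest.Agent.S0453Aux.Bridge

/-!
# S0453: a total switch function and the bound of its Dirichlet sum by `propSum`
-/

namespace Crest.Agent.S0453Aux

open Finset Crest.SwitchChain

variable {n : ℕ}

/-- `(a,b,c,d)` is a valid switch at `G`: pairwise distinct, `ac, bd ∈ G`, `ad, bc ∉ G`. -/
def IsSw (G : Finset (Edge n)) (a b c d : Fin n) : Prop :=
  ∃ (hac : a ≠ c) (hbd : b ≠ d) (had : a ≠ d) (hbc : b ≠ c), a ≠ b ∧ c ≠ d ∧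
    mkE a c hac ∈ G ∧ mkE b d hbd ∈ G ∧ mkE a d had ∉ G ∧ mkE b c hbc ∉ G

open Classical in
/-- the total switch function: perform the switch `ac, bd ↦ ad, bc` if it is valid, else stay -/
noncomputable def swT (G : Finset (Edge n)) (a b c d : Fin n) : Finset (Edge n) :=
  if h : IsSw G a b c d then sw G a b c d h.1 h.2.1 h.2.2.1 h.2.2.2.1 else G

theorem swT_of_isSw {G : Finset (Edge n)} {a b c d : Fin n} (h : IsSw G a b c d) :
    swT G a b c d = sw G a b c d h.1 h.2.1 h.2.2.1 h.2.2.2.1 := by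
  simp [swT, h]

theorem swT_of_not {G : Finset (Edge n)} {a b c d : Fin n} (h : ¬ IsSw G a b c d) :
    swT G a b c d = G := by
  simp [swT, h]

theorem isSw_iff_adj {G : Finset (Edge n)} {a b c d : Fin n} :
    IsSw G a b c d ↔ a ≠ b ∧ c ≠ d ∧ a ≠ d ∧ b ≠ c ∧ Adj G a c ∧ Adj G b d ∧ ¬ Adj G a d ∧
      ¬ Adj G b c := by
  constructor
  · rintro ⟨hac, hbd, had, hbc, hab, hcd, h1, h2, h3, h4⟩
    exact ⟨hab, hcd, had, hbc, ⟨hac, h1⟩, ⟨hbd, h2⟩, fun h => h3 h.2, fun h => h4 h.2⟩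
  · rintro ⟨hab, hcd, had, hbc, ⟨hac, h1⟩, ⟨hbd, h2⟩, h3, h4⟩
    exact ⟨hac, hbd, had, hbc, hab, hcd, h1, h2, fun h => h3 ⟨had, h⟩, fun h => h4 ⟨hbc, h⟩⟩

theorem swT_emb (G : Finset (Edge n)) (t : Fin 4 ↪ Fin n) :
    swT G (t 0) (t 1) (t 2) (t 3) = switchResult G (tF t) (tF' t) := by
  by_cases h : IsSw G (t 0) (t 1) (t 2) (t 3)
  · rw [swT_of_isSw h]
    obtain ⟨hac, hbd, had, hbc, hab, hcd, h1, h2, h3, h4⟩ := h
    exact sw_eq_switchResult hac hbd had hbc h1 h2 h3 h4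
  · rw [swT_of_not h]
    unfold switchResult
    rw [if_neg]
    rintro ⟨h1, h2⟩
    apply h
    refine ⟨emb_ne t (by decide), emb_ne t (by decide), emb_ne t (by decide),
      emb_ne t (by decide), emb_ne t (by decide), emb_ne t (by decide), ?_, ?_, ?_, ?_⟩
    · exact h1 (by simp [tF])
    · exact h1 (by simp [tF])
    · exact fun hh => (disjoint_left.mp h2 (by simp [tF'])) hh
    · exact fun hh => (disjoint_left.mp h2 (by simp [tF'])) hh

/-- four-fold sums of a function vanishing off the pairwise distinct tuples -/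
theorem sum_four_eq_sum_emb (h : Fin n → Fin n → Fin n → Fin n → ℝ)
    (h0 : ∀ a b c d, ¬ (a ≠ b ∧ a ≠ c ∧ a ≠ d ∧ b ≠ c ∧ b ≠ d ∧ c ≠ d) → h a b c d = 0) :
    ∑ a, ∑ b, ∑ c, ∑ d, h a b c d = ∑ t : Fin 4 ↪ Fin n, h (t 0) (t 1) (t 2) (t 3) := by
  classical
  have e1 : ∑ t : Fin 4 ↪ Fin n, h (t 0) (t 1) (t 2) (t 3)
      = ∑ v : Fin 4 → Fin n, h (v 0) (v 1) (v 2) (v 3) := by
    apply Fintype.sum_of_injective (fun t : Fin 4 ↪ Fin n => (t : Fin 4 → Fin n))
      DFunLike.coe_injective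
    · intro v hv
      apply h0
      rintro ⟨h01, h02, h03, h12, h13, h23⟩
      apply hv
      have hinj : Function.Injective v := by
        intro i j hij
        fin_cases i <;> fin_cases j <;> simp_all
      exact ⟨⟨v, hinj⟩, rfl⟩
    · intro t; rfl
  rw [e1]
  let E : (Fin 4 → Fin n) ≃ Fin n × Fin n × Fin n × Fin n :=
    { toFun := fun v => (v 0, v 1, v 2, v 3)
      invFun := fun p => ![p.1, p.2.1, p.2.2.1, p.2.2.2]
      left_inv := by
        intro v; funext i; fin_cases i <;> rfl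
      right_inv := by
        intro p; rfl }
  rw [Fintype.sum_equiv E (fun v => h (v 0) (v 1) (v 2) (v 3))
    (fun p => h p.1 p.2.1 p.2.2.1 p.2.2.2) (fun v => rfl)]
  simp only [Fintype.sum_prod_type]

/-- **Bridge, total form.** -/
theorem sum_swT_le (G : Finset (Edge n)) (f : Finset (Edge n) → ℝ) :
    ∑ a, ∑ b, ∑ c, ∑ d, (f G - f (swT G a b c d)) ^ 2
      ≤ 4 * propSum n fun F F' => (f G - f (switchResult G F F')) ^ 2 := by
  rw [sum_four_eq_sum_emb (fun a b c d => (f G - f (swT G a b c d)) ^ 2)]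
  · simp only [swT_emb]
    exact sum_tuples_le (fun F F' => (f G - f (switchResult G F F')) ^ 2)
      (fun _ _ => sq_nonneg _)
  · intro a b c d hne
    rw [swT_of_not, sub_self]; · norm_num
    rintro ⟨hac, hbd, had, hbc, hab, hcd, -⟩
    exact hne ⟨hab, hac, had, hbc, hbd, hcd⟩

theorem sum_swT_le_dir (d : Fin n → ℕ) (f : Finset (Edge n) → ℝ) :
    ∑ G ∈ realizations d, ∑ a, ∑ b, ∑ c, ∑ e, (f G - f (swT G a b c e)) ^ 2 ≤ 4 * dir d f := by
  unfold dir
  rw [mul_sum]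
  exact sum_le_sum fun G _ => sum_swT_le G f

theorem swT_mem {d : Fin n → ℕ} {G : Finset (Edge n)} (hG : G ∈ realizations d)
    (a b c e : Fin n) : swT G a b c e ∈ realizations d := by
  by_cases h : IsSw G a b c e
  · have hstep : SwitchStep G (swT G a b c e) := by
      obtain ⟨hac, hbd, had, hbc, hab, hcd, h1, h2, h3, h4⟩ := h
      exact ⟨a, b, c, e, hac, hbd, had, hbc, hab, hcd, h1, h2, h3, h4,
        swT_of_isSw ⟨hac, hbd, had, hbc, hab, hcd, h1, h2, h3, h4⟩⟩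
    exact hstep.mem_realizations hG
  · rw [swT_of_not h]; exact hG

end Crest.Agent.S0453Aux
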