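import Crest.Agent.S0453Aux.Defs
import Crest.Agent.S0453Aux.Connected
import Crest.Agent.S0453Aux.SwT

/-!
# S0453: the orbits of the pair heat bath are Johnson slices

For `a ≠ b` and `G0 ∈ realizations d`, the fibre of `away {a,b}` through `G0` inside
`realizations d` is in bijection with the `α`-subsets of `U = UU G0 a b`
(`G ↦ xs a U G = nb G a ∩ U`, inverse `x ↦ reSplit G0 a b U x`), and transpositions of `U`
correspond to switches.
-/

set_option autoImplicit false
open Finset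
open Crest Crest.SwitchChain

namespace Crest.Agent.S0453Aux.Orb

variable {n : ℕ}

/-! ### graphs from symmetric relations -/

open Classical in
/-- The graph of a relation. -/
noncomputable def ofRel (r : Fin n → Fin n → Prop) : Finset (Edge n) :=
  univ.filter fun e => ∃ u w, e.1 = s(u, w) ∧ r u w

theorem adj_ofRel {r : Fin n → Fin n → Prop} (hs : ∀ u w, r u w → r w u) {u w : Fin n} :
    Adj (ofRel r) u w ↔ u ≠ w ∧ r u w := by
  classical
  constructor
  · rintro ⟨h, hm⟩
    refine ⟨h, ?_⟩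
    simp only [ofRel, mem_filter, mem_univ, true_and, mkE] at hm
    obtain ⟨u', w', he, hr⟩ := hm
    rcases Sym2.eq_iff.1 he with ⟨rfl, rfl⟩ | ⟨rfl, rfl⟩
    · exact hr
    · exact hs _ _ hr
  · rintro ⟨h, hr⟩
    refine ⟨h, ?_⟩
    simp only [ofRel, mem_filter, mem_univ, true_and, mkE]
    exact ⟨u, w, rfl, hr⟩

theorem not_adj_self (G : Finset (Edge n)) (u : Fin n) : ¬ Adj G u u := fun h => h.ne rfl

/-! ### `away` -/

theorem adj_away {S : Finset (Fin n)} {G : Finset (Edge n)} {u w : Fin n} :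
    Adj (away S G) u w ↔ Adj G u w ∧ u ∉ S ∧ w ∉ S := by
  constructor
  · rintro ⟨h, hm⟩
    simp only [away, mem_filter] at hm
    refine ⟨⟨h, hm.1⟩, ?_, ?_⟩
    · intro hu; exact hm.2 u hu (by simp [mkE])
    · intro hw; exact hm.2 w hw (by simp [mkE])
  · rintro ⟨⟨h, hm⟩, hu, hw⟩
    refine ⟨h, ?_⟩
    simp only [away, mem_filter]
    refine ⟨hm, ?_⟩
    intro v hv hve
    have : v = u ∨ v = w := by simpa [mkE] using hve
    rcases this with rfl | rfl
    · exact hu hv
    · exact hw hv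

theorem away_eq_iff {S : Finset (Fin n)} {G G' : Finset (Edge n)} :
    away S G = away S G' ↔ ∀ u w, u ∉ S → w ∉ S → (Adj G u w ↔ Adj G' u w) := by
  constructor
  · intro h u w hu hw
    have h1 : Adj (away S G) u w ↔ Adj (away S G') u w := by rw [h]
    rw [adj_away, adj_away] at h1
    constructor
    · intro hA; exact (h1.1 ⟨hA, hu, hw⟩).1
    · intro hA; exact (h1.2 ⟨hA, hu, hw⟩).1
  · intro h
    apply graph_ext
    intro u w
    rw [adj_away, adj_away]
    constructor
    · rintro ⟨hA, hu, hw⟩; exact ⟨(h u w hu hw).1 hA, hu, hw⟩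
    · rintro ⟨hA, hu, hw⟩; exact ⟨(h u w hu hw).2 hA, hu, hw⟩

/-! ### indicator sums -/

open Classical in
/-- adjacency indicator -/
noncomputable def ind (G : Finset (Edge n)) (u w : Fin n) : ℕ := if Adj G u w then 1 else 0

theorem ind_self (G : Finset (Edge n)) (u : Fin n) : ind G u u = 0 := by
  unfold ind; simp [not_adj_self]

theorem ind_le_one (G : Finset (Edge n)) (u w : Fin n) : ind G u w ≤ 1 := by
  unfold ind; split_ifs <;> simp

theorem ind_eq_one {G : Finset (Edge n)} {u w : Fin n} : ind G u w = 1 ↔ Adj G u w := by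
  unfold ind; split_ifs with h <;> simp [h]

theorem ind_eq_zero {G : Finset (Edge n)} {u w : Fin n} : ind G u w = 0 ↔ ¬ Adj G u w := by
  unfold ind; split_ifs with h <;> simp [h]

theorem ind_comm (G : Finset (Edge n)) (u w : Fin n) : ind G u w = ind G w u := by
  by_cases h : Adj G u w
  · rw [ind_eq_one.2 h, ind_eq_one.2 h.symm]
  · rw [ind_eq_zero.2 h, ind_eq_zero.2 (fun h' => h h'.symm)]

theorem ind_eq_ind {G G' : Finset (Edge n)} {u w u' w' : Fin n} :
    ind G u w = ind G' u' w' ↔ (Adj G u w ↔ Adj G' u' w') := by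
  unfold ind; split_ifs with h h' h' <;> simp [h, h']

theorem card_nb_eq_sum (G : Finset (Edge n)) (v : Fin n) : (nb G v).card = ∑ w, ind G v w := by
  classical
  unfold nb ind
  rw [card_filter]

theorem sum_ind_split (G : Finset (Edge n)) {a b : Fin n} (hab : a ≠ b) (v : Fin n) :
    ∑ w, ind G v w = ind G v a + ind G v b + ∑ w ∈ univ \ {a, b}, ind G v w := by
  classical
  rw [← sum_sdiff (subset_univ ({a, b} : Finset (Fin n))), sum_pair hab]
  ring

/-! ### structure of the fibres of `away {a,b}` -/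

theorem graph_ext_pair {G G' : Finset (Edge n)} (a b : Fin n)
    (ha : ∀ c, Adj G a c ↔ Adj G' a c) (hb : ∀ c, Adj G b c ↔ Adj G' b c)
    (ho : ∀ u w, u ≠ a → u ≠ b → w ≠ a → w ≠ b → (Adj G u w ↔ Adj G' u w)) : G = G' := by
  apply graph_ext
  intro u w
  by_cases hua : u = a
  · subst hua; exact ha w
  by_cases hub : u = b
  · subst hub; exact hb w
  by_cases hwa : w = a
  · subst hwa; rw [adj_comm, ha u, adj_comm]
  by_cases hwb : w = b
  · subst hwb; rw [adj_comm, hb u, adj_comm]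
  exact ho u w hua hub hwa hwb

theorem away_pair_eq_iff {a b : Fin n} {G G' : Finset (Edge n)} :
    away {a, b} G = away {a, b} G' ↔
      ∀ u w, u ≠ a → u ≠ b → w ≠ a → w ≠ b → (Adj G u w ↔ Adj G' u w) := by
  rw [away_eq_iff]
  constructor
  · intro h u w h1 h2 h3 h4
    exact h u w (by simp [h1, h2]) (by simp [h3, h4])
  · intro h u w hu hw
    simp only [mem_insert, mem_singleton, not_or] at hu hw
    exact h u w hu.1 hu.2 hw.1 hw.2

section orbit

variable {d : Fin n → ℕ} {a b : Fin n} {G G0 : Finset (Edge n)}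

theorem sum_ind_eq (hG : G ∈ realizations d) (v : Fin n) : ∑ w, ind G v w = d v := by
  rw [← card_nb_eq_sum]; exact mem_realizations.1 hG v

theorem rest_sum_eq (haw : away {a, b} G = away {a, b} G0) {c : Fin n} (hca : c ≠ a) (hcb : c ≠ b) :
    ∑ w ∈ univ \ {a, b}, ind G c w = ∑ w ∈ univ \ {a, b}, ind G0 c w := by
  apply sum_congr rfl
  intro w hw
  simp only [mem_sdiff, mem_univ, mem_insert, mem_singleton, not_or, true_and] at hw
  exact ind_eq_ind.2 (away_pair_eq_iff.1 haw c w hca hcb hw.1 hw.2)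

theorem rho_eq (hab : a ≠ b) (hG : G ∈ realizations d) (hG0 : G0 ∈ realizations d)
    (haw : away {a, b} G = away {a, b} G0) {c : Fin n} (hca : c ≠ a) (hcb : c ≠ b) :
    ind G c a + ind G c b = ind G0 c a + ind G0 c b := by
  have h1 := sum_ind_eq hG c
  have h2 := sum_ind_eq hG0 c
  rw [sum_ind_split G hab c] at h1
  rw [sum_ind_split G0 hab c] at h2
  have h3 := rest_sum_eq haw hca hcb
  omega

theorem ind_ab_eq (hab : a ≠ b) (hG : G ∈ realizations d) (hG0 : G0 ∈ realizations d)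
    (haw : away {a, b} G = away {a, b} G0) : ind G a b = ind G0 a b := by
  have h1 := sum_ind_eq hG a
  have h2 := sum_ind_eq hG0 a
  have h3 := sum_ind_eq hG b
  have h4 := sum_ind_eq hG0 b
  rw [sum_ind_split G hab] at h1 h3
  rw [sum_ind_split G0 hab] at h2 h4
  rw [ind_self] at h1 h2 h3 h4
  have h5 : ∑ w ∈ univ \ {a, b}, ind G a w + ∑ w ∈ univ \ {a, b}, ind G b w
      = ∑ w ∈ univ \ {a, b}, ind G0 a w + ∑ w ∈ univ \ {a, b}, ind G0 b w := by
    rw [← sum_add_distrib, ← sum_add_distrib]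
    apply sum_congr rfl
    intro w hw
    simp only [mem_sdiff, mem_univ, mem_insert, mem_singleton, not_or, true_and] at hw
    have := rho_eq hab hG hG0 haw hw.1 hw.2
    rw [ind_comm G a w, ind_comm G b w, ind_comm G0 a w, ind_comm G0 b w]
    exact this
  have h6 := ind_comm G b a
  have h7 := ind_comm G0 b a
  omega

end orbit

open Classical in
/-- `U_p`: the vertices adjacent to exactly one of `a`, `b`. -/
noncomputable def UU (G : Finset (Edge n)) (a b : Fin n) : Finset (Fin n) :=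
  univ.filter fun c => c ≠ a ∧ c ≠ b ∧ ind G c a + ind G c b = 1

theorem mem_UU {G : Finset (Edge n)} {a b c : Fin n} :
    c ∈ UU G a b ↔ c ≠ a ∧ c ≠ b ∧ ind G c a + ind G c b = 1 := by
  classical
  simp [UU]

theorem a_notMem_UU (G : Finset (Edge n)) (a b : Fin n) : a ∉ UU G a b := by
  intro h; exact (mem_UU.1 h).1 rfl

theorem b_notMem_UU (G : Finset (Edge n)) (a b : Fin n) : b ∉ UU G a b := by
  intro h; exact (mem_UU.1 h).2.1 rfl

/-- the `α`-set of `G`. -/
noncomputable def xs (a : Fin n) (U : Finset (Fin n)) (G : Finset (Edge n)) : Finset (Fin n) :=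
  nb G a ∩ U

theorem mem_xs {a c : Fin n} {U : Finset (Fin n)} {G : Finset (Edge n)} :
    c ∈ xs a U G ↔ Adj G a c ∧ c ∈ U := by
  simp [xs]

section orbit2

variable {d : Fin n → ℕ} {a b : Fin n} {G G0 : Finset (Edge n)}

theorem UU_eq (hab : a ≠ b) (hG : G ∈ realizations d) (hG0 : G0 ∈ realizations d)
    (haw : away {a, b} G = away {a, b} G0) : UU G a b = UU G0 a b := by
  ext c
  rw [mem_UU, mem_UU]
  constructor
  · rintro ⟨h1, h2, h3⟩
    exact ⟨h1, h2, by rw [← rho_eq hab hG hG0 haw h1 h2]; exact h3⟩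
  · rintro ⟨h1, h2, h3⟩
    exact ⟨h1, h2, by rw [rho_eq hab hG hG0 haw h1 h2]; exact h3⟩

/-- outside `U` the stars of `a` and `b` are frozen -/
theorem adj_a_frozen (hab : a ≠ b) (hG : G ∈ realizations d) (hG0 : G0 ∈ realizations d)
    (haw : away {a, b} G = away {a, b} G0) {c : Fin n} (hc : c ∉ UU G0 a b) :
    Adj G a c ↔ Adj G0 a c := by
  by_cases hca : c = a
  · subst hca; simp [not_adj_self]
  by_cases hcb : c = b
  · subst hcb; exact ind_eq_ind.1 (ind_ab_eq hab hG hG0 haw)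
  have h1 := rho_eq hab hG hG0 haw hca hcb
  have h2 : ind G0 c a + ind G0 c b ≠ 1 := fun h => hc (mem_UU.2 ⟨hca, hcb, h⟩)
  have := ind_le_one G c a
  have := ind_le_one G c b
  have := ind_le_one G0 c a
  have := ind_le_one G0 c b
  rw [adj_comm, @adj_comm _ G0]
  apply ind_eq_ind.1
  omega

theorem adj_b_frozen (hab : a ≠ b) (hG : G ∈ realizations d) (hG0 : G0 ∈ realizations d)
    (haw : away {a, b} G = away {a, b} G0) {c : Fin n} (hc : c ∉ UU G0 a b) :
    Adj G b c ↔ Adj G0 b c := by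
  by_cases hca : c = a
  · subst hca
    rw [adj_comm, @adj_comm _ G0]
    exact ind_eq_ind.1 (ind_ab_eq hab hG hG0 haw)
  by_cases hcb : c = b
  · subst hcb; simp [not_adj_self]
  have h1 := rho_eq hab hG hG0 haw hca hcb
  have h2 : ind G0 c a + ind G0 c b ≠ 1 := fun h => hc (mem_UU.2 ⟨hca, hcb, h⟩)
  have := ind_le_one G c a
  have := ind_le_one G c b
  have := ind_le_one G0 c a
  have := ind_le_one G0 c b
  rw [adj_comm, @adj_comm _ G0]
  apply ind_eq_ind.1
  omega

/-- on `U` exactly one of `a`, `b` is a neighbour -/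
theorem adj_b_iff_of_mem_UU {c : Fin n} (hc : c ∈ UU G a b) : Adj G b c ↔ ¬ Adj G a c := by
  have h := (mem_UU.1 hc).2.2
  have h1 := ind_le_one G c a
  have h2 := ind_le_one G c b
  rw [adj_comm, @adj_comm _ G a c, ← ind_eq_one, ← ind_eq_zero]
  omega

end orbit2

/-! ### re-splitting -/

/-- the adjacency relation of the re-split graph -/
def splitRel (G0 : Finset (Edge n)) (a b : Fin n) (U x : Finset (Fin n)) (u w : Fin n) : Prop :=
  (u = a ∧ w ∈ x) ∨ (w = a ∧ u ∈ x) ∨ (u = b ∧ w ∈ U \ x) ∨ (w = b ∧ u ∈ U \ x) ∨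
    (Adj G0 u w ∧ ¬ ((u = a ∨ u = b) ∧ w ∈ U) ∧ ¬ ((w = a ∨ w = b) ∧ u ∈ U))

theorem splitRel_symm (G0 : Finset (Edge n)) (a b : Fin n) (U x : Finset (Fin n)) (u w : Fin n)
    (h : splitRel G0 a b U x u w) : splitRel G0 a b U x w u := by
  unfold splitRel at h ⊢
  rcases h with h | h | h | h | ⟨h1, h2, h3⟩
  · exact Or.inr (Or.inl h)
  · exact Or.inl h
  · exact Or.inr (Or.inr (Or.inr (Or.inl h)))
  · exact Or.inr (Or.inr (Or.inl h))
  · exact Or.inr (Or.inr (Or.inr (Or.inr ⟨h1.symm, h3, h2⟩)))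

/-- The graph obtained from `G0` by giving the vertices of `x ⊆ U` to `a` and those of `U \ x`
to `b`. -/
noncomputable def reSplit (G0 : Finset (Edge n)) (a b : Fin n) (U x : Finset (Fin n)) :
    Finset (Edge n) :=
  ofRel (splitRel G0 a b U x)

theorem adj_reSplit {G0 : Finset (Edge n)} {a b : Fin n} {U x : Finset (Fin n)} {u w : Fin n} :
    Adj (reSplit G0 a b U x) u w ↔ u ≠ w ∧ splitRel G0 a b U x u w :=
  adj_ofRel (splitRel_symm G0 a b U x)

section resplit

variable {G0 : Finset (Edge n)} {a b : Fin n} {U x : Finset (Fin n)}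

theorem adj_reSplit_a (hab : a ≠ b) (haU : a ∉ U) (hx : x ⊆ U) (c : Fin n) :
    Adj (reSplit G0 a b U x) a c ↔ c ∈ x ∨ (Adj G0 a c ∧ c ∉ U) := by
  rw [adj_reSplit]
  unfold splitRel
  constructor
  · rintro ⟨hne, h | h | h | h | ⟨h1, h2, h3⟩⟩
    · exact Or.inl h.2
    · exact absurd h.1.symm hne
    · exact absurd h.1 hab
    · exact absurd (mem_sdiff.1 h.2).1 haU
    · exact Or.inr ⟨h1, fun hc => h2 ⟨Or.inl rfl, hc⟩⟩
  · rintro (h | ⟨h1, h2⟩)
    · exact ⟨fun h' => haU (h' ▸ hx h), Or.inl ⟨rfl, h⟩⟩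
    · refine ⟨h1.ne, Or.inr (Or.inr (Or.inr (Or.inr ⟨h1, fun h => h2 h.2, fun h => haU h.2⟩)))⟩

theorem adj_reSplit_b (hab : a ≠ b) (hbU : b ∉ U) (hx : x ⊆ U) (c : Fin n) :
    Adj (reSplit G0 a b U x) b c ↔ (c ∈ U ∧ c ∉ x) ∨ (Adj G0 b c ∧ c ∉ U) := by
  rw [adj_reSplit]
  unfold splitRel
  constructor
  · rintro ⟨hne, h | h | h | h | ⟨h1, h2, h3⟩⟩
    · exact absurd h.1.symm hab
    · exact absurd (hx h.2) hbU
    · exact Or.inl (mem_sdiff.1 h.2)
    · exact absurd h.1.symm hne
    · exact Or.inr ⟨h1, fun hc => h2 ⟨Or.inr rfl, hc⟩⟩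
  · rintro (h | ⟨h1, h2⟩)
    · exact ⟨fun h' => hbU (h' ▸ h.1), Or.inr (Or.inr (Or.inl ⟨rfl, mem_sdiff.2 h⟩))⟩
    · refine ⟨h1.ne, Or.inr (Or.inr (Or.inr (Or.inr ⟨h1, fun h => h2 h.2, fun h => hbU h.2⟩)))⟩

theorem adj_reSplit_other {u w : Fin n} (hua : u ≠ a) (hub : u ≠ b) (hwa : w ≠ a) (hwb : w ≠ b) :
    Adj (reSplit G0 a b U x) u w ↔ Adj G0 u w := by
  rw [adj_reSplit]
  unfold splitRel
  constructor
  · rintro ⟨_, h | h | h | h | ⟨h1, _, _⟩⟩
    · exact absurd h.1 hua
    · exact absurd h.1 hwa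
    · exact absurd h.1 hub
    · exact absurd h.1 hwb
    · exact h1
  · intro h
    refine ⟨h.ne, Or.inr (Or.inr (Or.inr (Or.inr ⟨h, ?_, ?_⟩)))⟩
    · rintro ⟨h1 | h1, _⟩
      · exact hua h1
      · exact hub h1
    · rintro ⟨h1 | h1, _⟩
      · exact hwa h1
      · exact hwb h1

theorem away_reSplit : away {a, b} (reSplit G0 a b U x) = away {a, b} G0 :=
  away_pair_eq_iff.2 fun _ _ h1 h2 h3 h4 => adj_reSplit_other h1 h2 h3 h4

theorem xs_reSplit (hab : a ≠ b) (haU : a ∉ U) (hx : x ⊆ U) :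
    xs a U (reSplit G0 a b U x) = x := by
  ext c
  rw [mem_xs, adj_reSplit_a hab haU hx]
  constructor
  · rintro ⟨h | h, hc⟩
    · exact h
    · exact absurd hc h.2
  · intro h; exact ⟨Or.inl h, hx h⟩

end resplit

section main

variable {d : Fin n → ℕ} {a b : Fin n} {G G0 : Finset (Edge n)}

theorem reSplit_xs (hab : a ≠ b) (hG : G ∈ realizations d) (hG0 : G0 ∈ realizations d)
    (haw : away {a, b} G = away {a, b} G0) :
    reSplit G0 a b (UU G0 a b) (xs a (UU G0 a b) G) = G := by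
  have haU := a_notMem_UU G0 a b
  have hbU := b_notMem_UU G0 a b
  have hx : xs a (UU G0 a b) G ⊆ UU G0 a b := inter_subset_right
  apply graph_ext_pair a b
  · intro c
    rw [adj_reSplit_a hab haU hx, mem_xs]
    by_cases hc : c ∈ UU G0 a b
    · simp [hc]
    · simp [hc, adj_a_frozen hab hG hG0 haw hc]
  · intro c
    rw [adj_reSplit_b hab hbU hx, mem_xs]
    by_cases hc : c ∈ UU G0 a b
    · have hc' : c ∈ UU G a b := by rw [UU_eq hab hG hG0 haw]; exact hc
      simp [hc, adj_b_iff_of_mem_UU hc']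
    · simp [hc, adj_b_frozen hab hG hG0 haw hc]
  · intro u w h1 h2 h3 h4
    rw [adj_reSplit_other h1 h2 h3 h4]
    exact (away_pair_eq_iff.1 haw u w h1 h2 h3 h4).symm

theorem card_xs_eq (hab : a ≠ b) (hG : G ∈ realizations d) (hG0 : G0 ∈ realizations d)
    (haw : away {a, b} G = away {a, b} G0) :
    (xs a (UU G0 a b) G).card = (xs a (UU G0 a b) G0).card := by
  have h1 : (nb G a).card = (nb G0 a).card := by
    rw [mem_realizations.1 hG a, mem_realizations.1 hG0 a]
  have h2 : nb G a \ UU G0 a b = nb G0 a \ UU G0 a b := by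
    ext c
    simp only [mem_sdiff, mem_nb]
    constructor
    · rintro ⟨h, hc⟩; exact ⟨(adj_a_frozen hab hG hG0 haw hc).1 h, hc⟩
    · rintro ⟨h, hc⟩; exact ⟨(adj_a_frozen hab hG hG0 haw hc).2 h, hc⟩
  have h3 := card_inter_add_card_sdiff (nb G a) (UU G0 a b)
  have h4 := card_inter_add_card_sdiff (nb G0 a) (UU G0 a b)
  rw [h2] at h3
  unfold xs
  omega

theorem nb_reSplit_a {U x : Finset (Fin n)} (hab : a ≠ b) (haU : a ∉ U) (hx : x ⊆ U) :
    nb (reSplit G0 a b U x) a = x ∪ (nb G0 a \ U) := by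
  ext c
  simp only [mem_nb, mem_union, mem_sdiff, adj_reSplit_a hab haU hx]

theorem nb_reSplit_b {U x : Finset (Fin n)} (hab : a ≠ b) (hbU : b ∉ U) (hx : x ⊆ U) :
    nb (reSplit G0 a b U x) b = (U \ x) ∪ (nb G0 b \ U) := by
  ext c
  simp only [mem_nb, mem_union, mem_sdiff, adj_reSplit_b hab hbU hx]

theorem nb_b_inter_UU : nb G0 b ∩ UU G0 a b = UU G0 a b \ xs a (UU G0 a b) G0 := by
  ext c
  simp only [mem_inter, mem_nb, mem_sdiff, mem_xs]
  constructor
  · rintro ⟨h, hc⟩
    exact ⟨hc, fun h' => (adj_b_iff_of_mem_UU hc).1 h h'.1⟩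
  · rintro ⟨hc, h⟩
    exact ⟨(adj_b_iff_of_mem_UU hc).2 fun h' => h ⟨h', hc⟩, hc⟩

theorem reSplit_mem (hab : a ≠ b) (hG0 : G0 ∈ realizations d) {x : Finset (Fin n)}
    (hx : x ∈ (UU G0 a b).powersetCard (xs a (UU G0 a b) G0).card) :
    reSplit G0 a b (UU G0 a b) x ∈ realizations d := by
  obtain ⟨hxU, hxc⟩ := mem_powersetCard.1 hx
  have haU := a_notMem_UU G0 a b
  have hbU := b_notMem_UU G0 a b
  rw [mem_realizations]
  intro v
  rw [← mem_realizations.1 hG0 v]
  by_cases hva : v = a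
  · subst hva
    rw [nb_reSplit_a hab haU hxU, card_union_of_disjoint, hxc]
    · have := card_inter_add_card_sdiff (nb G0 v) (UU G0 v b)
      unfold xs; omega
    · exact disjoint_of_subset_left hxU disjoint_sdiff
  by_cases hvb : v = b
  · subst hvb
    rw [nb_reSplit_b hab hbU hxU, card_union_of_disjoint, card_sdiff_of_subset hxU, hxc]
    · have h1 := card_inter_add_card_sdiff (nb G0 v) (UU G0 a v)
      have h2 : xs a (UU G0 a v) G0 ⊆ UU G0 a v := inter_subset_right
      rw [nb_b_inter_UU, card_sdiff_of_subset h2] at h1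
      omega
    · exact disjoint_of_subset_left sdiff_subset disjoint_sdiff
  · rw [card_nb_eq_sum, card_nb_eq_sum, sum_ind_split _ hab, sum_ind_split G0 hab]
    have h1 : ∑ w ∈ univ \ {a, b}, ind (reSplit G0 a b (UU G0 a b) x) v w
        = ∑ w ∈ univ \ {a, b}, ind G0 v w := rest_sum_eq away_reSplit hva hvb
    have h2 : ind (reSplit G0 a b (UU G0 a b) x) v a + ind (reSplit G0 a b (UU G0 a b) x) v b
        = ind G0 v a + ind G0 v b := by
      by_cases hv : v ∈ UU G0 a b
      · rw [(mem_UU.1 hv).2.2]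
        by_cases hvx : v ∈ x
        · have e1 : ind (reSplit G0 a b (UU G0 a b) x) v a = 1 := by
            rw [ind_comm, ind_eq_one, adj_reSplit_a hab haU hxU]; exact Or.inl hvx
          have e2 : ind (reSplit G0 a b (UU G0 a b) x) v b = 0 := by
            rw [ind_comm, ind_eq_zero, adj_reSplit_b hab hbU hxU]
            rintro (h | h)
            · exact h.2 hvx
            · exact h.2 hv
          rw [e1, e2]
        · have e1 : ind (reSplit G0 a b (UU G0 a b) x) v a = 0 := by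
            rw [ind_comm, ind_eq_zero, adj_reSplit_a hab haU hxU]
            rintro (h | h)
            · exact hvx h
            · exact h.2 hv
          have e2 : ind (reSplit G0 a b (UU G0 a b) x) v b = 1 := by
            rw [ind_comm, ind_eq_one, adj_reSplit_b hab hbU hxU]; exact Or.inl ⟨hv, hvx⟩
          rw [e1, e2]
      · have e1 : ind (reSplit G0 a b (UU G0 a b) x) v a = ind G0 v a := by
          rw [ind_comm, ind_comm G0, ind_eq_ind, adj_reSplit_a hab haU hxU]
          constructor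
          · rintro (h | h)
            · exact absurd (hxU h) hv
            · exact h.1
          · intro h; exact Or.inr ⟨h, hv⟩
        have e2 : ind (reSplit G0 a b (UU G0 a b) x) v b = ind G0 v b := by
          rw [ind_comm, ind_comm G0, ind_eq_ind, adj_reSplit_b hab hbU hxU]
          constructor
          · rintro (h | h)
            · exact absurd h.1 hv
            · exact h.1
          · intro h; exact Or.inr ⟨h, hv⟩
        rw [e1, e2]
    rw [h1, h2]

/-- **Sum transfer**: the fibre of `away {a,b}` through `G0` is the Johnson slice. -/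
theorem sum_orbit_eq (hab : a ≠ b) (hG0 : G0 ∈ realizations d) {β : Type*} [AddCommMonoid β]
    (F : Finset (Edge n) → β) :
    ∑ G ∈ (realizations d).filter (fun G => away {a, b} G = away {a, b} G0), F G
      = ∑ x ∈ (UU G0 a b).powersetCard (xs a (UU G0 a b) G0).card,
          F (reSplit G0 a b (UU G0 a b) x) := by
  apply sum_nbij' (fun G => xs a (UU G0 a b) G) (fun x => reSplit G0 a b (UU G0 a b) x)
  · intro G hG
    obtain ⟨hG, haw⟩ := mem_filter.1 hG
    exact mem_powersetCard.2 ⟨inter_subset_right, card_xs_eq hab hG hG0 haw⟩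
  · intro x hx
    exact mem_filter.2 ⟨reSplit_mem hab hG0 hx, away_reSplit⟩
  · intro G hG
    obtain ⟨hG, haw⟩ := mem_filter.1 hG
    exact reSplit_xs hab hG hG0 haw
  · intro x hx
    exact xs_reSplit hab (a_notMem_UU G0 a b) (mem_powersetCard.1 hx).1
  · intro G hG
    obtain ⟨hG, haw⟩ := mem_filter.1 hG
    rw [reSplit_xs hab hG hG0 haw]

end main

/-! ### transpositions of `U` are switches -/

theorem mem_image_swap {x : Finset (Fin n)} {c e w : Fin n} :
    w ∈ x.image (Equiv.swap c e) ↔ Equiv.swap c e w ∈ x := by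
  rw [mem_image]
  constructor
  · rintro ⟨y, hy, rfl⟩
    rwa [Equiv.swap_apply_self]
  · intro h
    exact ⟨_, h, Equiv.swap_apply_self _ _ _⟩

theorem image_swap_subset {U x : Finset (Fin n)} {c e : Fin n} (hx : x ⊆ U) (hc : c ∈ U)
    (he : e ∈ U) : x.image (Equiv.swap c e) ⊆ U := by
  intro w hw
  rw [mem_image_swap] at hw
  by_cases h1 : w = c
  · rw [h1]; exact hc
  by_cases h2 : w = e
  · rw [h2]; exact he
  rw [Equiv.swap_apply_of_ne_of_ne h1 h2] at hw
  exact hx hw

theorem image_swap_eq_self {x : Finset (Fin n)} {c e : Fin n} (h : c ∈ x ↔ e ∈ x) :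
    x.image (Equiv.swap c e) = x := by
  ext w
  rw [mem_image_swap]
  by_cases h1 : w = c
  · rw [h1, Equiv.swap_apply_left]; exact h.symm
  by_cases h2 : w = e
  · rw [h2, Equiv.swap_apply_right]; exact h
  rw [Equiv.swap_apply_of_ne_of_ne h1 h2]

section swap

variable {G0 : Finset (Edge n)} {a b : Fin n} {U x : Finset (Fin n)} {c e : Fin n}

theorem isSw_reSplit (hab : a ≠ b) (haU : a ∉ U) (hbU : b ∉ U) (hx : x ⊆ U)
    (hc : c ∈ x) (heU : e ∈ U) (he : e ∉ x) : IsSw (reSplit G0 a b U x) a b c e := by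
  rw [isSw_iff_adj]
  have hcU := hx hc
  refine ⟨hab, fun h => he (h ▸ hc), fun h => haU (h ▸ heU), fun h => hbU (h ▸ hcU), ?_, ?_, ?_, ?_⟩
  · rw [adj_reSplit_a hab haU hx]; exact Or.inl hc
  · rw [adj_reSplit_b hab hbU hx]; exact Or.inl ⟨heU, he⟩
  · rw [adj_reSplit_a hab haU hx]
    rintro (h | h)
    · exact he h
    · exact h.2 heU
  · rw [adj_reSplit_b hab hbU hx]
    rintro (h | h)
    · exact h.2 hc
    · exact h.2 hcU

theorem reSplit_image_swap (hab : a ≠ b) (haU : a ∉ U) (hbU : b ∉ U) (hx : x ⊆ U)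
    (hc : c ∈ x) (heU : e ∈ U) (he : e ∉ x) :
    reSplit G0 a b U (x.image (Equiv.swap c e)) = swT (reSplit G0 a b U x) a b c e := by
  have hS := isSw_reSplit (G0 := G0) hab haU hbU hx hc heU he
  rw [swT_of_isSw hS]
  have hcU := hx hc
  have hx' := image_swap_subset hx hcU heU
  have hce : c ≠ e := fun h => he (h ▸ hc)
  have hac : a ≠ c := fun h => haU (h ▸ hcU)
  have hae : a ≠ e := fun h => haU (h ▸ heU)
  have hbc : b ≠ c := fun h => hbU (h ▸ hcU)
  have hbe : b ≠ e := fun h => hbU (h ▸ heU)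
  apply graph_ext_pair a b
  · intro w
    rw [adj_sw, adj_reSplit_a hab haU hx', adj_reSplit_a hab haU hx, mem_image_swap]
    by_cases h1 : w = c
    · subst h1
      rw [Equiv.swap_apply_left]
      simp [he, hcU, hac, hae, hab, hce, hac.symm, hbc.symm]
    by_cases h2 : w = e
    · subst h2
      rw [Equiv.swap_apply_right]
      simp [hc]
    rw [Equiv.swap_apply_of_ne_of_ne h1 h2]
    simp [h1, h2, hab, hac, hae]
  · intro w
    rw [adj_sw, adj_reSplit_b hab hbU hx', adj_reSplit_b hab hbU hx, mem_image_swap]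
    by_cases h1 : w = c
    · subst h1
      rw [Equiv.swap_apply_left]
      simp [he, hcU]
    by_cases h2 : w = e
    · subst h2
      rw [Equiv.swap_apply_right]
      simp [hc, heU, hab.symm, hbc, hbe, hce.symm, hae.symm, hbe.symm]
    rw [Equiv.swap_apply_of_ne_of_ne h1 h2]
    simp [h1, h2, hab.symm, hbc, hbe]
  · intro u w h1 h2 h3 h4
    rw [adj_sw, adj_reSplit_other h1 h2 h3 h4, adj_reSplit_other h1 h2 h3 h4]
    simp [h1, h2, h3, h4]

end swap

end Crest.Agent.S0453Aux.Orb
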