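import Crest.Agent.S0453Aux.LemmaP

/-!
# S0453: counting uniform ordered partitions

* `card_partsF`, `card_parts` : multinomial formula.
* `sum_parts_blk` : the block `pblk s i` of a uniform ordered partition is a uniform `m i`-subset.
-/

set_option autoImplicit false
set_option linter.unusedSectionVars false

open Finset Nat

namespace Crest.Agent.S0453Aux

variable {A ι : Type*} [Fintype A] [DecidableEq A] [Fintype ι] [DecidableEq ι]

theorem fz_update (F : Finset A) (x : A) (hx : x ∉ F) (s₀ : A → ι) (j l : ι) :
    fz F (Function.update s₀ x j) l = fz (insert x F) s₀ l + (if l = j then 1 else 0) := by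
  unfold fz
  by_cases hl : l = j
  · subst hl
    rw [if_pos rfl]
    have h1 : Finset.univ.filter (fun y => y ∉ F ∧ Function.update s₀ x l y = l) =
        insert x (Finset.univ.filter (fun y => y ∉ insert x F ∧ s₀ y = l)) := by
      ext z
      simp only [Finset.mem_filter, Finset.mem_univ, true_and, Finset.mem_insert, not_or]
      by_cases hzx : z = x
      · subst hzx; simp [hx]
      · simp [hzx]
    rw [h1, Finset.card_insert_of_notMem (by simp)]
  · rw [if_neg hl, add_zero]
    congr 1
    ext z
    simp only [Finset.mem_filter, Finset.mem_univ, true_and, Finset.mem_insert, not_or]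
    by_cases hzx : z = x
    · subst hzx; simp [Ne.symm hl]
    · simp [hzx]

theorem card_partsF (F : Finset A) (s₀ : A → ι) (m r : ι → ℕ)
    (hr : ∀ l, r l + fz F s₀ l = m l) (hsum : ∑ l, r l = F.card) :
    (partsF F s₀ m).card * ∏ l, (r l)! = (F.card)! := by
  induction F using Finset.induction_on generalizing s₀ r with
  | empty =>
    have hr0 : ∀ l, r l = 0 := by
      intro l
      have := (Finset.sum_eq_zero_iff (s := Finset.univ) (f := r)).mp (by simpa using hsum) l (Finset.mem_univ l)
      exact this
    have h1 : partsF (∅ : Finset A) s₀ m = {s₀} := by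
      ext s
      simp only [partsF, parts, Finset.mem_filter, Finset.mem_univ, true_and, Finset.notMem_empty,
        not_false_eq_true, true_implies, Finset.mem_singleton]
      constructor
      · rintro ⟨_, h⟩; funext z; exact h z
      · rintro rfl
        refine ⟨fun i => ?_, fun _ => rfl⟩
        have := hr i
        rw [hr0 i, zero_add] at this
        rw [← this]
        unfold fz pblk
        congr 1
        ext z; simp
    rw [h1]
    simp [hr0]
  | insert x F hx ih =>
    have hcard : (partsF (insert x F) s₀ m).card =
        ∑ j, (partsF F (Function.update s₀ x j) m).card := by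
      rw [Finset.card_eq_sum_card_fiberwise (f := fun s : A → ι => s x) (t := Finset.univ)
        (fun s _ => Finset.mem_univ _)]
      refine Finset.sum_congr rfl fun j _ => ?_
      rw [partsF_insert_filter F x hx s₀ m j]
    have hj : ∀ j, (partsF F (Function.update s₀ x j) m).card * ∏ l, (r l)! = r j * (F.card)! := by
      intro j
      rcases Nat.eq_zero_or_pos (r j) with h0 | hpos
      · have hemp : partsF F (Function.update s₀ x j) m = ∅ := by
          rw [← partsF_insert_filter F x hx s₀ m j]
          apply Finset.eq_empty_of_forall_notMem
          intro s hs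
          have hs' := Finset.mem_filter.mp hs
          have h1 := fz_lt_of_eq F x s₀ m s hs'.1 j hs'.2
          have h2 := hr j
          rw [h0, zero_add] at h2
          rw [← h2] at h1
          simp at h1
        rw [hemp, h0]; simp
      · obtain ⟨k, hk⟩ : ∃ k, r j = k + 1 := ⟨r j - 1, by omega⟩
        have hr' : ∀ l, Function.update r j k l + fz F (Function.update s₀ x j) l = m l := by
          intro l
          rw [fz_update F x hx s₀ j l]
          by_cases hl : l = j
          · subst hl
            rw [Function.update_self, if_pos rfl]
            have := hr l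
            omega
          · rw [Function.update_of_ne hl, if_neg hl, add_zero]
            exact hr l
        have hsum' : ∑ l, Function.update r j k l = F.card := by
          have h1 : ∑ l, Function.update r j k l + r j = ∑ l, r l + k := by
            rw [Finset.sum_update_of_mem (Finset.mem_univ j)]
            have : ∑ l, r l = r j + ∑ l ∈ Finset.univ \ {j}, r l := by
              rw [← Finset.sum_sdiff (Finset.subset_univ {j})]
              simp [add_comm]
            rw [this]; ring
          rw [hsum, Finset.card_insert_of_notMem hx] at h1
          omega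
        have h1 := ih (Function.update s₀ x j) (Function.update r j k) hr' hsum'
        have h2 : ∏ l, (r l)! = (k + 1) * ∏ l, (Function.update r j k l)! := by
          have e1 : ∏ l, (Function.update r j k l)! = k ! * ∏ l ∈ Finset.univ \ {j}, (r l)! := by
            have : ∀ l, (Function.update r j k l)! = Function.update (fun l => (r l)!) j (k !) l := by
              intro l
              by_cases hl : l = j
              · subst hl; simp
              · simp [Function.update_of_ne hl]
            simp_rw [this]
            rw [Finset.prod_update_of_mem (Finset.mem_univ j)]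
          have e2 : ∏ l, (r l)! = (r j)! * ∏ l ∈ Finset.univ \ {j}, (r l)! := by
            rw [← Finset.prod_sdiff (Finset.subset_univ {j})]
            simp [mul_comm]
          rw [e1, e2, hk, Nat.factorial_succ]; ring
        rw [h2, hk]
        calc (partsF F (Function.update s₀ x j) m).card * ((k + 1) * ∏ l, (Function.update r j k l)!)
            = (k + 1) * ((partsF F (Function.update s₀ x j) m).card * ∏ l, (Function.update r j k l)!) := by ring
          _ = (k + 1) * (F.card)! := by rw [h1]
    rw [hcard, Finset.sum_mul]
    simp_rw [hj]
    rw [← Finset.sum_mul, hsum, Finset.card_insert_of_notMem hx, Nat.factorial_succ]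


theorem sum_card_blk (s : A → ι) : ∑ i, (pblk s i).card = Fintype.card A := by
  have := Finset.card_eq_sum_card_fiberwise (s := (Finset.univ : Finset A)) (f := s) (t := Finset.univ)
    (fun a _ => Finset.mem_univ _)
  rw [Finset.card_univ] at this
  rw [this]
  rfl

theorem parts_eq_empty (m : ι → ℕ) (hm : ∑ i, m i ≠ Fintype.card A) :
    (parts m : Finset (A → ι)) = ∅ := by
  apply Finset.eq_empty_of_forall_notMem
  intro s hs
  simp only [parts, Finset.mem_filter, Finset.mem_univ, true_and] at hs
  apply hm
  rw [← sum_card_blk s]
  exact Finset.sum_congr rfl fun i _ => (hs i).symm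

theorem card_parts (m : ι → ℕ) (hm : ∑ i, m i = Fintype.card A) :
    (parts m : Finset (A → ι)).card * ∏ i, (m i)! = (Fintype.card A)! := by
  rcases isEmpty_or_nonempty (A → ι) with h | ⟨⟨s₀⟩⟩
  · -- then `ι` is empty and `A` is nonempty: impossible since `∑ m = card A`
    exfalso
    have hι : IsEmpty ι := by
      by_contra hne
      rw [not_isEmpty_iff] at hne
      obtain ⟨i⟩ := hne
      exact h.false (fun _ => i)
    have h0 : Fintype.card A = 0 := by rw [← hm]; simp
    have hA : IsEmpty A := Fintype.card_eq_zero_iff.mp h0
    exact h.false (fun a => (hA.false a).elim)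
  · have := card_partsF (Finset.univ : Finset A) s₀ m m (fun l => by simp [fz]) (by rw [hm, Finset.card_univ])
    rwa [partsF_univ, Finset.card_univ] at this

/-- the number of ordered partitions with a prescribed block `i`. -/
theorem card_parts_filter_blk (m : ι → ℕ) (hm : ∑ i, m i = Fintype.card A) (i : ι) (S : Finset A)
    (hS : S.card = m i) :
    ((parts m).filter (fun s : A → ι => pblk s i = S)).card * ∏ l, (Function.update m i 0 l)! =
      (Fintype.card A - m i)! := by
  have h1 : (parts m).filter (fun s : A → ι => pblk s i = S) = partsF Sᶜ (fun _ => i) m := by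
    ext s
    simp only [partsF, Finset.mem_filter, Finset.mem_compl, not_not]
    refine and_congr_right fun hs => ?_
    simp only [parts, Finset.mem_filter, Finset.mem_univ, true_and] at hs
    constructor
    · intro h x hx
      rw [← h] at hx
      simpa [pblk] using hx
    · intro h
      symm
      apply Finset.eq_of_subset_of_card_le
      · intro x hx
        simpa [pblk] using h x hx
      · rw [hs i, hS]
  have hfz : ∀ l, fz Sᶜ (fun _ : A => i) l = if l = i then m i else 0 := by
    intro l
    unfold fz
    by_cases hl : l = i
    · subst hl
      rw [if_pos rfl, ← hS]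
      congr 1
      ext z; simp
    · rw [if_neg hl]
      rw [Finset.card_eq_zero]
      apply Finset.eq_empty_of_forall_notMem
      intro z hz
      simp only [Finset.mem_filter, Finset.mem_univ, true_and] at hz
      exact hl hz.2.symm
  have hc : Sᶜ.card = Fintype.card A - m i := by rw [Finset.card_compl, hS]
  rw [h1, ← hc]
  apply card_partsF
  · intro l
    rw [hfz l]
    by_cases hl : l = i
    · subst hl; simp
    · simp [hl]
  · rw [hc, ← hm, Finset.sum_update_of_mem (Finset.mem_univ i)]
    have : ∑ l, m l = m i + ∑ l ∈ Finset.univ \ {i}, m l := by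
      rw [← Finset.sum_sdiff (Finset.subset_univ {i})]
      simp [add_comm]
    rw [this]; simp

/-- **Marginal uniformity**: block `i` of a uniform ordered partition is a uniform `m i`-subset. -/
theorem sum_parts_blk (m : ι → ℕ) (i : ι) (ψ : Finset A → ℝ) :
    ((Fintype.card A).choose (m i) : ℝ) * ∑ s ∈ (parts m : Finset (A → ι)), ψ (pblk s i) =
      ((parts m : Finset (A → ι)).card : ℝ) * ∑ S ∈ Finset.powersetCard (m i) Finset.univ, ψ S := by
  by_cases hm : ∑ i, m i = Fintype.card A
  swap
  · rw [parts_eq_empty m hm]; simp
  set c : Finset A → ℕ := fun S => ((parts m).filter (fun s : A → ι => pblk s i = S)).card with hc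
  have hmaps : ∀ s ∈ (parts m : Finset (A → ι)), pblk s i ∈ Finset.powersetCard (m i) (Finset.univ : Finset A) := by
    intro s hs
    simp only [parts, Finset.mem_filter, Finset.mem_univ, true_and] at hs
    simp [Finset.mem_powersetCard, hs i]
  have hconst : ∀ S ∈ Finset.powersetCard (m i) (Finset.univ : Finset A),
      ∀ S' ∈ Finset.powersetCard (m i) (Finset.univ : Finset A), c S = c S' := by
    intro S hS S' hS'
    have h1 := card_parts_filter_blk m hm i S (Finset.mem_powersetCard.mp hS).2
    have h2 := card_parts_filter_blk m hm i S' (Finset.mem_powersetCard.mp hS').2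
    have hpos : 0 < ∏ l, (Function.update m i 0 l)! := Finset.prod_pos fun l _ => Nat.factorial_pos _
    exact Nat.eq_of_mul_eq_mul_right hpos (h1.trans h2.symm)
  have hsum : ∀ χ : Finset A → ℝ, ∑ s ∈ (parts m : Finset (A → ι)), χ (pblk s i) =
      ∑ S ∈ Finset.powersetCard (m i) Finset.univ, (c S : ℝ) * χ S := by
    intro χ
    rw [← Finset.sum_fiberwise_of_maps_to hmaps]
    refine Finset.sum_congr rfl fun S _ => ?_
    rw [Finset.sum_congr rfl (g := fun _ => χ S) (fun s hs => by rw [(Finset.mem_filter.mp hs).2])]
    rw [Finset.sum_const, nsmul_eq_mul]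
  have hcard : ((parts m : Finset (A → ι)).card : ℝ) = ∑ S ∈ Finset.powersetCard (m i) Finset.univ, (c S : ℝ) := by
    have := hsum (fun _ => 1)
    simpa using this
  have hchoose : ((Finset.powersetCard (m i) (Finset.univ : Finset A)).card : ℝ) = ((Fintype.card A).choose (m i) : ℝ) := by
    rw [Finset.card_powersetCard, Finset.card_univ]
  rw [hsum ψ, Finset.mul_sum, Finset.mul_sum]
  refine Finset.sum_congr rfl fun S hS => ?_
  have : ((parts m : Finset (A → ι)).card : ℝ) = ((Fintype.card A).choose (m i) : ℝ) * (c S : ℝ) := by
    rw [hcard, ← hchoose]
    rw [Finset.sum_congr rfl (g := fun _ => (c S : ℝ)) (fun S' hS' => by rw [hconst S' hS' S hS])]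
    rw [Finset.sum_const, nsmul_eq_mul]
  rw [this]; ring

end Crest.Agent.S0453Aux
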