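import Crest.Agent.S0453Aux.CondExp
import Crest.Agent.S0453Aux.BDefs
import Crest.Agent.S0453Aux.Orbit

/-!
# S0453, step B1b(ii): the part of `⟨B_p f, B_p' f⟩` on the graphs with an odd number of cross edges

For disjoint pairs `p = {a,b}`, `p' = {c,e}` let `tt G` be the number of cross edges
`ac, ae, bc, be`.  On `S = {G ∈ realizations d | tt G odd}` the cross block is determined by its
margins, so `S` is (fibrewise) a product and all four conditional expectations commute.
Hence `∑_{G ∈ S} B_p f G * B_p' f G ≥ 0`.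
-/

set_option autoImplicit false
open Finset
open Crest Crest.SwitchChain

namespace Crest.Agent.S0453Aux.B1Odd

/-! ### abstract part -/

section abstract
variable {α β β' γ δ δ' : Type*} [DecidableEq β] [DecidableEq β'] [DecidableEq γ] [DecidableEq δ]
  [DecidableEq δ']
variable {Om : Finset α} {φ : α → β} {ψ : α → β'} {χ : α → γ}

/-- refinement of a rectangle by information measurable w.r.t. the other side -/
theorem condExp_refine (hφ : Factors Om φ χ) (hψ : Factors Om ψ χ)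
    (hinj : ∀ z ∈ Om, ∀ z' ∈ Om, φ z = φ z' → ψ z = ψ z' → z = z')
    (hrect : ∀ x ∈ Om, ∀ y ∈ Om, χ x = χ y → ∃ z ∈ Om, φ z = φ x ∧ ψ z = ψ y)
    {u : α → δ} (hu : Factors Om ψ u) {v : α → δ'} (hv : Factors Om φ v)
    (f : α → ℝ) {x : α} (hx : x ∈ Om) :
    condExp Om (fun z => (φ z, u z)) (condExp Om (fun z => (ψ z, v z)) f) x
      = condExp Om (fun z => (ψ z, v z)) (condExp Om (fun z => (φ z, u z)) f) x := by
  have h1 : Factors Om (fun z => (φ z, u z)) (fun z => (χ z, u z, v z)) := by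
    intro a ha b hb hab
    simp only [Prod.mk.injEq] at hab ⊢
    exact ⟨hφ a ha b hb hab.1, hab.2, hv a ha b hb hab.1⟩
  have h2 : Factors Om (fun z => (ψ z, v z)) (fun z => (χ z, u z, v z)) := by
    intro a ha b hb hab
    simp only [Prod.mk.injEq] at hab ⊢
    exact ⟨hψ a ha b hb hab.1, hu a ha b hb hab.1, hab.2⟩
  have h3 : ∀ z ∈ Om, ∀ z' ∈ Om, (φ z, u z) = (φ z', u z') → (ψ z, v z) = (ψ z', v z') → z = z' := by
    intro z hz z' hz' e1 e2
    simp only [Prod.mk.injEq] at e1 e2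
    exact hinj z hz z' hz' e1.1 e2.1
  have h4 : ∀ x ∈ Om, ∀ y ∈ Om, (χ x, u x, v x) = (χ y, u y, v y) →
      ∃ z ∈ Om, (φ z, u z) = (φ x, u x) ∧ (ψ z, v z) = (ψ y, v y) := by
    intro a ha b hb hab
    simp only [Prod.mk.injEq] at hab
    obtain ⟨z, hz, e1, e2⟩ := hrect a ha b hb hab.1
    refine ⟨z, hz, ?_, ?_⟩
    · simp only [Prod.mk.injEq]
      exact ⟨e1, (hu z hz b hb e2).trans hab.2.1.symm⟩
    · simp only [Prod.mk.injEq]
      exact ⟨e2, (hv z hz a ha e1).trans hab.2.2⟩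
  rw [condExp_condExp_of_rectangle h1 h2 h3 h4 f hx, condExp_condExp_of_rectangle' h1 h2 h3 h4 f hx]

variable {P P' Q Q' : (α → ℝ) → (α → ℝ)}

/-- differences of commuting projections commute -/
theorem comm_sub (hP : IsProj Om P) (hP' : IsProj Om P') (hQ : IsProj Om Q) (hQ' : IsProj Om Q')
    (h11 : ∀ f, ∀ x ∈ Om, P (Q f) x = Q (P f) x) (h12 : ∀ f, ∀ x ∈ Om, P (Q' f) x = Q' (P f) x)
    (h21 : ∀ f, ∀ x ∈ Om, P' (Q f) x = Q (P' f) x)
    (h22 : ∀ f, ∀ x ∈ Om, P' (Q' f) x = Q' (P' f) x) (f : α → ℝ) (x : α) (hx : x ∈ Om) :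
    (fun g y => P g y - P' g y) ((fun g y => Q g y - Q' g y) f) x
      = (fun g y => Q g y - Q' g y) ((fun g y => P g y - P' g y) f) x := by
  show P (fun y => Q f y - Q' f y) x - P' (fun y => Q f y - Q' f y) x
    = Q (fun y => P f y - P' f y) x - Q' (fun y => P f y - P' f y) x
  rw [hP.sub_apply _ _ hx, hP'.sub_apply _ _ hx, hQ.sub_apply _ _ hx, hQ'.sub_apply _ _ hx,
    h11 f x hx, h12 f x hx, h21 f x hx, h22 f x hx]
  ring

end abstract


/-! ### graph part -/

section graph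
open Orb
variable {n : ℕ} {d : Fin n → ℕ} {a b c e : Fin n}

/-- number of cross edges -/
noncomputable def tt (a b c e : Fin n) (G : Finset (Edge n)) : ℕ :=
  ind G a c + ind G a e + ind G b c + ind G b e

/-- the realizations with an odd number of cross edges -/
noncomputable def Sodd (d : Fin n → ℕ) (a b c e : Fin n) : Finset (Finset (Edge n)) :=
  (realizations d).filter (fun G => tt a b c e G % 2 = 1)

theorem tt_swap_pairs (G : Finset (Edge n)) : tt c e a b G = tt a b c e G := by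
  unfold tt
  rw [ind_comm G c a, ind_comm G c b, ind_comm G e a, ind_comm G e b]
  ring

theorem Sodd_swap_pairs : Sodd d c e a b = Sodd d a b c e := by
  unfold Sodd
  simp only [tt_swap_pairs]

theorem bits_eq {p q r s p' q' r' s' : ℕ} (hp : p ≤ 1) (hq : q ≤ 1) (hr : r ≤ 1) (hs : s ≤ 1)
    (hp' : p' ≤ 1) (hq' : q' ≤ 1) (hr' : r' ≤ 1) (hs' : s' ≤ 1)
    (h1 : p + q = p' + q') (h2 : r + s = r' + s') (h3 : p + r = p' + r') (_h4 : q + s = q' + s')
    (hodd : (p + q + r + s) % 2 = 1) : p = p' ∧ q = q' ∧ r = r' ∧ s = s' := by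
  omega

/-- column sums are determined by `away {a,b}` -/
theorem col_eq (h : Dis4 a b c e) {x y : Finset (Edge n)} (hx : x ∈ realizations d)
    (hy : y ∈ realizations d) (haw : away {a, b} x = away {a, b} y) :
    ind x a c + ind x b c = ind y a c + ind y b c ∧ ind x a e + ind x b e = ind y a e + ind y b e := by
  have h1 := rho_eq h.ab hx hy haw h.ac.symm h.bc.symm
  have h2 := rho_eq h.ab hx hy haw h.ae.symm h.be.symm
  rw [ind_comm x c a, ind_comm x c b, ind_comm y c a, ind_comm y c b] at h1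
  rw [ind_comm x e a, ind_comm x e b, ind_comm y e a, ind_comm y e b] at h2
  exact ⟨h1, h2⟩

/-- row sums are determined by `away {c,e}` -/
theorem row_eq (h : Dis4 a b c e) {x y : Finset (Edge n)} (hx : x ∈ realizations d)
    (hy : y ∈ realizations d) (haw : away {c, e} x = away {c, e} y) :
    ind x a c + ind x a e = ind y a c + ind y a e ∧ ind x b c + ind x b e = ind y b c + ind y b e :=
  ⟨rho_eq h.ce hx hy haw h.ac h.ae, rho_eq h.ce hx hy haw h.bc h.be⟩

theorem tt_eq_of_away_left (h : Dis4 a b c e) {x y : Finset (Edge n)} (hx : x ∈ realizations d)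
    (hy : y ∈ realizations d) (haw : away {a, b} x = away {a, b} y) :
    tt a b c e x = tt a b c e y := by
  have := col_eq h hx hy haw
  unfold tt; omega

theorem tt_eq_of_away_right (h : Dis4 a b c e) {x y : Finset (Edge n)} (hx : x ∈ realizations d)
    (hy : y ∈ realizations d) (haw : away {c, e} x = away {c, e} y) :
    tt a b c e x = tt a b c e y := by
  have := row_eq h hx hy haw
  unfold tt; omega

/-- margins wanted at the four vertices: rows from `y`, columns from `x` -/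
noncomputable def mg (a b c e : Fin n) (x y : Finset (Edge n)) (u : Fin n) : ℕ :=
  if u = a ∨ u = b then ind y u c + ind y u e else ind x u a + ind x u b

/-- `uw` is a cross slot -/
def isX (a b c e u w : Fin n) : Prop :=
  ((u = a ∨ u = b) ∧ (w = c ∨ w = e)) ∨ ((u = c ∨ u = e) ∧ (w = a ∨ w = b))

/-- the glued graph: slots off `a,b` from `x`, slots off `c,e` from `y`, block from the margins -/
def zRel (a b c e : Fin n) (x y : Finset (Edge n)) (u w : Fin n) : Prop :=
  (u ≠ a ∧ u ≠ b ∧ w ≠ a ∧ w ≠ b ∧ Adj x u w) ∨ (u ≠ c ∧ u ≠ e ∧ w ≠ c ∧ w ≠ e ∧ Adj y u w) ∨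
    (isX a b c e u w ∧ tt a b c e x + 3 ≤ 2 * (mg a b c e x y u + mg a b c e x y w))

theorem zRel_symm (x y : Finset (Edge n)) (u w : Fin n) (hr : zRel a b c e x y u w) :
    zRel a b c e x y w u := by
  rcases hr with ⟨h1, h2, h3, h4, h5⟩ | ⟨h1, h2, h3, h4, h5⟩ | ⟨h1, h2⟩
  · exact Or.inl ⟨h3, h4, h1, h2, h5.symm⟩
  · exact Or.inr (Or.inl ⟨h3, h4, h1, h2, h5.symm⟩)
  · refine Or.inr (Or.inr ⟨?_, by omega⟩)
    rcases h1 with h1 | h1
    · exact Or.inr ⟨h1.2, h1.1⟩
    · exact Or.inl ⟨h1.2, h1.1⟩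

/-- the glued graph -/
noncomputable def zG (a b c e : Fin n) (x y : Finset (Edge n)) : Finset (Edge n) :=
  ofRel (zRel a b c e x y)

theorem adj_zG {x y : Finset (Edge n)} {u w : Fin n} :
    Adj (zG a b c e x y) u w ↔ u ≠ w ∧ zRel a b c e x y u w :=
  adj_ofRel (zRel_symm x y)

theorem adj_zG_left {x y : Finset (Edge n)}
    (h4 : away {a, b, c, e} x = away {a, b, c, e} y) {u w : Fin n}
    (hua : u ≠ a) (hub : u ≠ b) (hwa : w ≠ a) (hwb : w ≠ b) :
    Adj (zG a b c e x y) u w ↔ Adj x u w := by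
  rw [adj_zG]
  constructor
  · rintro ⟨_, ⟨_, _, _, _, h5⟩ | ⟨h1, h2, h3, h4', h5⟩ | ⟨h1, _⟩⟩
    · exact h5
    · exact (away_eq_iff.1 h4 u w (by simp [hua, hub, h1, h2]) (by simp [hwa, hwb, h3, h4'])).2 h5
    · rcases h1 with ⟨h1, _⟩ | ⟨_, h1⟩
      · rcases h1 with h1 | h1
        · exact absurd h1 hua
        · exact absurd h1 hub
      · rcases h1 with h1 | h1
        · exact absurd h1 hwa
        · exact absurd h1 hwb
  · intro hA
    exact ⟨hA.ne, Or.inl ⟨hua, hub, hwa, hwb, hA⟩⟩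

theorem adj_zG_right {x y : Finset (Edge n)}
    (h4 : away {a, b, c, e} x = away {a, b, c, e} y) {u w : Fin n}
    (huc : u ≠ c) (hue : u ≠ e) (hwc : w ≠ c) (hwe : w ≠ e) :
    Adj (zG a b c e x y) u w ↔ Adj y u w := by
  rw [adj_zG]
  constructor
  · rintro ⟨_, ⟨h1, h2, h3, h4', h5⟩ | ⟨_, _, _, _, h5⟩ | ⟨h1, _⟩⟩
    · exact (away_eq_iff.1 h4 u w (by simp [huc, hue, h1, h2]) (by simp [hwc, hwe, h3, h4'])).1 h5
    · exact h5
    · rcases h1 with ⟨_, h1⟩ | ⟨h1, _⟩
      · rcases h1 with h1 | h1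
        · exact absurd h1 hwc
        · exact absurd h1 hwe
      · rcases h1 with h1 | h1
        · exact absurd h1 huc
        · exact absurd h1 hue
  · intro hA
    exact ⟨hA.ne, Or.inr (Or.inl ⟨huc, hue, hwc, hwe, hA⟩)⟩

/-- cross slots of the glued graph -/
theorem adj_zG_cross (h : Dis4 a b c e) {x y : Finset (Edge n)} {u w : Fin n}
    (hu : u = a ∨ u = b) (hw : w = c ∨ w = e) :
    Adj (zG a b c e x y) u w ↔
      tt a b c e x + 3 ≤ 2 * ((ind y u c + ind y u e) + (ind x w a + ind x w b)) := by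
  have hwa : ¬ (w = a ∨ w = b) := by
    rcases hw with rfl | rfl
    · exact not_or.2 ⟨h.ac.symm, h.bc.symm⟩
    · exact not_or.2 ⟨h.ae.symm, h.be.symm⟩
  have huw : u ≠ w := by
    rintro rfl; exact hwa hu
  have m1 : mg a b c e x y u = ind y u c + ind y u e := by simp [mg, hu]
  have m2 : mg a b c e x y w = ind x w a + ind x w b := by simp [mg, hwa]
  rw [adj_zG, ← m1, ← m2]
  constructor
  · rintro ⟨_, ⟨h1, h2, _⟩ | ⟨_, _, h3, h4', _⟩ | ⟨_, h2⟩⟩
    · exact absurd hu (not_or.2 ⟨h1, h2⟩)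
    · exact absurd hw (not_or.2 ⟨h3, h4'⟩)
    · exact h2
  · intro hh
    exact ⟨huw, Or.inr (Or.inr ⟨Or.inl ⟨hu, hw⟩, hh⟩)⟩


theorem ind_zG_cross (h : Dis4 a b c e) {x y : Finset (Edge n)} {u w : Fin n}
    (hu : u = a ∨ u = b) (hw : w = c ∨ w = e) :
    (tt a b c e x + 3 ≤ 2 * ((ind y u c + ind y u e) + (ind x w a + ind x w b)) →
        ind (zG a b c e x y) u w = 1) ∧
      (¬ tt a b c e x + 3 ≤ 2 * ((ind y u c + ind y u e) + (ind x w a + ind x w b)) →
        ind (zG a b c e x y) u w = 0) :=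
  ⟨fun hc => ind_eq_one.2 ((adj_zG_cross h hu hw).2 hc),
    fun hc => ind_eq_zero.2 (fun hA => hc ((adj_zG_cross h hu hw).1 hA))⟩

/-- the four cross slots of the glued graph have the wanted margins -/
theorem margins_zG (h : Dis4 a b c e) {x y : Finset (Edge n)}
    (ht : tt a b c e x = tt a b c e y) (hodd : tt a b c e x % 2 = 1) :
    ind (zG a b c e x y) a c + ind (zG a b c e x y) a e = ind y a c + ind y a e ∧
    ind (zG a b c e x y) b c + ind (zG a b c e x y) b e = ind y b c + ind y b e ∧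
    ind (zG a b c e x y) a c + ind (zG a b c e x y) b c = ind x a c + ind x b c ∧
    ind (zG a b c e x y) a e + ind (zG a b c e x y) b e = ind x a e + ind x b e := by
  have k1 := ind_zG_cross (x := x) (y := y) h (Or.inl rfl : a = a ∨ a = b) (Or.inl rfl : c = c ∨ c = e)
  have k2 := ind_zG_cross (x := x) (y := y) h (Or.inl rfl : a = a ∨ a = b) (Or.inr rfl : e = c ∨ e = e)
  have k3 := ind_zG_cross (x := x) (y := y) h (Or.inr rfl : b = a ∨ b = b) (Or.inl rfl : c = c ∨ c = e)
  have k4 := ind_zG_cross (x := x) (y := y) h (Or.inr rfl : b = a ∨ b = b) (Or.inr rfl : e = c ∨ e = e)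
  rw [ind_comm x c a, ind_comm x c b] at k1 k3
  rw [ind_comm x e a, ind_comm x e b] at k2 k4
  unfold tt at ht hodd k1 k2 k3 k4
  have b1 := ind_le_one x a c
  have b2 := ind_le_one x a e
  have b3 := ind_le_one x b c
  have b4 := ind_le_one x b e
  have b5 := ind_le_one y a c
  have b6 := ind_le_one y a e
  have b7 := ind_le_one y b c
  have b8 := ind_le_one y b e
  generalize ind x a c = p at *
  generalize ind x a e = q at *
  generalize ind x b c = r at *
  generalize ind x b e = s at *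
  generalize ind y a c = p' at *
  generalize ind y a e = q' at *
  generalize ind y b c = r' at *
  generalize ind y b e = s' at *
  by_cases c1 : p + q + r + s + 3 ≤ 2 * (p' + q' + (p + r)) <;>
  by_cases c2 : p + q + r + s + 3 ≤ 2 * (p' + q' + (q + s)) <;>
  by_cases c3 : p + q + r + s + 3 ≤ 2 * (r' + s' + (p + r)) <;>
  by_cases c4 : p + q + r + s + 3 ≤ 2 * (r' + s' + (q + s)) <;>
  [rw [k1.1 c1, k2.1 c2, k3.1 c3, k4.1 c4]; rw [k1.1 c1, k2.1 c2, k3.1 c3, k4.2 c4];
   rw [k1.1 c1, k2.1 c2, k3.2 c3, k4.1 c4]; rw [k1.1 c1, k2.1 c2, k3.2 c3, k4.2 c4];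
   rw [k1.1 c1, k2.2 c2, k3.1 c3, k4.1 c4]; rw [k1.1 c1, k2.2 c2, k3.1 c3, k4.2 c4];
   rw [k1.1 c1, k2.2 c2, k3.2 c3, k4.1 c4]; rw [k1.1 c1, k2.2 c2, k3.2 c3, k4.2 c4];
   rw [k1.2 c1, k2.1 c2, k3.1 c3, k4.1 c4]; rw [k1.2 c1, k2.1 c2, k3.1 c3, k4.2 c4];
   rw [k1.2 c1, k2.1 c2, k3.2 c3, k4.1 c4]; rw [k1.2 c1, k2.1 c2, k3.2 c3, k4.2 c4];
   rw [k1.2 c1, k2.2 c2, k3.1 c3, k4.1 c4]; rw [k1.2 c1, k2.2 c2, k3.1 c3, k4.2 c4];
   rw [k1.2 c1, k2.2 c2, k3.2 c3, k4.1 c4]; rw [k1.2 c1, k2.2 c2, k3.2 c3, k4.2 c4]] <;>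
  omega


theorem rest_left {x y : Finset (Edge n)} (h4 : away {a, b, c, e} x = away {a, b, c, e} y)
    {v : Fin n} (hva : v ≠ a) (hvb : v ≠ b) :
    ∑ w ∈ univ \ {a, b}, ind (zG a b c e x y) v w = ∑ w ∈ univ \ {a, b}, ind x v w := by
  apply sum_congr rfl
  intro w hw
  simp only [mem_sdiff, mem_univ, mem_insert, mem_singleton, not_or, true_and] at hw
  exact ind_eq_ind.2 (adj_zG_left h4 hva hvb hw.1 hw.2)

theorem rest_right {x y : Finset (Edge n)} (h4 : away {a, b, c, e} x = away {a, b, c, e} y)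
    {v : Fin n} (hvc : v ≠ c) (hve : v ≠ e) :
    ∑ w ∈ univ \ {c, e}, ind (zG a b c e x y) v w = ∑ w ∈ univ \ {c, e}, ind y v w := by
  apply sum_congr rfl
  intro w hw
  simp only [mem_sdiff, mem_univ, mem_insert, mem_singleton, not_or, true_and] at hw
  exact ind_eq_ind.2 (adj_zG_right h4 hvc hve hw.1 hw.2)

theorem zG_mem (h : Dis4 a b c e) {x y : Finset (Edge n)} (hx : x ∈ realizations d)
    (hy : y ∈ realizations d) (h4 : away {a, b, c, e} x = away {a, b, c, e} y)
    (hρ : ∀ w, w ≠ a → w ≠ b → w ≠ c → w ≠ e → ind x w a + ind x w b = ind y w a + ind y w b)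
    (ht : tt a b c e x = tt a b c e y) (hodd : tt a b c e x % 2 = 1) :
    zG a b c e x y ∈ realizations d := by
  obtain ⟨m1, m2, m3, m4⟩ := margins_zG h ht hodd
  rw [mem_realizations]
  intro v
  rw [card_nb_eq_sum]
  by_cases hva : v = a
  · subst hva
    have e1 := sum_ind_eq hy v
    rw [sum_ind_split y h.ce v] at e1
    rw [sum_ind_split _ h.ce v, rest_right h4 h.ac h.ae]
    omega
  by_cases hvb : v = b
  · subst hvb
    have e1 := sum_ind_eq hy v
    rw [sum_ind_split y h.ce v] at e1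
    rw [sum_ind_split _ h.ce v, rest_right h4 h.bc h.be]
    omega
  by_cases hvc : v = c
  · subst hvc
    have e1 := sum_ind_eq hx v
    rw [sum_ind_split x h.ab v] at e1
    rw [sum_ind_split _ h.ab v, rest_left h4 hva hvb, ind_comm _ v a, ind_comm _ v b]
    rw [ind_comm x v a, ind_comm x v b] at e1
    omega
  by_cases hve : v = e
  · subst hve
    have e1 := sum_ind_eq hx v
    rw [sum_ind_split x h.ab v] at e1
    rw [sum_ind_split _ h.ab v, rest_left h4 hva hvb, ind_comm _ v a, ind_comm _ v b]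
    rw [ind_comm x v a, ind_comm x v b] at e1
    omega
  · have e1 := sum_ind_eq hx v
    rw [sum_ind_split x h.ab v] at e1
    rw [sum_ind_split _ h.ab v, rest_left h4 hva hvb,
      ind_eq_ind.2 (adj_zG_right h4 hvc hve h.ac h.ae),
      ind_eq_ind.2 (adj_zG_right h4 hvc hve h.bc h.be)]
    have := hρ v hva hvb hvc hve
    omega

theorem away_zG_left {x y : Finset (Edge n)} (h4 : away {a, b, c, e} x = away {a, b, c, e} y) :
    away {a, b} (zG a b c e x y) = away {a, b} x :=
  away_pair_eq_iff.2 fun _ _ h1 h2 h3 h4' => adj_zG_left h4 h1 h2 h3 h4'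

theorem away_zG_right {x y : Finset (Edge n)} (h4 : away {a, b, c, e} x = away {a, b, c, e} y) :
    away {c, e} (zG a b c e x y) = away {c, e} y :=
  away_pair_eq_iff.2 fun _ _ h1 h2 h3 h4' => adj_zG_right h4 h1 h2 h3 h4'

/-- the common information of `away {a,b}` and `away {c,e}` -/
noncomputable def chi (a b c e : Fin n) (G : Finset (Edge n)) :
    Finset (Edge n) × (Fin n → ℕ) × ℕ :=
  (away {a, b, c, e} G,
    (fun w => if w = a ∨ w = b ∨ w = c ∨ w = e then 0 else ind G w a + ind G w b), tt a b c e G)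

theorem mem_Sodd {G : Finset (Edge n)} :
    G ∈ Sodd d a b c e ↔ G ∈ realizations d ∧ tt a b c e G % 2 = 1 := by
  simp [Sodd]

theorem factors_left (h : Dis4 a b c e) :
    Factors (Sodd d a b c e) (away {a, b}) (chi a b c e) := by
  intro x hx y hy haw
  have hx' := (mem_Sodd.1 hx).1
  have hy' := (mem_Sodd.1 hy).1
  unfold chi
  simp only [Prod.mk.injEq]
  refine ⟨?_, ?_, tt_eq_of_away_left h hx' hy' haw⟩
  · rw [away_eq_iff]
    intro u w hu hw
    simp only [mem_insert, mem_singleton, not_or] at hu hw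
    exact away_pair_eq_iff.1 haw u w hu.1 hu.2.1 hw.1 hw.2.1
  · funext w
    split_ifs with hw
    · rfl
    · simp only [not_or] at hw
      exact rho_eq h.ab hx' hy' haw hw.1 hw.2.1

theorem factors_right (h : Dis4 a b c e) :
    Factors (Sodd d a b c e) (away {c, e}) (chi a b c e) := by
  intro x hx y hy haw
  have hx' := (mem_Sodd.1 hx).1
  have hy' := (mem_Sodd.1 hy).1
  unfold chi
  simp only [Prod.mk.injEq]
  refine ⟨?_, ?_, tt_eq_of_away_right h hx' hy' haw⟩
  · rw [away_eq_iff]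
    intro u w hu hw
    simp only [mem_insert, mem_singleton, not_or] at hu hw
    exact away_pair_eq_iff.1 haw u w hu.2.2.1 hu.2.2.2 hw.2.2.1 hw.2.2.2
  · funext w
    split_ifs with hw
    · rfl
    · simp only [not_or] at hw
      rw [ind_eq_ind.2 (away_pair_eq_iff.1 haw w a hw.2.2.1 hw.2.2.2 h.ac h.ae),
        ind_eq_ind.2 (away_pair_eq_iff.1 haw w b hw.2.2.1 hw.2.2.2 h.bc h.be)]

/-- on `Sodd` the cross block is determined by the margins -/
theorem cross_eq (h : Dis4 a b c e) {x y : Finset (Edge n)} (hx : x ∈ Sodd d a b c e)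
    (hy : y ∈ Sodd d a b c e) (h1 : away {a, b} x = away {a, b} y)
    (h2 : ind x a c + ind x a e = ind y a c + ind y a e) :
    ind x a c = ind y a c ∧ ind x a e = ind y a e ∧ ind x b c = ind y b c ∧
      ind x b e = ind y b e := by
  have hx' := mem_Sodd.1 hx
  have hy' := mem_Sodd.1 hy
  obtain ⟨c1, c2⟩ := col_eq h hx'.1 hy'.1 h1
  have hodd := hx'.2
  unfold tt at hodd
  exact bits_eq (ind_le_one _ _ _) (ind_le_one _ _ _) (ind_le_one _ _ _) (ind_le_one _ _ _)
    (ind_le_one _ _ _) (ind_le_one _ _ _) (ind_le_one _ _ _) (ind_le_one _ _ _) h2 (by omega) c1 c2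
    hodd

theorem inj_pair (h : Dis4 a b c e) : ∀ z ∈ Sodd d a b c e, ∀ z' ∈ Sodd d a b c e,
    away {a, b} z = away {a, b} z' → away {c, e} z = away {c, e} z' → z = z' := by
  intro z hz z' hz' h1 h2
  have hr := row_eq h (mem_Sodd.1 hz).1 (mem_Sodd.1 hz').1 h2
  obtain ⟨e1, e2, e3, e4⟩ := cross_eq h hz hz' h1 hr.1
  refine graph_ext_pair a b ?_ ?_ (away_pair_eq_iff.1 h1)
  · intro w
    by_cases hwc : w = c
    · subst hwc; exact ind_eq_ind.1 e1
    by_cases hwe : w = e
    · subst hwe; exact ind_eq_ind.1 e2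
    exact away_pair_eq_iff.1 h2 a w h.ac h.ae hwc hwe
  · intro w
    by_cases hwc : w = c
    · subst hwc; exact ind_eq_ind.1 e3
    by_cases hwe : w = e
    · subst hwe; exact ind_eq_ind.1 e4
    exact away_pair_eq_iff.1 h2 b w h.bc h.be hwc hwe

theorem rect_pair (h : Dis4 a b c e) : ∀ x ∈ Sodd d a b c e, ∀ y ∈ Sodd d a b c e,
    chi a b c e x = chi a b c e y →
      ∃ z ∈ Sodd d a b c e, away {a, b} z = away {a, b} x ∧ away {c, e} z = away {c, e} y := by
  intro x hx y hy hxy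
  unfold chi at hxy
  simp only [Prod.mk.injEq] at hxy
  obtain ⟨h4, hρ, ht⟩ := hxy
  have hx' := mem_Sodd.1 hx
  have hy' := mem_Sodd.1 hy
  have hρ' : ∀ w, w ≠ a → w ≠ b → w ≠ c → w ≠ e →
      ind x w a + ind x w b = ind y w a + ind y w b := by
    intro w h1 h2 h3 h4'
    have := congrFun hρ w
    simpa [h1, h2, h3, h4'] using this
  have hz := zG_mem h hx'.1 hy'.1 h4 hρ' ht hx'.2
  refine ⟨zG a b c e x y, mem_Sodd.2 ⟨hz, ?_⟩, away_zG_left h4, away_zG_right h4⟩
  rw [tt_eq_of_away_left h hz hx'.1 (away_zG_left h4)]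
  exact hx'.2


/-- row sum of `a` in the cross block -/
noncomputable def rs (a c e : Fin n) (G : Finset (Edge n)) : ℕ := ind G a c + ind G a e

theorem factors_rs_right (h : Dis4 a b c e) : Factors (Sodd d a b c e) (away {c, e}) (rs a c e) :=
  fun _ hx _ hy haw => (row_eq h (mem_Sodd.1 hx).1 (mem_Sodd.1 hy).1 haw).1

theorem factors_rs_left (h : Dis4 a b c e) : Factors (Sodd d a b c e) (away {a, b}) (rs c a b) :=
  fun _ hx _ hy haw => rho_eq h.ab (mem_Sodd.1 hx).1 (mem_Sodd.1 hy).1 haw h.ac.symm h.bc.symm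

theorem blk4_eq_iff {x y : Finset (Edge n)} : blk4 a b c e x = blk4 a b c e y ↔
    ind x a c = ind y a c ∧ ind x a e = ind y a e ∧ ind x b c = ind y b c ∧
      ind x b e = ind y b e := by
  unfold blk4
  simp only [Prod.mk.injEq, decide_eq_decide, ind_eq_ind]

/-- on `Sodd` the key `(away {a,b}, blk4)` has the same fibres as `(away {a,b}, row sum)` -/
theorem key_iff (h : Dis4 a b c e) : ∀ x ∈ Sodd d a b c e, ∀ y ∈ Sodd d a b c e,
    ((away {a, b} x, blk4 a b c e x) = (away {a, b} y, blk4 a b c e y) ↔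
      (away {a, b} x, rs a c e x) = (away {a, b} y, rs a c e y)) := by
  intro x hx y hy
  simp only [Prod.mk.injEq, blk4_eq_iff]
  constructor
  · rintro ⟨h1, e1, e2, _, _⟩
    exact ⟨h1, by unfold rs; rw [e1, e2]⟩
  · rintro ⟨h1, h2⟩
    exact ⟨h1, cross_eq h hx hy h1 h2⟩

/-- the parity of `tt` is a function of `away {a,b}` -/
theorem factors_parity (h : Dis4 a b c e) {κ : Type*} (m : Finset (Edge n) → κ) :
    Factors (realizations d) (fun G => (away {a, b} G, m G)) (fun G => tt a b c e G % 2) := by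
  intro x hx y hy hxy
  simp only [Prod.mk.injEq] at hxy
  show tt a b c e x % 2 = tt a b c e y % 2
  rw [tt_eq_of_away_left h hx hy hxy.1]

/-- `E_p^o` on `Sodd` -/
theorem Eo_eq (h : Dis4 a b c e) (f : Finset (Edge n) → ℝ) {G : Finset (Edge n)}
    (hG : G ∈ Sodd d a b c e) :
    Eo d a b c e f G = condExp (Sodd d a b c e) (fun z => (away {a, b} z, rs a c e z)) f G := by
  have hG' := mem_Sodd.1 hG
  unfold Eo
  rw [cE_eq_condExp, ← condExp_filter_eq (factors_parity h (blk4 a b c e)) f hG'.1 1 hG'.2]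
  exact condExp_eq_of_iff (key_iff h) f hG

/-- `E_p` on `Sodd` -/
theorem Ep_eq (h : Dis4 a b c e) (f : Finset (Edge n) → ℝ) {G : Finset (Edge n)}
    (hG : G ∈ Sodd d a b c e) :
    Ep d a b f G = condExp (Sodd d a b c e) (fun z => (away {a, b} z, ())) f G := by
  have hG' := mem_Sodd.1 hG
  unfold Ep
  rw [cE_eq_condExp,
    condExp_eq_of_iff (φ' := fun z => (away {a, b} z, ())) (fun x _ y _ => by simp) f hG'.1,
    ← condExp_filter_eq (factors_parity h (fun _ => ())) f hG'.1 1 hG'.2]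
  rfl

/-- **B1b(ii)**: the odd part of `⟨B_p f, B_p' f⟩` is nonnegative. -/
theorem sum_odd_nonneg (d : Fin n → ℕ) (h : Dis4 a b c e) (f : Finset (Edge n) → ℝ) :
    0 ≤ ∑ G ∈ (realizations d).filter (fun G => tt a b c e G % 2 = 1),
      Bo d a b c e f G * Bo d c e a b f G := by
  set S := Sodd d a b c e with hS
  have hfl := factors_left (d := d) h
  have hfr := factors_right (d := d) h
  have hin := inj_pair (d := d) h
  have hre := rect_pair (d := d) h
  have hu := factors_rs_right (d := d) h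
  have hv := factors_rs_left (d := d) h
  have hu0 : Factors S (away {c, e}) (fun _ : Finset (Edge n) => ()) := fun _ _ _ _ _ => rfl
  have hv0 : Factors S (away {a, b}) (fun _ : Finset (Edge n) => ()) := fun _ _ _ _ _ => rfl
  -- the four projections
  have pP := isProj_condExp S (fun z => (away {a, b} z, rs a c e z))
  have pP' := isProj_condExp S (fun z : Finset (Edge n) => (away {a, b} z, ()))
  have pQ := isProj_condExp S (fun z => (away {c, e} z, rs c a b z))
  have pQ' := isProj_condExp S (fun z : Finset (Edge n) => (away {c, e} z, ()))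
  have tP : Factors S (fun z => (away {a, b} z, rs a c e z))
      (fun z : Finset (Edge n) => (away {a, b} z, ())) := by
    intro x _ y _ hxy
    simp only [Prod.mk.injEq] at hxy ⊢
    exact ⟨hxy.1, trivial⟩
  have tQ : Factors S (fun z => (away {c, e} z, rs c a b z))
      (fun z : Finset (Edge n) => (away {c, e} z, ())) := by
    intro x _ y _ hxy
    simp only [Prod.mk.injEq] at hxy ⊢
    exact ⟨hxy.1, trivial⟩
  have pB := pP.sub pP' (fun g x hx => condExp_tower' tP g hx) (fun g x _ => condExp_tower tP g x)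
  have pB' := pQ.sub pQ' (fun g x hx => condExp_tower' tQ g hx) (fun g x _ => condExp_tower tQ g x)
  have hcomm := comm_sub pP pP' pQ pQ'
    (fun g x hx => condExp_refine hfl hfr hin hre hu hv g hx)
    (fun g x hx => condExp_refine hfl hfr hin hre hu hv0 g hx)
    (fun g x hx => condExp_refine hfl hfr hin hre hu0 hv g hx)
    (fun g x hx => condExp_refine hfl hfr hin hre hu0 hv0 g hx)
  have key := pB.ip_nonneg_of_comm pB' hcomm f
  have hS' : (realizations d).filter (fun G => tt a b c e G % 2 = 1) = S := rfl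
  rw [hS']
  refine le_of_le_of_eq key ?_
  unfold ip
  refine sum_congr rfl fun G hG => ?_
  have hG2 : G ∈ Sodd d c e a b := by rw [Sodd_swap_pairs]; exact hG
  unfold Bo
  rw [Eo_eq h f hG, Ep_eq h f hG, Eo_eq h.swap_pairs f hG2, Ep_eq h.swap_pairs f hG2,
    show Sodd d c e a b = Sodd d a b c e from Sodd_swap_pairs]

end graph

end Crest.Agent.S0453Aux.B1Odd
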