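import Crest.Agent.S0453Aux.Defs

/-!
# S0453, step (B2): abstract lemmas on `cE` and an involution
-/

set_option autoImplicit false
open Finset

namespace Crest.Agent.S0453Aux

section abs

variable {α κ μ : Type*} [DecidableEq κ] [DecidableEq μ]

/-- `σ` is an involution of `Om` preserving `key`. -/
structure InvOn (Om : Finset α) (σ : α → α) : Prop where
  mem : ∀ x ∈ Om, σ x ∈ Om
  inv : ∀ x ∈ Om, σ (σ x) = x

theorem InvOn.sum_comp {Om : Finset α} {σ : α → α} (h : InvOn Om σ) (f : α → ℝ) :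
    ∑ x ∈ Om, f (σ x) = ∑ x ∈ Om, f x := by
  refine Finset.sum_nbij' σ σ h.mem h.mem h.inv h.inv ?_
  intro x _; rfl

theorem InvOn.filter {Om : Finset α} {σ : α → α} (h : InvOn Om σ) (P : α → Prop)
    [DecidablePred P] (hP : ∀ x ∈ Om, P x → P (σ x)) : InvOn (Om.filter P) σ where
  mem := by
    intro x hx
    rw [mem_filter] at hx ⊢
    exact ⟨h.mem x hx.1, hP x hx.1 hx.2⟩
  inv := by
    intro x hx
    exact h.inv x (mem_filter.1 hx).1

theorem b2_cE_congr_key (Om : Finset α) (key : α → κ) (f : α → ℝ) {x y : α}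
    (h : key x = key y) : cE Om key f x = cE Om key f y := by
  unfold cE; rw [h]

theorem b2_cE_congr (Om : Finset α) (key : α → κ) {f g : α → ℝ} (h : ∀ x ∈ Om, f x = g x)
    (x : α) : cE Om key f x = cE Om key g x := by
  unfold cE
  congr 1
  apply Finset.sum_congr rfl
  intro y hy
  exact h y (mem_filter.1 hy).1

theorem b2_cE_add (Om : Finset α) (key : α → κ) (f g : α → ℝ) (x : α) :
    cE Om key (fun y => f y + g y) x = cE Om key f x + cE Om key g x := by
  unfold cE; rw [Finset.sum_add_distrib, add_div]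

theorem b2_cE_sub (Om : Finset α) (key : α → κ) (f g : α → ℝ) (x : α) :
    cE Om key (fun y => f y - g y) x = cE Om key f x - cE Om key g x := by
  unfold cE; rw [Finset.sum_sub_distrib, sub_div]

/-- `cE` of a function which is constant on the fibre. -/
theorem b2_cE_const_on_fibre (Om : Finset α) (key : α → κ) (f : α → ℝ) {x : α} (hx : x ∈ Om)
    (h : ∀ y ∈ Om, key y = key x → f y = f x) : cE Om key f x = f x := by
  unfold cE
  have hne : (Om.filter (fun y => key y = key x)).card ≠ 0 := by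
    rw [Finset.card_ne_zero]
    exact ⟨x, mem_filter.2 ⟨hx, rfl⟩⟩
  have : ∑ y ∈ Om.filter (fun y => key y = key x), f y
      = ((Om.filter (fun y => key y = key x)).card : ℝ) * f x := by
    rw [Finset.sum_congr rfl (fun y hy => h y (mem_filter.1 hy).1 (mem_filter.1 hy).2)]
    simp
  rw [this]
  field_simp

theorem InvOn.fibre {Om : Finset α} {σ : α → α} (h : InvOn Om σ) (key : α → κ)
    (hk : ∀ x ∈ Om, key (σ x) = key x) (k : κ) : InvOn (Om.filter (fun y => key y = k)) σ :=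
  h.filter _ (fun x hx hxk => by rw [hk x hx]; exact hxk)

/-- antisymmetric functions have zero conditional expectation. -/
theorem b2_cE_antisymm {Om : Finset α} {σ : α → α} (h : InvOn Om σ) (key : α → κ)
    (hk : ∀ x ∈ Om, key (σ x) = key x) (θ : α → ℝ) (hθ : ∀ x ∈ Om, θ (σ x) = - θ x) (x : α) :
    cE Om key θ x = 0 := by
  unfold cE
  have h1 := (h.fibre key hk (key x)).sum_comp θ
  have h2 : ∑ y ∈ Om.filter (fun y => key y = key x), θ (σ y)
      = - ∑ y ∈ Om.filter (fun y => key y = key x), θ y := by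
    rw [← Finset.sum_neg_distrib]
    apply Finset.sum_congr rfl
    intro y hy
    exact hθ y (mem_filter.1 hy).1
  have h3 : ∑ y ∈ Om.filter (fun y => key y = key x), θ y = 0 := by linarith
  rw [h3, zero_div]

/-- antisymmetric ⟂ symmetric. -/
theorem b2_ip_antisymm_symm {Om : Finset α} {σ : α → α} (h : InvOn Om σ) (θ u : α → ℝ)
    (hθ : ∀ x ∈ Om, θ (σ x) = - θ x) (hu : ∀ x ∈ Om, u (σ x) = u x) : ip Om θ u = 0 := by
  unfold ip
  have h1 := h.sum_comp (fun x => θ x * u x)
  have h2 : ∑ x ∈ Om, θ (σ x) * u (σ x) = - ∑ x ∈ Om, θ x * u x := by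
    rw [← Finset.sum_neg_distrib]
    apply Finset.sum_congr rfl
    intro y hy
    rw [hθ y hy, hu y hy]; ring
  linarith

/-- For a `σ`-symmetric function, conditioning on `(key, m)` or on `key` inside `D` is the same
on `D`, when `σ` exchanges the two values of `m` on each fibre of `D`. -/
theorem b2_cE_pair_eq {Om : Finset α} {σ : α → α} (h : InvOn Om σ) (key : α → κ) (m : α → μ)
    (D : α → Prop) [DecidablePred D]
    (hk : ∀ x ∈ Om, key (σ x) = key x)
    (hD : ∀ x ∈ Om, D x → D (σ x))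
    (hmD : ∀ x ∈ Om, ∀ y ∈ Om, D x → m y = m x → D y)
    (hm1 : ∀ x ∈ Om, ∀ y ∈ Om, D x → D y → m y ≠ m x → m (σ y) = m x)
    (hm2 : ∀ y ∈ Om, D y → m (σ y) ≠ m y)
    (s : α → ℝ) (hs : ∀ x ∈ Om, s (σ x) = s x) {x : α} (hx : x ∈ Om) (hxD : D x) :
    cE Om (fun y => (key y, m y)) s x = cE (Om.filter D) key s x := by
  classical
  unfold cE
  set F := (Om.filter D).filter (fun y => key y = key x) with hF
  set F1 := Om.filter (fun y => (key y, m y) = (key x, m x)) with hF1
  set F2 := F.filter (fun y => m y ≠ m x) with hF2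
  have hF1' : F1 = F.filter (fun y => m y = m x) := by
    ext y
    simp only [hF1, hF, mem_filter, Prod.mk.injEq]
    constructor
    · rintro ⟨h1, h2, h3⟩
      exact ⟨⟨⟨h1, hmD x hx y h1 hxD h3⟩, h2⟩, h3⟩
    · rintro ⟨⟨⟨h1, _⟩, h2⟩, h3⟩
      exact ⟨h1, h2, h3⟩
  -- σ maps F1 bijectively onto F2
  have hmemF : ∀ y, y ∈ F ↔ (y ∈ Om ∧ D y) ∧ key y = key x := by
    intro y; simp only [hF, mem_filter]
  have hbij : ∀ g : α → ℝ, ∑ y ∈ F2, g y = ∑ y ∈ F1, g (σ y) := by
    intro g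
    symm
    rw [hF1']
    refine Finset.sum_nbij' σ σ ?_ ?_ ?_ ?_ ?_
    · intro y hy
      rw [mem_filter, hmemF] at hy
      obtain ⟨⟨⟨hy1, hy2⟩, hy3⟩, hy4⟩ := hy
      rw [hF2, mem_filter, hmemF]
      refine ⟨⟨⟨h.mem y hy1, hD y hy1 hy2⟩, by rw [hk y hy1]; exact hy3⟩, ?_⟩
      rw [← hy4]; exact hm2 y hy1 hy2
    · intro y hy
      rw [hF2, mem_filter, hmemF] at hy
      obtain ⟨⟨⟨hy1, hy2⟩, hy3⟩, hy4⟩ := hy
      rw [mem_filter, hmemF]
      exact ⟨⟨⟨h.mem y hy1, hD y hy1 hy2⟩, by rw [hk y hy1]; exact hy3⟩,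
        hm1 x hx y hy1 hxD hy2 hy4⟩
    · intro y hy
      rw [mem_filter, hmemF] at hy
      exact h.inv y hy.1.1.1
    · intro y hy
      rw [hF2, mem_filter, hmemF] at hy
      exact h.inv y hy.1.1.1
    · intro y _; rfl
  have hsplit : ∀ g : α → ℝ, ∑ y ∈ F, g y = ∑ y ∈ F1, g y + ∑ y ∈ F2, g y := by
    intro g
    rw [hF1', hF2]
    exact (Finset.sum_filter_add_sum_filter_not F (fun y => m y = m x) g).symm
  have hsum : ∑ y ∈ F, s y = 2 * ∑ y ∈ F1, s y := by
    rw [hsplit, hbij]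
    have : ∑ y ∈ F1, s (σ y) = ∑ y ∈ F1, s y := by
      apply Finset.sum_congr rfl
      intro y hy
      exact hs y (mem_filter.1 hy).1
    rw [this]; ring
  have hcard : (F.card : ℝ) = 2 * (F1.card : ℝ) := by
    have h1 := hsplit (fun _ => (1 : ℝ))
    have h2 := hbij (fun _ => (1 : ℝ))
    simp only [Finset.sum_const, nsmul_eq_mul, mul_one] at h1 h2
    rw [h1, h2]; ring
  rw [hsum, hcard]
  have hne : (F1.card : ℝ) ≠ 0 := by
    have : F1.card ≠ 0 := by
      rw [Finset.card_ne_zero]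
      exact ⟨x, mem_filter.2 ⟨hx, rfl⟩⟩
    exact_mod_cast this
  field_simp

end abs

end Crest.Agent.S0453Aux
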