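import Crest.Agent.S0453Aux.BDefs

/-!
# S0453, step (B): API for the switch involution `tau a b c e`
-/

set_option autoImplicit false
open Finset
open Crest Crest.SwitchChain

namespace Crest.Agent.S0453Aux.B2T

variable {n : ℕ}

/-- `{u,w}` is one of the four cross slots. -/
def isCross (a b c e u w : Fin n) : Prop :=
  (u = a ∧ w = c) ∨ (u = c ∧ w = a) ∨ (u = a ∧ w = e) ∨ (u = e ∧ w = a) ∨
  (u = b ∧ w = c) ∨ (u = c ∧ w = b) ∨ (u = b ∧ w = e) ∨ (u = e ∧ w = b)

theorem mkE_mem_cyc {a b c e u w : Fin n} (huw : u ≠ w) :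
    mkE u w huw ∈ cyc a b c e ↔ isCross a b c e u w := by
  simp only [cyc, mem_filter, mem_univ, true_and, mkE, Sym2.eq_iff, isCross]
  tauto

theorem isCross.ne {a b c e u w : Fin n} (h : Dis4 a b c e) (hc : isCross a b c e u w) : u ≠ w := by
  obtain ⟨h1, h2, h3, h4, h5, h6⟩ := h
  unfold isCross at hc
  grind

theorem adj_symmDiff_cyc {a b c e : Fin n} (h : Dis4 a b c e) (G : Finset (Edge n)) (u w : Fin n) :
    Adj (symmDiff G (cyc a b c e)) u w ↔
      (Adj G u w ∧ ¬ isCross a b c e u w) ∨ (¬ Adj G u w ∧ isCross a b c e u w) := by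
  by_cases huw : u = w
  · subst huw
    constructor
    · intro h'; exact absurd rfl h'.ne
    · rintro (h' | h')
      · exact absurd rfl h'.1.ne
      · exact absurd rfl (h'.2.ne h)
  · rw [adj_iff_mem huw, adj_iff_mem huw, Finset.mem_symmDiff, mkE_mem_cyc]
    tauto

theorem adj_tau {a b c e : Fin n} (h : Dis4 a b c e) (G : Finset (Edge n)) (u w : Fin n) :
    Adj (tau a b c e G) u w ↔
      (Adj G u w ∧ ¬ (isD a b c e G ∧ isCross a b c e u w)) ∨
        (¬ Adj G u w ∧ isD a b c e G ∧ isCross a b c e u w) := by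
  unfold tau
  split_ifs with hD
  · rw [adj_symmDiff_cyc h]; tauto
  · tauto

theorem tau_of_not_isD {a b c e : Fin n} {G : Finset (Edge n)} (hD : ¬ isD a b c e G) :
    tau a b c e G = G := by
  unfold tau; rw [if_neg hD]

theorem isD1_tau {a b c e : Fin n} (h : Dis4 a b c e) {G : Finset (Edge n)}
    (hD : isD1 a b c e G) : isD1 a b e c (tau a b c e G) := by
  have hD' : isD a b c e G := Or.inl hD
  obtain ⟨h1, h2, h3, h4, h5, h6⟩ := h
  have hh : Dis4 a b c e := ⟨h1, h2, h3, h4, h5, h6⟩
  obtain ⟨d1, d2, d3, d4⟩ := hD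
  unfold isD1
  simp only [adj_tau hh, isCross]
  grind

theorem isD1_tau' {a b c e : Fin n} (h : Dis4 a b c e) {G : Finset (Edge n)}
    (hD : isD1 a b e c G) : isD1 a b c e (tau a b c e G) := by
  have hD' : isD a b c e G := Or.inr hD
  obtain ⟨h1, h2, h3, h4, h5, h6⟩ := h
  have hh : Dis4 a b c e := ⟨h1, h2, h3, h4, h5, h6⟩
  obtain ⟨d1, d2, d3, d4⟩ := hD
  unfold isD1
  simp only [adj_tau hh, isCross]
  grind

theorem isD_tau {a b c e : Fin n} (h : Dis4 a b c e) {G : Finset (Edge n)}
    (hD : isD a b c e G) : isD a b c e (tau a b c e G) := by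
  rcases hD with hD | hD
  · exact Or.inr (isD1_tau h hD)
  · exact Or.inl (isD1_tau' h hD)

theorem tau_tau {a b c e : Fin n} (h : Dis4 a b c e) (G : Finset (Edge n)) :
    tau a b c e (tau a b c e G) = G := by
  by_cases hD : isD a b c e G
  · have hD2 := isD_tau h hD
    have e1 : tau a b c e G = symmDiff G (cyc a b c e) := by unfold tau; rw [if_pos hD]
    have e2 : tau a b c e (tau a b c e G) = symmDiff (tau a b c e G) (cyc a b c e) := by
      generalize tau a b c e G = G' at hD2
      unfold tau; rw [if_pos hD2]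
    rw [e2, e1]
    exact symmDiff_symmDiff_cancel_right _ _
  · rw [tau_of_not_isD hD, tau_of_not_isD hD]

theorem isD_tau_iff {a b c e : Fin n} (h : Dis4 a b c e) (G : Finset (Edge n)) :
    isD a b c e (tau a b c e G) ↔ isD a b c e G := by
  constructor
  · intro h'
    by_contra hD
    rw [tau_of_not_isD hD] at h'
    exact hD h'
  · exact isD_tau h

theorem tau_eq_sw {a b c e : Fin n} (h : Dis4 a b c e) {G : Finset (Edge n)}
    (hD : isD1 a b c e G) : tau a b c e G = sw G a b c e h.ac h.be h.ae h.bc := by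
  have hD' : isD a b c e G := Or.inl hD
  apply graph_ext
  intro u w
  rw [adj_tau h, adj_sw]
  obtain ⟨h1, h2, h3, h4, h5, h6⟩ := h
  obtain ⟨d1, d2, d3, d4⟩ := hD
  have := @adj_comm n G
  unfold isCross
  grind

theorem tau_eq_sw' {a b c e : Fin n} (h : Dis4 a b c e) {G : Finset (Edge n)}
    (hD : isD1 a b e c G) : tau a b c e G = sw G a b e c h.ae h.bc h.ac h.be := by
  have hD' : isD a b c e G := Or.inr hD
  apply graph_ext
  intro u w
  rw [adj_tau h, adj_sw]
  obtain ⟨h1, h2, h3, h4, h5, h6⟩ := h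
  obtain ⟨d1, d2, d3, d4⟩ := hD
  have := @adj_comm n G
  unfold isCross
  grind

theorem switchStep_tau {a b c e : Fin n} (h : Dis4 a b c e) {G : Finset (Edge n)}
    (hD : isD a b c e G) : SwitchStep G (tau a b c e G) := by
  rcases hD with hD | hD
  · refine ⟨a, b, c, e, h.ac, h.be, h.ae, h.bc, h.ab, h.ce, ?_, ?_, ?_, ?_, tau_eq_sw h hD⟩
    · exact (adj_iff_mem _).1 hD.1
    · exact (adj_iff_mem _).1 hD.2.1
    · exact fun h' => hD.2.2.1 ((adj_iff_mem _).2 h')
    · exact fun h' => hD.2.2.2 ((adj_iff_mem _).2 h')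
  · refine ⟨a, b, e, c, h.ae, h.bc, h.ac, h.be, h.ab, h.ce.symm, ?_, ?_, ?_, ?_, tau_eq_sw' h hD⟩
    · exact (adj_iff_mem _).1 hD.1
    · exact (adj_iff_mem _).1 hD.2.1
    · exact fun h' => hD.2.2.1 ((adj_iff_mem _).2 h')
    · exact fun h' => hD.2.2.2 ((adj_iff_mem _).2 h')

theorem tau_mem {d : Fin n → ℕ} {a b c e : Fin n} (h : Dis4 a b c e) {G : Finset (Edge n)}
    (hG : G ∈ realizations d) : tau a b c e G ∈ realizations d := by
  by_cases hD : isD a b c e G
  · exact (switchStep_tau h hD).mem_realizations hG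
  · rw [tau_of_not_isD hD]; exact hG

theorem mem_away {S : Finset (Fin n)} {G : Finset (Edge n)} {x : Edge n} :
    x ∈ away S G ↔ x ∈ G ∧ ∀ v ∈ S, v ∉ x.1 := by
  simp [away]

theorem away_tau_left {a b c e : Fin n} (G : Finset (Edge n)) :
    away {a, b} (tau a b c e G) = away {a, b} G := by
  unfold tau
  split_ifs with hD
  · ext x
    rw [mem_away, mem_away, Finset.mem_symmDiff]
    constructor
    · rintro ⟨h1 | h1, h2⟩
      · exact ⟨h1.1, h2⟩
      · exfalso
        have ha := h2 a (by simp)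
        have hb := h2 b (by simp)
        have hx := h1.1
        simp only [cyc, mem_filter, mem_univ, true_and] at hx
        rcases hx with hx | hx | hx | hx <;> rw [hx] at ha hb <;> simp at ha hb
    · rintro ⟨h1, h2⟩
      refine ⟨Or.inl ⟨h1, ?_⟩, h2⟩
      intro hx
      have ha := h2 a (by simp)
      have hb := h2 b (by simp)
      simp only [cyc, mem_filter, mem_univ, true_and] at hx
      rcases hx with hx | hx | hx | hx <;> rw [hx] at ha hb <;> simp at ha hb
  · rfl

theorem away_tau_right {a b c e : Fin n} (G : Finset (Edge n)) :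
    away {c, e} (tau a b c e G) = away {c, e} G := by
  unfold tau
  split_ifs with hD
  · ext x
    rw [mem_away, mem_away, Finset.mem_symmDiff]
    constructor
    · rintro ⟨h1 | h1, h2⟩
      · exact ⟨h1.1, h2⟩
      · exfalso
        have ha := h2 c (by simp)
        have hb := h2 e (by simp)
        have hx := h1.1
        simp only [cyc, mem_filter, mem_univ, true_and] at hx
        rcases hx with hx | hx | hx | hx <;> rw [hx] at ha hb <;> simp at ha hb
    · rintro ⟨h1, h2⟩
      refine ⟨Or.inl ⟨h1, ?_⟩, h2⟩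
      intro hx
      have ha := h2 c (by simp)
      have hb := h2 e (by simp)
      simp only [cyc, mem_filter, mem_univ, true_and] at hx
      rcases hx with hx | hx | hx | hx <;> rw [hx] at ha hb <;> simp at ha hb
  · rfl

/-! ### symmetries in the arguments -/

theorem isD_swap_pairs {a b c e : Fin n} (G : Finset (Edge n)) :
    isD c e a b G ↔ isD a b c e G := by
  have := @adj_comm n G
  unfold isD isD1
  grind

theorem isD_swap_right {a b c e : Fin n} (G : Finset (Edge n)) :
    isD a b e c G ↔ isD a b c e G := by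
  unfold isD; tauto

theorem isD_swap_left {a b c e : Fin n} (G : Finset (Edge n)) :
    isD b a c e G ↔ isD a b c e G := by
  unfold isD isD1; tauto

theorem cyc_swap_pairs {a b c e : Fin n} : cyc c e a b = cyc a b c e := by
  ext x
  simp only [cyc, mem_filter, mem_univ, true_and]
  rw [Sym2.eq_swap (a := c) (b := a), Sym2.eq_swap (a := c) (b := b),
    Sym2.eq_swap (a := e) (b := a), Sym2.eq_swap (a := e) (b := b)]
  tauto

theorem cyc_swap_right {a b c e : Fin n} : cyc a b e c = cyc a b c e := by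
  ext x
  simp only [cyc, mem_filter, mem_univ, true_and]
  tauto

theorem cyc_swap_left {a b c e : Fin n} : cyc b a c e = cyc a b c e := by
  ext x
  simp only [cyc, mem_filter, mem_univ, true_and]
  tauto

theorem tau_swap_pairs {a b c e : Fin n} (G : Finset (Edge n)) :
    tau c e a b G = tau a b c e G := by
  unfold tau
  rw [cyc_swap_pairs]
  by_cases hD : isD a b c e G
  · rw [if_pos hD, if_pos ((isD_swap_pairs G).2 hD)]
  · rw [if_neg hD, if_neg (fun h => hD ((isD_swap_pairs G).1 h))]

theorem tau_swap_right {a b c e : Fin n} (G : Finset (Edge n)) :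
    tau a b e c G = tau a b c e G := by
  unfold tau
  rw [cyc_swap_right]
  by_cases hD : isD a b c e G
  · rw [if_pos hD, if_pos ((isD_swap_right G).2 hD)]
  · rw [if_neg hD, if_neg (fun h => hD ((isD_swap_right G).1 h))]

theorem tau_swap_left {a b c e : Fin n} (G : Finset (Edge n)) :
    tau b a c e G = tau a b c e G := by
  unfold tau
  rw [cyc_swap_left]
  by_cases hD : isD a b c e G
  · rw [if_pos hD, if_pos ((isD_swap_left G).2 hD)]
  · rw [if_neg hD, if_neg (fun h => hD ((isD_swap_left G).1 h))]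

theorem OmD_swap_pairs {d : Fin n → ℕ} {a b c e : Fin n} : OmD d c e a b = OmD d a b c e := by
  classical
  unfold OmD
  ext G
  simp only [mem_filter, isD_swap_pairs]

end Crest.Agent.S0453Aux.B2T
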