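import Crest.Agent.S0453Aux.Connected
import Crest.Agent.S0453Aux.Defs

/-!
# S0453 auxiliary, task T3: the three pair-projections of a vertex triple

For pairwise distinct `a b c` and `S f = (Q_ab + Q_ac + Q_bc) f` we show `⟨f, S f⟩ ≤ ⟨S f, S f⟩`
on the realizations of a degree vector, given the three-row lemma in matrix form.
-/

set_option autoImplicit false
open Finset
open Crest Crest.SwitchChain

namespace Crest.Agent.S0453Aux.Triple

section Abstract

variable {α : Type*}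

variable {κ : Type*} [DecidableEq κ]

theorem cE_congr_key (Om : Finset α) (key : α → κ) (f : α → ℝ) {x y : α} (h : key x = key y) :
    cE Om key f x = cE Om key f y := by
  unfold cE; rw [h]

theorem cE_const (Om : Finset α) (key : α → κ) (c : ℝ) {x : α} (hx : x ∈ Om) :
    cE Om key (fun _ => c) x = c := by
  unfold cE
  have : (0 : ℝ) < ((Om.filter (fun y => key y = key x)).card : ℝ) := by
    exact_mod_cast card_pos.2 ⟨x, by simp [hx]⟩
  rw [sum_const, nsmul_eq_mul]; field_simp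

theorem cE_sub (Om : Finset α) (key : α → κ) (f g : α → ℝ) (x : α) :
    cE Om key (fun y => f y - g y) x = cE Om key f x - cE Om key g x := by
  unfold cE; rw [sum_sub_distrib, sub_div]

/-- `⟨g, E f⟩ = ⟨g, f⟩` when `g` factors through the key. -/
theorem sum_mul_cE (Om : Finset α) (key : α → κ) (f g : α → ℝ)
    (hg : ∀ x ∈ Om, ∀ y ∈ Om, key x = key y → g x = g y) :
    ∑ x ∈ Om, g x * cE Om key f x = ∑ x ∈ Om, g x * f x := by
  classical
  rw [← sum_fiberwise_of_maps_to (s := Om) (t := Om.image key) (g := key)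
        (fun x hx => mem_image_of_mem _ hx),
      ← sum_fiberwise_of_maps_to (s := Om) (t := Om.image key) (g := key)
        (fun x hx => mem_image_of_mem _ hx) (f := fun x => g x * f x)]
  refine sum_congr rfl fun k hk => ?_
  obtain ⟨x0, hx0, rfl⟩ := mem_image.1 hk
  set Φ := Om.filter (fun y => key y = key x0) with hΦ
  have hpos : (0 : ℝ) < (Φ.card : ℝ) := by
    exact_mod_cast card_pos.2 ⟨x0, by simp [hΦ, hx0]⟩
  have h1 : ∀ x ∈ Φ, g x * cE Om key f x = g x0 * ((∑ y ∈ Φ, f y) / (Φ.card : ℝ)) := by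
    intro x hx
    have hx' := mem_filter.1 hx
    rw [hg x hx'.1 x0 hx0 hx'.2, cE_congr_key Om key f hx'.2]
    rfl
  have h2 : ∀ x ∈ Φ, g x * f x = g x0 * f x := by
    intro x hx
    have hx' := mem_filter.1 hx
    rw [hg x hx'.1 x0 hx0 hx'.2]
  rw [sum_congr rfl h1, sum_congr rfl h2, sum_const, nsmul_eq_mul, ← mul_sum]
  field_simp

theorem sum_cE (Om : Finset α) (key : α → κ) (f : α → ℝ) :
    ∑ x ∈ Om, cE Om key f x = ∑ x ∈ Om, f x := by
  have := sum_mul_cE Om key f (fun _ => 1) (fun _ _ _ _ _ => rfl)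
  simpa using this

/-- Abstract step: if the "variance form" of `P₀+P₁+P₂ ≤ 2` holds on `Φ`, then `S = ∑ (1-Pᵢ)`
satisfies `⟨f,Sf⟩ ≤ ⟨Sf,Sf⟩`. -/
theorem abstract_sq_ge (Φ : Finset α) (k : Fin 3 → α → κ)
    (hV : ∀ φ : Fin 3 → α → ℝ, (∀ i, ∀ x ∈ Φ, ∀ y ∈ Φ, k i x = k i y → φ i x = φ i y) →
      (Φ.card : ℝ) * ∑ x ∈ Φ, (∑ i, φ i x) ^ 2 - (∑ x ∈ Φ, ∑ i, φ i x) ^ 2 ≤
        2 * ∑ i, ((Φ.card : ℝ) * ∑ x ∈ Φ, φ i x ^ 2 - (∑ x ∈ Φ, φ i x) ^ 2))
    (f : α → ℝ) :
    ∑ x ∈ Φ, f x * (3 * f x - ∑ i, cE Φ (k i) f x) ≤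
      ∑ x ∈ Φ, (3 * f x - ∑ i, cE Φ (k i) f x) ^ 2 := by
  classical
  rcases Φ.eq_empty_or_nonempty with rfl | hne
  · simp
  have hN : (0 : ℝ) < (Φ.card : ℝ) := by exact_mod_cast card_pos.2 hne
  set c : ℝ := (∑ x ∈ Φ, f x) / (Φ.card : ℝ) with hc
  set f0 : α → ℝ := fun x => f x - c with hf0
  set φ : Fin 3 → α → ℝ := fun i => cE Φ (k i) f0 with hφ
  set F : α → ℝ := fun x => ∑ i, φ i x with hF
  have hm0 : ∑ x ∈ Φ, f0 x = 0 := by
    simp only [hf0, sum_sub_distrib, sum_const, nsmul_eq_mul, hc]; field_simp; ring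
  have hφf : ∀ i, ∀ x ∈ Φ, cE Φ (k i) f x = φ i x + c := by
    intro i x hx
    have := cE_sub Φ (k i) f (fun _ => c) x
    rw [cE_const Φ (k i) c hx] at this
    simp only [hφ, hf0]; linarith
  have hS : ∀ x ∈ Φ, 3 * f x - ∑ i, cE Φ (k i) f x = 3 * f0 x - F x := by
    intro x hx
    have : ∑ i, cE Φ (k i) f x = ∑ i, (φ i x + c) := sum_congr rfl fun i _ => hφf i x hx
    rw [this, sum_add_distrib]; simp [hF, hf0]; ring
  have hfac : ∀ i, ∀ x ∈ Φ, ∀ y ∈ Φ, k i x = k i y → φ i x = φ i y :=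
    fun i x _ y _ h => cE_congr_key Φ (k i) f0 h
  have hmφ : ∀ i, ∑ x ∈ Φ, φ i x = 0 := fun i => by rw [hφ]; simp only; rw [sum_cE, hm0]
  have hmF : ∑ x ∈ Φ, F x = 0 := by
    simp only [hF]; rw [sum_comm]; simp [hmφ]
  set n0 : ℝ := ∑ x ∈ Φ, f0 x ^ 2 with hn0
  set nF : ℝ := ∑ x ∈ Φ, F x ^ 2 with hnF
  set A : ℝ := ∑ i, ∑ x ∈ Φ, φ i x ^ 2 with hA
  have hA0 : 0 ≤ A := sum_nonneg fun i _ => sum_nonneg fun x _ => sq_nonneg _
  have hAf : ∑ x ∈ Φ, f0 x * F x = A := by
    simp only [hF, mul_sum]; rw [sum_comm]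
    refine sum_congr rfl fun i _ => ?_
    have := sum_mul_cE Φ (k i) f0 (φ i) (hfac i)
    calc ∑ x ∈ Φ, f0 x * φ i x = ∑ x ∈ Φ, φ i x * f0 x := sum_congr rfl fun x _ => mul_comm _ _
      _ = ∑ x ∈ Φ, φ i x * cE Φ (k i) f0 x := this.symm
      _ = ∑ x ∈ Φ, φ i x ^ 2 := sum_congr rfl fun x _ => by simp only [hφ]; ring
  have hV' := hV φ hfac
  have hFle : nF ≤ 2 * A := by
    have e1 : (∑ x ∈ Φ, ∑ i, φ i x) = 0 := hmF
    rw [e1] at hV'
    simp only [hmφ] at hV'
    have e2 : ∑ i : Fin 3, ((Φ.card : ℝ) * ∑ x ∈ Φ, φ i x ^ 2 - 0 ^ 2) = (Φ.card : ℝ) * A := by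
      simp only [hA, mul_sum]; simp
    rw [e2] at hV'
    have : (Φ.card : ℝ) * nF ≤ (Φ.card : ℝ) * (2 * A) := by
      have : (Φ.card : ℝ) * nF = (Φ.card : ℝ) * ∑ x ∈ Φ, (∑ i, φ i x) ^ 2 := rfl
      nlinarith
    exact le_of_mul_le_mul_left this hN
  have hCS : A ^ 2 ≤ n0 * nF := by
    rw [← hAf]; exact sum_mul_sq_le_sq_mul_sq _ _ _
  have hn00 : 0 ≤ n0 := sum_nonneg fun x _ => sq_nonneg _
  have hA2 : A ≤ 2 * n0 := by
    by_contra h
    have h := not_le.1 h
    have hApos : 0 < A := by linarith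
    nlinarith
  have hsq : 0 ≤ 4 * n0 - 4 * A + nF := by
    have : ∑ x ∈ Φ, (2 * f0 x - F x) ^ 2 = 4 * n0 - 4 * A + nF := by
      have : ∀ x, (2 * f0 x - F x) ^ 2 = 4 * f0 x ^ 2 - 4 * (f0 x * F x) + F x ^ 2 := by
        intro x; ring
      simp only [this, sum_add_distrib, sum_sub_distrib, ← mul_sum, hAf]
      rfl
    rw [← this]; exact sum_nonneg fun x _ => sq_nonneg _
  have hL : ∑ x ∈ Φ, f x * (3 * f x - ∑ i, cE Φ (k i) f x) = 3 * n0 - A := by
    have : ∀ x ∈ Φ, f x * (3 * f x - ∑ i, cE Φ (k i) f x) =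
        3 * f0 x ^ 2 - f0 x * F x + c * (3 * f0 x - F x) := by
      intro x hx; rw [hS x hx]; simp only [hf0]; ring
    rw [sum_congr rfl this]
    simp only [sum_add_distrib, sum_sub_distrib, ← mul_sum, hAf, hm0, hmF]; ring
  have hR : ∑ x ∈ Φ, (3 * f x - ∑ i, cE Φ (k i) f x) ^ 2 = 9 * n0 - 6 * A + nF := by
    have : ∀ x ∈ Φ, (3 * f x - ∑ i, cE Φ (k i) f x) ^ 2 =
        9 * f0 x ^ 2 - 6 * (f0 x * F x) + F x ^ 2 := by
      intro x hx; rw [hS x hx]; ring
    rw [sum_congr rfl this]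
    simp only [sum_add_distrib, sum_sub_distrib, ← mul_sum, hAf]
    rfl
  rw [hL, hR]; linarith

/-- restriction of `cE` to a fibre of a coarser key. -/
theorem cE_fibre {κ' : Type*} [DecidableEq κ'] (Om : Finset α) (key : α → κ) (K : α → κ')
    (hfine : ∀ x y, key x = key y → K x = K y) (f : α → ℝ) (x : α) :
    cE Om key f x = cE (Om.filter (fun y => K y = K x)) key f x := by
  have : (Om.filter (fun y => K y = K x)).filter (fun y => key y = key x) =
      Om.filter (fun y => key y = key x) := by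
    ext y; simp only [mem_filter]
    constructor
    · rintro ⟨⟨h1, _⟩, h3⟩; exact ⟨h1, h3⟩
    · rintro ⟨h1, h3⟩; exact ⟨⟨h1, hfine _ _ h3⟩, h3⟩
  unfold cE; rw [this]

/-- fibrewise version of `abstract_sq_ge`. -/
theorem abstract_sq_ge_fibre {κ' : Type*} [DecidableEq κ'] (Om : Finset α) (k : Fin 3 → α → κ)
    (K : α → κ') (hfine : ∀ i x y, k i x = k i y → K x = K y)
    (hV : ∀ x0 ∈ Om, ∀ φ : Fin 3 → α → ℝ,
      (∀ i, ∀ x ∈ Om.filter (fun y => K y = K x0), ∀ y ∈ Om.filter (fun y => K y = K x0),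
        k i x = k i y → φ i x = φ i y) →
      ((Om.filter (fun y => K y = K x0)).card : ℝ) *
          ∑ x ∈ Om.filter (fun y => K y = K x0), (∑ i, φ i x) ^ 2 -
          (∑ x ∈ Om.filter (fun y => K y = K x0), ∑ i, φ i x) ^ 2 ≤
        2 * ∑ i, (((Om.filter (fun y => K y = K x0)).card : ℝ) *
          ∑ x ∈ Om.filter (fun y => K y = K x0), φ i x ^ 2 -
          (∑ x ∈ Om.filter (fun y => K y = K x0), φ i x) ^ 2))
    (f : α → ℝ) :
    ∑ x ∈ Om, f x * (3 * f x - ∑ i, cE Om (k i) f x) ≤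
      ∑ x ∈ Om, (3 * f x - ∑ i, cE Om (k i) f x) ^ 2 := by
  classical
  rw [← sum_fiberwise_of_maps_to (s := Om) (t := Om.image K) (g := K)
        (fun x hx => mem_image_of_mem _ hx),
      ← sum_fiberwise_of_maps_to (s := Om) (t := Om.image K) (g := K)
        (fun x hx => mem_image_of_mem _ hx)
        (f := fun x => (3 * f x - ∑ i, cE Om (k i) f x) ^ 2)]
  refine sum_le_sum fun κ0 hκ0 => ?_
  obtain ⟨x0, hx0, rfl⟩ := mem_image.1 hκ0
  have key : ∀ x ∈ Om.filter (fun y => K y = K x0), ∀ i,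
      cE Om (k i) f x = cE (Om.filter (fun y => K y = K x0)) (k i) f x := by
    intro x hx i
    rw [cE_fibre Om (k i) K (hfine i) f x, (mem_filter.1 hx).2]
  have := abstract_sq_ge (Om.filter (fun y => K y = K x0)) k (hV x0 hx0) f
  calc _ = ∑ x ∈ Om.filter (fun y => K y = K x0),
        f x * (3 * f x - ∑ i, cE (Om.filter (fun y => K y = K x0)) (k i) f x) :=
        sum_congr rfl fun x hx => by simp only [key x hx]
    _ ≤ _ := this
    _ = _ := sum_congr rfl fun x hx => by simp only [key x hx]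

end Abstract

/-- The three-row lemma in matrix form, columns indexed by `Fin n`. -/
def MatrixStatement (n : ℕ) : Prop :=
  ∀ (r : Fin 3 → ℕ) (c : Fin n → ℕ) (φ : Fin 3 → Finset (Fin n) → ℝ),
    let St := (Finset.univ : Finset (Fin 3 → Finset (Fin n))).filter
      (fun x => (∀ i, (x i).card = r i) ∧ ∀ j, (Finset.univ.filter (fun i => j ∈ x i)).card = c j)
    (St.card : ℝ) * ∑ x ∈ St, (∑ i, φ i (x i)) ^ 2 - (∑ x ∈ St, ∑ i, φ i (x i)) ^ 2
      ≤ 2 * ∑ i, ((St.card : ℝ) * ∑ x ∈ St, φ i (x i) ^ 2 - (∑ x ∈ St, φ i (x i)) ^ 2)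

section Graph

variable {n : ℕ}

theorem adj_away {S : Finset (Fin n)} {G : Finset (Edge n)} {u w : Fin n} :
    Adj (away S G) u w ↔ Adj G u w ∧ u ∉ S ∧ w ∉ S := by
  constructor
  · rintro ⟨h, hm⟩
    have hm' := mem_filter.1 hm
    refine ⟨⟨h, hm'.1⟩, fun hu => hm'.2 u hu (by simp [mkE]), fun hw => hm'.2 w hw (by simp [mkE])⟩
  · rintro ⟨⟨h, hm⟩, hu, hw⟩
    refine ⟨h, mem_filter.2 ⟨hm, fun v hv hve => ?_⟩⟩
    have : v = u ∨ v = w := by simpa [mkE] using hve
    rcases this with rfl | rfl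
    · exact hu hv
    · exact hw hv

open Classical in
/-- the graph of a relation -/
noncomputable def ofRel (R : Fin n → Fin n → Prop) : Finset (Edge n) :=
  univ.filter (fun e => ∃ u w, e.1 = s(u, w) ∧ R u w)

theorem mem_ofRel {R : Fin n → Fin n → Prop} {e : Edge n} :
    e ∈ ofRel R ↔ ∃ u w, e.1 = s(u, w) ∧ R u w := by
  classical
  simp [ofRel]

theorem adj_ofRel {R : Fin n → Fin n → Prop} (hs : ∀ u w, R u w → R w u) {u w : Fin n} :
    Adj (ofRel R) u w ↔ u ≠ w ∧ R u w := by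
  constructor
  · rintro ⟨h, hm⟩
    refine ⟨h, ?_⟩
    obtain ⟨u', w', he, hR⟩ := mem_ofRel.1 hm
    have : (u = u' ∧ w = w') ∨ (u = w' ∧ w = u') := by simpa [mkE] using he
    rcases this with ⟨rfl, rfl⟩ | ⟨rfl, rfl⟩
    · exact hR
    · exact hs _ _ hR
  · rintro ⟨h, hR⟩
    exact ⟨h, mem_ofRel.2 ⟨u, w, rfl, hR⟩⟩

/-! ### encoding of a fibre of `away T` by three rows -/

theorem fin3_a : ∀ i : Fin 3, i + 2 + 1 = i := by decide
theorem fin3_b : ∀ i : Fin 3, i + 2 + 2 = i + 1 := by decide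
theorem fin3_c : ∀ i : Fin 3, i + 1 + 1 = i + 2 := by decide
theorem fin3_d : ∀ i : Fin 3, i + 1 + 2 = i := by decide
theorem fin3_ne1 : ∀ i : Fin 3, i ≠ i + 1 := by decide
theorem fin3_ne2 : ∀ i : Fin 3, i ≠ i + 2 := by decide
theorem fin3_ne12 : ∀ i : Fin 3, i + 1 ≠ i + 2 := by decide
theorem fin3_third : ∀ i j : Fin 3, i ≠ j →
    ∃ l, (i = l + 1 ∧ j = l + 2) ∨ (i = l + 2 ∧ j = l + 1) := by decide
theorem fin3_inj1 : ∀ i j : Fin 3, i + 1 = j + 1 → i = j := by decide
theorem fin3_no : ∀ i j : Fin 3, i + 1 = j + 2 → i + 2 = j + 1 → False := by decide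

theorem sum3 (g : Fin 3 → ℕ) (i : Fin 3) : ∑ j, g j = g i + g (i + 1) + g (i + 2) := by
  fin_cases i <;> simp [Fin.sum_univ_three] <;> ring

variable (t : Fin 3 → Fin n)

/-- the triple as a finset -/
def TT : Finset (Fin n) := univ.image t

theorem mem_TT {v : Fin n} : v ∈ TT t ↔ ∃ i, t i = v := by simp [TT]

theorem t_mem_TT (i : Fin 3) : t i ∈ TT t := (mem_TT t).2 ⟨i, rfl⟩

open Classical in
/-- row `i` of the encoding: outside neighbours of `t i`, plus the label `t 0` iff the opposite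
edge of the triangle is absent. -/
noncomputable def enc (G : Finset (Edge n)) (i : Fin 3) : Finset (Fin n) :=
  univ.filter (fun j => (j ∉ TT t ∧ Adj G (t i) j) ∨ (j = t 0 ∧ ¬ Adj G (t (i + 1)) (t (i + 2))))

theorem mem_enc {G : Finset (Edge n)} {i : Fin 3} {j : Fin n} :
    j ∈ enc t G i ↔ (j ∉ TT t ∧ Adj G (t i) j) ∨ (j = t 0 ∧ ¬ Adj G (t (i + 1)) (t (i + 2))) := by
  classical
  simp [enc]

theorem mem_enc_out {G : Finset (Edge n)} {i : Fin 3} {j : Fin n} (hj : j ∉ TT t) :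
    j ∈ enc t G i ↔ Adj G (t i) j := by
  rw [mem_enc]
  constructor
  · rintro (h | h)
    · exact h.2
    · exact absurd (h.1 ▸ t_mem_TT t 0) hj
  · intro h; exact Or.inl ⟨hj, h⟩

theorem t0_mem_enc {G : Finset (Edge n)} {i : Fin 3} :
    t 0 ∈ enc t G i ↔ ¬ Adj G (t (i + 1)) (t (i + 2)) := by
  rw [mem_enc]
  constructor
  · rintro (h | h)
    · exact absurd (t_mem_TT t 0) h.1
    · exact h.2
  · intro h; exact Or.inr ⟨rfl, h⟩

theorem enc_clean {G : Finset (Edge n)} {i : Fin 3} {j : Fin n} (h : j ∈ enc t G i) :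
    j ∉ TT t ∨ j = t 0 := by
  rcases (mem_enc t).1 h with h | h
  · exact Or.inl h.1
  · exact Or.inr h.1

/-- adjacency relation of the decoded graph -/
def Rel (B : Finset (Edge n)) (x : Fin 3 → Finset (Fin n)) (u w : Fin n) : Prop :=
  Adj B u w ∨ (∃ i, u = t i ∧ w ∉ TT t ∧ w ∈ x i) ∨ (∃ i, w = t i ∧ u ∉ TT t ∧ u ∈ x i) ∨
    (∃ i, t 0 ∉ x i ∧ ((u = t (i + 1) ∧ w = t (i + 2)) ∨ (u = t (i + 2) ∧ w = t (i + 1))))

theorem Rel_symm (B : Finset (Edge n)) (x : Fin 3 → Finset (Fin n)) (u w : Fin n)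
    (h : Rel t B x u w) : Rel t B x w u := by
  rcases h with h | h | h | ⟨i, h0, h | h⟩
  · exact Or.inl h.symm
  · exact Or.inr (Or.inr (Or.inl h))
  · exact Or.inr (Or.inl h)
  · exact Or.inr (Or.inr (Or.inr ⟨i, h0, Or.inr ⟨h.2, h.1⟩⟩))
  · exact Or.inr (Or.inr (Or.inr ⟨i, h0, Or.inl ⟨h.2, h.1⟩⟩))

/-- decoding -/
noncomputable def dec (B : Finset (Edge n)) (x : Fin 3 → Finset (Fin n)) : Finset (Edge n) :=
  ofRel (Rel t B x)

theorem adj_dec {B : Finset (Edge n)} {x : Fin 3 → Finset (Fin n)} {u w : Fin n} :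
    Adj (dec t B x) u w ↔ u ≠ w ∧ Rel t B x u w :=
  adj_ofRel (Rel_symm t B x)

variable {t}

theorem dec_enc (G : Finset (Edge n)) : dec t (away (TT t) G) (enc t G) = G := by
  apply graph_ext
  intro u w
  rw [adj_dec]
  constructor
  · rintro ⟨_, h | ⟨i, rfl, hw, h⟩ | ⟨i, rfl, hu, h⟩ | ⟨i, h0, h⟩⟩
    · exact (adj_away.1 h).1
    · exact (mem_enc_out t hw).1 h
    · exact ((mem_enc_out t hu).1 h).symm
    · have hA : Adj G (t (i + 1)) (t (i + 2)) := by
        by_contra hA; exact h0 ((t0_mem_enc t).2 hA)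
      rcases h with ⟨rfl, rfl⟩ | ⟨rfl, rfl⟩
      · exact hA
      · exact hA.symm
  · intro h
    refine ⟨h.ne, ?_⟩
    by_cases hu : u ∈ TT t
    · obtain ⟨i, rfl⟩ := (mem_TT t).1 hu
      by_cases hw : w ∈ TT t
      · obtain ⟨j, rfl⟩ := (mem_TT t).1 hw
        have hij : i ≠ j := fun e => h.ne (by rw [e])
        obtain ⟨l, hl⟩ := fin3_third i j hij
        refine Or.inr (Or.inr (Or.inr ⟨l, ?_, ?_⟩))
        · rw [t0_mem_enc, not_not]
          rcases hl with ⟨rfl, rfl⟩ | ⟨rfl, rfl⟩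
          · exact h
          · exact h.symm
        · rcases hl with ⟨rfl, rfl⟩ | ⟨rfl, rfl⟩
          · exact Or.inl ⟨rfl, rfl⟩
          · exact Or.inr ⟨rfl, rfl⟩
      · exact Or.inr (Or.inl ⟨i, rfl, hw, (mem_enc_out t hw).2 h⟩)
    · by_cases hw : w ∈ TT t
      · obtain ⟨j, rfl⟩ := (mem_TT t).1 hw
        exact Or.inr (Or.inr (Or.inl ⟨j, rfl, hu, (mem_enc_out t hu).2 h.symm⟩))
      · exact Or.inl (adj_away.2 ⟨h, hu, hw⟩)

theorem adj_dec_out (ht : Function.Injective t) {B : Finset (Edge n)}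
    (hB : ∀ u w, Adj B u w → u ∉ TT t ∧ w ∉ TT t) {x : Fin 3 → Finset (Fin n)} {i : Fin 3}
    {j : Fin n} (hj : j ∉ TT t) : Adj (dec t B x) (t i) j ↔ j ∈ x i := by
  rw [adj_dec]
  constructor
  · rintro ⟨_, h | ⟨i', hi, _, h⟩ | ⟨i', rfl, _, _⟩ | ⟨i', _, h⟩⟩
    · exact absurd (t_mem_TT t i) (hB _ _ h).1
    · rw [ht hi]; exact h
    · exact absurd (t_mem_TT t i') hj
    · rcases h with ⟨_, rfl⟩ | ⟨_, rfl⟩
      · exact absurd (t_mem_TT t _) hj
      · exact absurd (t_mem_TT t _) hj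
  · intro h
    exact ⟨fun e => hj (e ▸ t_mem_TT t i), Or.inr (Or.inl ⟨i, rfl, hj, h⟩)⟩

theorem adj_dec_opp (ht : Function.Injective t) {B : Finset (Edge n)}
    (hB : ∀ u w, Adj B u w → u ∉ TT t ∧ w ∉ TT t) {x : Fin 3 → Finset (Fin n)} {i : Fin 3} :
    Adj (dec t B x) (t (i + 1)) (t (i + 2)) ↔ t 0 ∉ x i := by
  rw [adj_dec]
  constructor
  · rintro ⟨_, h | ⟨i', _, h, _⟩ | ⟨i', _, h, _⟩ | ⟨i', h0, h⟩⟩
    · exact absurd (t_mem_TT t _) (hB _ _ h).1
    · exact absurd (t_mem_TT t _) h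
    · exact absurd (t_mem_TT t _) h
    · rcases h with ⟨h1, _⟩ | ⟨h1, h2⟩
      · rw [fin3_inj1 _ _ (ht h1)]; exact h0
      · exact (fin3_no _ _ (ht h1) (ht h2)).elim
  · intro h
    exact ⟨fun e => fin3_ne12 i (ht e), Or.inr (Or.inr (Or.inr ⟨i, h, Or.inl ⟨rfl, rfl⟩⟩))⟩

theorem enc_dec (ht : Function.Injective t) {B : Finset (Edge n)}
    (hB : ∀ u w, Adj B u w → u ∉ TT t ∧ w ∉ TT t) {x : Fin 3 → Finset (Fin n)}
    (hx : ∀ i j, j ∈ x i → j ∉ TT t ∨ j = t 0) : enc t (dec t B x) = x := by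
  funext i
  ext j
  by_cases hj : j ∉ TT t
  · rw [mem_enc_out t hj, adj_dec_out ht hB hj]
  · by_cases hj0 : j = t 0
    · subst hj0
      rw [t0_mem_enc, adj_dec_opp ht hB, not_not]
    · constructor
      · intro h
        rcases enc_clean t h with h | h
        · exact absurd h hj
        · exact absurd h hj0
      · intro h
        rcases hx i j h with h | h
        · exact absurd h hj
        · exact absurd h hj0

theorem away_dec {B : Finset (Edge n)}
    (hB : ∀ u w, Adj B u w → u ∉ TT t ∧ w ∉ TT t) {x : Fin 3 → Finset (Fin n)} :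
    away (TT t) (dec t B x) = B := by
  apply graph_ext
  intro u w
  rw [adj_away, adj_dec]
  constructor
  · rintro ⟨⟨_, h | ⟨i, rfl, _, _⟩ | ⟨i, rfl, _, _⟩ | ⟨i, _, h⟩⟩, hu, hw⟩
    · exact h
    · exact absurd (t_mem_TT t _) hu
    · exact absurd (t_mem_TT t _) hw
    · rcases h with ⟨rfl, _⟩ | ⟨rfl, _⟩
      · exact absurd (t_mem_TT t _) hu
      · exact absurd (t_mem_TT t _) hu
  · intro h
    exact ⟨⟨h.ne, Or.inl h⟩, hB _ _ h⟩

/-! ### degrees in terms of the encoding -/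

/-- column sums of the encoding -/
def col (x : Fin 3 → Finset (Fin n)) (j : Fin n) : ℕ := (univ.filter (fun i => j ∈ x i)).card

theorem card_nb_out (ht : Function.Injective t) (G : Finset (Edge n)) {w : Fin n}
    (hw : w ∉ TT t) :
    (nb G w).card = (nb (away (TT t) G) w).card + col (enc t G) w := by
  classical
  have h1 : nb G w = nb (away (TT t) G) w ∪ (univ.filter (fun i => w ∈ enc t G i)).image t := by
    ext v
    simp only [mem_nb, mem_union, mem_image, mem_filter, mem_univ, true_and, adj_away]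
    constructor
    · intro h
      by_cases hv : v ∈ TT t
      · obtain ⟨i, rfl⟩ := (mem_TT t).1 hv
        exact Or.inr ⟨i, (mem_enc_out t hw).2 h.symm, rfl⟩
      · exact Or.inl ⟨h, hw, hv⟩
    · rintro (h | ⟨i, h, rfl⟩)
      · exact h.1
      · exact ((mem_enc_out t hw).1 h).symm
  have h2 : Disjoint (nb (away (TT t) G) w) ((univ.filter (fun i => w ∈ enc t G i)).image t) := by
    rw [disjoint_left]
    intro v hv hv'
    obtain ⟨i, _, rfl⟩ := mem_image.1 hv'
    exact (adj_away.1 (mem_nb.1 hv)).2.2 (t_mem_TT t i)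
  rw [h1, card_union_of_disjoint h2, card_image_of_injective _ ht]
  rfl

open Classical in
/-- indicator of the triangle edge opposite to `i` -/
noncomputable def opp (t : Fin 3 → Fin n) (G : Finset (Edge n)) (i : Fin 3) : ℕ :=
  if Adj G (t (i + 1)) (t (i + 2)) then 1 else 0

theorem opp_le_one (G : Finset (Edge n)) (i : Fin 3) : opp t G i ≤ 1 := by
  unfold opp; split_ifs <;> omega

theorem col_t0 (G : Finset (Edge n)) (i : Fin 3) :
    col (enc t G) (t 0) + opp t G i + opp t G (i + 1) + opp t G (i + 2) = 3 := by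
  classical
  have h1 : col (enc t G) (t 0) = ∑ j : Fin 3, (1 - opp t G j) := by
    unfold col
    rw [card_filter]
    refine sum_congr rfl fun j _ => ?_
    unfold opp
    by_cases h : Adj G (t (j + 1)) (t (j + 2)) <;> simp [h, t0_mem_enc]
  rw [h1, sum3 _ i]
  have := opp_le_one (t := t) G i
  have := opp_le_one (t := t) G (i + 1)
  have := opp_le_one (t := t) G (i + 2)
  omega

theorem card_enc (G : Finset (Edge n)) (i : Fin 3) :
    (enc t G i).card + opp t G i = (nb G (t i) \ TT t).card + 1 := by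
  classical
  by_cases h : Adj G (t (i + 1)) (t (i + 2))
  · have : enc t G i = nb G (t i) \ TT t := by
      ext j
      rw [mem_enc, mem_sdiff, mem_nb]
      constructor
      · rintro (h' | h')
        · exact ⟨h'.2, h'.1⟩
        · exact absurd h h'.2
      · intro h'; exact Or.inl ⟨h'.2, h'.1⟩
    rw [this]; simp [opp, h]
  · have : enc t G i = insert (t 0) (nb G (t i) \ TT t) := by
      ext j
      rw [mem_enc, mem_insert, mem_sdiff, mem_nb]
      constructor
      · rintro (h' | h')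
        · exact Or.inr ⟨h'.2, h'.1⟩
        · exact Or.inl h'.1
      · rintro (h' | h')
        · exact Or.inr ⟨h', h⟩
        · exact Or.inl ⟨h'.2, h'.1⟩
    rw [this, card_insert_of_notMem (by simp [t_mem_TT])]; simp [opp, h]

theorem card_nb_in (ht : Function.Injective t) (G : Finset (Edge n)) (i : Fin 3) :
    (nb G (t i)).card = (nb G (t i) \ TT t).card + opp t G (i + 1) + opp t G (i + 2) := by
  classical
  have h1 : nb G (t i) ∩ TT t = (univ.filter (fun j => Adj G (t i) (t j))).image t := by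
    ext v
    simp only [mem_inter, mem_nb, mem_image, mem_filter, mem_univ, true_and, mem_TT]
    constructor
    · rintro ⟨h, j, rfl⟩; exact ⟨j, h, rfl⟩
    · rintro ⟨j, h, rfl⟩; exact ⟨h, j, rfl⟩
  have h2 : (univ.filter (fun j => Adj G (t i) (t j))).card =
      opp t G (i + 1) + opp t G (i + 2) := by
    rw [card_filter, sum3 _ i]
    have e0 : ¬ Adj G (t i) (t i) := fun h => h.ne rfl
    have e1 : Adj G (t i) (t (i + 1)) ↔ Adj G (t (i + 2 + 1)) (t (i + 2 + 2)) := by
      rw [fin3_a, fin3_b]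
    have e2 : Adj G (t i) (t (i + 2)) ↔ Adj G (t (i + 1 + 1)) (t (i + 1 + 2)) := by
      rw [fin3_c, fin3_d]; exact adj_comm
    unfold opp
    simp only [e0, e1, e2, if_false]
    omega
  rw [← card_sdiff_add_card_inter (nb G (t i)) (TT t), h1, card_image_of_injective _ ht, h2]
  omega

/-- the degree of `t i` from row and column sums -/
theorem card_nb_tri (ht : Function.Injective t) (G : Finset (Edge n)) (i : Fin 3) :
    (nb G (t i)).card + 1 + col (enc t G) (t 0) = (enc t G i).card + 3 := by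
  have h1 := card_nb_in ht G i
  have h2 := card_enc (t := t) G i
  have h3 := col_t0 (t := t) G i
  omega

theorem col_eq_zero (G : Finset (Edge n)) {j : Fin n} (hj : j ∈ TT t) (hj0 : j ≠ t 0) :
    col (enc t G) j = 0 := by
  unfold col
  rw [card_eq_zero, filter_eq_empty_iff]
  intro i _ h
  rcases enc_clean t h with h | h
  · exact h hj
  · exact hj0 h

theorem sum_card_eq_sum_col (x : Fin 3 → Finset (Fin n)) :
    ∑ i, (x i).card = ∑ j, col x j := by
  classical
  unfold col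
  simp only [card_filter]
  rw [sum_comm]
  refine sum_congr rfl fun i _ => ?_
  rw [← card_filter]; simp

theorem deg_eq_of_enc (ht : Function.Injective t) {G G' : Finset (Edge n)}
    (hB : away (TT t) G = away (TT t) G') (hr : ∀ i, (enc t G i).card = (enc t G' i).card)
    (hc : ∀ j, col (enc t G) j = col (enc t G') j) (v : Fin n) :
    (nb G v).card = (nb G' v).card := by
  by_cases hv : v ∈ TT t
  · obtain ⟨i, rfl⟩ := (mem_TT t).1 hv
    have h1 := card_nb_tri ht G i
    have h2 := card_nb_tri ht G' i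
    have := hr i
    have := hc (t 0)
    omega
  · rw [card_nb_out ht G hv, card_nb_out ht G' hv, hB, hc v]

theorem enc_sums_of_deg (ht : Function.Injective t) {G G' : Finset (Edge n)}
    (hB : away (TT t) G = away (TT t) G') (hd : ∀ v, (nb G v).card = (nb G' v).card) :
    (∀ i, (enc t G i).card = (enc t G' i).card) ∧ ∀ j, col (enc t G) j = col (enc t G') j := by
  classical
  have hc1 : ∀ j, j ≠ t 0 → col (enc t G) j = col (enc t G') j := by
    intro j hj0
    by_cases hj : j ∈ TT t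
    · rw [col_eq_zero G hj hj0, col_eq_zero G' hj hj0]
    · have h1 := card_nb_out ht G hj
      have h2 := card_nb_out ht G' hj
      rw [hB] at h1
      have := hd j
      omega
  have hk : col (enc t G) (t 0) = col (enc t G') (t 0) := by
    have e1 := sum_card_eq_sum_col (enc t G)
    have e2 := sum_card_eq_sum_col (enc t G')
    rw [← add_sum_erase univ _ (mem_univ (t 0))] at e1 e2
    have e3 : ∑ j ∈ univ.erase (t 0), col (enc t G) j = ∑ j ∈ univ.erase (t 0), col (enc t G') j :=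
      sum_congr rfl fun j hj => hc1 j (ne_of_mem_erase hj)
    rw [Fin.sum_univ_three] at e1 e2
    have a0 := card_nb_tri ht G 0
    have a1 := card_nb_tri ht G 1
    have a2 := card_nb_tri ht G 2
    have b0 := card_nb_tri ht G' 0
    have b1 := card_nb_tri ht G' 1
    have b2 := card_nb_tri ht G' 2
    have d0 := hd (t 0)
    have d1 := hd (t 1)
    have d2 := hd (t 2)
    omega
  refine ⟨fun i => ?_, fun j => ?_⟩
  · have h1 := card_nb_tri ht G i
    have h2 := card_nb_tri ht G' i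
    have := hd (t i)
    omega
  · by_cases hj0 : j = t 0
    · rw [hj0]; exact hk
    · exact hc1 j hj0

/-! ### keys -/

theorem fin3_cases : ∀ i l : Fin 3, l = i ∨ l = i + 1 ∨ l = i + 2 := by decide

theorem away_of_subset {S S' : Finset (Fin n)} (hS : S ⊆ S') {G G' : Finset (Edge n)}
    (h : away S G = away S G') : away S' G = away S' G' := by
  apply graph_ext
  intro u w
  rw [adj_away, adj_away]
  constructor
  · rintro ⟨h1, hu, hw⟩
    have : Adj (away S G) u w := adj_away.2 ⟨h1, fun e => hu (hS e), fun e => hw (hS e)⟩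
    rw [h] at this
    exact ⟨(adj_away.1 this).1, hu, hw⟩
  · rintro ⟨h1, hu, hw⟩
    have : Adj (away S G') u w := adj_away.2 ⟨h1, fun e => hu (hS e), fun e => hw (hS e)⟩
    rw [← h] at this
    exact ⟨(adj_away.1 this).1, hu, hw⟩

theorem pair_subset_TT (i : Fin 3) : ({t (i + 1), t (i + 2)} : Finset (Fin n)) ⊆ TT t := by
  intro v hv
  rcases mem_insert.1 hv with rfl | hv
  · exact t_mem_TT t _
  · rw [mem_singleton.1 hv]; exact t_mem_TT t _

theorem adj_imp_of_enc {G G' : Finset (Edge n)} (hB : away (TT t) G = away (TT t) G') {i : Fin 3}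
    (he : enc t G i = enc t G' i) {u w : Fin n}
    (hu : u ∉ ({t (i + 1), t (i + 2)} : Finset (Fin n)))
    (hw : w ∉ ({t (i + 1), t (i + 2)} : Finset (Fin n))) (h : Adj G u w) : Adj G' u w := by
  have key : ∀ v, v ∉ ({t (i + 1), t (i + 2)} : Finset (Fin n)) → v ∈ TT t → v = t i := by
    intro v hv hvT
    obtain ⟨l, rfl⟩ := (mem_TT t).1 hvT
    rcases fin3_cases i l with rfl | rfl | rfl
    · rfl
    · exact absurd (by simp) hv
    · exact absurd (by simp) hv
  by_cases huT : u ∈ TT t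
  · have hu' := key u hu huT
    subst hu'
    by_cases hwT : w ∈ TT t
    · have hw' := key w hw hwT
      exact absurd hw'.symm h.ne
    · have := (mem_enc_out t hwT).2 h
      rw [he] at this
      exact (mem_enc_out t hwT).1 this
  · by_cases hwT : w ∈ TT t
    · have hw' := key w hw hwT
      subst hw'
      have := (mem_enc_out t huT).2 h.symm
      rw [he] at this
      exact ((mem_enc_out t huT).1 this).symm
    · have : Adj (away (TT t) G) u w := adj_away.2 ⟨h, huT, hwT⟩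
      rw [hB] at this
      exact (adj_away.1 this).1

theorem key_eq_of_enc {G G' : Finset (Edge n)} (hB : away (TT t) G = away (TT t) G') {i : Fin 3}
    (he : enc t G i = enc t G' i) :
    away {t (i + 1), t (i + 2)} G = away {t (i + 1), t (i + 2)} G' := by
  apply graph_ext
  intro u w
  rw [adj_away, adj_away]
  constructor
  · rintro ⟨h, hu, hw⟩; exact ⟨adj_imp_of_enc hB he hu hw h, hu, hw⟩
  · rintro ⟨h, hu, hw⟩; exact ⟨adj_imp_of_enc hB.symm he.symm hu hw h, hu, hw⟩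

/-! ### the fibre is a three-row system -/

theorem sum_fibre_eq (ht : Function.Injective t) (d : Fin n → ℕ) {G0 : Finset (Edge n)}
    (hG0 : G0 ∈ realizations d) (H : (Fin 3 → Finset (Fin n)) → ℝ) :
    ∑ G ∈ (realizations d).filter (fun y => away (TT t) y = away (TT t) G0), H (enc t G) =
      ∑ x ∈ (Finset.univ : Finset (Fin 3 → Finset (Fin n))).filter
        (fun x => (∀ i, (x i).card = (enc t G0 i).card) ∧
          ∀ j, (Finset.univ.filter (fun i => j ∈ x i)).card = col (enc t G0) j), H x := by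
  have hd0 := mem_realizations.1 hG0
  have hBc : ∀ u w, Adj (away (TT t) G0) u w → u ∉ TT t ∧ w ∉ TT t :=
    fun u w h => (adj_away.1 h).2
  refine sum_bij (fun G _ => enc t G) ?_ ?_ ?_ ?_
  · intro G hG
    obtain ⟨hG1, hG2⟩ := mem_filter.1 hG
    have hd := mem_realizations.1 hG1
    have := enc_sums_of_deg ht hG2 (fun v => by rw [hd v, hd0 v])
    exact mem_filter.2 ⟨mem_univ _, this.1, this.2⟩
  · intro G hG G' hG' he
    have h1 := (mem_filter.1 hG).2
    have h2 := (mem_filter.1 hG').2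
    have he' : enc t G = enc t G' := he
    rw [← dec_enc (t := t) G, ← dec_enc (t := t) G', h1, h2, he']
  · intro x hx
    obtain ⟨_, hr, hc⟩ := mem_filter.1 hx
    have hxc : ∀ i j, j ∈ x i → j ∉ TT t ∨ j = t 0 := by
      intro i j hj
      by_contra hcon
      have hcon' := not_or.1 hcon
      have hz := col_eq_zero (t := t) G0 (not_not.1 hcon'.1) hcon'.2
      have := hc j
      rw [hz, card_eq_zero, filter_eq_empty_iff] at this
      exact this (mem_univ i) hj
    have e1 : enc t (dec t (away (TT t) G0) x) = x := enc_dec ht hBc hxc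
    have e2 : away (TT t) (dec t (away (TT t) G0) x) = away (TT t) G0 := away_dec hBc
    refine ⟨dec t (away (TT t) G0) x, mem_filter.2 ⟨mem_realizations.2 fun v => ?_, e2⟩, e1⟩
    rw [← hd0 v]
    refine deg_eq_of_enc ht e2 (fun i => by rw [e1]; exact hr i) (fun j => ?_) v
    rw [e1]; exact hc j
  · intro G _; rfl

theorem fibre_var (h3 : MatrixStatement n) (ht : Function.Injective t) (d : Fin n → ℕ)
    {G0 : Finset (Edge n)} (hG0 : G0 ∈ realizations d) (φ : Fin 3 → Finset (Edge n) → ℝ)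
    (hfac : ∀ i, ∀ x ∈ (realizations d).filter (fun y => away (TT t) y = away (TT t) G0),
      ∀ y ∈ (realizations d).filter (fun y => away (TT t) y = away (TT t) G0),
      away {t (i + 1), t (i + 2)} x = away {t (i + 1), t (i + 2)} y → φ i x = φ i y) :
    (((realizations d).filter (fun y => away (TT t) y = away (TT t) G0)).card : ℝ) *
        ∑ x ∈ (realizations d).filter (fun y => away (TT t) y = away (TT t) G0),
          (∑ i, φ i x) ^ 2 -
        (∑ x ∈ (realizations d).filter (fun y => away (TT t) y = away (TT t) G0),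
          ∑ i, φ i x) ^ 2 ≤
      2 * ∑ i, ((((realizations d).filter (fun y => away (TT t) y = away (TT t) G0)).card : ℝ) *
        ∑ x ∈ (realizations d).filter (fun y => away (TT t) y = away (TT t) G0), φ i x ^ 2 -
        (∑ x ∈ (realizations d).filter (fun y => away (TT t) y = away (TT t) G0), φ i x) ^ 2) := by
  classical
  set Φ := (realizations d).filter (fun y => away (TT t) y = away (TT t) G0) with hΦ
  -- push the functions to the rows
  let ψ : Fin 3 → Finset (Fin n) → ℝ := fun i y =>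
    if h : ∃ G ∈ Φ, enc t G i = y then φ i h.choose else 0
  have hψ : ∀ i, ∀ G ∈ Φ, ψ i (enc t G i) = φ i G := by
    intro i G hG
    have h : ∃ G' ∈ Φ, enc t G' i = enc t G i := ⟨G, hG, rfl⟩
    have hs := h.choose_spec
    simp only [ψ, dif_pos h]
    refine hfac i _ hs.1 _ hG (key_eq_of_enc ?_ hs.2)
    rw [(mem_filter.1 hs.1).2, (mem_filter.1 hG).2]
  have key := h3 (fun i => (enc t G0 i).card) (col (enc t G0)) ψ
  simp only at key
  have hcard : (((Finset.univ : Finset (Fin 3 → Finset (Fin n))).filter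
        (fun x => (∀ i, (x i).card = (enc t G0 i).card) ∧
          ∀ j, (Finset.univ.filter (fun i => j ∈ x i)).card = col (enc t G0) j)).card : ℝ) =
      (Φ.card : ℝ) := by
    have := sum_fibre_eq ht d hG0 (fun _ => (1 : ℝ))
    simpa using this.symm
  rw [hcard, ← sum_fibre_eq ht d hG0 (fun x => (∑ i, ψ i (x i)) ^ 2),
    ← sum_fibre_eq ht d hG0 (fun x => ∑ i, ψ i (x i))] at key
  have key2 : ∀ i, ((Φ.card : ℝ) * ∑ x ∈ (Finset.univ : Finset (Fin 3 → Finset (Fin n))).filter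
        (fun x => (∀ i, (x i).card = (enc t G0 i).card) ∧
          ∀ j, (Finset.univ.filter (fun i => j ∈ x i)).card = col (enc t G0) j), ψ i (x i) ^ 2 -
      (∑ x ∈ (Finset.univ : Finset (Fin 3 → Finset (Fin n))).filter
        (fun x => (∀ i, (x i).card = (enc t G0 i).card) ∧
          ∀ j, (Finset.univ.filter (fun i => j ∈ x i)).card = col (enc t G0) j), ψ i (x i)) ^ 2) =
      (Φ.card : ℝ) * ∑ x ∈ Φ, φ i x ^ 2 - (∑ x ∈ Φ, φ i x) ^ 2 := by
    intro i
    rw [← sum_fibre_eq ht d hG0 (fun x => ψ i (x i) ^ 2),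
      ← sum_fibre_eq ht d hG0 (fun x => ψ i (x i))]
    rw [sum_congr rfl (fun G hG => by rw [hψ i G hG] : ∀ G ∈ Φ, ψ i (enc t G i) ^ 2 = φ i G ^ 2),
      sum_congr rfl (fun G hG => hψ i G hG : ∀ G ∈ Φ, ψ i (enc t G i) = φ i G)]
  rw [sum_congr rfl (fun i _ => key2 i)] at key
  have e1 : ∑ G ∈ Φ, (∑ i, ψ i (enc t G i)) ^ 2 = ∑ G ∈ Φ, (∑ i, φ i G) ^ 2 :=
    sum_congr rfl fun G hG => by rw [sum_congr rfl fun i _ => hψ i G hG]
  have e2 : ∑ G ∈ Φ, ∑ i, ψ i (enc t G i) = ∑ G ∈ Φ, ∑ i, φ i G :=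
    sum_congr rfl fun G hG => sum_congr rfl fun i _ => hψ i G hG
  rw [e1, e2] at key
  exact key

/-- `⟨f, S f⟩ ≤ ⟨S f, S f⟩` for `S = ∑ᵢ (1 - E_{pᵢ})`, `pᵢ = {t (i+1), t (i+2)}`. -/
theorem triple_sq_ge_t (h3 : MatrixStatement n) (ht : Function.Injective t) (d : Fin n → ℕ)
    (f : Finset (Edge n) → ℝ) :
    ∑ G ∈ realizations d,
        f G * (3 * f G - ∑ i, cE (realizations d) (away {t (i + 1), t (i + 2)}) f G) ≤
      ∑ G ∈ realizations d,
        (3 * f G - ∑ i, cE (realizations d) (away {t (i + 1), t (i + 2)}) f G) ^ 2 :=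
  abstract_sq_ge_fibre (realizations d) (fun i => away {t (i + 1), t (i + 2)}) (away (TT t))
    (fun i _ _ h => away_of_subset (pair_subset_TT i) h)
    (fun _ hG0 φ hfac => fibre_var h3 ht d hG0 φ hfac) f

end Graph

/-- **Task T3.**  For pairwise distinct `a b c`, `S = Q_ab + Q_ac + Q_bc` satisfies
`⟨f, S f⟩ ≤ ⟨S f, S f⟩` on the realizations of `d`. -/
theorem triple_sq_ge_of {n : ℕ} (h3 : MatrixStatement n) (d : Fin n → ℕ) {a b c : Fin n}
    (hab : a ≠ b) (hac : a ≠ c) (hbc : b ≠ c) (f : Finset (Edge n) → ℝ) :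
    ∑ G ∈ realizations d, f G * (3 * f G - Ep d a b f G - Ep d a c f G - Ep d b c f G) ≤
      ∑ G ∈ realizations d, (3 * f G - Ep d a b f G - Ep d a c f G - Ep d b c f G) ^ 2 := by
  have ht : Function.Injective (![a, b, c] : Fin 3 → Fin n) := by
    intro i j h
    fin_cases i <;> fin_cases j <;> simp_all
  have key := triple_sq_ge_t h3 ht d f
  have e : ∀ G, ∑ i, cE (realizations d)
      (away {(![a, b, c] : Fin 3 → Fin n) (i + 1), (![a, b, c] : Fin 3 → Fin n) (i + 2)}) f G =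
      Ep d a b f G + Ep d a c f G + Ep d b c f G := by
    intro G
    rw [Fin.sum_univ_three]
    have h0 : ({(![a, b, c] : Fin 3 → Fin n) (0 + 1), (![a, b, c] : Fin 3 → Fin n) (0 + 2)} :
        Finset (Fin n)) = {b, c} := rfl
    have h1 : ({(![a, b, c] : Fin 3 → Fin n) (1 + 1), (![a, b, c] : Fin 3 → Fin n) (1 + 2)} :
        Finset (Fin n)) = {a, c} := Finset.pair_comm _ _
    have h2 : ({(![a, b, c] : Fin 3 → Fin n) (2 + 1), (![a, b, c] : Fin 3 → Fin n) (2 + 2)} :
        Finset (Fin n)) = {a, b} := rfl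
    rw [h0, h1, h2]
    unfold Ep
    ring
  simp only [e] at key
  have e' : ∀ G, 3 * f G - Ep d a b f G - Ep d a c f G - Ep d b c f G =
      3 * f G - (Ep d a b f G + Ep d a c f G + Ep d b c f G) := fun G => by ring
  simp only [e']
  exact key

end Crest.Agent.S0453Aux.Triple
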